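import Crest.Agent.H6.KRD1

/-! KR-D, part 2: an infinite family gives a properly infinite central projection. -/

set_option autoImplicit false
open scoped InnerProductSpace
open Crest.Agent.H2.KS Crest.Agent.H9.KB Crest.Agent.H9.KD Crest.Agent.H1KR

namespace Crest.Agent.H6.KRD

variable {K : Type*} [NormedAddCommGroup K] [InnerProductSpace ℂ K] [CompleteSpace K]
variable {C : Set (K →L[ℂ] K)}

/-- `q` is halved by `s₁`, `s₂`. -/
structure Half (P : Set (K →L[ℂ] K)) (z₀ q s₁ s₂ : K →L[ℂ] K) : Prop where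
  mq : q ∈ P
  m1 : s₁ ∈ P
  m2 : s₂ ∈ P
  proj : IsStarProjection q
  under : z₀ * q = q
  e11 : star s₁ * s₁ = q
  e22 : star s₂ * s₂ = q
  e12 : star s₁ * s₂ = 0
  q1 : q * s₁ = s₁
  q2 : q * s₂ = s₂

/-- Graphs of halvings. -/
structure GoodG (C : Set (K →L[ℂ] K)) (z₀ : K →L[ℂ] K)
    (G : Submodule ℂ (PiLp 2 (fun _ : Fin 3 => K))) : Prop where
  inv : ∀ c ∈ C, ∀ g ∈ G, amp (K := K) (Fin 3) c g ∈ G
  under : ∀ g ∈ G, z₀ (g 0) = g 0
  iso : ∀ g ∈ G, ∀ g' ∈ G, ⟪g 1, g' 1⟫_ℂ = ⟪g 0, g' 0⟫_ℂ ∧ ⟪g 2, g' 2⟫_ℂ = ⟪g 0, g' 0⟫_ℂ ∧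
    ⟪g 1, g' 2⟫_ℂ = 0
  ran : ∀ η : K, (∀ g ∈ G, ⟪η, g 0⟫_ℂ = 0) → ∀ g ∈ G, ⟪η, g 1⟫_ℂ = 0 ∧ ⟪η, g 2⟫_ℂ = 0

theorem inner_star_mul (a b : K →L[ℂ] K) (x y : K) : ⟪a x, b y⟫_ℂ = ⟪x, (star a * b) y⟫_ℂ := by
  rw [mul_apply_eq_comp, ContinuousLinearMap.star_eq_adjoint,
    ContinuousLinearMap.adjoint_inner_right]

theorem exists_max_half (hC : ∀ c ∈ C, star c ∈ C) (z₀ : K →L[ℂ] K)
    (G₀ : Submodule ℂ (PiLp 2 (fun _ : Fin 3 => K))) (h₀ : GoodG C z₀ G₀) :
    ∃ q s₁ s₂, Half C.centralizer z₀ q s₁ s₂ ∧ (∀ g ∈ G₀, q (g 0) = g 0) ∧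
      ∀ q' t₁ t₂, Half C.centralizer z₀ q' t₁ t₂ → q * q' = 0 → q' = 0 := by
  obtain ⟨G, hG₀, hG, hmax⟩ := zorn_le_nonempty₀ {G | GoodG C z₀ G} (by
    intro c hc hch y hy
    have hm : ∀ z, z ∈ sSup c ↔ ∃ y ∈ c, z ∈ y := fun z =>
      Submodule.mem_sSup_of_directed ⟨y, hy⟩ hch.directedOn
    refine ⟨sSup c, ⟨?_, ?_, ?_, ?_⟩, fun z hz => le_sSup hz⟩
    · intro d hd g hg
      obtain ⟨G, hG, hg⟩ := (hm g).mp hg
      exact (hm _).mpr ⟨G, hG, (hc hG).inv d hd g hg⟩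
    · intro g hg
      obtain ⟨G, hG, hg⟩ := (hm g).mp hg
      exact (hc hG).under g hg
    · intro g hg g' hg'
      obtain ⟨G, hG, hg⟩ := (hm g).mp hg
      obtain ⟨G', hG', hg'⟩ := (hm g').mp hg'
      rcases hch.total hG hG' with h | h
      · exact (hc hG').iso g (h hg) g' hg'
      · exact (hc hG).iso g hg g' (h hg')
    · intro η hη g hg
      obtain ⟨G, hG, hg⟩ := (hm g).mp hg
      exact (hc hG).ran η (fun g' hg' => hη g' ((hm _).mpr ⟨G, hG, hg'⟩)) g hg) G₀ h₀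
  have hG : GoodG C z₀ G := hG
  have hclG : GoodG C z₀ G.topologicalClosure := by
    refine ⟨fun c hc g hg => ?_, fun g hg => ?_, fun g hg g' hg' => ?_, fun η hη g hg => ?_⟩
    · exact map_mem_closure (amp (K := K) (Fin 3) c).continuous hg (hG.inv c hc)
    · have : closure (G : Set (PiLp 2 (fun _ : Fin 3 => K))) ⊆ {g | z₀ (g 0) = g 0} :=
        closure_minimal (fun g hg => hG.under g hg) (isClosed_eq (by fun_prop) (by fun_prop))
      exact this hg
    · have : closure ((G : Set (PiLp 2 (fun _ : Fin 3 => K))) ×ˢ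
          (G : Set (PiLp 2 (fun _ : Fin 3 => K)))) ⊆
          {p | ⟪p.1 1, p.2 1⟫_ℂ = ⟪p.1 0, p.2 0⟫_ℂ} ∩ ({p | ⟪p.1 2, p.2 2⟫_ℂ = ⟪p.1 0, p.2 0⟫_ℂ} ∩
            {p | ⟪p.1 1, p.2 2⟫_ℂ = 0}) := by
        refine closure_minimal (fun p hp => hG.iso p.1 hp.1 p.2 hp.2) ?_
        exact (isClosed_eq (by fun_prop) (by fun_prop)).inter
          ((isClosed_eq (by fun_prop) (by fun_prop)).inter (isClosed_eq (by fun_prop) (by fun_prop)))
      rw [closure_prod_eq] at this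
      exact this (show (g, g') ∈ _ from ⟨hg, hg'⟩)
    · have : closure (G : Set (PiLp 2 (fun _ : Fin 3 => K))) ⊆
          {g | ⟪η, g 1⟫_ℂ = 0} ∩ {g | ⟪η, g 2⟫_ℂ = 0} :=
        closure_minimal (fun g hg => hG.ran η (fun g' hg' => hη g' (G.le_topologicalClosure hg'))
          g hg) ((isClosed_eq (by fun_prop) (by fun_prop)).inter
            (isClosed_eq (by fun_prop) (by fun_prop)))
      exact this hg
  have hcl : IsClosed (G : Set (PiLp 2 (fun _ : Fin 3 => K))) := by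
    have : G.topologicalClosure = G :=
      le_antisymm (hmax hclG G.le_topologicalClosure) G.le_topologicalClosure
    rw [← this]
    exact G.isClosed_topologicalClosure
  obtain ⟨v, hvP, hv0, hvG, hvg⟩ := sys_of_graph hC (0 : Fin 3) G hcl hG.inv
    (fun g hg g' hg' i => by
      fin_cases i
      exacts [rfl, (hG.iso g hg g' hg').1, (hG.iso g hg g' hg').2.1])
  have h00 : star (v 0) * v 0 = v 0 := by
    rw [hv0.isSelfAdjoint.star_eq, hv0.isIdempotentElem.eq]
  have hq : ∀ i, v 0 * v i = v i := by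
    intro i
    ext ζ
    show v 0 (v i ζ) = v i ζ
    have h1 : ∀ x, ⟪v i ζ - v 0 (v i ζ), v 0 x⟫_ℂ = 0 := by
      intro x
      rw [inner_sub_left, inner_star_mul (v 0) (v 0), h00, sub_self]
    have h2 := hG.ran (v i ζ - v 0 (v i ζ)) (fun g hg => by rw [← hvg g hg 0]; exact h1 _) _ (hvG ζ)
    have h3 : ⟪v i ζ - v 0 (v i ζ), v i ζ⟫_ℂ = 0 := by
      fin_cases i
      exacts [h1 ζ, h2.1, h2.2]
    have h4 : ⟪v i ζ - v 0 (v i ζ), v i ζ - v 0 (v i ζ)⟫_ℂ = 0 := by
      rw [inner_sub_right, h3, h1, sub_self]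
    exact (sub_eq_zero.mp (inner_self_eq_zero.mp h4)).symm
  refine ⟨v 0, v 1, v 2, ⟨hvP 0, hvP 1, hvP 2, hv0, ?_, ?_, ?_, ?_, hq 1, hq 2⟩,
    fun g hg => hvg g (hG₀ hg) 0, fun q' t₁ t₂ h' hqq => ?_⟩
  · ext ζ
    exact hG.under _ (hvG ζ)
  · ext y
    refine ext_inner_left ℂ fun x => ?_
    rw [← h00, ← inner_star_mul, ← inner_star_mul]
    exact (hG.iso _ (hvG x) _ (hvG y)).1
  · ext y
    refine ext_inner_left ℂ fun x => ?_
    rw [← h00, ← inner_star_mul, ← inner_star_mul]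
    exact (hG.iso _ (hvG x) _ (hvG y)).2.1
  · ext y
    refine ext_inner_left ℂ fun x => ?_
    rw [← inner_star_mul]
    simpa using (hG.iso _ (hvG x) _ (hvG y)).2.2
  · let u : Fin 3 → (K →L[ℂ] K) := ![q', t₁, t₂]
    have huP : ∀ i, u i ∈ C.centralizer := fun i => by
      fin_cases i
      exacts [h'.mq, h'.m1, h'.m2]
    have hqu : ∀ i, q' * u i = u i := fun i => by
      fin_cases i
      exacts [h'.proj.isIdempotentElem.eq, h'.q1, h'.q2]
    let L : K →ₗ[ℂ] (PiLp 2 (fun _ : Fin 3 => K)) :=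
      (WithLp.linearEquiv 2 ℂ (Fin 3 → K)).symm.toLinearMap ∘ₗ
        LinearMap.pi fun i => (u i : K →ₗ[ℂ] K)
    have hL : ∀ ζ i, L ζ i = u i ζ := fun ζ i => rfl
    have hcross : ∀ g ∈ G, ∀ ζ i j, ⟪g j, u i ζ⟫_ℂ = 0 := by
      intro g hg ζ i j
      have : star (v j) * u i = 0 := by
        have h1 := star_eq_of (hq j)
        rw [hv0.isSelfAdjoint.star_eq] at h1
        rw [← h1, ← hqu i, mul_assoc, ← mul_assoc (v 0), hqq, zero_mul, mul_zero]
      rw [← hvg g hg j, inner_star_mul, this]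
      simp
    have hcross' : ∀ g ∈ G, ∀ ζ i j, ⟪u i ζ, g j⟫_ℂ = 0 := by
      intro g hg ζ i j
      rw [inner_eq_zero_symm]; exact hcross g hg ζ i j
    have hq'' : star q' * q' = q' := by
      rw [h'.proj.isSelfAdjoint.star_eq, h'.proj.isIdempotentElem.eq]
    have hsup : GoodG C z₀ (G ⊔ LinearMap.range L) := by
      refine ⟨fun c hc g hg => ?_, fun g hg => ?_, fun g hg g' hg' => ?_, fun η hη g hg => ?_⟩
      · obtain ⟨g₁, h₁, _, ⟨ζ, rfl⟩, rfl⟩ := Submodule.mem_sup.mp hg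
        refine Submodule.mem_sup.mpr ⟨_, hG.inv c hc g₁ h₁, L (c ζ), ⟨_, rfl⟩, ?_⟩
        rw [map_add]
        congr 1
        ext i
        rw [amp_apply, hL, hL, ← mul_apply_eq_comp, ← huP i c hc, mul_apply_eq_comp]
      · obtain ⟨g₁, h₁, _, ⟨ζ, rfl⟩, rfl⟩ := Submodule.mem_sup.mp hg
        show z₀ (g₁ 0 + q' ζ) = g₁ 0 + q' ζ
        rw [map_add, hG.under g₁ h₁, ← mul_apply_eq_comp, h'.under]
      · obtain ⟨g₁, h₁, _, ⟨ζ, rfl⟩, rfl⟩ := Submodule.mem_sup.mp hg
        obtain ⟨g₂, h₂, _, ⟨ζ', rfl⟩, rfl⟩ := Submodule.mem_sup.mp hg'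
        have e : ∀ i j, ⟪(g₁ + L ζ) i, (g₂ + L ζ') j⟫_ℂ =
            ⟪g₁ i, g₂ j⟫_ℂ + ⟪ζ, (star (u i) * u j) ζ'⟫_ℂ := by
          intro i j
          show ⟪g₁ i + u i ζ, g₂ j + u j ζ'⟫_ℂ = _
          rw [inner_add_left, inner_add_right, inner_add_right, hcross g₁ h₁, hcross' g₂ h₂,
            inner_star_mul, add_zero, zero_add]
        obtain ⟨k1, k2, k3⟩ := hG.iso g₁ h₁ g₂ h₂
        rw [e, e, e, e, k1, k2, k3]
        refine ⟨?_, ?_, ?_⟩
        · show _ + ⟪ζ, (star t₁ * t₁) ζ'⟫_ℂ = _ + ⟪ζ, (star q' * q') ζ'⟫_ℂ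
          rw [h'.e11, hq'']
        · show _ + ⟪ζ, (star t₂ * t₂) ζ'⟫_ℂ = _ + ⟪ζ, (star q' * q') ζ'⟫_ℂ
          rw [h'.e22, hq'']
        · show _ + ⟪ζ, (star t₁ * t₂) ζ'⟫_ℂ = _
          rw [h'.e12]
          simp
      · obtain ⟨g₁, h₁, _, ⟨ζ, rfl⟩, rfl⟩ := Submodule.mem_sup.mp hg
        obtain ⟨k1, k2⟩ := hG.ran η (fun g' hg' => hη g' (Submodule.mem_sup_left hg')) g₁ h₁
        have k3 : ∀ i, ⟪η, u i ζ⟫_ℂ = 0 := fun i => by
          rw [← hqu i]
          exact hη (L (u i ζ)) (Submodule.mem_sup_right ⟨_, rfl⟩)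
        constructor
        · show ⟪η, g₁ 1 + u 1 ζ⟫_ℂ = 0
          rw [inner_add_right, k1, k3, add_zero]
        · show ⟪η, g₁ 2 + u 2 ζ⟫_ℂ = 0
          rw [inner_add_right, k2, k3, add_zero]
    have hle := hmax hsup le_sup_left
    ext ζ
    have h1 : L ζ ∈ G := hle (Submodule.mem_sup_right ⟨ζ, rfl⟩)
    have h2 := hcross _ h1 ζ 0 0
    rw [hL, inner_self_eq_zero] at h2
    exact h2

theorem goodG_of_fam {z₀ g : K →L[ℂ] K} {w : ℕ → (K →L[ℂ] K)}
    (hw : ∀ k, w k ∈ C.centralizer ∧ z₀ * w k = w k)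
    (ho : ∀ k l, star (w k) * w l = if k = l then g else 0) :
    GoodG C z₀ (Submodule.span ℂ {x | ∃ k ξ, x = WithLp.toLp 2
      ![w k ξ, w (2 * k) ξ, w (2 * k + 1) ξ]}) := by
  refine ⟨fun c hc x hx => ?_, fun x hx => ?_, fun x hx y hy => ?_, fun η hη x hx => ?_⟩
  · induction hx using Submodule.span_induction with
    | mem x hx =>
      obtain ⟨k, ξ, rfl⟩ := hx
      refine Submodule.subset_span ⟨k, c ξ, ?_⟩
      ext i
      rw [amp_apply]
      fin_cases i
      · exact congrArg (fun T : K →L[ℂ] K => T ξ) ((hw _).1 c hc)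
      · exact congrArg (fun T : K →L[ℂ] K => T ξ) ((hw _).1 c hc)
      · exact congrArg (fun T : K →L[ℂ] K => T ξ) ((hw _).1 c hc)
    | zero => simp
    | add x y _ _ hx hy => rw [map_add]; exact Submodule.add_mem _ hx hy
    | smul a x _ hx => rw [map_smul]; exact Submodule.smul_mem _ _ hx
  · induction hx using Submodule.span_induction with
    | mem x hx =>
      obtain ⟨k, ξ, rfl⟩ := hx
      exact congrArg (fun T : K →L[ℂ] K => T ξ) (hw k).2
    | zero => simp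
    | add x y _ _ hx hy => simp [hx, hy]
    | smul a x _ hx => simp [hx]
  · induction hx, hy using Submodule.span_induction₂ with
    | mem_mem x y hx hy =>
      obtain ⟨k, ξ, rfl⟩ := hx
      obtain ⟨l, η, rfl⟩ := hy
      refine ⟨?_, ?_, ?_⟩
      · show ⟪w (2 * k) ξ, w (2 * l) η⟫_ℂ = ⟪w k ξ, w l η⟫_ℂ
        rw [inner_star_mul, inner_star_mul, ho, ho]
        by_cases h : k = l
        · simp [h]
        · rw [if_neg h, if_neg (by omega)]
      · show ⟪w (2 * k + 1) ξ, w (2 * l + 1) η⟫_ℂ = ⟪w k ξ, w l η⟫_ℂ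
        rw [inner_star_mul, inner_star_mul, ho, ho]
        by_cases h : k = l
        · simp [h]
        · rw [if_neg h, if_neg (by omega)]
      · show ⟪w (2 * k) ξ, w (2 * l + 1) η⟫_ℂ = 0
        rw [inner_star_mul, ho, if_neg (by omega)]
        simp
    | zero_left y _ => simp
    | zero_right x _ => simp
    | add_left x y z _ _ _ h1 h2 => simp [h1.1, h1.2.1, h1.2.2, h2.1, h2.2.1, h2.2.2]
    | add_right x y z _ _ _ h1 h2 =>
      simp [h1.1, h1.2.1, h1.2.2, h2.1, h2.2.1, h2.2.2]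
    | smul_left r x y _ _ h1 => simp [h1.1, h1.2.1, h1.2.2]
    | smul_right r x y _ _ h1 => simp [h1.1, h1.2.1, h1.2.2]
  · have h0 : ∀ k ξ, ⟪η, w k ξ⟫_ℂ = 0 := fun k ξ =>
      hη _ (Submodule.subset_span ⟨k, ξ, rfl⟩)
    induction hx using Submodule.span_induction with
    | mem x hx =>
      obtain ⟨k, ξ, rfl⟩ := hx
      exact ⟨h0 _ _, h0 _ _⟩
    | zero => simp
    | add x y _ _ hx hy => simp [hx.1, hx.2, hy.1, hy.2]
    | smul a x _ hx => simp [hx.1, hx.2]

theorem typeP_of_half (hC : ∀ c ∈ C, star c ∈ C) {z₀ z s₁ s₂ : K →L[ℂ] K}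
    (h : Half C.centralizer z₀ z s₁ s₂) : TypeP C.centralizer z := by
  have hzs : star z = z := h.proj.isSelfAdjoint.star_eq
  have hzz : z * z = z := h.proj.isIdempotentElem.eq
  have h1z : s₁ * z = s₁ := by
    have := pi_mul (u := s₁) (h.e11 ▸ h.proj)
    rwa [h.e11] at this
  have h2z : s₂ * z = s₂ := by
    have := pi_mul (u := s₂) (h.e22 ▸ h.proj)
    rwa [h.e22] at this
  have hz1 : z * star s₁ = star s₁ := by
    have := star_eq_of h1z
    rwa [hzs] at this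
  have hz2 : z * star s₂ = star s₂ := by
    have := star_eq_of h2z
    rwa [hzs] at this
  have h1z' : star s₁ * z = star s₁ := by
    have := star_eq_of h.q1
    rwa [hzs] at this
  have h2z' : star s₂ * z = star s₂ := by
    have := star_eq_of h.q2
    rwa [hzs] at this
  have e21 : star s₂ * s₁ = 0 := by
    have := star_eq_of h.e12
    rwa [star_star, star_zero] at this
  set p := z - s₁ * star s₁ - s₂ * star s₂ with hp
  have hpP : p ∈ C.centralizer := sub_mem (sub_mem h.mq (mul_mem h.m1 (star_mem hC h.m1)))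
    (mul_mem h.m2 (star_mem hC h.m2))
  have h1p : star s₁ * p = 0 := by
    rw [hp, mul_sub, mul_sub, h1z', ← mul_assoc, ← mul_assoc, h.e11, h.e12, hz1]; simp
  have h2p : star s₂ * p = 0 := by
    rw [hp, mul_sub, mul_sub, h2z', ← mul_assoc, ← mul_assoc, h.e22, e21, hz2]; simp
  have hzp : z * p = p := by
    rw [hp, mul_sub, mul_sub, hzz, ← mul_assoc, ← mul_assoc, h.q1, h.q2]
  have hzk : ∀ k, z * (s₂ ^ k * p) = s₂ ^ k * p := by
    intro k
    cases k with
    | zero => simpa using hzp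
    | succ k => rw [pow_succ', ← mul_assoc, ← mul_assoc, h.q2]
  obtain ⟨E, hE, hEp, k1, k2⟩ := exists_rproj hC (Set.range fun k : ℕ => s₂ ^ k * p) (by
    rintro _ ⟨k, rfl⟩
    exact mul_mem (fun c hc => Commute.pow_right (h.m2 c hc) k) hpP)
  have k1' : ∀ k, E * (s₂ ^ k * p) = s₂ ^ k * p := fun k => k1 _ ⟨k, rfl⟩
  have k2' : ∀ f : K →L[ℂ] K, (∀ k, f * (s₂ ^ k * p) = 0) → f * E = 0 := fun f hf =>
    k2 f (by rintro _ ⟨k, rfl⟩; exact hf k)
  have hEs : star E = E := hEp.isSelfAdjoint.star_eq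
  have hEE : E * E = E := hEp.isIdempotentElem.eq
  have hEp' : E * p = p := by simpa using k1' 0
  have hzE : z * E = E := by
    have := k2' (1 - z) fun k => by rw [sub_mul, one_mul, hzk, sub_self]
    rwa [sub_mul, one_mul, sub_eq_zero, eq_comm] at this
  have hEz : E * z = E := by
    have := star_eq_of hzE
    rwa [hEs, hzs] at this
  have h1E : star s₁ * E = 0 := k2' _ fun k => by
    cases k with
    | zero => simpa using h1p
    | succ k => rw [pow_succ', ← mul_assoc, ← mul_assoc, h.e12, zero_mul, zero_mul]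
  have hE1 : E * s₁ = 0 := by
    have := star_eq_of h1E
    rwa [hEs, star_star, star_zero] at this
  have a1 : s₂ * E = E * s₂ * E := by
    have := k2' ((1 - E) * s₂) fun k => by
      rw [mul_assoc, ← mul_assoc s₂, ← pow_succ', sub_mul, one_mul, k1', sub_self]
    rwa [sub_mul, sub_mul, one_mul, sub_eq_zero] at this
  have a2 : star s₂ * E = E * star s₂ * E := by
    have := k2' ((1 - E) * star s₂) fun k => by
      cases k with
      | zero => rw [pow_zero, one_mul, mul_assoc, h2p, mul_zero]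
      | succ k =>
        rw [pow_succ', mul_assoc, mul_assoc s₂, ← mul_assoc (star s₂), h.e22, hzk, sub_mul,
          one_mul, k1', sub_self]
    rwa [sub_mul, sub_mul, one_mul, sub_eq_zero] at this
  have a3 : E * s₂ = s₂ * E := by
    have := congrArg star a2
    rw [star_mul, star_mul, star_mul, star_star, hEs, ← mul_assoc] at this
    rw [this, ← a1]
  have a4 : E * star s₂ = star s₂ * E := by
    have := congrArg star a3
    rw [star_mul, star_mul, hEs] at this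
    exact this.symm
  have b1 : E * (z - E) = 0 := by rw [mul_sub, hEz, hEE, sub_self]
  have b2 : (z - E) * E = 0 := by rw [sub_mul, hzE, hEE, sub_self]
  have b3 : (z - E) * (z - E) = z - E := by rw [mul_sub, b2, sub_mul, hzz, hEz, sub_zero]
  have b4 : star (E + s₂ * (z - E)) = E + (z - E) * star s₂ := by
    rw [star_add, star_mul, star_sub, hEs, hzs]
  refine ⟨s₁, h.m1, E + s₂ * (z - E), add_mem hE (mul_mem h.m2 (sub_mem h.mq hE)), h.e11, ?_, ?_,
    ?_⟩
  · rw [b4, add_mul, mul_add, mul_add, hEE, ← mul_assoc E, a3, mul_assoc s₂, b1, mul_zero,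
      mul_assoc (z - E), ← a4, ← mul_assoc, b2, zero_mul, mul_assoc (z - E),
      ← mul_assoc (star s₂), h.e22, mul_sub z, hzz, hzE, b3]
    abel
  · rw [mul_add, h1E, ← mul_assoc, h.e12, zero_mul, add_zero]
  · have c1 : E * (s₂ * star s₂) = E - p := by
      have : p = E - E * (s₂ * star s₂) := by
        rw [← hEp', hp, mul_sub, mul_sub, hEz, ← mul_assoc E s₁, hE1, zero_mul, sub_zero]
      rw [this]; abel
    rw [b4, add_mul, mul_add, mul_add, hEE, ← mul_assoc E, b1, zero_mul, mul_assoc s₂, b2,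
      mul_zero, mul_assoc s₂, ← mul_assoc (z - E), b3, sub_mul, hz2, mul_sub, ← mul_assoc s₂ E,
      ← a3, mul_assoc E, c1, hp]
    abel

theorem typeP_of_inf (hC : ∀ c ∈ C, star c ∈ C) {z₀ : K →L[ℂ] K} (hz : IsCP C.centralizer z₀)
    (h : InfFam C.centralizer z₀) :
    ∃ z, IsCP C.centralizer z ∧ z ≠ 0 ∧ z₀ * z = z ∧ TypeP C.centralizer z := by
  obtain ⟨g, v, hg0, hv, ho⟩ := h
  obtain ⟨q, s₁, s₂, hq, hG, hmax⟩ := exists_max_half hC z₀ _ (goodG_of_fam hv ho)
  have hq0 : q ≠ 0 := by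
    rintro rfl
    refine hg0 ?_
    have h1 : v 0 = 0 := by
      ext ξ
      exact (hG _ (Submodule.subset_span ⟨0, ξ, rfl⟩)).symm
    have := ho 0 0
    rw [if_pos rfl, h1, mul_zero] at this
    exact this.symm
  have hzs : star z₀ = z₀ := hz.proj.isSelfAdjoint.star_eq
  have hqs : star q = q := hq.proj.isSelfAdjoint.star_eq
  have hqq : q * q = q := hq.proj.isIdempotentElem.eq
  have hqz : q * z₀ = q := by
    have := star_eq_of hq.under
    rwa [hzs, hqs] at this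
  have hr : IsStarProjection (z₀ - q) := hq.proj.sub_of_mul_eq_right hz.proj hq.under
  have hqr : q * (z₀ - q) = 0 := by rw [mul_sub, hqz, hqq, sub_self]
  obtain ⟨w, hw, h1, h2, h3, h4⟩ := comparison hC (z₀ - q) q hr hq.proj (sub_mem hz.mem hq.mq)
    hq.mq hqr
  have hw' := star_mem hC hw
  have hwq : w * q = 0 := by
    rw [← h3, mul_assoc, sub_mul, hq.under, hqq, sub_self, mul_zero]
  have hqw : q * star w = 0 := by
    have := star_eq_of hwq
    rwa [hqs, star_zero] at this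
  have hzw : z₀ * w = w := by rw [← h2, ← mul_assoc, hq.under]
  have hzw' : z₀ * star w = star w := by
    have := star_eq_of ((hz.comm w hw).eq.symm.trans hzw)
    rwa [hzs] at this
  have hwq' : star w * q = star w := by
    have := star_eq_of h2
    rwa [hqs] at this
  have hwww : w * (star w * w) = w := pi_mul h1
  have hwww' : star w * w * star w = star w := by
    have := star_eq_of hwww
    rwa [h1.isSelfAdjoint.star_eq] at this
  obtain ⟨z', hc, k1, k2, k3⟩ := exists_cs hC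
    (sub_mem (sub_mem hz.mem hq.mq) (mul_mem hw' hw))
  have k4 := k2 _ h4
  rw [sub_mul, sub_eq_zero] at k4
  have k5 : z₀ * z' = z' := k3 z₀ hz (by
    rw [mul_sub, mul_sub, hz.proj.isIdempotentElem.eq, hq.under, ← mul_assoc, hzw'])
  have hz's : star z' = z' := hc.proj.isSelfAdjoint.star_eq
  have hz'z : z' * z' = z' := hc.proj.isIdempotentElem.eq
  have hcm : ∀ a ∈ C.centralizer, z' * a = a * z' := fun a ha => (hc.comm a ha).eq
  have key : ∀ a ∈ C.centralizer, ∀ b ∈ C.centralizer, q * b = b →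
      star (star w * a * w * z') * (star w * b * w * z') = star w * (star a * b) * w * z' := by
    intro a ha b hb hqb
    have e1 : w * star w * (b * w * z') = b * w * z' := by
      rw [← hcm _ (mul_mem hb hw), ← mul_assoc, ← k4, mul_assoc, hcm _ (mul_mem hb hw),
        ← mul_assoc, ← mul_assoc, hqb]
    calc _ = z' * (star w * star a * (w * star w * (b * w * z'))) := by
          simp only [star_mul, star_star, hz's, mul_assoc]
      _ = z' * (star w * (star a * b) * w) * z' := by rw [e1]; simp only [mul_assoc]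
      _ = _ := by
          rw [hcm _ (mul_mem (mul_mem hw' (mul_mem (star_mem hC ha) hb)) hw), mul_assoc, hz'z]
  have key2 : ∀ a ∈ C.centralizer,
      star w * w * z' * (star w * a * w * z') = star w * a * w * z' := by
    intro a ha
    rw [mul_assoc _ z', ← mul_assoc z', hcm _ (mul_mem (mul_mem hw' ha) hw), mul_assoc _ z' z',
      hz'z, ← mul_assoc, ← mul_assoc, ← mul_assoc, hwww']
  have hq'0 : star w * w * z' = 0 := by
    refine hmax _ (star w * s₁ * w * z') (star w * s₂ * w * z') ⟨mul_mem (mul_mem hw' hw) hc.mem,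
      mul_mem (mul_mem (mul_mem hw' hq.m1) hw) hc.mem,
      mul_mem (mul_mem (mul_mem hw' hq.m2) hw) hc.mem,
      h1.mul hc.proj (hc.comm _ (mul_mem hw' hw)).symm, ?_, ?_, ?_, ?_, key2 _ hq.m1,
      key2 _ hq.m2⟩ ?_
    · rw [← mul_assoc, ← mul_assoc, hzw']
    · rw [key _ hq.m1 _ hq.m1 hq.q1, hq.e11, hwq']
    · rw [key _ hq.m2 _ hq.m2 hq.q2, hq.e22, hwq']
    · rw [key _ hq.m1 _ hq.m2 hq.q2, hq.e12]; simp
    · rw [← mul_assoc, ← mul_assoc, hqw]; simp
  have hwz' : w * z' = 0 := by rw [← hwww, mul_assoc, hq'0, mul_zero]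
  have hqz' : q * z' = 0 := by
    rw [k4, ← hcm _ (mul_mem hw hw'), ← mul_assoc, hcm w hw, hwz', zero_mul]
  have hzeq : z₀ - z' = q + star w * w := by
    rw [mul_sub, mul_sub, hcm _ hz.mem, k5, hcm _ hq.mq, hqz', hcm _ (mul_mem hw' hw), hq'0] at k1
    rw [sub_zero, sub_zero] at k1
    rw [k1]; abel
  have hzc : IsCP C.centralizer (z₀ - z') := ⟨sub_mem hz.mem hc.mem,
    hc.proj.sub_of_mul_eq_right hz.proj k5, fun a ha => (hz.comm a ha).sub_left (hc.comm a ha)⟩
  have hzq : (z₀ - z') * q = q := by rw [sub_mul, hq.under, hcm _ hq.mq, hqz', sub_zero]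
  set u := s₁ + s₂ * w with hu
  have huP : u ∈ C.centralizer := add_mem hq.m1 (mul_mem hq.m2 hw)
  have e21 : star s₂ * s₁ = 0 := by
    have := star_eq_of hq.e12
    rwa [star_star, star_zero] at this
  have hqu : q * u = u := by rw [hu, mul_add, hq.q1, ← mul_assoc, hq.q2]
  have huu : star u * u = z₀ - z' := by
    rw [hzeq, hu, star_add, star_mul, add_mul, mul_add, mul_add, hq.e11, ← mul_assoc, hq.e12,
      mul_assoc (star w), e21, mul_assoc (star w), ← mul_assoc (star s₂), hq.e22, h2]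
    simp
  have key3 : ∀ a b : K →L[ℂ] K, star (a * u) * (b * u) = star u * (star a * b * u) := by
    intro a b
    simp only [star_mul, mul_assoc]
  refine ⟨z₀ - z', hzc, fun h0 => hq0 ?_, ?_, typeP_of_half hC (z₀ := 1) (s₁ := s₁ * u)
    (s₂ := s₂ * u) ⟨hzc.mem, mul_mem hq.m1 huP, mul_mem hq.m2 huP, hzc.proj, one_mul _, ?_, ?_, ?_,
      ?_, ?_⟩⟩
  · rw [← hzq, h0, zero_mul]
  · rw [mul_sub, hz.proj.isIdempotentElem.eq, k5]
  · rw [key3, hq.e11, hqu, huu]
  · rw [key3, hq.e22, hqu, huu]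
  · rw [key3, hq.e12, zero_mul, mul_zero]
  · rw [← hq.q1, ← mul_assoc, ← mul_assoc, hzq]
  · rw [← hq.q2, ← mul_assoc, ← mul_assoc, hzq]

end Crest.Agent.H6.KRD
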