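import Mathlib

/-! Product measures on the Boolean cube with coordinatewise biases, partial noise operators,
Bessel's inequality for first derivatives and biased (2,4)-hypercontractivity. -/

namespace Crest.Agent.H6.Cube
open Finset

variable {ι : Type*} [Fintype ι] [DecidableEq ι]

/-- real value of a bit -/
def bv (b : Bool) : ℝ := if b then 1 else 0

/-- one-coordinate weight -/
def kw (t : ℝ) (b : Bool) : ℝ := if b then t else 1 - t

/-- product weight -/
noncomputable def W (π : ι → ℝ) (x : ι → Bool) : ℝ := ∏ i, kw (π i) (x i)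

/-- expectation under the product weight -/
noncomputable def Ex (π : ι → ℝ) (g : (ι → Bool) → ℝ) : ℝ := ∑ x, W π x * g x

/-- freeze a coordinate -/
def up (e : ι) (b : Bool) (g : (ι → Bool) → ℝ) : (ι → Bool) → ℝ :=
  fun x => g (Function.update x e b)

/-- discrete derivative -/
def D (e : ι) (g : (ι → Bool) → ℝ) : (ι → Bool) → ℝ :=
  fun x => g (Function.update x e true) - g (Function.update x e false)

/-- biases in `[0,1]` -/
def Good (π : ι → ℝ) : Prop := ∀ i, 0 ≤ π i ∧ π i ≤ 1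

@[simp] lemma bv_true : bv true = 1 := rfl
@[simp] lemma bv_false : bv false = 0 := rfl
@[simp] lemma kw_true (t : ℝ) : kw t true = t := rfl
@[simp] lemma kw_false (t : ℝ) : kw t false = 1 - t := rfl

omit [DecidableEq ι] in
lemma W_nonneg {π : ι → ℝ} (h : Good π) (x : ι → Bool) : 0 ≤ W π x :=
  Finset.prod_nonneg fun i _ => by
    have := h i
    cases hx : x i <;> simp <;> linarith [this.1, this.2]

lemma Ex_prod (π : ι → ℝ) (F : ι → Bool → ℝ) :
    Ex π (fun x => ∏ i, F i (x i)) = ∏ i, (π i * F i true + (1 - π i) * F i false) := by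
  unfold Ex W
  have : ∀ i, π i * F i true + (1 - π i) * F i false = ∑ b : Bool, kw (π i) b * F i b := by
    intro i; simp
  simp_rw [this, ← Finset.prod_mul_distrib]
  rw [Finset.prod_univ_sum, Fintype.piFinset_univ]

lemma Ex_one (π : ι → ℝ) : Ex π (fun _ => 1) = 1 := by
  have := Ex_prod π (fun _ _ => 1)
  simpa using this

lemma Ex_add (π : ι → ℝ) (g h : (ι → Bool) → ℝ) :
    Ex π (fun x => g x + h x) = Ex π g + Ex π h := by
  unfold Ex; simp_rw [mul_add, Finset.sum_add_distrib]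

lemma Ex_sub (π : ι → ℝ) (g h : (ι → Bool) → ℝ) :
    Ex π (fun x => g x - h x) = Ex π g - Ex π h := by
  unfold Ex; simp_rw [mul_sub, Finset.sum_sub_distrib]

lemma Ex_mul_left (π : ι → ℝ) (c : ℝ) (g : (ι → Bool) → ℝ) :
    Ex π (fun x => c * g x) = c * Ex π g := by
  unfold Ex; rw [Finset.mul_sum]; exact Finset.sum_congr rfl fun x _ => by ring

lemma Ex_const (π : ι → ℝ) (c : ℝ) : Ex π (fun _ => c) = c := by
  have := Ex_mul_left π c (fun _ => 1)
  simpa [Ex_one] using this

lemma Ex_sum {κ : Type*} (π : ι → ℝ) (s : Finset κ) (g : κ → (ι → Bool) → ℝ) :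
    Ex π (fun x => ∑ j ∈ s, g j x) = ∑ j ∈ s, Ex π (g j) := by
  unfold Ex; simp_rw [Finset.mul_sum]; rw [Finset.sum_comm]

lemma Ex_mono {π : ι → ℝ} (hπ : Good π) {g h : (ι → Bool) → ℝ} (hgh : ∀ x, g x ≤ h x) :
    Ex π g ≤ Ex π h :=
  Finset.sum_le_sum fun x _ => mul_le_mul_of_nonneg_left (hgh x) (W_nonneg hπ x)

lemma Ex_nonneg {π : ι → ℝ} (hπ : Good π) {g : (ι → Bool) → ℝ} (hg : ∀ x, 0 ≤ g x) :
    0 ≤ Ex π g :=
  Finset.sum_nonneg fun x _ => mul_nonneg (W_nonneg hπ x) (hg x)

lemma Ex_cs {π : ι → ℝ} (hπ : Good π) (g h : (ι → Bool) → ℝ) :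
    (Ex π (fun x => g x * h x)) ^ 2 ≤ Ex π (fun x => g x ^ 2) * Ex π (fun x => h x ^ 2) := by
  have := Finset.sum_mul_sq_le_sq_mul_sq Finset.univ (fun x => √(W π x) * g x)
    (fun x => √(W π x) * h x)
  have hs : ∀ x, √(W π x) ^ 2 = W π x := fun x => Real.sq_sqrt (W_nonneg hπ x)
  have e1 : ∀ x, √(W π x) * g x * (√(W π x) * h x) = W π x * (g x * h x) := fun x => by
    rw [show √(W π x) * g x * (√(W π x) * h x) = √(W π x) ^ 2 * (g x * h x) by ring, hs]
  simp only [e1, mul_pow, hs] at this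
  exact this

lemma sum_flip (e : ι) (F : (ι → Bool) → ℝ) :
    ∑ x, F x = ∑ x, F (Function.update x e (!x e)) := by
  have hinv : Function.Involutive (fun x : ι → Bool => Function.update x e (!x e)) := by
    intro x; simp
  exact (Equiv.sum_comp hinv.toPerm F).symm

lemma Ex_update (π : ι → ℝ) (e : ι) (t : ℝ) (g : (ι → Bool) → ℝ) :
    Ex (Function.update π e t) g = t * Ex π (up e true g) + (1 - t) * Ex π (up e false g) := by
  set R : (ι → Bool) → ℝ := fun x => ∏ i ∈ univ.erase e, kw (π i) (x i) with hR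
  have hW : ∀ s x, W (Function.update π e s) x = kw s (x e) * R x := by
    intro s x
    unfold W
    rw [← Finset.mul_prod_erase univ _ (mem_univ e)]
    simp only [Function.update_self, hR]
    congr 1
    refine Finset.prod_congr rfl fun i hi => ?_
    rw [Function.update_of_ne (Finset.ne_of_mem_erase hi)]
  have hW' : ∀ x, W π x = kw (π e) (x e) * R x := by
    intro x; rw [← hW (π e) x, Function.update_eq_self]
  have hRu : ∀ x b, R (Function.update x e b) = R x := by
    intro x b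
    simp only [hR]
    refine Finset.prod_congr rfl fun i hi => ?_
    rw [Function.update_of_ne (Finset.ne_of_mem_erase hi)]
  have h1 : 2 * Ex (Function.update π e t) g =
      ∑ x, R x * (t * up e true g x + (1 - t) * up e false g x) := by
    unfold Ex
    rw [two_mul]
    nth_rewrite 2 [sum_flip e]
    rw [← Finset.sum_add_distrib]
    refine Finset.sum_congr rfl fun x _ => ?_
    rw [hW, hW, hRu]
    simp only [Function.update_self, up]
    cases hx : x e
    · have : Function.update x e false = x := by rw [← hx]; simp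
      simp [this]; ring
    · have : Function.update x e true = x := by rw [← hx]; simp
      simp [this]; ring
  have h2 : 2 * Ex π (fun x => t * up e true g x + (1 - t) * up e false g x) =
      ∑ x, R x * (t * up e true g x + (1 - t) * up e false g x) := by
    unfold Ex
    rw [two_mul]
    nth_rewrite 2 [sum_flip e]
    rw [← Finset.sum_add_distrib]
    refine Finset.sum_congr rfl fun x _ => ?_
    rw [hW', hW', hRu]
    simp only [Function.update_self, up, Function.update_idem]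
    cases hx : x e <;> simp <;> ring
  rw [Ex_add, Ex_mul_left, Ex_mul_left] at h2
  linarith

lemma Ex_split (π : ι → ℝ) (e : ι) (g : (ι → Bool) → ℝ) :
    Ex π g = π e * Ex π (up e true g) + (1 - π e) * Ex π (up e false g) := by
  rw [← Ex_update, Function.update_eq_self]

lemma Ex_D (π : ι → ℝ) (e : ι) (g : (ι → Bool) → ℝ) :
    Ex π (D e g) = Ex π (up e true g) - Ex π (up e false g) := by
  rw [← Ex_sub]; rfl

/-- covariance with a coordinate -/
lemma Ex_mul_coord (π : ι → ℝ) (e : ι) (g : (ι → Bool) → ℝ) :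
    Ex π (fun x => g x * (bv (x e) - π e)) = π e * (1 - π e) * Ex π (D e g) := by
  rw [Ex_split π e, Ex_D]
  have h1 : up e true (fun x => g x * (bv (x e) - π e)) = fun x => (1 - π e) * up e true g x := by
    funext x; simp [up]; ring
  have h2 : up e false (fun x => g x * (bv (x e) - π e)) = fun x => (-π e) * up e false g x := by
    funext x; simp [up]; ring
  rw [h1, h2, Ex_mul_left, Ex_mul_left]; ring

/-- Bessel's inequality for the first level -/
lemma bessel {π : ι → ℝ} (hπ : Good π) (B : Finset ι) (g : (ι → Bool) → ℝ) :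
    ∑ e ∈ B, π e * (1 - π e) * (Ex π (D e g)) ^ 2 ≤ Ex π (fun x => g x ^ 2) := by
  set c : ι → ℝ := fun e => Ex π (D e g) with hc
  set L : (ι → Bool) → ℝ := fun x => ∑ e ∈ B, c e * (bv (x e) - π e) with hL
  have hDL : ∀ e ∈ B, Ex π (D e L) = c e := by
    intro e he
    have : D e L = fun _ => c e := by
      funext x
      simp only [D, hL, ← Finset.sum_sub_distrib]
      rw [Finset.sum_eq_single e]
      · simp; ring
      · intro e' _ hne; simp [Function.update_of_ne hne]
      · intro h; exact absurd he h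
    rw [this, Ex_const]
  have hgen : ∀ h : (ι → Bool) → ℝ, Ex π (fun x => h x * L x) =
      ∑ e ∈ B, c e * (π e * (1 - π e) * Ex π (D e h)) := by
    intro h
    have : (fun x => h x * L x) = fun x => ∑ e ∈ B, c e * (h x * (bv (x e) - π e)) := by
      funext x; simp only [hL, Finset.mul_sum]; exact Finset.sum_congr rfl fun e _ => by ring
    rw [this, Ex_sum]
    exact Finset.sum_congr rfl fun e _ => by rw [Ex_mul_left, Ex_mul_coord]
  have h0 : 0 ≤ Ex π (fun x => (g x - L x) ^ 2) := Ex_nonneg hπ fun x => sq_nonneg _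
  have h1 : (fun x => (g x - L x) ^ 2) = fun x => (g x ^ 2 - 2 * (g x * L x)) + L x * L x := by
    funext x; ring
  rw [h1, Ex_add, Ex_sub, Ex_mul_left, hgen, hgen] at h0
  have h2 : ∑ e ∈ B, c e * (π e * (1 - π e) * Ex π (D e L)) =
      ∑ e ∈ B, π e * (1 - π e) * c e ^ 2 :=
    Finset.sum_congr rfl fun e he => by rw [hDL e he]; ring
  have h3 : ∑ e ∈ B, c e * (π e * (1 - π e) * Ex π (D e g)) =
      ∑ e ∈ B, π e * (1 - π e) * c e ^ 2 :=
    Finset.sum_congr rfl fun e he => by simp only [hc]; ring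
  rw [h2, h3] at h0
  linarith

/-! ### partial noise operator -/

/-- biases of the noised copy of `x` -/
noncomputable def npi (p ρ : ℝ) (B : Finset ι) (x : ι → Bool) : ι → ℝ :=
  fun e => if e ∈ B then ρ * bv (x e) + (1 - ρ) * p else bv (x e)

/-- noise on the coordinates of `B` -/
noncomputable def T (p ρ : ℝ) (B : Finset ι) (g : (ι → Bool) → ℝ) : (ι → Bool) → ℝ :=
  fun x => Ex (npi p ρ B x) g

omit [Fintype ι] in
lemma good_npi {p ρ : ℝ} (hp0 : 0 ≤ p) (hp1 : p ≤ 1) (hρ0 : 0 ≤ ρ) (hρ1 : ρ ≤ 1) (B : Finset ι)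
    (x : ι → Bool) : Good (npi p ρ B x) := by
  intro e
  unfold npi
  split_ifs
  · cases x e <;> simp <;> constructor <;> nlinarith
  · cases x e <;> simp

omit [Fintype ι] [DecidableEq ι] in
lemma good_const {p : ℝ} (hp0 : 0 ≤ p) (hp1 : p ≤ 1) : Good (fun _ : ι => p) :=
  fun _ => ⟨hp0, hp1⟩

lemma agree_of_W_ne {p ρ : ℝ} {B : Finset ι} {x z : ι → Bool} (h : W (npi p ρ B x) z ≠ 0) :
    ∀ e, e ∉ B → z e = x e := by
  intro e he
  have := (Finset.prod_ne_zero_iff.1 h) e (mem_univ e)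
  simp only [npi, he, if_false] at this
  revert this
  cases x e <;> cases z e <;> simp

lemma T_empty (p ρ : ℝ) (g : (ι → Bool) → ℝ) (x : ι → Bool) : T p ρ ∅ g x = g x := by
  unfold T Ex
  rw [Finset.sum_eq_single x]
  · have : W (npi p ρ ∅ x) x = 1 := by
      unfold W
      refine Finset.prod_eq_one fun i _ => ?_
      simp only [npi, Finset.notMem_empty, if_false]
      cases x i <;> simp
    rw [this, one_mul]
  · intro z _ hz
    have : W (npi p ρ ∅ x) z = 0 := by
      by_contra h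
      exact hz (funext fun e => agree_of_W_ne h e (Finset.notMem_empty e))
    rw [this, zero_mul]
  · intro h; exact absurd (mem_univ x) h

lemma T_insert (p ρ : ℝ) {B : Finset ι} {e : ι} (he : e ∉ B) (g : (ι → Bool) → ℝ)
    (x : ι → Bool) : T p ρ (insert e B) g x =
      (ρ * bv (x e) + (1 - ρ) * p) * T p ρ B (up e true g) x +
        (1 - (ρ * bv (x e) + (1 - ρ) * p)) * T p ρ B (up e false g) x := by
  unfold T
  rw [← Ex_update]
  congr 1
  funext i
  by_cases hi : i = e
  · subst hi; simp [npi]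
  · simp [npi, hi]

lemma T_indep (p ρ : ℝ) {B : Finset ι} {e : ι} (he : e ∉ B) (g : (ι → Bool) → ℝ)
    (hg : ∀ b, up e b g = g) (x : ι → Bool) (c : Bool) :
    T p ρ B g (Function.update x e c) = T p ρ B g x := by
  unfold T
  have : npi p ρ B (Function.update x e c) = Function.update (npi p ρ B x) e (bv c) := by
    funext i
    by_cases hi : i = e
    · subst hi; simp [npi, he]
    · simp [npi, Function.update_of_ne hi]
  rw [this, Ex_update, hg, hg]; ring

/-- functions of the coordinates outside `B` factor out -/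
lemma T_pull (p ρ : ℝ) (B : Finset ι) (h F : (ι → Bool) → ℝ) (x : ι → Bool)
    (hh : ∀ z, (∀ e, e ∉ B → z e = x e) → h z = h x) :
    T p ρ B (fun z => h z * F z) x = h x * T p ρ B F x := by
  unfold T Ex
  rw [Finset.mul_sum]
  refine Finset.sum_congr rfl fun z _ => ?_
  by_cases hw : W (npi p ρ B x) z = 0
  · simp [hw]
  · beta_reduce; rw [hh z (agree_of_W_ne hw)]; ring

lemma T0_congr (p : ℝ) (B : Finset ι) (F : (ι → Bool) → ℝ) {x z : ι → Bool}
    (h : ∀ e, e ∉ B → z e = x e) : T p 0 B F z = T p 0 B F x := by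
  unfold T
  congr 1
  funext e
  by_cases he : e ∈ B
  · simp [npi, he]
  · simp [npi, he, h e he]

lemma tower (p : ℝ) (B : Finset ι) (F : (ι → Bool) → ℝ) :
    Ex (fun _ => p) (T p 0 B F) = Ex (fun _ => p) F := by
  have key : ∀ z : ι → Bool, ∑ x, W (fun _ => p) x * W (npi p 0 B x) z = W (fun _ => p) z := by
    intro z
    have := Ex_prod (fun _ : ι => p) (fun i b => kw (if i ∈ B then p else bv b) (z i))
    have h2 : ∀ x, W (npi p 0 B x) z = ∏ i, kw (if i ∈ B then p else bv (x i)) (z i) := by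
      intro x; unfold W; refine Finset.prod_congr rfl fun i _ => ?_
      simp [npi]
    simp_rw [h2]
    unfold Ex at this
    rw [this]
    unfold W
    refine Finset.prod_congr rfl fun i _ => ?_
    by_cases hi : i ∈ B
    · simp only [hi, if_true]; ring
    · simp only [hi, if_false]; cases z i <;> simp
  unfold T
  conv_lhs => unfold Ex
  simp_rw [Finset.mul_sum]
  rw [Finset.sum_comm]
  unfold Ex
  refine Finset.sum_congr rfl fun z _ => ?_
  rw [← key z, Finset.sum_mul]
  exact Finset.sum_congr rfl fun x _ => by ring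

lemma T_selfadj (p ρ : ℝ) (B : Finset ι) (g h : (ι → Bool) → ℝ) (x : ι → Bool) :
    T p 0 B (fun z => g z * T p ρ B h z) x = T p 0 B (fun z => T p ρ B g z * h z) x := by
  have key : ∀ z z' : ι → Bool, W (npi p 0 B x) z * W (npi p ρ B z) z' =
      W (npi p 0 B x) z' * W (npi p ρ B z') z := by
    intro z z'
    unfold W
    rw [← Finset.prod_mul_distrib, ← Finset.prod_mul_distrib]
    refine Finset.prod_congr rfl fun i _ => ?_
    by_cases hi : i ∈ B
    · simp only [npi, hi, if_true]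
      cases z i <;> cases z' i <;> simp <;> ring
    · simp only [npi, hi, if_false]
      cases x i <;> cases z i <;> cases z' i <;> simp
  unfold T Ex
  simp_rw [Finset.mul_sum, Finset.sum_mul, Finset.mul_sum]
  rw [Finset.sum_comm]
  refine Finset.sum_congr rfl fun z _ => Finset.sum_congr rfl fun z' _ => ?_
  have := key z z'
  calc W (npi p 0 B x) z' * (g z' * (W (npi p ρ B z') z * h z))
      = (W (npi p 0 B x) z' * W (npi p ρ B z') z) * (g z' * h z) := by ring
    _ = (W (npi p 0 B x) z * W (npi p ρ B z) z') * (g z' * h z) := by rw [this]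
    _ = _ := by ring

lemma one_step {p ρ : ℝ} (hp0 : 0 ≤ p) (hp1 : p ≤ 1) (hρ : ρ ^ 4 ≤ p * (1 - p) / 4) (a b : ℝ) :
    p * (a + ρ * (1 - p) * b) ^ 4 + (1 - p) * (a + ρ * (0 - p) * b) ^ 4 ≤
      a ^ 4 + 2 * (p * (1 - p)) * (a ^ 2 * b ^ 2) + (p * (1 - p)) ^ 2 * b ^ 4 := by
  set v := p * (1 - p) with hv
  have hv0 : 0 ≤ v := mul_nonneg hp0 (by linarith)
  have hv1 : v ≤ 1 / 4 := by nlinarith [sq_nonneg (p - 1 / 2)]
  have hρ2 : ρ ^ 2 ≤ 1 / 4 := by
    have : (ρ ^ 2) ^ 2 ≤ (1 / 4) ^ 2 := by nlinarith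
    exact abs_le_of_sq_le_sq' this (by norm_num) |>.2
  have hexp : p * (a + ρ * (1 - p) * b) ^ 4 + (1 - p) * (a + ρ * (0 - p) * b) ^ 4 =
      a ^ 4 + 6 * ρ ^ 2 * v * (a ^ 2 * b ^ 2) + 4 * v * (1 - 2 * p) * (a * (ρ * b) ^ 3) +
        ρ ^ 4 * (v * (1 - 3 * v)) * b ^ 4 := by
    rw [hv]; ring
  rw [hexp]
  have h1 : 2 * ((1 - 2 * p) * (a * (ρ * b) ^ 3)) ≤ (a * (ρ * b)) ^ 2 + (ρ * b) ^ 4 := by
    have h12 : (1 - 2 * p) ^ 2 ≤ 1 := by nlinarith
    have h3 : 0 ≤ (a * (ρ * b) - (1 - 2 * p) * (ρ * b) ^ 2) ^ 2 := sq_nonneg _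
    have h4 : (1 - 2 * p) ^ 2 * (ρ * b) ^ 4 ≤ (ρ * b) ^ 4 := by
      have : 0 ≤ (ρ * b) ^ 4 := by positivity
      nlinarith
    nlinarith
  have hab : 0 ≤ a ^ 2 * b ^ 2 := by positivity
  have hb : 0 ≤ b ^ 4 := by positivity
  have hρ4 : 0 ≤ ρ ^ 4 := by positivity
  have h2 : 4 * v * (1 - 2 * p) * (a * (ρ * b) ^ 3) ≤
      2 * v * (ρ ^ 2 * (a ^ 2 * b ^ 2)) + 2 * v * (ρ ^ 4 * b ^ 4) := by
    have := mul_le_mul_of_nonneg_left h1 (by linarith : 0 ≤ 2 * v)
    nlinarith
  have h5 : 8 * ρ ^ 2 * v * (a ^ 2 * b ^ 2) ≤ 2 * v * (a ^ 2 * b ^ 2) := by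
    have : 0 ≤ v * (a ^ 2 * b ^ 2) := mul_nonneg hv0 hab
    nlinarith
  have h6 : ρ ^ 4 * (v * (1 - 3 * v)) * b ^ 4 + 2 * v * (ρ ^ 4 * b ^ 4) ≤ v ^ 2 * b ^ 4 := by
    have h7 : ρ ^ 4 * (3 - 3 * v) ≤ v := by nlinarith
    have h8 : 0 ≤ v * b ^ 4 := mul_nonneg hv0 hb
    nlinarith
  nlinarith

/-- conditional biased (2,4)-hypercontractivity -/
theorem hyper {p ρ : ℝ} (hp0 : 0 ≤ p) (hp1 : p ≤ 1)
    (hρ : ρ ^ 4 ≤ p * (1 - p) / 4) (B : Finset ι) :
    ∀ (g : (ι → Bool) → ℝ) (x : ι → Bool),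
      T p 0 B (fun z => (T p ρ B g z) ^ 4) x ≤ (T p 0 B (fun z => g z ^ 2) x) ^ 2 := by
  induction B using Finset.induction_on with
  | empty => intro g x; simp only [T_empty]; nlinarith
  | insert e B he ih =>
    intro g x
    have hgood := good_npi hp0 hp1 le_rfl zero_le_one B x
    set m : (ι → Bool) → ℝ := fun z => p * up e true g z + (1 - p) * up e false g z with hm
    set d : (ι → Bool) → ℝ := fun z => up e true g z - up e false g z with hd
    have hmi : ∀ b, up e b m = m := by intro b; funext z; simp [hm, up]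
    have hdi : ∀ b, up e b d = d := by intro b; funext z; simp [hd, up]
    have hT : ∀ z, T p ρ (insert e B) g z =
        T p ρ B m z + ρ * (bv (z e) - p) * T p ρ B d z := by
      intro z
      rw [T_insert p ρ he]
      simp only [T, hm, hd]
      rw [Ex_add, Ex_sub, Ex_mul_left, Ex_mul_left]; ring
    have hL : T p 0 (insert e B) (fun z => (T p ρ (insert e B) g z) ^ 4) x =
        T p 0 B (fun z => p * (T p ρ B m z + ρ * (1 - p) * T p ρ B d z) ^ 4 +
          (1 - p) * (T p ρ B m z + ρ * (0 - p) * T p ρ B d z) ^ 4) x := by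
      rw [T_insert p 0 he]
      have e1 : up e true (fun z => (T p ρ (insert e B) g z) ^ 4) =
          fun z => (T p ρ B m z + ρ * (1 - p) * T p ρ B d z) ^ 4 := by
        funext z
        simp only [up, hT, T_indep p ρ he m hmi, T_indep p ρ he d hdi, Function.update_self,
          bv_true]
      have e2 : up e false (fun z => (T p ρ (insert e B) g z) ^ 4) =
          fun z => (T p ρ B m z + ρ * (0 - p) * T p ρ B d z) ^ 4 := by
        funext z
        simp only [up, hT, T_indep p ρ he m hmi, T_indep p ρ he d hdi, Function.update_self,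
          bv_false]
      rw [e1, e2]
      simp only [T]
      rw [Ex_add, Ex_mul_left, Ex_mul_left]; ring
    have hR : T p 0 (insert e B) (fun z => g z ^ 2) x =
        T p 0 B (fun z => m z ^ 2) x + p * (1 - p) * T p 0 B (fun z => d z ^ 2) x := by
      rw [T_insert p 0 he]
      simp only [T]
      rw [← Ex_mul_left, ← Ex_mul_left, ← Ex_mul_left, ← Ex_add, ← Ex_add]
      congr 1
      funext z
      simp only [hm, hd, up]; ring
    rw [hL, hR]
    have ha := ih m x
    have hb := ih d x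
    set A := T p 0 B (fun z => m z ^ 2) x with hA
    set Dd := T p 0 B (fun z => d z ^ 2) x with hDd
    have hA0 : 0 ≤ A := Ex_nonneg hgood fun z => sq_nonneg _
    have hD0 : 0 ≤ Dd := Ex_nonneg hgood fun z => sq_nonneg _
    have hcs := Ex_cs hgood (fun z => T p ρ B m z ^ 2) (fun z => T p ρ B d z ^ 2)
    simp only [← pow_mul] at hcs
    have hab : Ex (npi p 0 B x) (fun z => T p ρ B m z ^ 2 * T p ρ B d z ^ 2) ≤ A * Dd := by
      refine abs_le_of_sq_le_sq' (hcs.trans ?_) (mul_nonneg hA0 hD0) |>.2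
      rw [mul_pow]
      exact mul_le_mul ha hb (Ex_nonneg hgood fun z => by
        show (0:ℝ) ≤ T p ρ B d z ^ (2 * 2); rw [pow_mul]; exact sq_nonneg _) (sq_nonneg _)
    have hv0 : 0 ≤ p * (1 - p) := mul_nonneg hp0 (by linarith)
    calc _ ≤ Ex (npi p 0 B x) (fun z => T p ρ B m z ^ 4 +
            2 * (p * (1 - p)) * (T p ρ B m z ^ 2 * T p ρ B d z ^ 2) +
              (p * (1 - p)) ^ 2 * T p ρ B d z ^ 4) :=
          Ex_mono hgood fun z => one_step hp0 hp1 hρ _ _
      _ = Ex (npi p 0 B x) (fun z => T p ρ B m z ^ 4) +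
            2 * (p * (1 - p)) * Ex (npi p 0 B x) (fun z => T p ρ B m z ^ 2 * T p ρ B d z ^ 2) +
              (p * (1 - p)) ^ 2 * Ex (npi p 0 B x) (fun z => T p ρ B d z ^ 4) := by
          rw [Ex_add, Ex_add, Ex_mul_left, Ex_mul_left]
      _ ≤ A ^ 2 + 2 * (p * (1 - p)) * (A * Dd) + (p * (1 - p)) ^ 2 * Dd ^ 2 := by
          have h1 : Ex (npi p 0 B x) (fun z => T p ρ B m z ^ 4) ≤ A ^ 2 := ha
          have h2 : Ex (npi p 0 B x) (fun z => T p ρ B d z ^ 4) ≤ Dd ^ 2 := hb
          gcongr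
      _ = _ := by ring

/-- the (4/3,2) form for functions with values in `{0,1,-1}` -/
theorem hyper_dual {p ρ : ℝ} (hp0 : 0 ≤ p) (hp1 : p ≤ 1)
    (hρ : ρ ^ 4 ≤ p * (1 - p) / 4) (B : Finset ι) (g : (ι → Bool) → ℝ)
    (hg : ∀ z, g z ^ 3 = g z) (x : ι → Bool) :
    (T p 0 B (fun z => (T p ρ B g z) ^ 2) x) ^ 2 ≤ (T p 0 B (fun z => g z ^ 2) x) ^ 3 := by
  have hgood := good_npi hp0 hp1 le_rfl zero_le_one B x
  set h := T p ρ B g with hh
  set X := T p 0 B (fun z => h z ^ 2) x with hX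
  set q := T p 0 B (fun z => g z ^ 2) x with hq
  have hX0 : 0 ≤ X := Ex_nonneg hgood fun z => sq_nonneg _
  have hq0 : 0 ≤ q := Ex_nonneg hgood fun z => sq_nonneg _
  have h1 : X = Ex (npi p 0 B x) (fun z => g z ^ 2 * (g z * T p ρ B h z)) := by
    have := T_selfadj p ρ B g h x
    have e : (fun z => h z ^ 2) = fun z => T p ρ B g z * h z := by funext z; rw [← hh]; ring
    rw [hX, e, ← this]
    unfold T
    congr 1
    funext z
    have := hg z
    calc _ = g z ^ 3 * Ex (npi p ρ B z) h := by rw [this]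
      _ = _ := by ring
  have h4 : (fun z => (g z ^ 2) ^ 2) = fun z => g z ^ 2 := by
    funext z; calc (g z ^ 2) ^ 2 = g z ^ 3 * g z := by ring
      _ = _ := by rw [hg z]; ring
  have h2 := Ex_cs hgood (fun z => g z ^ 2) (fun z => g z * T p ρ B h z)
  rw [← h1, h4] at h2
  have h3 := Ex_cs hgood (fun z => g z ^ 2) (fun z => T p ρ B h z ^ 2)
  rw [h4] at h3
  simp only [← pow_mul] at h3
  have h5 := hyper hp0 hp1 hρ B h x
  set Y := Ex (npi p 0 B x) (fun z => (g z * T p ρ B h z) ^ 2) with hY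
  have hY' : Ex (npi p 0 B x) (fun z => g z ^ 2 * T p ρ B h z ^ 2) = Y := by
    rw [hY]; congr 1; funext z; ring
  rw [hY'] at h3
  have hY0 : 0 ≤ Y := Ex_nonneg hgood fun z => sq_nonneg _
  have h2' : X ^ 2 ≤ q * Y := h2
  have h3' : Y ^ 2 ≤ q * X ^ 2 := h3.trans (mul_le_mul_of_nonneg_left h5 hq0)
  have h6 : X ^ 2 * X ^ 2 ≤ q ^ 3 * X ^ 2 := by
    calc X ^ 2 * X ^ 2 ≤ (q * Y) * (q * Y) :=
          mul_le_mul h2' h2' (sq_nonneg _) (mul_nonneg hq0 hY0)
      _ = q ^ 2 * Y ^ 2 := by ring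
      _ ≤ q ^ 2 * (q * X ^ 2) := mul_le_mul_of_nonneg_left h3' (sq_nonneg _)
      _ = _ := by ring
  rcases eq_or_lt_of_le (sq_nonneg X) with h0 | h0
  · rw [← h0]; positivity
  · exact le_of_mul_le_mul_right h6 h0

end Crest.Agent.H6.Cube
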