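import Crest.Agent.H6.CubeBasic

/-! Biased Fourier expansion on the cube. -/

namespace Crest.Agent.H6.Cube
open Finset

variable {ι : Type*} [Fintype ι] [DecidableEq ι]

/-- unnormalised biased characters -/
noncomputable def psi (p : ℝ) (S : Finset ι) (x : ι → Bool) : ℝ := ∏ e ∈ S, (bv (x e) - p)

lemma exists_expansion (p : ℝ) (f : (ι → Bool) → ℝ) :
    ∃ c : Finset ι → ℝ, ∀ x, f x = ∑ S, c S * psi p S x := by
  let β : Bool → ℝ := fun b => if b then 1 else -1
  refine ⟨fun S => ∑ z, f z * ((∏ e ∈ S, β (z e)) * ∏ e ∈ univ \ S, kw p (z e)), fun x => ?_⟩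
  have h1 : ∀ z : ι → Bool, (∏ e, (β (z e) * (bv (x e) - p) + kw p (z e))) =
      if z = x then 1 else 0 := by
    intro z
    split_ifs with h
    · subst h
      refine Finset.prod_eq_one fun e _ => ?_
      cases z e <;> simp [β]
    · obtain ⟨e, he⟩ := Function.ne_iff.1 h
      refine Finset.prod_eq_zero (mem_univ e) ?_
      revert he
      cases z e <;> cases x e <;> simp [β]
  have h2 : f x = ∑ z, f z * ∏ e, (β (z e) * (bv (x e) - p) + kw p (z e)) := by
    simp_rw [h1]; simp
  rw [h2]
  simp_rw [Finset.prod_add, Finset.powerset_univ, Finset.mul_sum, Finset.sum_mul]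
  rw [Finset.sum_comm]
  refine Finset.sum_congr rfl fun S _ => Finset.sum_congr rfl fun z _ => ?_
  rw [Finset.prod_mul_distrib]; unfold psi; ring

lemma Ex_psi (π : ι → ℝ) (p : ℝ) (S : Finset ι) : Ex π (psi p S) = ∏ e ∈ S, (π e - p) := by
  have h := Ex_prod π (fun e b => if e ∈ S then bv b - p else 1)
  have h1 : (fun x : ι → Bool => ∏ e, (if e ∈ S then bv (x e) - p else 1)) = psi p S := by
    funext x; rw [Finset.prod_ite_mem]; simp [psi]
  rw [h1] at h
  rw [h, ← Finset.prod_ite_mem_eq S]
  refine Finset.prod_congr rfl fun e _ => ?_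
  split_ifs <;> simp <;> ring

lemma Ex_psi_mul (p : ℝ) (S S' : Finset ι) :
    Ex (fun _ => p) (fun x => psi p S x * psi p S' x) =
      if S = S' then (p * (1 - p)) ^ S.card else 0 := by
  have h := Ex_prod (fun _ : ι => p)
    (fun e b => (if e ∈ S then bv b - p else 1) * (if e ∈ S' then bv b - p else 1))
  have h1 : (fun x : ι → Bool => ∏ e, ((if e ∈ S then bv (x e) - p else 1) *
      (if e ∈ S' then bv (x e) - p else 1))) = fun x => psi p S x * psi p S' x := by
    funext x; rw [Finset.prod_mul_distrib, Finset.prod_ite_mem, Finset.prod_ite_mem]; simp [psi]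
  rw [h1] at h
  rw [h]
  split_ifs with hS
  · subst hS
    rw [← Finset.prod_const, ← Finset.prod_ite_mem_eq S]
    refine Finset.prod_congr rfl fun e _ => ?_
    split_ifs <;> simp <;> ring
  · obtain ⟨e, he⟩ : ∃ e, ¬ (e ∈ S ↔ e ∈ S') := by
      by_contra hc
      push Not at hc
      exact hS (Finset.ext hc)
    refine Finset.prod_eq_zero (mem_univ e) ?_
    by_cases h1 : e ∈ S <;> by_cases h2 : e ∈ S' <;> simp_all <;> ring

lemma T_psi (p ρ : ℝ) (B S : Finset ι) (x : ι → Bool) :
    T p ρ B (psi p S) x = ρ ^ (S ∩ B).card * psi p S x := by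
  unfold T
  rw [Ex_psi, ← Finset.prod_const, ← Finset.prod_ite_mem, psi, ← Finset.prod_mul_distrib]
  refine Finset.prod_congr rfl fun e _ => ?_
  unfold npi
  split_ifs <;> ring

omit [Fintype ι] in
lemma D_psi (p : ℝ) (e : ι) (S : Finset ι) (x : ι → Bool) :
    D e (psi p S) x = if e ∈ S then psi p (S.erase e) x else 0 := by
  have h : ∀ b, psi p (S.erase e) (Function.update x e b) = psi p (S.erase e) x := by
    intro b
    unfold psi
    refine Finset.prod_congr rfl fun i hi => ?_
    rw [Function.update_of_ne (Finset.ne_of_mem_erase hi)]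
  unfold D
  split_ifs with he
  · have h2 : ∀ y, psi p S y = (bv (y e) - p) * psi p (S.erase e) y := by
      intro y; unfold psi; rw [Finset.mul_prod_erase S (fun e => bv (y e) - p) he]
    rw [h2, h2, h, h]; simp; ring
  · rw [Finset.erase_eq_of_notMem he] at h
    rw [h, h, sub_self]

lemma parseval_family (p : ℝ) (F : Finset (Finset ι)) (a : Finset ι → ℝ)
    (m : Finset ι → Finset ι) (hm : Set.InjOn m F) :
    Ex (fun _ => p) (fun x => (∑ S ∈ F, a S * psi p (m S) x) ^ 2) =
      ∑ S ∈ F, a S ^ 2 * (p * (1 - p)) ^ (m S).card := by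
  have h1 : (fun x => (∑ S ∈ F, a S * psi p (m S) x) ^ 2) =
      fun x => ∑ S ∈ F, ∑ S' ∈ F, (a S * a S') * (psi p (m S) x * psi p (m S') x) := by
    funext x
    rw [sq, Finset.sum_mul_sum]
    exact Finset.sum_congr rfl fun S _ => Finset.sum_congr rfl fun S' _ => by ring
  rw [h1, Ex_sum]
  refine Finset.sum_congr rfl fun S hS => ?_
  rw [Ex_sum]
  simp_rw [Ex_mul_left, Ex_psi_mul]
  rw [Finset.sum_eq_single S]
  · simp [sq]
  · intro S' hS' hne
    rw [if_neg (fun h => hne (hm hS hS' h).symm), mul_zero]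
  · intro h; exact absurd hS h

/-- the spectral weights of a function -/
theorem exists_spec {p : ℝ} (hp0 : 0 ≤ p) (hp1 : p ≤ 1) (f : (ι → Bool) → ℝ) :
    ∃ ω : Finset ι → ℝ, (∀ S, 0 ≤ ω S) ∧
      Ex (fun _ => p) (fun x => f x ^ 2) - (Ex (fun _ => p) f) ^ 2 =
        ∑ S ∈ univ.erase ∅, ω S ∧
      ∀ (ρ : ℝ) (B : Finset ι) (e : ι),
        p * (1 - p) * Ex (fun _ => p) (fun x => (T p ρ B (D e f) x) ^ 2) =
          ∑ S, if e ∈ S then ω S * (ρ ^ 2) ^ ((S.erase e) ∩ B).card else 0 := by
  obtain ⟨c, hc⟩ := exists_expansion p f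
  have hv0 : 0 ≤ p * (1 - p) := mul_nonneg hp0 (by linarith)
  refine ⟨fun S => c S ^ 2 * (p * (1 - p)) ^ S.card, fun S => by positivity, ?_, ?_⟩
  · have h1 := parseval_family p univ c id (Set.injOn_id _)
    simp only [id] at h1
    have hf : f = fun x => ∑ S, c S * psi p S x := funext hc
    have h2 : Ex (fun _ => p) f = c ∅ := by
      rw [hf, Ex_sum]
      simp_rw [Ex_mul_left, Ex_psi]
      rw [Finset.sum_eq_single ∅]
      · simp
      · intro S _ hS
        obtain ⟨e, he⟩ := Finset.nonempty_iff_ne_empty.2 hS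
        rw [Finset.prod_eq_zero he (sub_self p), mul_zero]
      · intro h; exact absurd (mem_univ _) h
    simp_rw [← hc] at h1
    rw [h1, h2, ← Finset.add_sum_erase univ _ (mem_univ ∅)]
    simp
  · intro ρ B e
    have hD : D e f = fun x => ∑ S ∈ univ.filter (e ∈ ·), c S * psi p (S.erase e) x := by
      funext x
      have : D e f x = ∑ S, c S * D e (psi p S) x := by
        simp only [D, hc, ← Finset.sum_sub_distrib]
        exact Finset.sum_congr rfl fun S _ => by ring
      rw [this, Finset.sum_filter]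
      refine Finset.sum_congr rfl fun S _ => ?_
      rw [D_psi]; split_ifs <;> simp
    have hT : ∀ x, T p ρ B (D e f) x = ∑ S ∈ univ.filter (e ∈ ·),
        (c S * ρ ^ ((S.erase e) ∩ B).card) * psi p (S.erase e) x := by
      intro x
      rw [hD]
      unfold T
      rw [Ex_sum]
      refine Finset.sum_congr rfl fun S _ => ?_
      rw [Ex_mul_left]
      have := T_psi p ρ B (S.erase e) x
      unfold T at this
      rw [this]; ring
    simp_rw [hT]
    rw [parseval_family p _ _ (fun S => S.erase e), Finset.mul_sum, Finset.sum_filter]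
    · refine Finset.sum_congr rfl fun S _ => ?_
      split_ifs with he
      · rw [← Finset.card_erase_add_one he]; ring
      · rfl
    · intro S hS S' hS' h
      simp only [Finset.coe_filter, mem_univ, true_and, Set.mem_ofPred_eq] at hS hS'
      rw [← Finset.insert_erase hS, ← Finset.insert_erase hS']
      simp only at h
      rw [h]

end Crest.Agent.H6.Cube
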