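import Mathlib

/-! Re-charting a boundaryless manifold onto its model vector space. -/

set_option autoImplicit false

open Set
open scoped Manifold ContDiff

noncomputable section

namespace H6Ent

section
variable {E : Type*} [NormedAddCommGroup E] [NormedSpace ℝ E] {H : Type*} [TopologicalSpace H]
  (J : ModelWithCorners ℝ E H) [J.Boundaryless] (M : Type*) [TopologicalSpace M]
  [ChartedSpace H M]

/-- charts composed with the model map -/
@[reducible] def reChart : ChartedSpace E M where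
  atlas := (fun c => c.transHomeomorph J.toHomeomorph) '' atlas H M
  chartAt x := (chartAt H x).transHomeomorph J.toHomeomorph
  mem_chart_source x := mem_chart_source H x
  chart_mem_atlas x := ⟨_, chart_mem_atlas H x, rfl⟩

lemma reChart_isManifold [IsManifold J ∞ M] :
    @IsManifold ℝ _ E _ _ E _ 𝓘(ℝ, E) ∞ M _ (reChart J M) := by
  refine @isManifold_of_contDiffOn ℝ _ E _ _ E _ 𝓘(ℝ, E) ∞ M _ (reChart J M) ?_
  rintro _ _ ⟨c, hc, rfl⟩ ⟨c', hc', rfl⟩
  have h := ((contDiffGroupoid ∞ J).compatible hc hc').1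
  refine ContDiffOn.mono (s := J.symm ⁻¹' (c.symm ≫ₕ c').source ∩ range J) h ?_
  intro x hx
  exact ⟨hx.1, by simp [J.range_eq_univ]⟩

lemma reChart_contMDiff {f : M → M} (hf : ContMDiff J J 1 f) :
    @ContMDiff ℝ _ E _ _ E _ 𝓘(ℝ, E) M _ (reChart J M) E _ _ E _ 𝓘(ℝ, E) M _ (reChart J M) 1 f := by
  intro x
  have h := contMDiffAt_iff.1 (hf x)
  refine (@contMDiffAt_iff ℝ _ E _ _ E _ 𝓘(ℝ, E) M _ (reChart J M) E _ _ E _ 𝓘(ℝ, E) M _
    (reChart J M) 1 f x).2 ⟨h.1, ?_⟩
  have h2 := h.2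
  rw [J.range_eq_univ] at h2
  rw [ModelWithCorners.range_eq_univ]
  exact h2

end

theorem exists_rechart {E : Type*} [NormedAddCommGroup E] [NormedSpace ℝ E]
    [FiniteDimensional ℝ E] {H : Type*} [TopologicalSpace H]
    (I : ModelWithCorners ℝ E H) [I.Boundaryless] (M : Type*) [TopologicalSpace M]
    [ChartedSpace H M] [IsManifold I ∞ M] {f : M → M} (hf : ContMDiff I I 1 f) :
    ∃ (n : ℕ) (_ : ChartedSpace (EuclideanSpace ℝ (Fin n)) M)
      (_ : IsManifold 𝓘(ℝ, EuclideanSpace ℝ (Fin n)) ∞ M),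
      ContMDiff 𝓘(ℝ, EuclideanSpace ℝ (Fin n)) 𝓘(ℝ, EuclideanSpace ℝ (Fin n)) 1 f := by
  let L : E ≃L[ℝ] EuclideanSpace ℝ (Fin (Module.finrank ℝ E)) :=
    ContinuousLinearEquiv.ofFinrankEq (by simp)
  let J := I.transContinuousLinearEquiv L
  haveI : J.Boundaryless := ⟨by
    rw [ModelWithCorners.transContinuousLinearEquiv_range, I.range_eq_univ, image_univ,
      L.surjective.range_eq]⟩
  have hf' : ContMDiff J J 1 f := by
    rw [ContinuousLinearEquiv.contMDiff_transContinuousLinearEquiv_right,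
      ContinuousLinearEquiv.contMDiff_transContinuousLinearEquiv_left]
    exact hf
  exact ⟨_, reChart J M, reChart_isManifold J M, reChart_contMDiff J M hf'⟩

end H6Ent
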