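import Crest.Agent.H6.EntLine

/-! Explicit singular simplices on the sphere: cones over equatorial arcs. -/

set_option autoImplicit false
set_option linter.unusedSimpArgs false

open Filter Topology Set Complex
open scoped ComplexConjugate Real

noncomputable section

namespace H6Ent

def eI (θ : ℝ) : ℂ := exp (2 * π * θ * I)

lemma norm_eI (θ : ℝ) : ‖eI θ‖ = 1 := by
  have : (2 * π * θ * I : ℂ) = ((2 * π * θ : ℝ) : ℂ) * I := by push_cast; ring
  rw [eI, this, norm_exp_ofReal_mul_I]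

lemma normSq_eI (θ : ℝ) : normSq (eI θ) = 1 := by rw [normSq_eq_norm_sq, norm_eI]; norm_num

lemma eI_add_one (θ : ℝ) : eI (θ + 1) = eI θ := by
  have : (2 * π * ((θ + 1 : ℝ) : ℂ) * I : ℂ) = 2 * π * θ * I + 2 * π * I := by push_cast; ring
  rw [eI, this, exp_add, exp_two_pi_mul_I, mul_one, eI]

lemma eI_two_mul (θ : ℝ) : eI (2 * θ) = eI θ ^ 2 := by
  rw [eI, eI, ← Complex.exp_nat_mul]; congr 1; push_cast; ring

@[fun_prop] lemma continuous_eI : Continuous eI := by unfold eI; fun_prop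

def pt (z : ℝ) (hz : z ^ 2 ≤ 1) (θ : ℝ) : S2 :=
  mk2 ((√(1 - z ^ 2) : ℝ) * eI θ) z (by
    rw [normSq_mul, normSq_eI, normSq_ofReal, Real.mul_self_sqrt (by linarith)]; ring)

lemma pt_congr {z z' : ℝ} {hz : z ^ 2 ≤ 1} {hz' : z' ^ 2 ≤ 1} {θ θ' : ℝ} (h : z = z')
    (h' : z ^ 2 ≠ 1 → eI θ = eI θ') : pt z hz θ = pt z' hz' θ' := by
  subst h
  refine S2_ext ?_ rfl
  simp only [pt, sX_mk2]
  by_cases h1 : z ^ 2 = 1
  · simp [h1]
  · rw [h' h1]

lemma sq_le_one_of_simplex {n : ℕ} {ε : ℝ} (hε : ε ^ 2 = 1) (t : Sx n) : (ε * t 0) ^ 2 ≤ 1 := by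
  have h1 := stdSimplex.zero_le t 0
  have h2 := stdSimplex.le_one t 0
  rw [mul_pow, hε]; nlinarith

lemma continuous_coord {n : ℕ} (i : Fin (n + 1)) : Continuous fun t : Sx n => t i :=
  (continuous_apply i).comp continuous_subtype_val

/-- cone over an equatorial simplex with phase function `g` -/
def cone {n : ℕ} (ε : ℝ) (hε : ε ^ 2 = 1) (g : Sx n → ℝ) (hg : Continuous g) : C(Sx n, S2) where
  toFun t := pt (ε * t 0) (sq_le_one_of_simplex hε t) (g t / (1 - t 0))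
  continuous_toFun := by
    have h0 := continuous_coord (n := n) 0
    refine continuous_S2 ?_ (continuous_const.mul h0)
    simp only [pt, sX_mk2]
    rw [continuous_iff_continuousAt]
    intro t
    by_cases ht : t 0 = 1
    · have h1 : ((√(1 - (ε * t 0) ^ 2) : ℝ) : ℂ) * eI (g t / (1 - t 0)) = 0 := by
        simp [ht, hε]
      rw [ContinuousAt, h1, tendsto_zero_iff_norm_tendsto_zero]
      have h2 : Continuous fun t : Sx n => √(1 - (ε * t 0) ^ 2) :=
        (by fun_prop : Continuous fun x : ℝ => √(1 - (ε * x) ^ 2)).comp h0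
      have h3 := h2.tendsto t
      simp only [ht, mul_one, hε, sub_self, Real.sqrt_zero] at h3
      refine h3.congr fun s => ?_
      rw [norm_mul, norm_eI, mul_one, Complex.norm_real, Real.norm_eq_abs,
        abs_of_nonneg (Real.sqrt_nonneg _)]
    · have h2 : Continuous fun t : Sx n => ((√(1 - (ε * t 0) ^ 2) : ℝ) : ℂ) :=
        continuous_ofReal.comp
          ((by fun_prop : Continuous fun x : ℝ => √(1 - (ε * x) ^ 2)).comp h0)
      refine ContinuousAt.mul h2.continuousAt (continuous_eI.continuousAt.comp ?_)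
      exact hg.continuousAt.div (continuous_const.sub h0).continuousAt
        (sub_ne_zero.2 (Ne.symm ht))

def cone2 (ε : ℝ) (hε : ε ^ 2 = 1) (a b : ℝ) : C(Sx 2, S2) :=
  cone ε hε (fun t => a * t 1 + b * t 2)
    ((continuous_const.mul (continuous_coord 1)).add (continuous_const.mul (continuous_coord 2)))

def cone3 (ε : ℝ) (hε : ε ^ 2 = 1) : C(Sx 3, S2) :=
  cone ε hε (fun t => t 2 + 2 * t 3)
    ((continuous_coord 2).add (continuous_const.mul (continuous_coord 3)))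

lemma face_self {n : ℕ} (i : Fin (n + 2)) (t : Sx n) : face i t i = 0 := by
  change FunOnFinite.linearMap ℝ ℝ i.succAbove t i = 0
  rw [FunOnFinite.linearMap_apply_apply]
  refine Finset.sum_eq_zero fun x hx => ?_
  simp at hx

lemma face_succAbove {n : ℕ} (i : Fin (n + 2)) (t : Sx n) (j : Fin (n + 1)) :
    face i t (i.succAbove j) = t j := by
  change FunOnFinite.linearMap ℝ ℝ i.succAbove t (i.succAbove j) = t j
  rw [FunOnFinite.linearMap_apply_apply]
  have : (Finset.univ.filter fun x => i.succAbove x = i.succAbove j) = {j} := by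
    ext x; simp
  rw [this, Finset.sum_singleton]

lemma face1 (t : Sx 1) :
    (face 0 t 0 = 0 ∧ face 0 t 1 = t 0 ∧ face 0 t 2 = t 1) ∧
    (face 1 t 0 = t 0 ∧ face 1 t 1 = 0 ∧ face 1 t 2 = t 1) ∧
    (face 2 t 0 = t 0 ∧ face 2 t 1 = t 1 ∧ face 2 t 2 = 0) :=
  ⟨⟨face_self 0 t, face_succAbove 0 t 0, face_succAbove 0 t 1⟩,
   ⟨face_succAbove 1 t 0, face_self 1 t, face_succAbove 1 t 1⟩,
   ⟨face_succAbove 2 t 0, face_succAbove 2 t 1, face_self 2 t⟩⟩

lemma face2 (t : Sx 2) :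
    (face 0 t 0 = 0 ∧ face 0 t 2 = t 1 ∧ face 0 t 3 = t 2) ∧
    (face 1 t 0 = t 0 ∧ face 1 t 2 = t 1 ∧ face 1 t 3 = t 2) ∧
    (face 2 t 0 = t 0 ∧ face 2 t 2 = 0 ∧ face 2 t 3 = t 2) ∧
    (face 3 t 0 = t 0 ∧ face 3 t 2 = t 2 ∧ face 3 t 3 = 0) :=
  ⟨⟨face_self 0 t, face_succAbove 0 t 1, face_succAbove 0 t 2⟩,
   ⟨face_succAbove 1 t 0, face_succAbove 1 t 1, face_succAbove 1 t 2⟩,
   ⟨face_succAbove 2 t 0, face_self 2 t, face_succAbove 2 t 2⟩,
   ⟨face_succAbove 3 t 0, face_succAbove 3 t 2, face_self 3 t⟩⟩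

lemma one_sub_ne {ε x : ℝ} (hε : ε ^ 2 = 1) (h : (ε * x) ^ 2 ≠ 1) : 1 - x ≠ 0 := by
  intro h0
  apply h
  have : x = 1 := by linarith
  rw [this, mul_one, hε]

/-- the equatorial loop -/
def eqLoop : C(Sx 1, S2) where
  toFun t := pt 0 (by norm_num) (t 1)
  continuous_toFun := by
    have := continuous_coord (n := 1) 1
    refine continuous_S2 ?_ continuous_const
    simp only [pt, sX_mk2]
    exact continuous_const.mul (continuous_eI.comp this)

lemma eqLoop_apply (t : Sx 1) : eqLoop t = pt 0 (by norm_num) (t 1) := rfl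

lemma cone2_apply (ε : ℝ) (hε : ε ^ 2 = 1) (a b : ℝ) (t : Sx 2) : cone2 ε hε a b t =
    pt (ε * t 0) (sq_le_one_of_simplex hε t) ((a * t 1 + b * t 2) / (1 - t 0)) := rfl

lemma cone3_apply (ε : ℝ) (hε : ε ^ 2 = 1) (t : Sx 3) : cone3 ε hε t =
    pt (ε * t 0) (sq_le_one_of_simplex hε t) ((t 2 + 2 * t 3) / (1 - t 0)) := rfl

lemma cone2_face0 (ε : ℝ) (hε : ε ^ 2 = 1) : (cone2 ε hε 0 1).comp (face 0) = eqLoop := by
  ext1 t
  obtain ⟨⟨a1, a2, a3⟩, -, -⟩ := face1 t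
  simp only [ContinuousMap.comp_apply, cone2_apply, cone3_apply, eqLoop_apply]
  refine pt_congr (by simp [a1]) fun _ => ?_
  simp [a1, a3]

lemma cone2_face12 (ε : ℝ) (hε : ε ^ 2 = 1) :
    (cone2 ε hε 0 1).comp (face 1) = (cone2 ε hε 0 1).comp (face 2) := by
  ext1 t
  obtain ⟨-, ⟨a1, a2, a3⟩, ⟨b1, b2, b3⟩⟩ := face1 t
  simp only [ContinuousMap.comp_apply, cone2_apply, cone3_apply, eqLoop_apply]
  refine pt_congr (by simp [a1, b1]) fun h => ?_
  have h1 := one_sub_ne hε h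
  have h2 := stdSimplex.add_eq_one t
  simp only [a1, a3, b1, b3] at h1 ⊢
  have : (0 * face 1 t 1 + 1 * t 1) / (1 - t 0) = 0 + 1 := by
    field_simp; linarith
  rw [this, eI_add_one]
  simp

lemma cone3_face0 (ε ε' : ℝ) (hε : ε ^ 2 = 1) (hε' : ε' ^ 2 = 1) :
    (cone3 ε hε).comp (face 0) = (cone3 ε' hε').comp (face 0) := by
  ext1 t
  obtain ⟨⟨a1, a2, a3⟩, -⟩ := face2 t
  simp only [ContinuousMap.comp_apply, cone3_apply]
  exact pt_congr (by simp [a1]) fun _ => rfl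

lemma cone3_face1 (ε : ℝ) (hε : ε ^ 2 = 1) : (cone3 ε hε).comp (face 1) = cone2 ε hε 0 1 := by
  ext1 t
  obtain ⟨-, ⟨a1, a2, a3⟩, -⟩ := face2 t
  simp only [ContinuousMap.comp_apply, cone2_apply, cone3_apply, eqLoop_apply]
  refine pt_congr (by simp [a1]) fun h => ?_
  have h1 := one_sub_ne hε h
  have h2 := stdSimplex.sum_eq_one t
  rw [Fin.sum_univ_three] at h2
  simp only [a1, a2, a3] at h1 ⊢
  have : (t 1 + 2 * t 2) / (1 - t 0) = (0 * t 1 + 1 * t 2) / (1 - t 0) + 1 := by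
    field_simp; linarith
  rw [this, eI_add_one]

lemma cone3_face2 (ε : ℝ) (hε : ε ^ 2 = 1) : (cone3 ε hε).comp (face 2) = cone2 ε hε 0 2 := by
  ext1 t
  obtain ⟨-, -, ⟨a1, a2, a3⟩, -⟩ := face2 t
  simp only [ContinuousMap.comp_apply, cone2_apply, cone3_apply, eqLoop_apply]
  refine pt_congr (by simp [a1]) fun h => ?_
  simp [a1, a2, a3]

lemma cone3_face3 (ε : ℝ) (hε : ε ^ 2 = 1) : (cone3 ε hε).comp (face 3) = cone2 ε hε 0 1 := by
  ext1 t
  obtain ⟨-, -, -, ⟨a1, a2, a3⟩⟩ := face2 t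
  simp only [ContinuousMap.comp_apply, cone2_apply, cone3_apply, eqLoop_apply]
  refine pt_congr (by simp [a1]) fun h => ?_
  simp [a1, a2, a3]

lemma continuous_dbl : Continuous fun w : ℂ => w ^ 2 / (‖w‖ : ℂ) := by
  rw [continuous_iff_continuousAt]
  intro w
  by_cases hw : w = 0
  · subst hw
    rw [ContinuousAt, tendsto_iff_norm_sub_tendsto_zero]
    have := continuous_norm.tendsto (0 : ℂ)
    simp only [norm_zero] at this
    refine this.congr fun s => ?_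
    by_cases hs : s = 0
    · simp [hs]
    · have : ‖s‖ ≠ 0 := norm_ne_zero_iff.2 hs
      simp only [ne_eq, OfNat.ofNat_ne_zero, not_false_eq_true, zero_pow, norm_zero, ofReal_zero,
        div_zero, sub_zero, Complex.norm_div, norm_pow, norm_real, norm_norm]
      field_simp
  · refine ContinuousAt.div (by fun_prop) (by fun_prop) ?_
    exact_mod_cast norm_ne_zero_iff.2 hw

lemma normSq_dbl (w : ℂ) : normSq (w ^ 2 / (‖w‖ : ℂ)) = normSq w := by
  by_cases hw : w = 0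
  · simp [hw]
  · have : normSq w ≠ 0 := by simpa using hw
    rw [normSq_div, map_pow, normSq_ofReal, ← sq, Complex.sq_norm]
    field_simp

/-- the suspension of angle doubling -/
def G0 : C(S2, S2) where
  toFun p := mk2 (sX p ^ 2 / (‖sX p‖ : ℂ)) (sZ p) (by rw [normSq_dbl]; exact sXZ p)
  continuous_toFun := continuous_S2 (continuous_dbl.comp continuous_sX) continuous_sZ

lemma G0_pt (z : ℝ) (hz : z ^ 2 ≤ 1) (θ : ℝ) : G0 (pt z hz θ) = pt z hz (2 * θ) := by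
  refine S2_ext ?_ rfl
  change (((√(1 - z ^ 2) : ℝ) : ℂ) * eI θ) ^ 2 / (‖((√(1 - z ^ 2) : ℝ) : ℂ) * eI θ‖ : ℂ) =
    ((√(1 - z ^ 2) : ℝ) : ℂ) * eI (2 * θ)
  rw [norm_mul, norm_eI, mul_one, Complex.norm_real, Real.norm_eq_abs,
    abs_of_nonneg (Real.sqrt_nonneg _), eI_two_mul]
  by_cases h : √(1 - z ^ 2) = 0
  · simp [h]
  · have : ((√(1 - z ^ 2) : ℝ) : ℂ) ≠ 0 := by exact_mod_cast h
    field_simp

lemma G0_cone2 (ε : ℝ) (hε : ε ^ 2 = 1) : G0.comp (cone2 ε hε 0 1) = cone2 ε hε 0 2 := by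
  ext1 t
  simp only [ContinuousMap.comp_apply, cone2_apply]
  rw [G0_pt]
  refine pt_congr rfl fun _ => ?_
  congr 1
  ring

lemma G0_NP : G0 NP = NP := S2_ext (by simp [G0]) rfl

lemma G0_st (w : ℂ) : G0 (st w) = st (w ^ 2 / (‖w‖ : ℂ)) := by
  refine S2_ext ?_ ?_
  · change sX (st w) ^ 2 / (‖sX (st w)‖ : ℂ) = _
    rw [sX_st, sX_st, normSq_dbl]
    have h0 := normSq_nonneg w
    have h1 : (0 : ℝ) < 2 / (normSq w + 1) := by positivity
    set c : ℝ := 2 / (normSq w + 1)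
    rw [norm_mul, Complex.norm_real, Real.norm_eq_abs, abs_of_pos h1]
    have : (c : ℂ) ≠ 0 := by exact_mod_cast h1.ne'
    push_cast
    field_simp
  · change sZ (st w) = _
    rw [sZ_st, sZ_st, normSq_dbl]

def secN (p : S2) : ℂ × ℂ := (1 + sZ p, conj (sX p))
def secS (p : S2) : ℂ × ℂ := (sX p, 1 - sZ p)

lemma sec_secN {A : Type*} [TopologicalSpace A] {ρ : A → S2} (hρ : Continuous ρ)
    (h : ∀ a, 0 ≤ sZ (ρ a)) : Sec ρ (secN ∘ ρ) := by
  refine ⟨by unfold secN; fun_prop, fun a => ⟨fun h0 => ?_, ?_, ?_⟩⟩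
  · have h1 : (1 + sZ (ρ a) : ℂ) = 0 := congrArg Prod.fst h0
    have : ((1 + sZ (ρ a) : ℝ) : ℂ) = 0 := by push_cast; exact h1
    have : 1 + sZ (ρ a) = 0 := by exact_mod_cast this
    linarith [h a]
  · simp only [Function.comp, secN]; linear_combination -sX_mul_conj (ρ a)
  · simp only [Function.comp, secN]; ring

lemma sec_secS {A : Type*} [TopologicalSpace A] {ρ : A → S2} (hρ : Continuous ρ)
    (h : ∀ a, sZ (ρ a) ≤ 0) : Sec ρ (secS ∘ ρ) := by
  refine ⟨by unfold secS; fun_prop, fun a => ⟨fun h0 => ?_, ?_, ?_⟩⟩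
  · have h1 : (1 - sZ (ρ a) : ℂ) = 0 := congrArg Prod.snd h0
    have : ((1 - sZ (ρ a) : ℝ) : ℂ) = 0 := by push_cast; exact h1
    have : 1 - sZ (ρ a) = 0 := by exact_mod_cast this
    linarith [h a]
  · simp only [Function.comp, secS]; ring
  · simp only [Function.comp, secS]; linear_combination -sX_mul_conj (ρ a)

lemma cocS_cone2 (ε : ℝ) (hε : ε ^ 2 = 1) (s : S2 → ℂ × ℂ) :
    cocS (cone2 ε hε 0 1) (s ∘ cone2 ε hε 0 1) = wind (s ∘ eqLoop) (sec eqLoop) := by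
  have h : ∀ τ : C(Sx 1, Sx 2), Dv (cone2 ε hε 0 1) (s ∘ cone2 ε hε 0 1) τ =
      wind (s ∘ (cone2 ε hε 0 1).comp τ) (sec ((cone2 ε hε 0 1).comp τ)) := fun τ => rfl
  rw [cocS, h, h, h, cone2_face12, cone2_face0]
  ring

lemma hp1 : (1 : ℝ) ^ 2 = 1 := by norm_num
lemma hm1 : (-1 : ℝ) ^ 2 = 1 := by norm_num

lemma coc_diff : coc (cone2 (-1) hm1 0 1) - coc (cone2 1 hp1 0 1) = 2 * π * I := by
  have hN : Sec (cone2 1 hp1 0 1) (secN ∘ cone2 1 hp1 0 1) :=
    sec_secN (cone2 1 hp1 0 1).continuous fun t => by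
      change 0 ≤ 1 * t 0
      simp
  have hS : Sec (cone2 (-1) hm1 0 1) (secS ∘ cone2 (-1) hm1 0 1) :=
    sec_secS (cone2 (-1) hm1 0 1).continuous fun t => by
      change -1 * t 0 ≤ 0
      simp
  have hN' : Sec eqLoop (secN ∘ eqLoop) := sec_secN eqLoop.continuous fun t => le_rfl
  have hS' : Sec eqLoop (secS ∘ eqLoop) := sec_secS eqLoop.continuous fun t => le_rfl
  rw [← cocS_eq hN, ← cocS_eq hS, cocS_cone2, cocS_cone2,
    wind_add hS' hN' (sec_spec eqLoop),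
    wind_eq (s := secS ∘ eqLoop) (fun a => (hN'.2 a).1)
      (l := fun t => 2 * π * (t 1 : ℝ) * I)
      ((continuous_const.mul (continuous_ofReal.comp (continuous_coord (n := 1) 1))).mul
        continuous_const) (fun t => ?_)]
  · simp
  · have h1 : sX (eqLoop t) = eI (t 1) := by
      change ((√(1 - (0 : ℝ) ^ 2) : ℝ) : ℂ) * eI (t 1) = _
      simp
    have h2 : sZ (eqLoop t) = 0 := rfl
    have h3 := mul_conj (eI (t 1))
    rw [normSq_eI] at h3
    change secS (eqLoop t) = eI (t 1) • secN (eqLoop t)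
    simp only [secS, secN, h1, h2, Prod.smul_mk, smul_eq_mul, h3]
    simp

end H6Ent
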