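import Mathlib

/-! Tame orbits (boundedly many breaks) give zero topological entropy. -/

set_option autoImplicit false

open Filter Topology Set

namespace H6Ent

section Tame
variable {X : Type*} [PseudoMetricSpace X] (f : X → X)

/-- The orbit segment of length `n` of `x` splits, at at most `L` break times, into blocks of
diameter at most `ε`. -/
def Tm (ε : ℝ) (x : X) (n L : ℕ) : Prop :=
  ∃ B : Finset ℕ, B.card ≤ L ∧ ∀ i j, i ≤ j → j < n → (∀ k ∈ B, ¬ (i ≤ k ∧ k < j)) →
    dist (f^[i] x) (f^[j] x) ≤ ε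

variable {f}

lemma Tm.mono {ε : ℝ} {x : X} {n n' L L' : ℕ} (h : Tm f ε x n L) (hn : n' ≤ n) (hL : L ≤ L') :
    Tm f ε x n' L' := by
  obtain ⟨B, hB, h⟩ := h
  exact ⟨B, hB.trans hL, fun i j hij hj hk => h i j hij (by omega) hk⟩

lemma Tm.short {ε : ℝ} (hε : 0 ≤ ε) (x : X) (n : ℕ) : Tm f ε x n n := by
  refine ⟨Finset.range n, by simp, fun i j hij hj hk => ?_⟩
  have : i = j := by
    by_contra hne
    exact hk i (by simp; omega) ⟨le_rfl, by omega⟩
  subst this
  simpa using hε

lemma Tm.concat {ε : ℝ} {x : X} {T n L₁ L₂ : ℕ} (h₁ : Tm f ε x T L₁)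
    (h₂ : Tm f ε (f^[T] x) n L₂) : Tm f ε x (T + n) (L₁ + L₂ + 1) := by
  classical
  obtain ⟨B₁, hB₁, h₁⟩ := h₁
  obtain ⟨B₂, hB₂, h₂⟩ := h₂
  refine ⟨insert (T - 1) (B₁ ∪ B₂.image (· + T)), ?_, fun i j hij hj hk => ?_⟩
  · refine (Finset.card_insert_le _ _).trans ?_
    have := Finset.card_union_le B₁ (B₂.image (· + T))
    have := Finset.card_image_le (s := B₂) (f := (· + T))
    omega
  · by_cases hjT : j < T
    · exact h₁ i j hij hjT fun k hkB => hk k (by simp [hkB])
    · by_cases hiT : T ≤ i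
      · obtain ⟨i', rfl⟩ : ∃ i', i = i' + T := ⟨i - T, by omega⟩
        obtain ⟨j', rfl⟩ : ∃ j', j = j' + T := ⟨j - T, by omega⟩
        rw [Function.iterate_add_apply, Function.iterate_add_apply]
        refine h₂ i' j' (by omega) (by omega) fun k hkB hk' => ?_
        refine hk (k + T) ?_ ⟨by omega, by omega⟩
        simp only [Finset.mem_insert, Finset.mem_union, Finset.mem_image]
        exact Or.inr (Or.inr ⟨k, hkB, rfl⟩)
      · exact absurd ⟨by omega, by omega⟩ (hk (T - 1) (by simp))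

variable (f) in
/-- All finite orbit segments are tame with the same bound. -/
def TT (ε : ℝ) (x : X) (L : ℕ) : Prop := ∀ n, Tm f ε x n L

lemma TT.mono {ε : ℝ} {x : X} {L L' : ℕ} (h : TT f ε x L) (hL : L ≤ L') : TT f ε x L' :=
  fun n => (h n).mono le_rfl hL

lemma TT.of_iter {ε : ℝ} (hε : 0 ≤ ε) {x : X} {L : ℕ} (T : ℕ) (h : TT f ε (f^[T] x) L) :
    TT f ε x (T + L + 1) := fun n =>
  ((Tm.short hε x T).concat (h n)).mono (by omega) le_rfl

lemma TT.of_step {ε : ℝ} (hε : 0 ≤ ε) {x : X} {L : ℕ} (h : TT f ε (f x) L) :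
    TT f ε x (L + 2) :=
  (TT.of_iter hε 1 (by simpa using h)).mono (by omega)

lemma TT.phase {ε : ℝ} {x : X} {L₁ L₂ : ℕ} (A : Set X)
    (h₁ : ∀ T, (∀ k < T, f^[k] x ∈ A) → Tm f ε x T L₁)
    (h₂ : ∀ T, (∀ k < T, f^[k] x ∈ A) → f^[T] x ∉ A → TT f ε (f^[T] x) L₂) :
    TT f ε x (L₁ + L₂ + 1) := by
  classical
  intro n
  by_cases h : ∃ T, f^[T] x ∉ A
  · have hT := Nat.find_spec h
    have hlt : ∀ k < Nat.find h, f^[k] x ∈ A := fun k hk => by
      simpa using Nat.find_min h hk
    exact ((h₁ _ hlt).concat (h₂ _ hlt hT n)).mono (by omega) le_rfl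
  · push Not at h
    exact (h₁ n fun k _ => h k).mono le_rfl (by omega)

end Tame

/-- Break set for a monotone bounded real sequence. -/
lemma breaks_of_monotone (t : ℕ → ℝ) (ht : Monotone t) (N : ℕ) (δ : ℝ) (hδ : 0 < δ)
    (h0 : ∀ k, 0 ≤ t k) (h1 : ∀ k, t k ≤ N * δ) (n : ℕ) :
    ∃ B : Finset ℕ, B.card ≤ N + 1 ∧ ∀ i j, i ≤ j → j < n → (∀ k ∈ B, ¬ (i ≤ k ∧ k < j)) →
      |t i - t j| ≤ δ := by
  classical
  set g : ℕ → ℕ := fun k => ⌊t k / δ⌋₊ with hg
  have hgm : Monotone g := fun a b hab =>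
    Nat.floor_mono (div_le_div_of_nonneg_right (ht hab) hδ.le)
  have hgN : ∀ k, g k ≤ N := fun k => by
    have : t k / δ ≤ N := by rw [div_le_iff₀ hδ]; exact h1 k
    simpa [hg] using Nat.floor_mono this
  refine ⟨(Finset.range n).filter fun k => g k ≠ g (k + 1), ?_, fun i j hij hj hk => ?_⟩
  · have : ((Finset.range n).filter fun k => g k ≠ g (k + 1)).card ≤ (Finset.range (N + 1)).card := by
      refine Finset.card_le_card_of_injOn g (fun k _ => by simpa using Nat.lt_succ_of_le (hgN k)) ?_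
      intro a ha b hb hab
      simp only [Finset.coe_filter, Set.mem_ofPred_eq] at ha hb
      by_contra hne
      rcases lt_or_gt_of_ne hne with h | h
      · have h2 := hgm (Nat.succ_le_of_lt h)
        have h3 := hgm (Nat.le_succ a)
        simp only [Nat.succ_eq_add_one] at h2 h3
        exact ha.2 (by omega)
      · have h2 := hgm (Nat.succ_le_of_lt h)
        have h3 := hgm (Nat.le_succ b)
        simp only [Nat.succ_eq_add_one] at h2 h3
        exact hb.2 (by omega)
    simpa using this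
  · have hgij : g i = g j := by
      induction j, hij using Nat.le_induction with
      | base => rfl
      | succ j hij ih =>
        rw [ih (by omega) fun k hkB hk' => hk k hkB ⟨hk'.1, by omega⟩]
        by_contra hne
        exact hk j (by simp [hne]; omega) ⟨hij, by omega⟩
    have a1 : (g i : ℝ) ≤ t i / δ := Nat.floor_le (div_nonneg (h0 i) hδ.le)
    have a2 : t j / δ < g j + 1 := Nat.lt_floor_add_one _
    have a3 := ht hij
    rw [le_div_iff₀ hδ] at a1
    rw [div_lt_iff₀ hδ] at a2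
    rw [hgij] at a1
    rw [abs_le]
    constructor <;> nlinarith

/-- Break set for an orbit of a monotone self-map of `[0, N δ]`. -/
lemma breaks_of_orbit (φ : ℝ → ℝ) (hφ : Monotone φ) (t₀ : ℝ) (N : ℕ) (δ : ℝ) (hδ : 0 < δ)
    (h0 : ∀ k, 0 ≤ φ^[k] t₀) (h1 : ∀ k, φ^[k] t₀ ≤ N * δ) (n : ℕ) :
    ∃ B : Finset ℕ, B.card ≤ N + 1 ∧ ∀ i j, i ≤ j → j < n → (∀ k ∈ B, ¬ (i ≤ k ∧ k < j)) →
      |φ^[i] t₀ - φ^[j] t₀| ≤ δ := by
  rcases le_total t₀ (φ t₀) with h | h
  · exact breaks_of_monotone _ (hφ.monotone_iterate_of_le_map h) N δ hδ h0 h1 n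
  · have ha := hφ.antitone_iterate_of_map_le h
    obtain ⟨B, hB, hh⟩ := breaks_of_monotone (fun k => N * δ - φ^[k] t₀)
      (fun a b hab => by have := ha hab; simp only; linarith) N δ hδ
      (fun k => by have := h1 k; linarith) (fun k => by have := h0 k; linarith) n
    refine ⟨B, hB, fun i j hij hj hk => ?_⟩
    have := hh i j hij hj hk
    rw [abs_le] at this ⊢
    constructor <;> linarith [this.1, this.2]

lemma poly_le_exp (C L : ℕ) (b : ℝ) (hb : 0 < b) :
    ∀ᶠ n : ℕ in atTop, ((C * (n + 1) ^ L : ℕ) : ℝ) ≤ Real.exp (b * n) := by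
  have h := (isLittleO_pow_exp_pos_mul_atTop L hb).comp_tendsto tendsto_natCast_atTop_atTop
  have hc : (0 : ℝ) < 1 / ((C + 1) * 2 ^ L) := by positivity
  filter_upwards [h.bound hc, eventually_ge_atTop 1] with n hn hn1
  simp only [Function.comp, Real.norm_eq_abs, abs_pow, Nat.abs_cast, Real.abs_exp] at hn
  have hn1' : (1 : ℝ) ≤ n := by exact_mod_cast hn1
  have h2 : ((n : ℝ) + 1) ^ L ≤ 2 ^ L * (n : ℝ) ^ L := by
    rw [← mul_pow]; gcongr; linarith
  push_cast
  have h3 : ((C : ℝ) + 1) * 2 ^ L * (n : ℝ) ^ L ≤ Real.exp (b * n) := by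
    rw [div_mul_eq_mul_div, one_mul, le_div_iff₀ (by positivity)] at hn
    linarith
  have h4 : (0 : ℝ) ≤ 2 ^ L * (n : ℝ) ^ L := by positivity
  calc (C : ℝ) * ((n : ℝ) + 1) ^ L ≤ C * (2 ^ L * (n : ℝ) ^ L) := by gcongr
    _ ≤ ((C : ℝ) + 1) * 2 ^ L * (n : ℝ) ^ L := by nlinarith
    _ ≤ _ := h3

theorem coverEntropy_eq_zero {X : Type*} [PseudoMetricSpace X] [CompactSpace X] [Nonempty X]
    (f : X → X) (h : ∀ ε > 0, ∃ L, ∀ x, TT f ε x L) :
    Dynamics.coverEntropy f univ = 0 := by
  classical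
  refine le_antisymm ?_ (Dynamics.coverEntropy_nonneg f univ_nonempty)
  refine iSup₂_le fun U hU => ?_
  obtain ⟨ε, hε, hεU⟩ := Metric.mem_uniformity_dist.1 hU
  have hδ : 0 < ε / 5 := by positivity
  obtain ⟨L, hL⟩ := h _ hδ
  obtain ⟨t, -, ht, hcov⟩ := finite_cover_balls_of_compact (isCompact_univ (X := X)) hδ
  have hν : ∀ x : X, ∃ y ∈ ht.toFinset, dist x y < ε / 5 := fun x => by
    simpa using hcov (mem_univ x)
  choose ν hνN hνd using hν
  set N := ht.toFinset
  have key : ∀ n : ℕ, Dynamics.coverMincard f univ U n ≤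
      ((N.card * (L + 1) * (N.card + 1) ^ L * (n + 1) ^ L : ℕ) : ℕ∞) := by
    intro n
    choose B hBc hB using fun x => hL x n
    let code : X → X × Finset (ℕ × X) := fun x =>
      (ν x, ((B x).filter (· < n)).image fun k => (k, ν (f^[k + 1] x)))
    let C : Finset (X × Finset (ℕ × X)) :=
      N ×ˢ (Finset.range (L + 1)).biUnion fun i => Finset.powersetCard i (Finset.range n ×ˢ N)
    have hC : ∀ x, code x ∈ C := by
      intro x
      simp only [C, code, Finset.mem_product, Finset.mem_biUnion, Finset.mem_range,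
        Finset.mem_powersetCard]
      refine ⟨hνN x, _, ?_, ?_, rfl⟩
      · have := Finset.card_image_le (s := (B x).filter (· < n))
          (f := fun k => (k, ν (f^[k + 1] x)))
        have := Finset.card_filter_le (B x) (· < n)
        have := hBc x
        omega
      · intro p hp
        simp only [Finset.mem_image, Finset.mem_filter] at hp
        obtain ⟨k, hk, rfl⟩ := hp
        simp [hk.2, hνN]
    let rep : X × Finset (ℕ × X) → X := Function.invFun code
    have hrep : ∀ x, code (rep (code x)) = code x := fun x => Function.invFun_eq ⟨x, rfl⟩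
    have hcover : Dynamics.IsDynCoverOf f univ U n (C.image rep : Finset X) := by
      intro x _
      refine ⟨rep (code x), by simpa using ⟨_, _, hC x, rfl⟩, ?_⟩
      set y := rep (code x)
      have hxy : code y = code x := hrep x
      have h1 : ν y = ν x := congrArg Prod.fst hxy
      have h2 : ∀ k a, (k ∈ B y ∧ k < n) ∧ ν (f^[k + 1] y) = a ↔
          (k ∈ B x ∧ k < n) ∧ ν (f^[k + 1] x) = a := by
        intro k a
        have := congrArg (fun c : X × Finset (ℕ × X) => (k, a) ∈ c.2) hxy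
        simpa [code] using this
      change (x, y) ∈ Dynamics.dynEntourage f U n
      rw [Dynamics.mem_dynEntourage]
      intro k hk
      apply hεU
      obtain ⟨i, hik, hi1, hi2⟩ : ∃ i ≤ k, ν (f^[i] y) = ν (f^[i] x) ∧
          ∀ b ∈ B x, ¬ (i ≤ b ∧ b < k) := by
        by_cases hS : ((B x).filter (· < k)).Nonempty
        · set b := ((B x).filter (· < k)).max' hS
          have hb : b ∈ (B x).filter (· < k) := Finset.max'_mem _ hS
          simp only [Finset.mem_filter] at hb
          refine ⟨b + 1, by omega, ((h2 b _).2 ⟨⟨hb.1, by omega⟩, rfl⟩).2, fun b' hb' hh => ?_⟩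
          have : b' ≤ b := Finset.le_max' _ _ (by simp [hb', hh.2])
          omega
        · refine ⟨0, by omega, by simpa using h1, fun b' hb' hh => hS ⟨b', by simp [hb', hh.2]⟩⟩
      have d1 := hB x i k hik hk hi2
      have d2 := hB y i k hik hk fun b hb hh =>
        hi2 b ((h2 b _).1 ⟨⟨hb, by omega⟩, rfl⟩).1.1 hh
      have d3 := hνd (f^[i] x)
      have d4 := hνd (f^[i] y)
      rw [hi1] at d4
      have d5 := dist_triangle4 (f^[k] x) (f^[i] x) (ν (f^[i] x)) (f^[i] y)
      have d6 := dist_triangle (f^[k] x) (f^[i] y) (f^[k] y)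
      rw [dist_comm] at d1 d4
      linarith
    refine hcover.coverMincard_le_card.trans ?_
    have hc1 : (C.image rep).card ≤ C.card := Finset.card_image_le
    have hc2 : ((Finset.range (L + 1)).biUnion fun i =>
        Finset.powersetCard i (Finset.range n ×ˢ N)).card ≤
          (L + 1) * ((N.card + 1) ^ L * (n + 1) ^ L) := by
      refine (Finset.card_biUnion_le_card_mul _ _ ((N.card + 1) ^ L * (n + 1) ^ L) ?_).trans
        (by simp)
      intro i hi
      simp only [Finset.mem_range] at hi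
      rw [Finset.card_powersetCard, Finset.card_product, Finset.card_range, ← mul_pow]
      refine (Nat.choose_le_pow _ _).trans ?_
      calc (n * N.card) ^ i ≤ ((N.card + 1) * (n + 1)) ^ i := Nat.pow_le_pow_left (by nlinarith) _
        _ ≤ ((N.card + 1) * (n + 1)) ^ L := Nat.pow_le_pow_right (by positivity) (by omega)
    have hc3 : C.card ≤ N.card * ((L + 1) * ((N.card + 1) ^ L * (n + 1) ^ L)) := by
      simp only [C, Finset.card_product]
      gcongr
    exact_mod_cast hc1.trans (hc3.trans (le_of_eq (by ring)))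
  refine ExpGrowth.expGrowthSup_le_iff.2 fun b hb => ?_
  obtain ⟨c, hc0, hcb⟩ := EReal.lt_iff_exists_real_btwn.1 hb
  have hc0' : 0 < c := by exact_mod_cast hc0
  filter_upwards [poly_le_exp (N.card * (L + 1) * (N.card + 1) ^ L) L c hc0'] with n hn
  calc ((Dynamics.coverMincard f univ U n : ℕ∞) : ENNReal)
      ≤ (((N.card * (L + 1) * (N.card + 1) ^ L * (n + 1) ^ L : ℕ) : ℕ∞) : ENNReal) :=
        ENat.toENNReal_mono (key n)
    _ = ENNReal.ofReal ((N.card * (L + 1) * (N.card + 1) ^ L * (n + 1) ^ L : ℕ) : ℝ) := by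
        rw [ENNReal.ofReal_natCast]; rfl
    _ ≤ ENNReal.ofReal (Real.exp (c * n)) := ENNReal.ofReal_le_ofReal hn
    _ = EReal.exp ((c : EReal) * n) := by
        rw [← EReal.exp_coe]; norm_cast
    _ ≤ EReal.exp (b * n) := by
        apply EReal.exp_monotone
        gcongr

end H6Ent
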