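import Crest.Agent.H6.EntMap
import Crest.Agent.H6.EntTame

/-! All orbits of the map are tame. -/

set_option autoImplicit false

open Filter Topology Set Complex
open scoped Real

noncomputable section

namespace H6Ent

def zm (m : MM) : ℂ := zeta m.1
def am (m : MM) : ℝ := arg m.2.1
def xm (m : MM) : ℂ × ℂ := prj m.2.2

lemma ff_fin {m : MM} (h : m.1 ≠ NP) : ff m = (st (Fz (zm m) (am m) (xm m)),
    Circle.exp (Fa (zm m) (am m) (xm m)), emb (Fx (zm m) (am m) (xm m))) := by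
  simp only [ff, fh, f1, f2, f3, if_neg h]; rfl

lemma ff_NP {m : MM} (h : m.1 = NP) : ff m = (NP, Circle.exp (ph (am m)), emb 0) := by
  simp only [ff, fh, f1, f2, f3, if_pos h]; rfl

lemma ff_ne {m : MM} (h : m.1 ≠ NP) : (ff m).1 ≠ NP := by rw [ff_fin h]; exact st_ne_NP _

lemma zm_ff {m : MM} (h : m.1 ≠ NP) : zm (ff m) = Fz (zm m) (am m) (xm m) := by
  rw [ff_fin h]; exact zeta_st _

lemma xm_ff {m : MM} (h : m.1 ≠ NP) : xm (ff m) = Fx (zm m) (am m) (xm m) := by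
  rw [ff_fin h]; exact prj_emb (nn_Fx_lt _ _ _).le

lemma am_ff {m : MM} (h : m.1 ≠ NP) (h0 : 0 ≤ Fa (zm m) (am m) (xm m))
    (h1 : Fa (zm m) (am m) (xm m) ≤ 3) : am (ff m) = Fa (zm m) (am m) (xm m) := by
  have := Real.pi_gt_three
  rw [ff_fin h]; exact Circle.arg_exp (by linarith) (by linarith)

lemma arg_exp_cases {t : ℝ} (h0 : 0 ≤ t) (h1 : t ≤ 2 * π) :
    arg (Circle.exp t) = t ∨ (3 ≤ t ∧ arg (Circle.exp t) ≤ 0) := by
  have := Real.pi_gt_three
  rcases le_or_gt t π with h | h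
  · exact Or.inl (Circle.arg_exp (by linarith) h)
  · right
    rw [← Circle.exp_sub_two_pi, Circle.arg_exp (by linarith) (by linarith)]
    constructor <;> linarith

lemma exp_ph_arg {t : ℝ} (h0 : 0 ≤ t) (h1 : t ≤ 2 * π) :
    Circle.exp (ph (arg (Circle.exp t))) = Circle.exp (ph t) := by
  rcases arg_exp_cases h0 h1 with h | h
  · rw [h]
  · rw [ph_zero h.2, ph_top (by linarith), Circle.exp_zero, Circle.exp_two_pi]

lemma dist_exp_le (s t : ℝ) : dist (Circle.exp s) (Circle.exp t) ≤ |s - t| := by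
  have h : dist (Circle.exp s) (Circle.exp t) = ‖(Circle.exp s : ℂ) - Circle.exp t‖ :=
    dist_eq_norm (Circle.exp s : ℂ) (Circle.exp t)
  have h2 : (Circle.exp s : ℂ) - Circle.exp t =
      Circle.exp t * (exp (I * ((s - t : ℝ) : ℂ)) - 1) := by
    rw [Circle.coe_exp, Circle.coe_exp, mul_sub, ← Complex.exp_add, mul_one]
    congr 2; push_cast; ring
  rw [h, h2, norm_mul, Circle.norm_coe, one_mul]
  exact Real.norm_exp_I_mul_ofReal_sub_one_le

def EscR (R : ℝ) (m : MM) : Prop := m.1 = NP ∨ R ≤ normSq (zm m)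

lemma EscR.mono {R R' : ℝ} {m : MM} (h : EscR R m) (hR : R' ≤ R) : EscR R' m :=
  h.imp id fun h => hR.trans h

lemma esc_step {R : ℝ} (hR : 256 ≤ R) {m : MM} (h : EscR R m) : EscR (4 * R) (ff m) := by
  by_cases hm : m.1 = NP
  · left; rw [ff_NP hm]
  · right
    have h1 := h.resolve_left hm
    rw [zm_ff hm]
    linarith [escape (hR.trans h1) (am m) (xm m)]

lemma esc_iter {m : MM} (h : EscR 256 m) (k : ℕ) : EscR (4 ^ k * 256) (ff^[k] m) := by
  induction k with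
  | zero => simpa using h
  | succ k ih =>
    rw [Function.iterate_succ_apply']
    have h1 : (1 : ℝ) ≤ 4 ^ k := one_le_pow₀ (by norm_num)
    exact (esc_step (by linarith) ih).mono (le_of_eq (by ring))

lemma far_step {m : MM} (h : EscR 1024 m) : (ff m).2 = (Circle.exp (ph (am m)), emb 0) := by
  by_cases hm : m.1 = NP
  · rw [ff_NP hm]
  · obtain ⟨-, h2, h3⟩ := far (h.resolve_left hm) (am m) (xm m)
    rw [ff_fin hm, h2, h3]

lemma dist_NP_le {R δ : ℝ} (hδ : 0 < δ) (hR : 4 / δ ^ 2 ≤ R) {m : MM} (h : EscR R m) :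
    dist m.1 NP ≤ δ := by
  by_cases hm : m.1 = NP
  · rw [hm, dist_self]; exact hδ.le
  · have h1 := h.resolve_left hm
    have h2 := dist_sq_st_NP (zm m)
    rw [zm, st_zeta hm] at h2
    refine (pow_le_pow_iff_left₀ dist_nonneg hδ.le two_ne_zero).1 ?_
    have h3 : 0 < 4 / δ ^ 2 := by positivity
    rw [h2, div_le_iff₀ (by have := normSq_nonneg (zeta m.1); positivity)]
    rw [div_le_iff₀ (by positivity)] at hR
    rw [zm] at h1
    nlinarith [sq_pos_of_pos hδ]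

lemma ph_iter_mem {t : ℝ} (h0 : 0 ≤ t) (h1 : t ≤ 2 * π) (k : ℕ) :
    0 ≤ ph^[k] t ∧ ph^[k] t ≤ 2 * π := by
  cases k with
  | zero => exact ⟨h0, h1⟩
  | succ k => rw [Function.iterate_succ_apply']; exact ⟨ph_nonneg _, ph_le _⟩

lemma ph_breaks {ε : ℝ} (hε : 0 < ε) : ∃ N : ℕ, ∀ t, 0 ≤ t → t ≤ 2 * π → ∀ n,
    ∃ B : Finset ℕ, B.card ≤ N ∧ ∀ i j, i ≤ j → j < n → (∀ k ∈ B, ¬ (i ≤ k ∧ k < j)) →
      |ph^[i] t - ph^[j] t| ≤ ε := by
  obtain ⟨N, hN⟩ := exists_nat_ge (2 * π / ε)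
  rw [div_le_iff₀ hε] at hN
  exact ⟨N + 1, fun t h0 h1 n => breaks_of_orbit ph ph_mono t N ε hε
    (fun k => (ph_iter_mem h0 h1 k).1) (fun k => (ph_iter_mem h0 h1 k).2.trans hN) n⟩

lemma tame_esc {ε : ℝ} (hε : 0 < ε) : ∃ L, ∀ m, EscR 256 m → TT ff ε m L := by
  obtain ⟨N, hN⟩ := ph_breaks hε
  obtain ⟨J, hJ⟩ := pow_unbounded_of_one_lt (4 / (ε / 2) ^ 2) (by norm_num : (1 : ℝ) < 4)
  refine ⟨J + 2 + N + 1, fun m hm => TT.of_iter hε.le (J + 2) fun n => ?_⟩
  have h1 : ∀ k, EscR 1024 (ff^[k + 1] m) := fun k => (esc_iter hm _).mono (by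
    have : (1 : ℝ) ≤ 4 ^ k := one_le_pow₀ (by norm_num)
    rw [pow_succ]; linarith)
  have h2 : ∀ k, dist (ff^[k] (ff^[J + 2] m)).1 NP ≤ ε / 2 := fun k => by
    rw [← Function.iterate_add_apply]
    refine dist_NP_le (by positivity) ?_ (esc_iter hm _)
    have : (4 : ℝ) ^ J ≤ 4 ^ (k + (J + 2)) := pow_le_pow_right₀ (by norm_num) (by omega)
    have : (0 : ℝ) < 4 ^ (k + (J + 2)) := by positivity
    linarith
  set t := ph (am (ff^[J + 1] m))
  have h3 : ∀ k, (ff^[k] (ff^[J + 2] m)).2 = (Circle.exp (ph^[k] t), emb 0) := by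
    intro k
    induction k with
    | zero =>
      rw [Function.iterate_zero_apply, Function.iterate_succ_apply', far_step (h1 J)]; rfl
    | succ k ih =>
      have h4 : EscR 1024 (ff^[k] (ff^[J + 2] m)) := by
        rw [← Function.iterate_add_apply]; exact h1 (k + J + 1)
      rw [Function.iterate_succ_apply', far_step h4, am, ih, Function.iterate_succ_apply']
      obtain ⟨a1, a2⟩ := ph_iter_mem (ph_nonneg _) (ph_le (am (ff^[J + 1] m))) k
      rw [exp_ph_arg a1 a2]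
  obtain ⟨B, hB, hB'⟩ := hN t (ph_nonneg _) (ph_le _) n
  refine ⟨B, hB, fun i j hij hj hk => ?_⟩
  rw [Prod.dist_eq, h3, h3, Prod.dist_eq, dist_self]
  refine max_le ?_ (max_le ((dist_exp_le _ _).trans (hB' i j hij hj hk)) hε.le)
  linarith [dist_triangle_right (ff^[i] (ff^[J + 2] m)).1 (ff^[j] (ff^[J + 2] m)).1 NP, h2 i, h2 j]

def ZA : Set MM := {m | ¬ EscR 256 m ∧ 0 ≤ am m ∧ am m < 1 / 2}

lemma not_esc {m : MM} (h : ¬ EscR 256 m) : m.1 ≠ NP ∧ normSq (zm m) ≤ 256 := by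
  unfold EscR at h
  push Not at h
  exact ⟨h.1, h.2.le⟩

lemma am_ff_ZA {m : MM} (h : m ∈ ZA) :
    am (ff m) = Fa (zm m) (am m) (xm m) ∧ 0 ≤ am (ff m) ∧ am (ff m) ≤ 1 := by
  obtain ⟨a1, a2⟩ := Fa_mem_Z1 (z := zm m) (x := xm m) h.2.1 h.2.2.le
  have := am_ff (not_esc h.1).1 a1 (by linarith)
  rw [this]
  exact ⟨rfl, a1, a2⟩

lemma ZA_step {m : MM} (h : m ∈ ZA) (h' : ff m ∈ ZA) :
    nn (xm m) < 1 ∧ zm (ff m) = (pc (xm m).1 : ℂ) * (xm m).1 ∧ xm (ff m) = Lam (xm m) := by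
  obtain ⟨b1, b2⟩ := not_esc h.1
  have := Z1_step (x := xm m) h.2.1 h.2.2.le b2 (by
    rw [← (am_ff_ZA h).1]; linarith [h'.2.2])
  rw [zm_ff b1, xm_ff b1]
  exact this

lemma exists_emb_close {δ : ℝ} (hδ : 0 < δ) :
    ∃ J : ℕ, ∀ x, nn x ≤ (1 / 64) ^ J → dist (emb x) (emb 0) ≤ δ := by
  obtain ⟨η, hη, h⟩ := Metric.continuousAt_iff.1 (continuous_amb4.continuousAt (x := 0)) δ hδ
  obtain ⟨J, hJ⟩ := exists_pow_lt_of_lt_one (sq_pos_of_pos hη) (by norm_num : (1 / 64 : ℝ) < 1)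
  refine ⟨J, fun x hx => ?_⟩
  have h1 : (1 / 64 : ℝ) ^ J ≤ 1 := pow_le_one₀ (by norm_num) (by norm_num)
  rw [Subtype.dist_eq, emb_val (by linarith), emb_val (by simp [nn_zero])]
  refine (h ?_).le
  rw [dist_zero_right]
  nlinarith [norm_sq_le_nn x, norm_nonneg x]

lemma tame_ZA {ε : ℝ} (hε : 0 < ε) :
    ∃ L, ∀ m T, (∀ k < T, ff^[k] m ∈ ZA) → Tm ff ε m T L := by
  obtain ⟨N, hN⟩ := ph_breaks hε
  obtain ⟨J, hJ⟩ := exists_emb_close (half_pos hε)
  refine ⟨1 + N + 1 + (J + 2) + 1, fun m T hT => ?_⟩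
  by_cases hTJ : T ≤ J + 3
  · exact (Tm.short hε.le m T).mono le_rfl (by omega)
  obtain ⟨T', rfl⟩ : ∃ T', T = 1 + T' + (J + 2) := ⟨T - (J + 3), by omega⟩
  refine ((Tm.short hε.le m 1).concat (n := T') (L₂ := N) ?_).concat (Tm.short hε.le _ (J + 2))
  have s1 : ∀ k, k + 1 < 1 + T' + (J + 2) → nn (xm (ff^[k] m)) < 1 ∧
      zm (ff^[k + 1] m) = (pc (xm (ff^[k] m)).1 : ℂ) * (xm (ff^[k] m)).1 ∧
      xm (ff^[k + 1] m) = Lam (xm (ff^[k] m)) := fun k hk => by
    rw [Function.iterate_succ_apply']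
    exact ZA_step (hT k (by omega)) (by rw [← Function.iterate_succ_apply' ff]; exact hT _ hk)
  have s2 : ∀ j k, k + j + 1 < 1 + T' + (J + 2) → nn (xm (ff^[k] m)) ≤ (1 / 64) ^ j := by
    intro j
    induction j with
    | zero => intro k hk; simpa using (s1 k (by omega)).1.le
    | succ j ih =>
      intro k hk
      have h1 := ih (k + 1) (by omega)
      rw [(s1 k (by omega)).2.2, nn_Lam] at h1
      rw [pow_succ]; linarith
  have s3 : ∀ k, k + 2 < 1 + T' + (J + 2) → zm (ff^[k + 1] m) = 0 := fun k hk => by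
    have h1 := s2 1 k (by omega)
    have h2 : normSq (xm (ff^[k] m)).1 ≤ 1 / 36 := by
      unfold nn at h1; linarith [normSq_nonneg (xm (ff^[k] m)).2]
    rw [(s1 k (by omega)).2.1, pc_zero h2]; simp
  set t := am (ff^[1] m)
  have s4 : ∀ i, i < T' → am (ff^[i + 1] m) = ph^[i] t := by
    intro i
    induction i with
    | zero => intro _; rfl
    | succ i ih =>
      intro hi
      rw [Function.iterate_succ_apply', Function.iterate_succ_apply' ph, ← ih (by omega),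
        (am_ff_ZA (hT (i + 1) (by omega))).1, s3 i (by omega), Fa_quiet]
      linarith [s2 1 (i + 1) (by omega)]
  have s5 : ∀ i, i < T' → ff^[i] (ff^[1] m) =
      (st 0, Circle.exp (ph^[i] t), emb (xm (ff^[i + 1] m))) := fun i hi => by
    rw [← Function.iterate_add_apply]
    refine Prod.ext ?_ (Prod.ext ?_ ?_)
    · rw [← s3 i (by omega)]
      exact (st_zeta (not_esc (hT (i + 1) (by omega)).1).1).symm
    · rw [← s4 i hi]
      exact (Circle.exp_arg _).symm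
    · have h1 := (not_esc (hT i (by omega)).1).1
      rw [Function.iterate_succ_apply', xm_ff h1, ff_fin h1]
  have ht := hT 1 (by omega)
  have hpi := Real.pi_gt_three
  obtain ⟨B, hB, hB'⟩ := hN t ht.2.1 (by linarith [ht.2.2]) T'
  refine ⟨B, hB, fun i j hij hj hk => ?_⟩
  rw [s5 i (by omega), s5 j hj, Prod.dist_eq, Prod.dist_eq, dist_self]
  refine max_le hε.le (max_le ((dist_exp_le _ _).trans (hB' i j hij hj hk)) ?_)
  linarith [dist_triangle_right (emb (xm (ff^[i + 1] m))) (emb (xm (ff^[j + 1] m))) (emb 0),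
    hJ _ (s2 J (i + 1) (by omega)), hJ _ (s2 J (j + 1) (by omega))]

def Good (m : MM) : Prop := am m = 0 ∧ (T1 (zm m) (xm m) ∨ T2 (zm m) (xm m))

lemma good_next {m : MM} (h : Good m) (h' : ¬ EscR 256 m) : EscR 256 (ff m) ∨ Good (ff m) := by
  obtain ⟨b1, b2⟩ := not_esc h'
  rcases h.2 with h2 | h2
  · have := T1_step h2 b2
    rw [← h.1, ← zm_ff b1, ← xm_ff b1] at this
    rcases this with h3 | h3
    · exact Or.inl (Or.inr h3)
    · refine Or.inr ⟨?_, h3.2⟩
      have h4 : Fa (zm m) (am m) (xm m) = 0 := by rw [h3.1, h.1]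
      rw [am_ff b1 h4.ge (by linarith), h4]
  · left; right
    rw [zm_ff b1]
    exact T2_step h2 b2 (by rw [h.1, mm_zero (by norm_num) (by norm_num)]; norm_num)

theorem tame_all {ε : ℝ} (hε : 0 < ε) : ∃ L, ∀ m, TT ff ε m L := by
  obtain ⟨LE, hE⟩ := tame_esc hε
  obtain ⟨LB, hB⟩ := tame_ZA hε
  have hpi := Real.pi_gt_three
  have hG : ∀ m, EscR 256 m ∨ Good m → TT ff ε m (LB + LE + 1) := by
    intro m hm
    refine TT.phase ZA (hB m) fun T hT hT' => hE _ ?_
    have : ∀ k ≤ T, EscR 256 (ff^[k] m) ∨ Good (ff^[k] m) := by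
      intro k
      induction k with
      | zero => intro _; exact hm
      | succ k ih =>
        intro hk
        have h1 := (hT k (by omega)).1
        rw [Function.iterate_succ_apply']
        exact good_next ((ih (by omega)).resolve_left h1) h1
    by_contra h1
    have h2 := ((this T le_rfl).resolve_left h1).1
    exact hT' ⟨h1, h2.ge, by rw [h2]; norm_num⟩
  have hC : ∀ m, Cp (zm m) (xm m) → (2 ≤ am m ∨ am m ≤ 0) → TT ff ε m (LB + LE + 3) := by
    intro m h1 h2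
    by_cases h : EscR 256 m
    · exact (hE m h).mono (by omega)
    obtain ⟨b1, b2⟩ := not_esc h
    refine TT.of_step hε.le (hG _ ?_)
    have := Cp_step h1 b2 h2
    rw [← zm_ff b1, ← xm_ff b1] at this
    rcases this with h3 | h3
    · exact Or.inl (Or.inr h3)
    · refine Or.inr ⟨?_, h3.2⟩
      rw [ff_fin b1, am]
      rcases h3.1 with h4 | h4 <;> simp [h4]
  have h3 : ∀ m, 1 ≤ am m → am m ≤ 2 → TT ff ε m (LB + LE + 5) := by
    intro m h1 h2
    by_cases h : EscR 256 m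
    · exact (hE m h).mono (by omega)
    obtain ⟨b1, b2⟩ := not_esc h
    refine TT.of_step hε.le (hC _ ?_ ?_)
    · rw [zm_ff b1, xm_ff b1]
      exact C_step_Cp _ h1 h2 b2
    · have h4 : 2 ≤ ph (am m) := ph_one ▸ ph_mono h1
      rw [ff_fin b1, Fa_eq_ph (by linarith)]
      rcases arg_exp_cases (ph_nonneg (am m)) (ph_le _) with h5 | h5
      · left; change 2 ≤ arg (Circle.exp (ph (am m))); rw [h5]; exact h4
      · exact Or.inr h5.2
  have h2 : ∀ m, 1 / 2 ≤ am m → am m ≤ 1 → TT ff ε m (LB + LE + 7) := by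
    intro m h1 h2
    by_cases h : EscR 256 m
    · exact (hE m h).mono (by omega)
    obtain ⟨b1, b2⟩ := not_esc h
    have h4 : 1 ≤ ph (am m) := ph_half ▸ ph_mono h1
    have h5 : ph (am m) ≤ 2 := ph_one ▸ ph_mono h2
    have h6 : am (ff m) = ph (am m) := by
      rw [am_ff b1 (by rw [Fa_eq_ph h1]; linarith) (by rw [Fa_eq_ph h1]; linarith), Fa_eq_ph h1]
    exact TT.of_step hε.le (h3 _ (by rw [h6]; exact h4) (by rw [h6]; exact h5))
  have h1 : ∀ m, 0 ≤ am m → am m ≤ 1 → TT ff ε m (LB + (LB + LE + 7) + 1) := by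
    intro m h1 h1'
    refine TT.phase ZA (hB m) fun T hT hT' => ?_
    by_cases h : EscR 256 (ff^[T] m)
    · exact (hE _ h).mono (by omega)
    have : 0 ≤ am (ff^[T] m) ∧ am (ff^[T] m) ≤ 1 := by
      cases T with
      | zero => exact ⟨h1, h1'⟩
      | succ T => rw [Function.iterate_succ_apply']; exact (am_ff_ZA (hT T (by omega))).2
    refine h2 _ ?_ this.2
    by_contra h4
    exact hT' ⟨h, this.1, not_le.1 h4⟩
  refine ⟨LB + (LB + LE + 7) + 3, fun m => ?_⟩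
  by_cases h : EscR 256 m
  · exact (hE m h).mono (by omega)
  obtain ⟨b1, b2⟩ := not_esc h
  rcases le_total (am m) 0 with h4 | h4
  · obtain ⟨a1, a2⟩ := Fa_mem_neg (z := zm m) (x := xm m) h4
    have h5 := am_ff b1 a1 (by linarith)
    exact TT.of_step hε.le (h1 _ (by rw [h5]; exact a1) (by rw [h5]; exact a2))
  rcases le_total (am m) 1 with h5 | h5
  · exact (h1 m h4 h5).mono (by omega)
  rcases le_total (am m) 2 with h6 | h6
  · exact (h3 m h5 h6).mono (by omega)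
  · have h7 : am (ff m) = 0 := by
      rw [ff_fin b1, Fa_eq_ph (by linarith), ph_top h6, am]; simp
    exact TT.of_step hε.le (h1 _ h7.ge (by rw [h7]; norm_num))

theorem entropy_ff : Dynamics.coverEntropy ff univ = 0 :=
  haveI : Nonempty MM := ⟨inc NP⟩
  coverEntropy_eq_zero ff fun _ hε => tame_all hε

end H6Ent
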