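import Crest.Agent.H6.EntCone

/-! The fundamental class of the sphere is a nonzero eigenvector of the doubling suspension. -/

set_option autoImplicit false

open CategoryTheory Limits AlgebraicTopology Simplicial
open scoped Real

noncomputable section

namespace H6Ent

abbrev RR : ModuleCat.{0} ℝ := ModuleCat.of ℝ ℝ

abbrev SS (X : Type) [TopologicalSpace X] : SSet.{0} := TopCat.toSSet.obj (TopCat.of X)

abbrev KK (X : Type) [TopologicalSpace X] : ChainComplex (ModuleCat.{0} ℝ) ℕ :=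
  (SS X).chainComplex RR

def sx {X : Type} [TopologicalSpace X] {n : ℕ} (η : C(Sx n, X)) : (SS X) _⦋n⦌ :=
  ((TopCat.of X).toSSetObjEquiv (Opposite.op ⦋n⦌)).symm η

def io {X : Type} [TopologicalSpace X] {n : ℕ} (η : C(Sx n, X)) : RR ⟶ (KK X).X n :=
  (SS X).ιChainComplex (sx η)

lemma io_d {X : Type} [TopologicalSpace X] {n : ℕ} (η : C(Sx (n + 1), X)) :
    io η ≫ (KK X).d (n + 1) n = ∑ i : Fin (n + 2), (-1) ^ i.val • io (η.comp (face i)) := by
  rw [io, SSet.ιChainComplex_d]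
  rfl

abbrev KM {X Y : Type} [TopologicalSpace X] [TopologicalSpace Y] (g : C(X, Y)) : KK X ⟶ KK Y :=
  SSet.chainComplexMap (TopCat.toSSet.map (TopCat.ofHom g)) RR

lemma io_map {X Y : Type} [TopologicalSpace X] [TopologicalSpace Y] (g : C(X, Y)) {n : ℕ}
    (η : C(Sx n, X)) : io η ≫ (KM g).f n = io (g.comp η) := by
  rw [io, SSet.ι_chainComplexMap_f]
  rfl

/-- the cocycle as a morphism -/
def cc : (KK S2).X 2 ⟶ RR :=
  ((SS S2).isColimitChainComplexXCofan RR 2).desc (Cofan.mk RR fun x =>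
    (coc ((TopCat.of S2).toSSetObjEquiv (Opposite.op ⦋2⦌) x)).im • 𝟙 RR)

lemma io_cc (η : C(Sx 2, S2)) : io η ≫ cc = (coc η).im • 𝟙 RR := by
  have := ((SS S2).isColimitChainComplexXCofan RR 2).fac (Cofan.mk RR fun x =>
    (coc ((TopCat.of S2).toSSetObjEquiv (Opposite.op ⦋2⦌) x)).im • 𝟙 RR) ⟨sx η⟩
  exact this

lemma d_cc : (KK S2).d 3 2 ≫ cc = 0 := by
  refine SSet.chainComplex_hom_ext fun x => ?_
  obtain ⟨η, rfl⟩ : ∃ η : C(Sx 3, S2), x = sx η :=
    ⟨(TopCat.of S2).toSSetObjEquiv (Opposite.op ⦋3⦌) x, (Equiv.symm_apply_apply _ _).symm⟩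
  change io η ≫ (KK S2).d (2 + 1) 2 ≫ cc = _
  rw [← Category.assoc, io_d, comp_zero, Preadditive.sum_comp, Fin.sum_univ_four]
  simp only [Preadditive.zsmul_comp, io_cc]
  have h := congrArg Complex.im (coc_cocycle η)
  simp only [Complex.sub_im, Complex.add_im, Complex.zero_im] at h
  have e0 : ((0 : Fin 4) : ℕ) = 0 := rfl
  have e1 : ((1 : Fin 4) : ℕ) = 1 := rfl
  have e2 : ((2 : Fin 4) : ℕ) = 2 := rfl
  have e3 : ((3 : Fin 4) : ℕ) = 3 := rfl
  rw [e0, e1, e2, e3]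
  have : (coc (η.comp (face 0))).im = (coc (η.comp (face 1))).im - (coc (η.comp (face 2))).im
    + (coc (η.comp (face 3))).im := by linarith
  rw [this]
  module

def zz : RR ⟶ (KK S2).X 2 := io (cone2 (-1) hm1 0 1) - io (cone2 1 hp1 0 1)

lemma zz_d : zz ≫ (KK S2).d 2 1 = 0 := by
  have h : ∀ (ε : ℝ) (hε : ε ^ 2 = 1), io (cone2 ε hε 0 1) ≫ (KK S2).d 2 1 = io eqLoop := by
    intro ε hε
    change io (cone2 ε hε 0 1) ≫ (KK S2).d (1 + 1) 1 = _
    rw [io_d, Fin.sum_univ_three, cone2_face0, cone2_face12]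
    have e0 : ((0 : Fin 3) : ℕ) = 0 := rfl
    have e1 : ((1 : Fin 3) : ℕ) = 1 := rfl
    have e2 : ((2 : Fin 3) : ℕ) = 2 := rfl
    rw [e0, e1, e2]
    module
  rw [zz, Preadditive.sub_comp, h, h, sub_self]

lemma zz_cc : zz ≫ cc = (2 * π : ℝ) • 𝟙 RR := by
  rw [zz, Preadditive.sub_comp, io_cc, io_cc, ← sub_smul, ← Complex.sub_im, coc_diff]
  simp

lemma zz_G0 : zz ≫ (KM G0).f 2 - (2 : ℝ) • zz =
    (io (cone3 (-1) hm1) - io (cone3 1 hp1)) ≫ (KK S2).d 3 2 := by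
  have h : ∀ (ε : ℝ) (hε : ε ^ 2 = 1), io (cone3 ε hε) ≫ (KK S2).d 3 2 =
      io ((cone3 1 hp1).comp (face 0)) - (2 : ℝ) • io (cone2 ε hε 0 1) + io (cone2 ε hε 0 2) := by
    intro ε hε
    change io (cone3 ε hε) ≫ (KK S2).d (2 + 1) 2 = _
    rw [io_d, Fin.sum_univ_four, cone3_face0 ε 1 hε hp1, cone3_face1, cone3_face2, cone3_face3]
    have e0 : ((0 : Fin 4) : ℕ) = 0 := rfl
    have e1 : ((1 : Fin 4) : ℕ) = 1 := rfl
    have e2 : ((2 : Fin 4) : ℕ) = 2 := rfl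
    have e3 : ((3 : Fin 4) : ℕ) = 3 := rfl
    rw [e0, e1, e2, e3]
    module
  rw [zz, Preadditive.sub_comp, Preadditive.sub_comp, h, h, io_map, io_map, G0_cone2, G0_cone2]
  module

def gam : RR ⟶ (KK S2).homology 2 :=
  (KK S2).liftCycles zz 1 (by simp) zz_d ≫ (KK S2).homologyπ 2

lemma gam_ne_zero : gam ≠ 0 := by
  intro h
  have h1 : gam ≫ (KK S2).homologyι 2 ≫ (KK S2).descOpcycles cc 3 (by simp) d_cc = zz ≫ cc := by
    rw [gam, Category.assoc, HomologicalComplex.homology_π_ι_assoc,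
      HomologicalComplex.p_descOpcycles, HomologicalComplex.liftCycles_i_assoc]
  rw [h, zero_comp, zz_cc] at h1
  have h2 := congrArg (fun φ : RR ⟶ RR => φ.hom (1 : ℝ)) h1
  simp at h2

lemma gam_G0 : gam ≫ HomologicalComplex.homologyMap (KM G0) 2 = (2 : ℝ) • gam := by
  rw [gam, Category.assoc, HomologicalComplex.homologyπ_naturality,
    HomologicalComplex.liftCycles_comp_cyclesMap_assoc, ← sub_eq_zero, ← Linear.smul_comp,
    ← Preadditive.sub_comp]
  have := (KK S2).liftCycles_homologyπ_eq_zero_of_boundary _ 1 (by simp) _ zz_G0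
  rw [← this]
  congr 1
  rw [← cancel_mono ((KK S2).iCycles 2)]
  simp

theorem hasEigenvalue_of_homotopic {M : Type} [TopologicalSpace M] (f : C(M, M)) (i : C(S2, M))
    (pr : C(M, S2)) (hpi : pr.comp i = ContinuousMap.id _)
    (H : (f.comp i).Homotopic (i.comp G0)) :
    Module.End.HasEigenvalue
      (((singularHomologyFunctor (ModuleCat.{0} ℝ) 2).obj (ModuleCat.of ℝ ℝ)).map
        (TopCat.ofHom f)).hom (2 : ℝ) := by
  let F := (singularHomologyFunctor (ModuleCat.{0} ℝ) 2).obj RR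
  let g : RR ⟶ F.obj (TopCat.of S2) := gam
  have hg0 : g ≠ 0 := gam_ne_zero
  have hg : g ≫ F.map (TopCat.ofHom G0) = (2 : ℝ) • g := gam_G0
  obtain ⟨H⟩ := H
  have hH : F.map (TopCat.ofHom (f.comp i)) = F.map (TopCat.ofHom (i.comp G0)) :=
    TopCat.Homotopy.congr_homologyMap_singularChainComplexFunctor
      (f := TopCat.ofHom (f.comp i)) (g := TopCat.ofHom (i.comp G0)) H RR 2
  let w : RR ⟶ F.obj (TopCat.of M) := g ≫ F.map (TopCat.ofHom i)
  have hw : w ≫ F.map (TopCat.ofHom f) = (2 : ℝ) • w := by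
    rw [Category.assoc, ← F.map_comp, ← TopCat.ofHom_comp, hH, TopCat.ofHom_comp, F.map_comp,
      ← Category.assoc, hg, Linear.smul_comp]
  have hw0 : w ≠ 0 := by
    intro h
    apply hg0
    have : w ≫ F.map (TopCat.ofHom pr) = g := by
      rw [Category.assoc, ← F.map_comp, ← TopCat.ofHom_comp, hpi, TopCat.ofHom_id, F.map_id,
        Category.comp_id]
    rw [← this, h, zero_comp]
  refine Module.End.hasEigenvalue_of_hasEigenvector (x := w.hom 1) ⟨?_, fun h => hw0 ?_⟩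
  · rw [Module.End.mem_eigenspace_iff]
    exact congrArg (fun φ : RR ⟶ F.obj (TopCat.of M) => φ.hom (1 : ℝ)) hw
  · ext
    exact h

end H6Ent
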