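import Crest.Agent.H6.EntSphere

/-! A real singular 2-cocycle on the sphere built from the tautological line bundle. -/

set_option autoImplicit false

open Filter Topology Set Complex
open scoped ComplexConjugate unitInterval

noncomputable section

namespace H6Ent

abbrev Sx (n : ℕ) := stdSimplex ℝ (Fin (n + 1))

def InL (p : S2) (v : ℂ × ℂ) : Prop :=
  (1 - sZ p : ℂ) * v.1 = sX p * v.2 ∧ (1 + sZ p : ℂ) * v.2 = conj (sX p) * v.1

def Pr (p : S2) (v : ℂ × ℂ) : ℂ × ℂ :=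
  (((1 + sZ p) * v.1 + sX p * v.2) / 2, (conj (sX p) * v.1 + (1 - sZ p) * v.2) / 2)

lemma sX_mul_conj (p : S2) : sX p * conj (sX p) = (1 - sZ p) * (1 + sZ p) := by
  rw [mul_conj]
  have := sXZ p
  have h : normSq (sX p) = (1 - sZ p) * (1 + sZ p) := by linarith
  rw [h]; push_cast; ring

lemma InL_Pr (p : S2) (v : ℂ × ℂ) : InL p (Pr p v) := by
  have := sX_mul_conj p
  constructor
  · simp only [Pr]; linear_combination (-v.1 / 2) * this
  · simp only [Pr]; linear_combination (-v.2 / 2) * this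

lemma Pr_ne_zero {p q : S2} {v : ℂ × ℂ} (hv : InL p v) (h0 : v ≠ 0) (hd : dist p q < 1) :
    Pr q v ≠ 0 := by
  intro h
  have h1 : ((1 + sZ q) * v.1 + sX q * v.2) / 2 = 0 := congrArg Prod.fst h
  have h2 : (conj (sX q) * v.1 + (1 - sZ q) * v.2) / 2 = 0 := congrArg Prod.snd h
  obtain ⟨a1, a2⟩ := hv
  have e1 : 2 * v.1 = ((sZ p - sZ q : ℝ) : ℂ) * v.1 + (sX p - sX q) * v.2 := by
    push_cast; linear_combination a1 + 2 * h1
  have e2 : 2 * v.2 = conj (sX p - sX q) * v.1 - ((sZ p - sZ q : ℝ) : ℂ) * v.2 := by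
    rw [map_sub]; push_cast; linear_combination a2 + 2 * h2
  have hd2 := dist_sq_S2 p q
  have hd0 : 0 ≤ dist p q := dist_nonneg
  have hA : ‖((sZ p - sZ q : ℝ) : ℂ)‖ < 1 := by
    rw [Complex.norm_real, Real.norm_eq_abs, ← sq_lt_one_iff_abs_lt_one]
    nlinarith [normSq_nonneg (sX p - sX q)]
  have hB : ‖sX p - sX q‖ < 1 := by
    have : ‖sX p - sX q‖ ^ 2 < 1 := by
      rw [Complex.sq_norm]; nlinarith [sq_nonneg (sZ p - sZ q)]
    nlinarith [norm_nonneg (sX p - sX q)]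
  have n1 : 2 * ‖v.1‖ ≤ ‖((sZ p - sZ q : ℝ) : ℂ)‖ * ‖v.1‖ + ‖sX p - sX q‖ * ‖v.2‖ := by
    have := congrArg norm e1
    rw [norm_mul, Complex.norm_two] at this
    rw [this, ← norm_mul, ← norm_mul]
    exact norm_add_le _ _
  have n2 : 2 * ‖v.2‖ ≤ ‖sX p - sX q‖ * ‖v.1‖ + ‖((sZ p - sZ q : ℝ) : ℂ)‖ * ‖v.2‖ := by
    have := congrArg norm e2
    rw [norm_mul, Complex.norm_two] at this
    rw [this, ← Complex.norm_conj (sX p - sX q), ← norm_mul, ← norm_mul]
    exact norm_sub_le _ _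
  have hpos : 0 < ‖v.1‖ + ‖v.2‖ := by
    by_contra hn
    have b1 := norm_nonneg v.1
    have b2 := norm_nonneg v.2
    apply h0
    exact Prod.ext (norm_eq_zero.1 (by linarith)) (norm_eq_zero.1 (by linarith))
  nlinarith [norm_nonneg v.1, norm_nonneg v.2]

/-- nowhere vanishing continuous sections of the pulled-back line bundle -/
def Sec {A : Type*} [TopologicalSpace A] (ρ : A → S2) (s : A → ℂ × ℂ) : Prop :=
  Continuous s ∧ ∀ a, s a ≠ 0 ∧ InL (ρ a) (s a)

lemma Sec.comp {A B : Type*} [TopologicalSpace A] [TopologicalSpace B] {ρ : A → S2}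
    {s : A → ℂ × ℂ} (h : Sec ρ s) {g : B → A} (hg : Continuous g) : Sec (ρ ∘ g) (s ∘ g) :=
  ⟨h.1.comp hg, fun b => h.2 (g b)⟩

lemma Sec.near {A : Type*} [TopologicalSpace A] {ρ ρ' : A → S2} (hρ' : Continuous ρ')
    (hd : ∀ a, dist (ρ a) (ρ' a) < 1) (h : ∃ s, Sec ρ s) : ∃ s, Sec ρ' s := by
  obtain ⟨s, hs, h⟩ := h
  refine ⟨fun a => Pr (ρ' a) (s a), ?_, fun a => ⟨Pr_ne_zero (h a).2 (h a).1 (hd a), InL_Pr _ _⟩⟩
  unfold Pr
  fun_prop

/-- contraction of the simplex -/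
def ctr (n : ℕ) : C(I × Sx n, Sx n) where
  toFun q := ⟨(1 - (q.1 : ℝ)) • (stdSimplex.vertex (S := ℝ) (0 : Fin (n + 1))).1 + (q.1 : ℝ) • q.2.1,
    convex_stdSimplex ℝ _ (stdSimplex.vertex (S := ℝ) (0 : Fin (n + 1))).2 q.2.2
      (unitInterval.one_minus_nonneg q.1) q.1.2.1 (by ring)⟩
  continuous_toFun := by fun_prop

lemma ctr_zero (n : ℕ) (a : Sx n) : ctr n (0, a) = stdSimplex.vertex 0 := by
  apply Subtype.ext; simp [ctr]

lemma ctr_one (n : ℕ) (a : Sx n) : ctr n (1, a) = a := by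
  apply Subtype.ext; simp [ctr]

lemma exists_InL (p : S2) : ∃ v, v ≠ 0 ∧ InL p v := by
  have := sX_mul_conj p
  by_cases h : sZ p = 1
  · refine ⟨(1 + sZ p, conj (sX p)), fun h0 => ?_, ?_, ?_⟩
    · have : (1 + sZ p : ℂ) = 0 := congrArg Prod.fst h0
      rw [h] at this; norm_num at this
    · simp only; linear_combination -this
    · simp only; ring
  · refine ⟨(sX p, 1 - sZ p), fun h0 => ?_, ?_, ?_⟩
    · have h1 : (1 - sZ p : ℂ) = 0 := congrArg Prod.snd h0
      apply h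
      have : ((1 - sZ p : ℝ) : ℂ) = 0 := by push_cast; exact h1
      have : 1 - sZ p = 0 := by exact_mod_cast this
      linarith
    · simp only; ring
    · simp only; linear_combination -this

lemma exists_sec {n : ℕ} (ρ : C(Sx n, S2)) : ∃ s, Sec ρ s := by
  let H : C(I, C(Sx n, S2)) := (ρ.comp (ctr n)).curry
  let Q : I → Prop := fun t => ∃ s, Sec (H t) s
  have hQ : IsLocallyConstant Q := by
    rw [IsLocallyConstant.iff_eventually_eq]
    intro t
    filter_upwards [H.continuous.continuousAt.eventually (Metric.ball_mem_nhds (H t) one_pos)]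
      with t' ht'
    have h1 : ∀ a, dist (H t' a) (H t a) < 1 := fun a =>
      (ContinuousMap.dist_apply_le_dist a).trans_lt ht'
    exact propext ⟨Sec.near (H t).continuous h1,
      Sec.near (H t').continuous fun a => by rw [dist_comm]; exact h1 a⟩
  have h01 : Q 0 = Q 1 := hQ.apply_eq_of_preconnectedSpace 0 1
  have h0 : Q 0 := by
    obtain ⟨v, hv0, hv⟩ := exists_InL (ρ (stdSimplex.vertex 0))
    refine ⟨fun _ => v, continuous_const, fun a => ⟨hv0, ?_⟩⟩
    have : H 0 a = ρ (stdSimplex.vertex 0) := by simp [H, ctr_zero]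
    rw [this]; exact hv
  rw [h01] at h0
  have : (H 1 : Sx n → S2) = ρ := by
    funext a; simp [H, ctr_one]
  simpa only [Q, this] using h0

lemma exists_log {n : ℕ} (g : Sx n → ℂ) (hg : Continuous g) (h0 : ∀ a, g a ≠ 0) :
    ∃ l : Sx n → ℂ, Continuous l ∧ ∀ a, exp (l a) = g a := by
  let g' : C(Sx n, {z : ℂ // z ≠ 0}) := ⟨fun a => ⟨g a, h0 a⟩, hg.subtype_mk _⟩
  let H := isCoveringMap_exp.liftHomotopy (g'.comp (ctr n))
    (ContinuousMap.const _ (log (g (stdSimplex.vertex 0)))) (fun a => by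
      apply Subtype.ext
      simp [g', ctr_zero, exp_log (h0 _)])
  refine ⟨fun a => H (1, a), by fun_prop, fun a => ?_⟩
  have := congrFun (isCoveringMap_exp.liftHomotopy_lifts (g'.comp (ctr n))
    (ContinuousMap.const _ (log (g (stdSimplex.vertex 0)))) (fun a => by
      apply Subtype.ext
      simp [g', ctr_zero, exp_log (h0 _)])) (1, a)
  have := congrArg Subtype.val this
  have h2 : (((g'.comp (ctr n)) (1, a) : {z : ℂ // z ≠ 0}) : ℂ) = g a := by simp [g', ctr_one]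
  exact this.trans h2

lemma exists_ratio {n : ℕ} {ρ : Sx n → S2} {s s' : Sx n → ℂ × ℂ} (h : Sec ρ s) (h' : Sec ρ s') :
    ∃ l : Sx n → ℂ, Continuous l ∧ ∀ a, s a = exp (l a) • s' a := by
  have hN : ∀ a, ((normSq (s' a).1 + normSq (s' a).2 : ℝ) : ℂ) ≠ 0 := fun a h0 => by
    have h1 : normSq (s' a).1 + normSq (s' a).2 = 0 := by exact_mod_cast h0
    have b1 := normSq_nonneg (s' a).1
    have b2 := normSq_nonneg (s' a).2
    exact (h'.2 a).1 (Prod.ext (normSq_eq_zero.1 (by linarith)) (normSq_eq_zero.1 (by linarith)))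
  let g : Sx n → ℂ := fun a => ((s a).1 * conj (s' a).1 + (s a).2 * conj (s' a).2) /
    ((normSq (s' a).1 + normSq (s' a).2 : ℝ) : ℂ)
  have hs := h.1
  have hs' := h'.1
  have hg : Continuous g := Continuous.div (by fun_prop) (by fun_prop) hN
  have key : ∀ a, s a = g a • s' a := fun a => by
    obtain ⟨a1, a2⟩ := (h.2 a).2
    obtain ⟨b1, b2⟩ := (h'.2 a).2
    have hdet : (s a).1 * (s' a).2 = (s a).2 * (s' a).1 := by
      linear_combination ((s' a).2 * a1 - (s a).2 * b1 + (s a).1 * b2 - (s' a).1 * a2) / 2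
    have hn := hN a
    have c1 := mul_conj (s' a).1
    have c2 := mul_conj (s' a).2
    apply Prod.ext
    · simp only [g, Prod.smul_fst, smul_eq_mul]
      field_simp
      push_cast
      linear_combination -(s a).1 * c1 - (s a).1 * c2 + conj (s' a).2 * hdet
    · simp only [g, Prod.smul_snd, smul_eq_mul]
      field_simp
      push_cast
      linear_combination -(s a).2 * c1 - (s a).2 * c2 - conj (s' a).1 * hdet
  obtain ⟨l, hl, hl'⟩ := exists_log g hg fun a h0 => (h.2 a).1 (by rw [key a, h0, zero_smul])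
  exact ⟨l, hl, fun a => by rw [hl', key a]⟩

open Classical in
/-- logarithmic variation of the ratio of two sections along an edge -/
def wind (s s' : Sx 1 → ℂ × ℂ) : ℂ :=
  if h : ∃ l : Sx 1 → ℂ, Continuous l ∧ ∀ a, s a = exp (l a) • s' a then
    h.choose (stdSimplex.vertex 1) - h.choose (stdSimplex.vertex 0) else 0

lemma wind_eq {s s' : Sx 1 → ℂ × ℂ} (h0 : ∀ a, s' a ≠ 0) {l : Sx 1 → ℂ} (hl : Continuous l)
    (h : ∀ a, s a = exp (l a) • s' a) :
    wind s s' = l (stdSimplex.vertex 1) - l (stdSimplex.vertex 0) := by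
  have hex : ∃ l : Sx 1 → ℂ, Continuous l ∧ ∀ a, s a = exp (l a) • s' a := ⟨l, hl, h⟩
  rw [wind, dif_pos hex]
  obtain ⟨hm, hm'⟩ := hex.choose_spec
  set m := hex.choose
  have he : ∀ a, exp (m a - l a) = 1 := fun a => by
    have h1 : (exp (m a) - exp (l a)) • s' a = 0 := by rw [sub_smul, ← hm', ← h, sub_self]
    have h2 := (smul_eq_zero.1 h1).resolve_right (h0 a)
    rw [exp_sub, sub_eq_zero.1 h2, div_self (exp_ne_zero _)]
  have := isCoveringMap_exp.const_of_comp (g := fun a => m a - l a) (hm.sub hl)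
    (fun a a' => Subtype.ext (by simp only [he])) (stdSimplex.vertex 1) (stdSimplex.vertex 0)
  linear_combination this

lemma wind_add {ρ : Sx 1 → S2} {s s' s'' : Sx 1 → ℂ × ℂ} (h : Sec ρ s) (h' : Sec ρ s')
    (h'' : Sec ρ s'') : wind s s'' = wind s s' + wind s' s'' := by
  obtain ⟨l, hl, hl'⟩ := exists_ratio h h'
  obtain ⟨m, hm, hm'⟩ := exists_ratio h' h''
  rw [wind_eq (fun a => (h'.2 a).1) hl hl', wind_eq (fun a => (h''.2 a).1) hm hm',
    wind_eq (fun a => (h''.2 a).1) (hl.add hm) (fun a => by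
      rw [hl', hm', smul_smul, Pi.add_apply, exp_add])]
  simp only [Pi.add_apply]
  ring

def sec {n : ℕ} (ρ : C(Sx n, S2)) : Sx n → ℂ × ℂ := (exists_sec ρ).choose

lemma sec_spec {n : ℕ} (ρ : C(Sx n, S2)) : Sec ρ (sec ρ) := (exists_sec ρ).choose_spec

/-- simplicial maps of standard simplices as continuous maps -/
def smap {m n : ℕ} (g : Fin (m + 1) → Fin (n + 1)) : C(Sx m, Sx n) :=
  ⟨stdSimplex.map g, stdSimplex.continuous_map g⟩

def face {n : ℕ} (i : Fin (n + 2)) : C(Sx n, Sx (n + 1)) := smap i.succAbove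

lemma smap_comp {l m n : ℕ} (g : Fin (m + 1) → Fin (n + 1)) (k : Fin (l + 1) → Fin (m + 1)) :
    (smap g).comp (smap k) = smap (g ∘ k) := by
  ext1 a
  exact stdSimplex.map_comp_apply k g a

def Dv {n : ℕ} (ρ : C(Sx n, S2)) (s : Sx n → ℂ × ℂ) (τ : C(Sx 1, Sx n)) : ℂ :=
  wind (s ∘ τ) (sec (ρ.comp τ))

def cocS (η : C(Sx 2, S2)) (s : Sx 2 → ℂ × ℂ) : ℂ :=
  Dv η s (face 0) - Dv η s (face 1) + Dv η s (face 2)

def coc (η : C(Sx 2, S2)) : ℂ := cocS η (sec η)

lemma cocS_eq {η : C(Sx 2, S2)} {s : Sx 2 → ℂ × ℂ} (h : Sec η s) : cocS η s = coc η := by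
  obtain ⟨l, hl, hl'⟩ := exists_ratio h (sec_spec η)
  have key : ∀ i : Fin 3, Dv η s (face i) = l (stdSimplex.vertex (i.succAbove 1)) -
      l (stdSimplex.vertex (i.succAbove 0)) + Dv η (sec η) (face i) := fun i => by
    have hc := (face (n := 1) i).continuous
    rw [Dv, Dv, wind_add (h.comp hc) ((sec_spec η).comp hc) (sec_spec (η.comp (face i))),
      wind_eq (s := s ∘ face i) (s' := sec η ∘ face i)
        (fun a => ((sec_spec η).2 _).1) (hl.comp hc) (fun a => hl' _)]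
    simp [face, smap]
  rw [coc, cocS, cocS, key, key, key]
  have e1 : (0 : Fin 3).succAbove 1 = 2 := by decide
  have e2 : (0 : Fin 3).succAbove 0 = 1 := by decide
  have e3 : (1 : Fin 3).succAbove 1 = 2 := by decide
  have e4 : (1 : Fin 3).succAbove 0 = 0 := by decide
  have e5 : (2 : Fin 3).succAbove 1 = 1 := by decide
  have e6 : (2 : Fin 3).succAbove 0 = 0 := by decide
  rw [e1, e2, e3, e4, e5, e6]
  ring

lemma coc_cocycle (ρ : C(Sx 3, S2)) :
    coc (ρ.comp (face 0)) - coc (ρ.comp (face 1)) + coc (ρ.comp (face 2))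
      - coc (ρ.comp (face 3)) = 0 := by
  have key : ∀ j : Fin 4, coc (ρ.comp (face j)) =
      Dv ρ (sec ρ) (smap (j.succAbove ∘ (0 : Fin 3).succAbove))
      - Dv ρ (sec ρ) (smap (j.succAbove ∘ (1 : Fin 3).succAbove))
      + Dv ρ (sec ρ) (smap (j.succAbove ∘ (2 : Fin 3).succAbove)) := fun j => by
    rw [← cocS_eq ((sec_spec ρ).comp (face (n := 2) j).continuous), ← smap_comp, ← smap_comp,
      ← smap_comp]
    rfl
  rw [key, key, key, key]
  have e1 : (1 : Fin 4).succAbove ∘ (0 : Fin 3).succAbove =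
    (0 : Fin 4).succAbove ∘ (0 : Fin 3).succAbove := by decide
  have e2 : (2 : Fin 4).succAbove ∘ (0 : Fin 3).succAbove =
    (0 : Fin 4).succAbove ∘ (1 : Fin 3).succAbove := by decide
  have e3 : (3 : Fin 4).succAbove ∘ (0 : Fin 3).succAbove =
    (0 : Fin 4).succAbove ∘ (2 : Fin 3).succAbove := by decide
  have e4 : (2 : Fin 4).succAbove ∘ (1 : Fin 3).succAbove =
    (1 : Fin 4).succAbove ∘ (1 : Fin 3).succAbove := by decide
  have e5 : (3 : Fin 4).succAbove ∘ (1 : Fin 3).succAbove =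
    (1 : Fin 4).succAbove ∘ (2 : Fin 3).succAbove := by decide
  have e6 : (3 : Fin 4).succAbove ∘ (2 : Fin 3).succAbove =
    (2 : Fin 4).succAbove ∘ (2 : Fin 3).succAbove := by decide
  rw [e1, e2, e3, e4, e5, e6]
  ring

end H6Ent
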