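import Crest.Agent.H6.EntModel
import Crest.Agent.H6.EntCone

/-! The manifold `S² × S¹ × S⁴`, the self-map, its smoothness and homotopy class. -/

set_option autoImplicit false

open Filter Topology Set Complex
open scoped Real Manifold ContDiff unitInterval

noncomputable section

namespace H6Ent

abbrev E4 := WithLp 2 (ℂ × ℂ)
abbrev E5 := WithLp 2 (E4 × ℝ)
abbrev S4 := Metric.sphere (0 : E5) 1

instance : Fact (Module.finrank ℝ E5 = 4 + 1) := ⟨by
  rw [(WithLp.linearEquiv 2 ℝ (E4 × ℝ)).finrank_eq, Module.finrank_prod,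
    (WithLp.linearEquiv 2 ℝ (ℂ × ℂ)).finrank_eq]; simp⟩

def amb4 (x : ℂ × ℂ) : E5 :=
  WithLp.toLp 2 (WithLp.toLp 2 ((1 / 32 : ℝ) • x), √(1 - nn x / 1024))

lemma amb4_mem {x : ℂ × ℂ} (h : nn x ≤ 1024) : amb4 x ∈ Metric.sphere (0 : E5) 1 := by
  rw [mem_sphere_zero_iff_norm]
  have h1 : ‖amb4 x‖ ^ 2 = 1 := by
    rw [WithLp.prod_norm_sq_eq_of_L2]
    change ‖(WithLp.toLp 2 ((1 / 32 : ℝ) • x) : E4)‖ ^ 2 + ‖√(1 - nn x / 1024)‖ ^ 2 = 1
    rw [WithLp.prod_norm_sq_eq_of_L2, Real.norm_eq_abs, sq_abs, Real.sq_sqrt (by linarith)]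
    change ‖(1 / 32 : ℝ) • x.1‖ ^ 2 + ‖(1 / 32 : ℝ) • x.2‖ ^ 2 + _ = 1
    rw [norm_smul, norm_smul, mul_pow, mul_pow, Complex.sq_norm, Complex.sq_norm, nn]
    norm_num
    ring
  nlinarith [norm_nonneg (amb4 x)]

lemma nn_zero : nn 0 = 0 := by simp [nn]

def emb (x : ℂ × ℂ) : S4 :=
  if h : nn x ≤ 1024 then ⟨amb4 x, amb4_mem h⟩ else ⟨amb4 0, amb4_mem (by simp [nn_zero])⟩

lemma emb_val {x : ℂ × ℂ} (h : nn x ≤ 1024) : (emb x : E5) = amb4 x := by rw [emb, dif_pos h]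

def prj (y : S4) : ℂ × ℂ := (32 : ℝ) • (y : E5).fst.ofLp

lemma prj_emb {x : ℂ × ℂ} (h : nn x ≤ 1024) : prj (emb x) = x := by
  rw [prj, emb_val h]
  change (32 : ℝ) • (1 / 32 : ℝ) • x = x
  rw [smul_smul]; norm_num

lemma contDiffAt_amb4 {x : ℂ × ℂ} (h : nn x < 1024) : ContDiffAt ℝ 1 amb4 x := by
  have h1 : ContDiff ℝ 1 fun x : ℂ × ℂ => (WithLp.toLp 2 ((1 / 32 : ℝ) • x) : E4) :=
    (WithLp.prodContinuousLinearEquiv 2 ℝ ℂ ℂ).symm.contDiff.comp (contDiff_id.const_smul _)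
  have h2 : ContDiffAt ℝ 1 (fun x : ℂ × ℂ => √(1 - nn x / 1024)) x := by
    have : ContDiff ℝ 1 fun x : ℂ × ℂ => 1 - nn x / 1024 := by fun_prop
    exact this.contDiffAt.sqrt (by linarith)
  exact (WithLp.prodContinuousLinearEquiv 2 ℝ E4 ℝ).symm.contDiff.contDiffAt.comp x
    (h1.contDiffAt.prodMk h2)

lemma continuous_amb4 : Continuous amb4 := by
  have h1 : Continuous fun x : ℂ × ℂ => (WithLp.toLp 2 ((1 / 32 : ℝ) • x) : E4) :=
    (WithLp.prod_continuous_toLp 2 ℂ ℂ).comp (continuous_const_smul (1 / 32 : ℝ))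
  have h2 : Continuous fun x : ℂ × ℂ => √(1 - nn x / 1024) :=
    (continuous_const.sub (contDiff_nn.continuous.div_const _)).sqrt
  exact (WithLp.prod_continuous_toLp 2 E4 ℝ).comp (h1.prodMk h2)

lemma contMDiff_prj : ContMDiff (𝓡 4) 𝓘(ℝ, ℂ × ℂ) 1 prj := by
  have h : ContDiff ℝ 1 fun v : E5 => (32 : ℝ) • v.fst.ofLp :=
    ((WithLp.prodContinuousLinearEquiv 2 ℝ ℂ ℂ).contDiff.comp
      (WithLp.fstL 2 ℝ E4 ℝ).contDiff).const_smul _
  exact h.contMDiff.comp contMDiff_coe_sphere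

abbrev VV := ℝ × (ℂ × ℂ)
abbrev MM := S2 × Circle × S4
abbrev IM := (𝓡 2).prod ((𝓡 1).prod (𝓡 4))

open Classical in
def f1 (q : S2 × VV) : S2 := if q.1 = NP then NP else st (Fz (zeta q.1) q.2.1 q.2.2)
open Classical in
def f2 (q : S2 × VV) : ℝ := if q.1 = NP then ph q.2.1 else Fa (zeta q.1) q.2.1 q.2.2
open Classical in
def f3 (q : S2 × VV) : ℂ × ℂ := if q.1 = NP then 0 else Fx (zeta q.1) q.2.1 q.2.2

lemma nn_f3_lt (q : S2 × VV) : nn (f3 q) < 1024 := by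
  unfold f3; split_ifs
  · simp [nn_zero]
  · exact nn_Fx_lt _ _ _

def fh (q : S2 × VV) : MM := (f1 q, Circle.exp (f2 q), emb (f3 q))

def ff (m : MM) : MM := fh (m.1, arg m.2.1, prj m.2.2)

lemma contDiff_E3_fst : ContDiff ℝ 1 fun v : E3 => v.fst := (WithLp.fstL 2 ℝ ℂ ℝ).contDiff
lemma contDiff_E3_snd : ContDiff ℝ 1 fun v : E3 => v.snd := (WithLp.sndL 2 ℝ ℂ ℝ).contDiff

lemma contMDiffAt_zeta {p : S2} (h : p ≠ NP) : ContMDiffAt (𝓡 2) 𝓘(ℝ, ℂ) 1 zeta p := by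
  have h1 : (1 : ℝ) - (p : E3).snd ≠ 0 := by have := sZ_lt_one h; unfold sZ at this; linarith
  have h2 : ContDiffAt ℝ 1 (fun v : E3 => (1 - v.snd)⁻¹ • v.fst) (p : E3) :=
    ((contDiff_const.sub contDiff_E3_snd).contDiffAt.inv h1).smul contDiff_E3_fst.contDiffAt
  have h3 : zeta = (fun v : E3 => (1 - v.snd)⁻¹ • v.fst) ∘ ((↑) : S2 → E3) := by
    funext p
    simp [zeta, sX, sZ, div_eq_inv_mul]
  rw [h3]
  exact h2.contMDiffAt.comp p (contMDiff_coe_sphere p)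

open Classical in
lemma contMDiff_glue {W' : Type*} [NormedAddCommGroup W'] [NormedSpace ℝ W']
    (g : ℂ × VV → W') (hg : ContDiff ℝ 1 g) (g' : E3 × VV → W') (hg' : ContDiff ℝ 1 g')
    (h : ∀ (p : S2) (v : VV), p ≠ NP → 1024 ≤ normSq (zeta p) → g (zeta p, v) = g' (p, v))
    (G : S2 × VV → W') (hG : ∀ q, G q = if q.1 = NP then g' (q.1, q.2) else g (zeta q.1, q.2)) :
    ContMDiff ((𝓡 2).prod 𝓘(ℝ, VV)) 𝓘(ℝ, W') 1 G := by
  rintro ⟨p, v⟩
  by_cases hp : p = NP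
  · subst hp
    have h1 : ContMDiff ((𝓡 2).prod 𝓘(ℝ, VV)) 𝓘(ℝ, W') 1 fun q : S2 × VV => g' (q.1, q.2) :=
      hg'.contMDiff.comp ((contMDiff_coe_sphere.comp contMDiff_fst).prodMk_space contMDiff_snd)
    refine (h1 _).congr_of_eventuallyEq ?_
    filter_upwards [(continuous_fst.tendsto (NP, v)).eventually (eventually_zeta_large 1024)]
      with q hq
    rw [hG]
    split_ifs with h2
    · rfl
    · exact h _ _ h2 (hq h2)
  · have h1 : ContMDiffAt ((𝓡 2).prod 𝓘(ℝ, VV)) 𝓘(ℝ, W') 1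
        (fun q : S2 × VV => g (zeta q.1, q.2)) (p, v) :=
      hg.contMDiff.contMDiffAt.comp (p, v)
        ((ContMDiffAt.comp (g := zeta) (f := Prod.fst) (p, v) (contMDiffAt_zeta hp)
          contMDiffAt_fst).prodMk_space contMDiffAt_snd)
    refine h1.congr_of_eventuallyEq ?_
    filter_upwards [(continuous_fst.tendsto (p, v)).eventually (isOpen_ne.mem_nhds hp)] with q hq
    rw [hG, if_neg hq]

def Gamb (v : E3) : E3 :=
  WithLp.toLp 2 ((1 + v.snd ^ 2)⁻¹ • v.fst ^ 2, (1 + v.snd ^ 2)⁻¹ * (2 * v.snd))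

lemma contDiff_Gamb : ContDiff ℝ 1 Gamb := by
  have h1 : ContDiff ℝ 1 fun v : E3 => (1 + v.snd ^ 2)⁻¹ :=
    (contDiff_const.add (contDiff_E3_snd.pow 2)).inv fun v => by positivity
  exact (WithLp.prodContinuousLinearEquiv 2 ℝ ℂ ℝ).symm.contDiff.comp
    ((h1.smul (contDiff_E3_fst.pow 2)).prodMk (h1.mul (contDiff_const.mul contDiff_E3_snd)))

lemma contDiff_st : ContDiff ℝ 1 fun w : ℂ => (st w : E3) := by
  have h1 : ContDiff ℝ 1 fun w : ℂ => (normSq w + 1)⁻¹ :=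
    (contDiff_normSq'.add contDiff_const).inv fun w => by have := normSq_nonneg w; positivity
  have h2 : ContDiff ℝ 1 fun w : ℂ => ((2 * (normSq w + 1)⁻¹ : ℝ) : ℂ) * w :=
    (contDiff_ofReal1.comp (contDiff_const.mul h1)).mul contDiff_id
  have h3 : ContDiff ℝ 1 fun w : ℂ => (normSq w - 1) * (normSq w + 1)⁻¹ :=
    (contDiff_normSq'.sub contDiff_const).mul h1
  exact (WithLp.prodContinuousLinearEquiv 2 ℝ ℂ ℝ).symm.contDiff.comp (h2.prodMk h3)

lemma st_sq {p : S2} (hp : p ≠ NP) : (st (zeta p ^ 2) : E3) = Gamb p := by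
  have h1 := sZ_lt_one hp
  have h2 : 1 - sZ p ≠ 0 := by linarith
  have h3 : normSq (zeta p ^ 2) = ((1 + sZ p) / (1 - sZ p)) ^ 2 := by rw [map_pow, normSq_zeta hp]
  have h4 : normSq (zeta p ^ 2) + 1 = 2 * (1 + sZ p ^ 2) / (1 - sZ p) ^ 2 := by
    rw [h3]; field_simp; ring
  have h5 : (0 : ℝ) < 1 + sZ p ^ 2 := by positivity
  apply (WithLp.equiv 2 _).injective
  refine Prod.ext ?_ ?_
  · change sX (st (zeta p ^ 2)) = (1 + sZ p ^ 2)⁻¹ • sX p ^ 2
    rw [sX_st, h4, zeta, Complex.real_smul]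
    have h6 : ((1 - sZ p : ℝ) : ℂ) ≠ 0 := by exact_mod_cast h2
    have h7 : ((1 + sZ p ^ 2 : ℝ) : ℂ) ≠ 0 := by exact_mod_cast h5.ne'
    have : (2 / (2 * (1 + sZ p ^ 2) / (1 - sZ p) ^ 2) : ℝ) = (1 - sZ p) ^ 2 * (1 + sZ p ^ 2)⁻¹ := by
      field_simp
    rw [this, ofReal_mul, ofReal_pow]
    field_simp
  · change sZ (st (zeta p ^ 2)) = (1 + sZ p ^ 2)⁻¹ * (2 * sZ p)
    rw [sZ_st, h4, h3]
    field_simp
    ring

lemma Gamb_NP : Gamb (NP : S2) = (NP : S2) := by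
  apply (WithLp.equiv 2 _).injective
  refine Prod.ext ?_ ?_
  · change (1 + sZ NP ^ 2)⁻¹ • sX NP ^ 2 = sX NP
    simp
  · change (1 + sZ NP ^ 2)⁻¹ * (2 * sZ NP) = sZ NP
    simp only [sZ_NP]; norm_num

lemma contMDiff_f1 : ContMDiff ((𝓡 2).prod 𝓘(ℝ, VV)) (𝓡 2) 1 f1 := by
  have h : ContMDiff ((𝓡 2).prod 𝓘(ℝ, VV)) 𝓘(ℝ, E3) 1 fun q => (f1 q : E3) := by
    refine contMDiff_glue (fun q => (st (Fz q.1 q.2.1 q.2.2) : E3)) (contDiff_st.comp contDiff_Fz)
      (fun q => Gamb q.1) (contDiff_Gamb.comp contDiff_fst) (fun p v hp h => ?_) _ fun q => ?_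
    · simp only [(far h _ _).1, st_sq hp]
    · unfold f1
      split_ifs with h
      · rw [h, Gamb_NP]
      · rfl
  exact h.codRestrict_sphere fun q => (f1 q).2

lemma contMDiff_f2 : ContMDiff ((𝓡 2).prod 𝓘(ℝ, VV)) 𝓘(ℝ, ℝ) 1 f2 :=
  contMDiff_glue (fun q => Fa q.1 q.2.1 q.2.2) contDiff_Fa (fun q => ph q.2.1)
    (contDiff_ph.comp (contDiff_fst.comp contDiff_snd)) (fun _ _ _ h => (far h _ _).2.1) _
    fun _ => rfl

lemma contMDiff_f3 : ContMDiff ((𝓡 2).prod 𝓘(ℝ, VV)) 𝓘(ℝ, ℂ × ℂ) 1 f3 :=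
  contMDiff_glue (fun q => Fx q.1 q.2.1 q.2.2) contDiff_Fx (fun _ => 0)
    contDiff_const (fun _ _ _ h => (far h _ _).2.2) _ fun _ => rfl

lemma contMDiff_fh : ContMDiff ((𝓡 2).prod 𝓘(ℝ, VV)) IM 1 fh := by
  refine contMDiff_f1.prodMk ((contMDiff_circleExp.comp contMDiff_f2).prodMk ?_)
  have h : ContMDiff ((𝓡 2).prod 𝓘(ℝ, VV)) 𝓘(ℝ, E5) 1 fun q => (emb (f3 q) : E5) := by
    have : (fun q => (emb (f3 q) : E5)) = amb4 ∘ f3 := funext fun q => emb_val (nn_f3_lt q).le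
    rw [this]
    exact fun q => (contDiffAt_amb4 (nn_f3_lt q)).contMDiffAt.comp q (contMDiff_f3 q)
  exact h.codRestrict_sphere fun q => (emb (f3 q)).2

lemma fh_top (p : S2) {a : ℝ} (ha : 3 ≤ |a|) (x : ℂ × ℂ) : fh (p, a, x) = fh (p, π, x) := by
  have hpi := Real.pi_gt_three
  have h1 : mm a = mm π := by
    rw [mm_one (a := π) (Or.inl (by linarith)), mm_one]
    rcases le_abs.1 ha with h | h
    · left; linarith
    · right; linarith
  have h2 : sg a = sg π := by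
    rw [sg_zero (a := π) (Or.inr (by linarith)), sg_zero]
    rcases le_abs.1 ha with h | h
    · right; linarith
    · left; linarith
  have h3 : amt a = 0 := by
    apply amt_zero
    rcases le_abs.1 ha with h | h
    · right; linarith
    · left; linarith
  have h4 : amt π = 0 := amt_zero (Or.inr (by linarith))
  have h5 : Circle.exp (ph a) = Circle.exp (ph π) := by
    rw [ph_top (a := π) (by linarith)]
    rcases le_abs.1 ha with h | h
    · rw [ph_top (by linarith)]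
    · rw [ph_zero (by linarith), Circle.exp_zero, Circle.exp_two_pi]
  simp only [fh, f1, f2, f3, Fz, Fa, Fx, kap, h1, h2, h3, h4, mul_zero, add_zero, ite_self, h5]

lemma contMDiffAt_arg {c : Circle} (h : (c : ℂ) ∈ slitPlane) :
    ContMDiffAt (𝓡 1) 𝓘(ℝ, ℝ) 1 (fun c : Circle => arg c) c := by
  have h1 : ContDiffAt ℝ 1 (fun z : ℂ => (log z).im) (c : ℂ) :=
    imCLM.contDiff.contDiffAt.comp _ ((contDiffAt_log h).restrict_scalars ℝ)
  simp only [log_im] at h1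
  have : Fact (Module.finrank ℝ ℂ = 1 + 1) := ⟨by simp⟩
  have h2 : ContMDiff (𝓡 1) 𝓘(ℝ, ℂ) 1 fun c : Circle => (c : ℂ) := contMDiff_coe_sphere
  exact h1.contMDiffAt.comp c (h2 c)

theorem contMDiff_ff : ContMDiff IM IM 1 ff := by
  rintro ⟨p, c, y⟩
  have hy : ContMDiff IM 𝓘(ℝ, ℂ × ℂ) 1 fun m : MM => prj m.2.2 :=
    contMDiff_prj.comp (contMDiff_snd.comp contMDiff_snd)
  by_cases hc : (c : ℂ) ∈ slitPlane
  · have ha : ContMDiffAt IM 𝓘(ℝ, ℝ) 1 (fun m : MM => arg m.2.1) (p, c, y) :=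
      ContMDiffAt.comp (g := fun c : Circle => arg c) (f := fun m : MM => m.2.1) (p, c, y)
        (contMDiffAt_arg hc) (contMDiff_fst.comp contMDiff_snd _)
    exact (contMDiff_fh _).comp (p, c, y) (contMDiffAt_fst.prodMk (ha.prodMk_space (hy _)))
  · have h1 : ContMDiff IM IM 1 fun m : MM => fh (m.1, π, prj m.2.2) :=
      contMDiff_fh.comp (contMDiff_fst.prodMk (contMDiff_const.prodMk_space hy))
    refine (h1 _).congr_of_eventuallyEq ?_
    have hpi := Real.pi_gt_three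
    have hcos : ∀ c : Circle, Real.cos (arg c) = (c : ℂ).re := fun c => by
      rw [cos_arg c.coe_ne_zero]; simp
    have h2 : (c : ℂ).re < Real.cos 3 := by
      rw [mem_slitPlane_iff_arg, not_and_or, not_not, not_not] at hc
      rw [← hcos, hc.resolve_right c.coe_ne_zero]
      exact Real.cos_lt_cos_of_nonneg_of_le_pi (by norm_num) le_rfl hpi
    have h3 : Continuous fun m : MM => (m.2.1 : ℂ).re := by fun_prop
    filter_upwards [h3.continuousAt.eventually (gt_mem_nhds h2)] with m hm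
    refine fh_top _ ?_ _
    by_contra h4
    rw [← hcos, ← Real.cos_abs] at hm
    exact absurd (Real.cos_le_cos_of_nonneg_of_le_pi (abs_nonneg _) hpi.le (not_le.1 h4).le)
      (not_le.2 hm)

def ffC : C(MM, MM) := ⟨ff, contMDiff_ff.continuous⟩

def inc : C(S2, MM) := ⟨fun p => (p, Circle.exp π, emb 0), by fun_prop⟩

def prS : C(MM, S2) := ⟨Prod.fst, continuous_fst⟩

open Classical in
theorem homotopic_ff : (ffC.comp inc).Homotopic (inc.comp G0) := by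
  have hpi := Real.pi_gt_three
  have hm : mm π = 1 := mm_one (Or.inl (by linarith))
  let φ : I × ℂ → ℂ := fun q => ((1 - (q.1 : ℝ)) * bb q.2 : ℝ) * q.2 ^ 2 +
    (q.1 : ℝ) * (q.2 ^ 2 / (‖q.2‖ : ℂ))
  have hφ : Continuous φ := by
    have h1 := contDiff_bb.continuous
    exact Continuous.add (by fun_prop)
      (Continuous.mul (by fun_prop) (continuous_dbl.comp continuous_snd))
  have hR : ∀ (t : I) (w : ℂ), 256 ≤ normSq w → normSq w ≤ normSq (φ (t, w)) := by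
    intro t w hw
    obtain ⟨v, hv, hw'⟩ := exists_polar w
    have h1 : 16 ≤ ‖w‖ := by rw [normSq_eq_norm_sq] at hw; nlinarith [norm_nonneg w]
    have h2 : φ (t, w) = (((1 - (t : ℝ)) * ‖w‖ ^ 2 + t * ‖w‖ : ℝ) : ℂ) * v ^ 2 := by
      simp only [φ, bb_one hw]
      generalize ‖w‖ = r at hw' h1
      have : (r : ℂ) ≠ 0 := by exact_mod_cast (by linarith : r ≠ 0)
      rw [hw']
      push_cast
      field_simp
    rw [h2, normSq_ray _ (norm_sq_unit hv 2), normSq_eq_norm_sq]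
    have h3 : ‖w‖ ≤ (1 - (t : ℝ)) * ‖w‖ ^ 2 + t * ‖w‖ := by
      have := mul_nonneg (unitInterval.one_minus_nonneg t) (by nlinarith : 0 ≤ ‖w‖ ^ 2 - ‖w‖)
      nlinarith
    gcongr
  have hc3 : Continuous fun p : S2 => f3 (p, π, 0) :=
    contMDiff_f3.continuous.comp (by fun_prop)
  have hb : ∀ (t : I) (p : S2), nn ((1 - (t : ℝ)) • f3 (p, π, 0)) ≤ 1024 := by
    intro t p
    have h1 : nn ((1 - (t : ℝ)) • f3 (p, π, 0)) = (1 - (t : ℝ)) ^ 2 * nn (f3 (p, π, 0)) := by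
      simp only [nn, Prod.smul_fst, Prod.smul_snd, Complex.real_smul, normSq_mul, normSq_ofReal]
      ring
    have h2 := nn_f3_lt (p, π, 0)
    have h3 := nn_nonneg (f3 (p, π, 0))
    have h4 : (1 - (t : ℝ)) ^ 2 ≤ 1 :=
      pow_le_one₀ (unitInterval.one_minus_nonneg t) (unitInterval.one_minus_le_one t)
    rw [h1]; nlinarith
  refine ⟨⟨⟨fun q => (if q.2 = NP then NP else st (φ (q.1, zeta q.2)), Circle.exp (π * q.1),
    emb ((1 - (q.1 : ℝ)) • f3 (q.2, π, 0))), ?_⟩, fun p => ?_, fun p => ?_⟩⟩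
  · refine (continuous_glue φ hφ 256 hR).prodMk (Continuous.prodMk (by fun_prop) ?_)
    refine continuous_induced_rng.2 ?_
    have : (Subtype.val ∘ fun q : I × S2 => emb ((1 - (q.1 : ℝ)) • f3 (q.2, π, 0))) =
        fun q : I × S2 => amb4 ((1 - (q.1 : ℝ)) • f3 (q.2, π, 0)) :=
      funext fun q => emb_val (hb q.1 q.2)
    rw [this]
    have h1 : Continuous fun q : I × S2 => 1 - (q.1 : ℝ) := by fun_prop
    exact continuous_amb4.comp (h1.smul (hc3.comp continuous_snd))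
  · change _ = fh (p, arg (Circle.exp π), prj (emb 0))
    rw [Circle.arg_exp (by linarith) le_rfl, prj_emb (by simp [nn_zero])]
    refine Prod.ext ?_ (Prod.ext ?_ ?_)
    · simp [fh, f1, φ, Fz, hm]
    · have : f2 (p, π, 0) = 2 * π := by
        simp only [f2, Fa_eq_ph (a := π) (by linarith), ite_self, ph_top (a := π) (by linarith)]
      simp [fh, this]
    · simp [fh]
  · change _ = (G0 p, Circle.exp π, emb 0)
    refine Prod.ext ?_ (Prod.ext (by simp) (by simp))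
    by_cases hp : p = NP
    · simp [hp, G0_NP]
    · conv_rhs => rw [← st_zeta hp, G0_st]
      simp [hp, φ]

end H6Ent
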