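import Crest.Agent.H6.EntWrap

/-! The model map in planar coordinates and its one-step dynamics. -/

set_option autoImplicit false

open Filter Topology Set Complex
open scoped Real

noncomputable section

namespace H6Ent

def sT (t : ℝ) : ℝ := Real.smoothTransition t

lemma sT_zero {t : ℝ} (h : t ≤ 0) : sT t = 0 := Real.smoothTransition.zero_of_nonpos h
lemma sT_one {t : ℝ} (h : 1 ≤ t) : sT t = 1 := Real.smoothTransition.one_of_one_le h
lemma sT_nonneg (t : ℝ) : 0 ≤ sT t := Real.smoothTransition.nonneg _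
lemma sT_le_one (t : ℝ) : sT t ≤ 1 := Real.smoothTransition.le_one _
lemma sT_mono {s t : ℝ} (h : s ≤ t) : sT s ≤ sT t := Real.smoothTransition.monotone h

@[fun_prop] lemma contDiff_sT {n : ℕ∞} : ContDiff ℝ n sT := Real.smoothTransition.contDiff

def nn (x : ℂ × ℂ) : ℝ := normSq x.1 + normSq x.2
def bb (z : ℂ) : ℝ := S (normSq z / 64)
def ee (z : ℂ) : ℝ := S (normSq z / 256)
def bet (z : ℂ) (x : ℂ × ℂ) : ℝ := 1 - (1 - S (4 * nn x)) * (1 - S (normSq z / 16))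
def pc (u : ℂ) : ℝ := 96 * S (36 * normSq u) * (1 - S (normSq u))
def mm (a : ℝ) : ℝ := sT (2 * a - 1) + (1 - sT (a + 2))
def sg (a : ℝ) : ℝ := sT (a + 1) * (1 - sT (a - 2))
def amt (a : ℝ) : ℝ := sT (a + 1) * (1 - sT (2 * a))
def ph (a : ℝ) : ℝ := sT (2 * a) + sT (2 * a - 1) + (2 * π - 2) * sT (a - 1)
def kap (z : ℂ) (a : ℝ) : ℝ := (1 - sg a) + sg a * (bb z * ‖z‖ / 2)

def Fz (z : ℂ) (a : ℝ) (x : ℂ × ℂ) : ℂ :=
  (bb z : ℂ) * z ^ 2 + (((1 - mm a) * (1 - ee z) * pc x.1 : ℝ) : ℂ) * x.1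
def Fa (z : ℂ) (a : ℝ) (x : ℂ × ℂ) : ℝ := ph a + (1 - ee z) * bet z x * amt a
def Fx (z : ℂ) (a : ℝ) (x : ℂ × ℂ) : ℂ × ℂ :=
  (1 - ee z) • (((1 - mm a) * (1 - S (nn x))) • Lam x + mm a • W (kap z a * z))

/-! ### smoothness -/

@[fun_prop] lemma contDiff_nn : ContDiff ℝ 1 nn :=
  (contDiff_normSq'.comp contDiff_fst).add (contDiff_normSq'.comp contDiff_snd)

@[fun_prop] lemma contDiff_S1 : ContDiff ℝ 1 S := contDiff_S (n := 1)
@[fun_prop] lemma contDiff_sT1 : ContDiff ℝ 1 sT := contDiff_sT (n := 1)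
@[fun_prop] lemma contDiff_bb : ContDiff ℝ 1 bb := by unfold bb; fun_prop
@[fun_prop] lemma contDiff_ee : ContDiff ℝ 1 ee := by unfold ee; fun_prop
@[fun_prop] lemma contDiff_pc : ContDiff ℝ 1 pc := by unfold pc; fun_prop
@[fun_prop] lemma contDiff_mm : ContDiff ℝ 1 mm := by unfold mm; fun_prop
@[fun_prop] lemma contDiff_sg : ContDiff ℝ 1 sg := by unfold sg; fun_prop
@[fun_prop] lemma contDiff_amt : ContDiff ℝ 1 amt := by unfold amt; fun_prop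
@[fun_prop] lemma contDiff_ph : ContDiff ℝ 1 ph := by unfold ph; fun_prop
@[fun_prop] lemma contDiff_ofReal1 : ContDiff ℝ 1 fun t : ℝ => (t : ℂ) := ofRealCLM.contDiff
@[fun_prop] lemma contDiff_Lam : ContDiff ℝ 1 Lam := by
  have : Lam = LamL := funext fun x => (LamL_apply x).symm
  rw [this]; exact LamL.contDiff

lemma contDiff_bb_norm : ContDiff ℝ 1 fun z : ℂ => bb z * ‖z‖ := by
  have := contDiff_cut_mul (n := 1) (1 / 64) (fun z : ℂ => ‖z‖) fun z hz => contDiffAt_norm ℝ hz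
  have h : (fun z : ℂ => bb z * ‖z‖) = fun z : ℂ => S (1 / 64 * normSq z) • ‖z‖ := by
    funext z; rw [bb, smul_eq_mul]; congr 2; ring
  rw [h]; exact this

lemma contDiff_kap : ContDiff ℝ 1 fun q : ℂ × ℝ × (ℂ × ℂ) => kap q.1 q.2.1 := by
  have h := contDiff_bb_norm.comp (contDiff_fst (𝕜 := ℝ) (E := ℂ) (F := ℝ × (ℂ × ℂ)))
  have h2 : ContDiff ℝ 1 fun q : ℂ × ℝ × (ℂ × ℂ) => sg q.2.1 := by fun_prop
  exact (contDiff_const.sub h2).add (h2.mul (h.div_const 2))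

lemma contDiff_Fz : ContDiff ℝ 1 fun q : ℂ × ℝ × (ℂ × ℂ) => Fz q.1 q.2.1 q.2.2 := by
  unfold Fz; fun_prop

lemma contDiff_Fa : ContDiff ℝ 1 fun q : ℂ × ℝ × (ℂ × ℂ) => Fa q.1 q.2.1 q.2.2 := by
  unfold Fa bet; fun_prop

lemma contDiff_Fx : ContDiff ℝ 1 fun q : ℂ × ℝ × (ℂ × ℂ) => Fx q.1 q.2.1 q.2.2 := by
  have h : ContDiff ℝ 1 fun q : ℂ × ℝ × (ℂ × ℂ) => W (kap q.1 q.2.1 * q.1) :=
    contDiff_W.comp ((contDiff_ofReal1.comp contDiff_kap).mul contDiff_fst)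
  have h1 : ContDiff ℝ 1 fun q : ℂ × ℝ × (ℂ × ℂ) => 1 - ee q.1 := by fun_prop
  have h2 : ContDiff ℝ 1 fun q : ℂ × ℝ × (ℂ × ℂ) =>
      ((1 - mm q.2.1) * (1 - S (nn q.2.2))) • Lam q.2.2 := by fun_prop
  have h3 : ContDiff ℝ 1 fun q : ℂ × ℝ × (ℂ × ℂ) => mm q.2.1 := by fun_prop
  exact h1.smul (h2.add (h3.smul h))

/-! ### elementary bounds -/

lemma mm_nonneg (a : ℝ) : 0 ≤ mm a := by
  unfold mm; linarith [sT_nonneg (2 * a - 1), sT_le_one (a + 2)]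

lemma mm_le_one (a : ℝ) : mm a ≤ 1 := by
  unfold mm
  rcases le_total a 0 with h | h
  · rw [sT_zero (by linarith)]; linarith [sT_nonneg (a + 2)]
  · rw [sT_one (t := a + 2) (by linarith)]; linarith [sT_le_one (2 * a - 1)]

lemma mm_zero {a : ℝ} (h1 : -1 ≤ a) (h2 : a ≤ 1 / 2) : mm a = 0 := by
  rw [mm, sT_zero (by linarith), sT_one (by linarith)]; ring

lemma mm_one {a : ℝ} (h : 1 ≤ a ∨ a ≤ -2) : mm a = 1 := by
  rcases h with h | h
  · rw [mm, sT_one (by linarith), sT_one (by linarith)]; ring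
  · rw [mm, sT_zero (by linarith), sT_zero (by linarith)]; ring

lemma sg_nonneg (a : ℝ) : 0 ≤ sg a :=
  mul_nonneg (sT_nonneg _) (by linarith [sT_le_one (a - 2)])

lemma sg_le_one (a : ℝ) : sg a ≤ 1 :=
  mul_le_one₀ (sT_le_one _) (by linarith [sT_le_one (a - 2)]) (by linarith [sT_nonneg (a - 2)])

lemma sg_zero {a : ℝ} (h : a ≤ -1 ∨ 3 ≤ a) : sg a = 0 := by
  rcases h with h | h
  · rw [sg, sT_zero (by linarith), zero_mul]
  · rw [sg, sT_one (t := a - 2) (by linarith)]; ring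

lemma sg_one {a : ℝ} (h1 : 0 ≤ a) (h2 : a ≤ 2) : sg a = 1 := by
  rw [sg, sT_one (by linarith), sT_zero (by linarith)]; ring

lemma amt_nonneg (a : ℝ) : 0 ≤ amt a :=
  mul_nonneg (sT_nonneg _) (by linarith [sT_le_one (2 * a)])

lemma amt_le_one (a : ℝ) : amt a ≤ 1 :=
  mul_le_one₀ (sT_le_one _) (by linarith [sT_le_one (2 * a)]) (by linarith [sT_nonneg (2 * a)])

lemma amt_zero {a : ℝ} (h : a ≤ -1 ∨ 1 / 2 ≤ a) : amt a = 0 := by
  rcases h with h | h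
  · rw [amt, sT_zero (by linarith), zero_mul]
  · rw [amt, sT_one (t := 2 * a) (by linarith)]; ring

lemma ph_mono : Monotone ph := fun a b h => by
  unfold ph
  have h1 := sT_mono (s := 2 * a) (t := 2 * b) (by linarith)
  have h2 := sT_mono (s := 2 * a - 1) (t := 2 * b - 1) (by linarith)
  have h3 := sT_mono (s := a - 1) (t := b - 1) (by linarith)
  have := Real.pi_gt_three
  nlinarith

lemma ph_zero {a : ℝ} (h : a ≤ 0) : ph a = 0 := by
  rw [ph, sT_zero (by linarith), sT_zero (by linarith), sT_zero (by linarith)]; ring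

lemma ph_top {a : ℝ} (h : 2 ≤ a) : ph a = 2 * π := by
  rw [ph, sT_one (by linarith), sT_one (by linarith), sT_one (by linarith)]; ring

lemma ph_nonneg (a : ℝ) : 0 ≤ ph a := by
  rcases le_total a 0 with h | h
  · rw [ph_zero h]
  · rw [← ph_zero le_rfl]; exact ph_mono h

lemma ph_le (a : ℝ) : ph a ≤ 2 * π := by
  rcases le_total a 2 with h | h
  · rw [← ph_top le_rfl]; exact ph_mono h
  · rw [ph_top h]

lemma ph_half : ph (1 / 2) = 1 := by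
  rw [ph, sT_one (by linarith), sT_zero (by linarith), sT_zero (by linarith)]; ring

lemma ph_one : ph 1 = 2 := by
  rw [ph, sT_one (by linarith), sT_one (by linarith), sT_zero (by linarith)]; ring

lemma ph_add_amt {a : ℝ} (h1 : 0 ≤ a) (h2 : a ≤ 1 / 2) : ph a + amt a = 1 := by
  rw [ph, amt, sT_zero (t := 2 * a - 1) (by linarith), sT_zero (t := a - 1) (by linarith),
    sT_one (t := a + 1) (by linarith)]; ring

lemma bet_nonneg (z : ℂ) (x : ℂ × ℂ) : 0 ≤ bet z x := by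
  unfold bet
  have := mul_le_one₀ (a := 1 - S (4 * nn x)) (b := 1 - S (normSq z / 16))
    (by linarith [S_nonneg (4 * nn x)]) (by linarith [S_le_one (normSq z / 16)])
    (by linarith [S_nonneg (normSq z / 16)])
  linarith

lemma bet_le_one (z : ℂ) (x : ℂ × ℂ) : bet z x ≤ 1 := by
  unfold bet
  have := mul_nonneg (a := 1 - S (4 * nn x)) (b := 1 - S (normSq z / 16))
    (by linarith [S_le_one (4 * nn x)]) (by linarith [S_le_one (normSq z / 16)])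
  linarith

lemma bet_zero {z : ℂ} {x : ℂ × ℂ} (h1 : normSq z ≤ 16) (h2 : nn x ≤ 1 / 4) : bet z x = 0 := by
  rw [bet, S_zero (by linarith), S_zero (by linarith)]; ring

lemma of_bet_lt_one {z : ℂ} {x : ℂ × ℂ} (h : bet z x < 1) : normSq z < 64 ∧ nn x < 1 := by
  unfold bet at h
  constructor
  · by_contra h'
    rw [S_one (t := normSq z / 16) (by linarith)] at h; linarith
  · by_contra h'
    rw [S_one (t := 4 * nn x) (by linarith)] at h; linarith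

lemma ee_nonneg (z : ℂ) : 0 ≤ ee z := S_nonneg _
lemma ee_le_one (z : ℂ) : ee z ≤ 1 := S_le_one _
lemma ee_zero {z : ℂ} (h : normSq z ≤ 256) : ee z = 0 := S_zero (by linarith)
lemma ee_one {z : ℂ} (h : 1024 ≤ normSq z) : ee z = 1 := S_one (by linarith)
lemma bb_nonneg (z : ℂ) : 0 ≤ bb z := S_nonneg _
lemma bb_le_one (z : ℂ) : bb z ≤ 1 := S_le_one _
lemma bb_zero {z : ℂ} (h : normSq z ≤ 64) : bb z = 0 := S_zero (by linarith)
lemma bb_one {z : ℂ} (h : 256 ≤ normSq z) : bb z = 1 := S_one (by linarith)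

lemma pc_nonneg (u : ℂ) : 0 ≤ pc u :=
  mul_nonneg (mul_nonneg (by norm_num) (S_nonneg _)) (by linarith [S_le_one (normSq u)])

lemma pc_zero {u : ℂ} (h : normSq u ≤ 1 / 36) : pc u = 0 := by
  rw [pc, S_zero (by linarith)]; ring

lemma pc_eq {u : ℂ} (h1 : 1 / 9 ≤ normSq u) (h2 : normSq u ≤ 1) : pc u = 96 := by
  rw [pc, S_one (by linarith), S_zero h2]; ring

lemma pc_mul_norm_le (u : ℂ) : pc u * ‖u‖ ≤ 192 := by
  by_cases h : 4 ≤ normSq u
  · rw [pc, S_one h]; simp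
  · have h1 : ‖u‖ ≤ 2 := by
      rw [normSq_eq_norm_sq] at h; nlinarith [norm_nonneg u]
    have h2 : pc u ≤ 96 := by
      unfold pc
      have := mul_le_one₀ (a := S (36 * normSq u)) (b := 1 - S (normSq u)) (S_le_one _)
        (by linarith [S_le_one (normSq u)]) (by linarith [S_nonneg (normSq u)])
      linarith
    nlinarith [pc_nonneg u, norm_nonneg u]

lemma nn_nonneg (x : ℂ × ℂ) : 0 ≤ nn x := add_nonneg (normSq_nonneg _) (normSq_nonneg _)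

lemma nn_Lam (x : ℂ × ℂ) : nn (Lam x) = 64 * nn x := by
  simp only [nn, Lam, normSq_mul, normSq_ofNat]; ring

lemma nn_le (x : ℂ × ℂ) : nn x ≤ 2 * ‖x‖ ^ 2 := by
  have h1 := norm_fst_le x
  have h2 := norm_snd_le x
  rw [nn, normSq_eq_norm_sq, normSq_eq_norm_sq]
  nlinarith [norm_nonneg x.1, norm_nonneg x.2]

lemma norm_sq_le_nn (x : ℂ × ℂ) : ‖x‖ ^ 2 ≤ nn x := by
  rw [nn, normSq_eq_norm_sq, normSq_eq_norm_sq, Prod.norm_def]
  rcases le_total ‖x.1‖ ‖x.2‖ with h | h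
  · rw [max_eq_right h]; nlinarith [sq_nonneg ‖x.1‖]
  · rw [max_eq_left h]; nlinarith [sq_nonneg ‖x.2‖]

lemma norm_Fx_le (z : ℂ) (a : ℝ) (x : ℂ × ℂ) : ‖Fx z a x‖ ≤ 18 := by
  have h1 : ‖((1 - mm a) * (1 - S (nn x))) • Lam x‖ ≤ 16 := by
    by_cases h : 4 ≤ nn x
    · rw [S_one h]; simp
    · have h2 : ‖x‖ ≤ 2 := by nlinarith [norm_sq_le_nn x, norm_nonneg x]
      rw [norm_smul, norm_Lam, Real.norm_eq_abs, abs_of_nonneg (mul_nonneg
        (by linarith [mm_le_one a]) (by linarith [S_le_one (nn x)]))]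
      have := mul_le_one₀ (a := 1 - mm a) (b := 1 - S (nn x)) (by linarith [mm_nonneg a])
        (by linarith [S_le_one (nn x)]) (by linarith [S_nonneg (nn x)])
      nlinarith [norm_nonneg x]
  have h2 : ‖mm a • W (kap z a * z)‖ ≤ 2 := by
    rw [norm_smul, Real.norm_eq_abs, abs_of_nonneg (mm_nonneg a)]
    have := norm_W_le (kap z a * z)
    nlinarith [mm_le_one a, mm_nonneg a, norm_nonneg (W (kap z a * z))]
  rw [Fx, norm_smul, Real.norm_eq_abs, abs_of_nonneg (by linarith [ee_le_one z])]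
  have h3 := (norm_add_le _ _).trans (add_le_add h1 h2)
  nlinarith [ee_nonneg z, norm_nonneg (((1 - mm a) * (1 - S (nn x))) • Lam x +
    mm a • W (kap z a * z))]

lemma nn_Fx_lt (z : ℂ) (a : ℝ) (x : ℂ × ℂ) : nn (Fx z a x) < 1024 := by
  have h1 := nn_le (Fx z a x)
  have h2 := norm_Fx_le z a x
  nlinarith [norm_nonneg (Fx z a x)]

/-! ### escape -/

lemma escape {z : ℂ} (h : 256 ≤ normSq z) (a : ℝ) (x : ℂ × ℂ) :
    4 * normSq z ≤ normSq (Fz z a x) := by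
  have h1 : 16 ≤ ‖z‖ := by rw [normSq_eq_norm_sq] at h; nlinarith [norm_nonneg z]
  have h2 : ‖(((1 - mm a) * (1 - ee z) * pc x.1 : ℝ) : ℂ) * x.1‖ ≤ 192 := by
    have a1 : 0 ≤ (1 - mm a) * (1 - ee z) :=
      mul_nonneg (by linarith [mm_le_one a]) (by linarith [ee_le_one z])
    have a2 : (1 - mm a) * (1 - ee z) ≤ 1 := mul_le_one₀ (by linarith [mm_nonneg a])
      (by linarith [ee_le_one z]) (by linarith [ee_nonneg z])
    rw [norm_mul, Complex.norm_real, Real.norm_eq_abs, abs_of_nonneg (mul_nonneg a1 (pc_nonneg _)),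
      mul_assoc]
    have a3 := pc_mul_norm_le x.1
    have a4 := mul_nonneg (pc_nonneg x.1) (norm_nonneg x.1)
    nlinarith
  have h3 : ‖z‖ ^ 2 - 192 ≤ ‖Fz z a x‖ := by
    have := norm_sub_norm_le ((bb z : ℂ) * z ^ 2)
      (-((((1 - mm a) * (1 - ee z) * pc x.1 : ℝ) : ℂ) * x.1))
    rw [sub_neg_eq_add, norm_neg, bb_one h] at this
    rw [Fz, bb_one h]
    simp only [ofReal_one, one_mul, norm_pow] at this ⊢
    linarith
  rw [normSq_eq_norm_sq, normSq_eq_norm_sq]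
  have h4 : 2 * ‖z‖ ≤ ‖Fz z a x‖ := by nlinarith
  nlinarith

lemma far {z : ℂ} (h : 1024 ≤ normSq z) (a : ℝ) (x : ℂ × ℂ) :
    Fz z a x = z ^ 2 ∧ Fa z a x = ph a ∧ Fx z a x = 0 := by
  simp [Fz, Fa, Fx, ee_one h, bb_one (z := z) (by linarith)]

/-! ### good states -/

def T1 (z : ℂ) (x : ℂ × ℂ) : Prop :=
  ∃ (ω : ℂ) (q α : ℝ), ‖ω‖ = 1 ∧ 0 ≤ q ∧ 0 ≤ α ∧ (α ≤ 4 ∨ 1 ≤ q) ∧ z = α * ω ∧ x = Xf q ω

def T2 (z : ℂ) (x : ℂ × ℂ) : Prop :=
  ∃ (ω : ℂ) (α γ : ℝ), ‖ω‖ = 1 ∧ 0 ≤ α ∧ 1 / 3 ≤ γ ∧ γ ≤ 1 ∧ z = α * ω ∧ x.1 = γ * ω ^ 2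

def Cp (z : ℂ) (x : ℂ × ℂ) : Prop :=
  ∃ (ω : ℂ) (r : ℝ), ‖ω‖ = 1 ∧ 0 ≤ r ∧ z = r * ω ∧ x = Xf (r ^ 2 / 16) ω

lemma normSq_ray (r : ℝ) {ω : ℂ} (hω : ‖ω‖ = 1) : normSq (r * ω) = r ^ 2 := by
  rw [normSq_mul, normSq_ofReal, normSq_eq_norm_sq, hω]; ring

lemma norm_sq_unit {ω : ℂ} (hω : ‖ω‖ = 1) (k : ℕ) : ‖ω ^ k‖ = 1 := by rw [norm_pow, hω, one_pow]

lemma exists_polar (z : ℂ) : ∃ ω : ℂ, ‖ω‖ = 1 ∧ z = (‖z‖ : ℝ) * ω :=
  ⟨exp (arg z * I), norm_exp_ofReal_mul_I _, (norm_mul_exp_arg_mul_I z).symm⟩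

lemma T2_step {z : ℂ} {x : ℂ × ℂ} {a : ℝ} (h : T2 z x) (hz : normSq z ≤ 256) (hm : mm a ≤ 1 / 2) :
    256 ≤ normSq (Fz z a x) := by
  obtain ⟨ω, α, γ, hω, hα, hγ1, hγ2, rfl, hx⟩ := h
  have h1 : normSq x.1 = γ ^ 2 := by rw [hx, normSq_ray _ (norm_sq_unit hω 2)]
  have h2 : Fz (α * ω) a x = ((bb (α * ω) * α ^ 2 + (1 - mm a) * 96 * γ : ℝ) : ℂ) * ω ^ 2 := by
    rw [Fz, ee_zero hz, pc_eq (by rw [h1]; nlinarith) (by rw [h1]; nlinarith), hx]
    push_cast; ring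
  rw [h2, normSq_ray _ (norm_sq_unit hω 2)]
  have h3 : 0 ≤ bb (α * ω) * α ^ 2 := mul_nonneg (bb_nonneg _) (sq_nonneg _)
  have h4 : 16 ≤ (1 - mm a) * 96 * γ := by nlinarith
  nlinarith

lemma good_step {z : ℂ} {x : ℂ × ℂ} {a : ℝ} {ω : ℂ} {q α : ℝ} (hω : ‖ω‖ = 1) (hq : 0 ≤ q)
    (hα : 0 ≤ α) (hαq : α ≤ 4 ∨ 1 ≤ q) (hz : z = α * ω) (hx : x = Xf q ω)
    (hz2 : normSq z ≤ 256) (ha : ph a = 0)
    (hm : mm a = 0 ∨ (amt a = 0 ∧ W (kap z a * z) = Xf (4 * q) (ω ^ 2))) :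
    256 ≤ normSq (Fz z a x) ∨
      (Fa z a x = 0 ∧ (T1 (Fz z a x) (Fx z a x) ∨ T2 (Fz z a x) (Fx z a x))) := by
  have hW : mm a • W (kap z a * z) = mm a • Xf (4 * q) (ω ^ 2) := by
    rcases hm with h | h
    · simp [h]
    · rw [h.2]
  have hzn : normSq z = α ^ 2 := by rw [hz, normSq_ray _ hω]
  have hω2 := norm_sq_unit hω 2
  have hm0 := mm_nonneg a
  have hm1 := mm_le_one a
  rcases le_total q (1 / 4) with hq4 | hq4
  · right
    have hα4 : α ≤ 4 := hαq.resolve_right (by linarith)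
    have h1 : ‖x‖ ≤ 1 / 7 := hx ▸ norm_Xf_small hq hq4 hω.le
    have h2 : nn x ≤ 1 / 4 := by nlinarith [nn_le x, norm_nonneg x]
    have h3 : normSq x.1 ≤ 1 / 36 := by
      rw [normSq_eq_norm_sq]; nlinarith [norm_fst_le x, norm_nonneg x.1]
    have h4 : normSq z ≤ 16 := by rw [hzn]; nlinarith
    refine ⟨by rw [Fa, ha, bet_zero h4 h2]; ring, Or.inl ⟨ω ^ 2, 4 * q, 0, hω2, by positivity,
      le_rfl, Or.inl (by norm_num), ?_, ?_⟩⟩
    · rw [Fz, bb_zero (by linarith), pc_zero h3]; simp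
    · rw [Fx, hW, ee_zero hz2, S_zero (by linarith), hx, Lam_Xf hq hq4 hω.le]
      module
  · have hx' := Xf_large hq4 ω
    rw [← hx] at hx'
    have ha0 := S_nonneg (4 * q)
    have ha1 := S_le_one (4 * q)
    set a0 := S (4 * q) with ha0'
    have hx1 : x.1 = a0 * ω ^ 2 := by rw [hx']
    have hx2 : x.2 = (((1 - a0) / 8 : ℝ) : ℂ) * ω ^ 4 := by rw [hx']
    by_cases hc : 1 / 3 ≤ a0 ∧ mm a ≤ 1 / 2
    · exact Or.inl (T2_step ⟨ω, α, a0, hω, hα, hc.1, ha1, hz, hx1⟩ hz2 hc.2)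
    · right
      have hth0 : 0 ≤ 1 - S (nn x) := by linarith [S_le_one (nn x)]
      have hth1 : 1 - S (nn x) ≤ 1 := by linarith [S_nonneg (nn x)]
      have hX : (Xf (4 * q) (ω ^ 2)).1 = (ω ^ 2) ^ 2 := by
        rw [Xf_large (by linarith), S_one (by linarith)]; simp
      have hFz : Fz z a x = ((bb z * α ^ 2 + (1 - mm a) * pc x.1 * a0 : ℝ) : ℂ) * ω ^ 2 := by
        rw [Fz, ee_zero hz2]
        generalize bb z = b
        generalize pc x.1 = c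
        rw [hx1, hz]
        push_cast; ring
      have hFx : (Fx z a x).1 =
          (((1 - mm a) * (1 - S (nn x)) * (1 - a0) + mm a : ℝ) : ℂ) * (ω ^ 2) ^ 2 := by
        rw [Fx, hW, ee_zero hz2]
        simp only [Prod.smul_fst, Prod.fst_add, hX, Lam, hx2, Complex.real_smul]
        push_cast; ring
      have hpos : 0 ≤ bb z * α ^ 2 + (1 - mm a) * pc x.1 * a0 :=
        add_nonneg (mul_nonneg (bb_nonneg _) (sq_nonneg _))
          (mul_nonneg (mul_nonneg (by linarith) (pc_nonneg _)) ha0)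
      have hle : (1 - mm a) * (1 - S (nn x)) * (1 - a0) + mm a ≤ 1 := by
        have : (1 - S (nn x)) * (1 - a0) ≤ 1 := mul_le_one₀ hth1 (by linarith) (by linarith)
        nlinarith
      have hge0 : 0 ≤ (1 - mm a) * (1 - S (nn x)) * (1 - a0) :=
        mul_nonneg (mul_nonneg (by linarith) hth0) (by linarith)
      by_cases hm2 : mm a ≤ 1 / 2
      · have hlt : a0 < 1 / 3 := by
          by_contra h'; exact hc ⟨by linarith, hm2⟩
        have hq1 : 4 * q < 4 := lt_of_S_lt_one (by linarith)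
        have hα4 : α ≤ 4 := hαq.resolve_right (by linarith)
        have h4 : normSq z ≤ 16 := by rw [hzn]; nlinarith
        have h2 : nn x ≤ 1 / 4 := by
          rw [nn, hx1, hx2, normSq_ray _ hω2, normSq_ray _ (norm_sq_unit hω 4)]
          nlinarith
        refine ⟨by rw [Fa, ha, bet_zero h4 h2]; ring, Or.inr ⟨ω ^ 2, _, _, hω2, hpos, ?_, hle, hFz,
          hFx⟩⟩
        rw [S_zero (by linarith)]
        nlinarith
      · have hamt : amt a = 0 := (hm.resolve_left (by intro h; linarith)).1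
        exact ⟨by rw [Fa, ha, hamt]; ring, Or.inr ⟨ω ^ 2, _, _, hω2, hpos, by linarith, hle, hFz,
          hFx⟩⟩

lemma C_step {z : ℂ} {x : ℂ × ℂ} {a : ℝ} (hm : mm a = 1) (hz : normSq z ≤ 256) {ω : ℂ}
    (hω : ‖ω‖ = 1) (hzω : z = (‖z‖ : ℝ) * ω) :
    Fz z a x = ((bb z * ‖z‖ ^ 2 : ℝ) : ℂ) * ω ^ 2 ∧
      Fx z a x = Xf ((kap z a * ‖z‖) ^ 2 / 4) (ω ^ 2) := by
  have hk : 0 ≤ kap z a := add_nonneg (by linarith [sg_le_one a])
    (mul_nonneg (sg_nonneg a) (div_nonneg (mul_nonneg (bb_nonneg z) (norm_nonneg z)) zero_le_two))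
  constructor
  · rw [Fz, hm]
    generalize bb z = b
    generalize ‖z‖ = r at hzω
    rw [hzω]; push_cast; ring
  · rw [Fx, hm, ee_zero hz, ← W_ray (mul_nonneg hk (norm_nonneg z)) hω]
    have : (kap z a : ℂ) * z = ((kap z a * ‖z‖ : ℝ) : ℂ) * ω := by
      generalize kap z a = k
      generalize ‖z‖ = r at hzω
      rw [hzω]; push_cast; ring
    rw [this]
    simp

lemma C_step_T1 {z : ℂ} (x : ℂ × ℂ) {a : ℝ} (hm : mm a = 1) (hz : normSq z ≤ 256) :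
    T1 (Fz z a x) (Fx z a x) := by
  obtain ⟨ω, hω, hzω⟩ := exists_polar z
  obtain ⟨h1, h2⟩ := C_step (x := x) hm hz hω hzω
  refine ⟨ω ^ 2, _, _, norm_sq_unit hω 2, by positivity,
    mul_nonneg (bb_nonneg z) (sq_nonneg _), ?_, h1, h2⟩
  by_cases h : bb z * ‖z‖ ^ 2 ≤ 4
  · exact Or.inl h
  · right
    have hb : bb z ≠ 0 := by intro h0; rw [h0] at h; norm_num at h
    have h3 : 1 < normSq z / 64 := lt_of_S_ne_zero hb
    have h4 : 8 ≤ ‖z‖ := by rw [normSq_eq_norm_sq] at h3; nlinarith [norm_nonneg z]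
    have h5 : kap z a * ‖z‖ = (1 - sg a) * ‖z‖ + sg a * (bb z * ‖z‖ ^ 2 / 2) := by
      rw [kap]; ring
    have h6 : 2 ≤ kap z a * ‖z‖ := by
      rw [h5]; nlinarith [sg_nonneg a, sg_le_one a]
    nlinarith

lemma C_step_Cp {z : ℂ} (x : ℂ × ℂ) {a : ℝ} (h1 : 1 ≤ a) (h2 : a ≤ 2) (hz : normSq z ≤ 256) :
    Cp (Fz z a x) (Fx z a x) := by
  obtain ⟨ω, hω, hzω⟩ := exists_polar z
  obtain ⟨h3, h4⟩ := C_step (x := x) (mm_one (Or.inl h1)) hz hω hzω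
  refine ⟨ω ^ 2, _, norm_sq_unit hω 2, mul_nonneg (bb_nonneg z) (sq_nonneg _), h3, ?_⟩
  rw [h4, kap, sg_one (by linarith) h2]
  congr 1; ring

lemma T1_step {z : ℂ} {x : ℂ × ℂ} (h : T1 z x) (hz : normSq z ≤ 256) :
    256 ≤ normSq (Fz z 0 x) ∨
      (Fa z 0 x = 0 ∧ (T1 (Fz z 0 x) (Fx z 0 x) ∨ T2 (Fz z 0 x) (Fx z 0 x))) := by
  obtain ⟨ω, q, α, hω, hq, hα, hαq, h1, h2⟩ := h
  exact good_step hω hq hα hαq h1 h2 hz (ph_zero le_rfl)
    (Or.inl (mm_zero (by norm_num) (by norm_num)))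

lemma Cp_step {z : ℂ} {x : ℂ × ℂ} {a : ℝ} (h : Cp z x) (hz : normSq z ≤ 256)
    (ha : 2 ≤ a ∨ a ≤ 0) :
    256 ≤ normSq (Fz z a x) ∨ ((Fa z a x = 0 ∨ Fa z a x = 2 * π) ∧
      (T1 (Fz z a x) (Fx z a x) ∨ T2 (Fz z a x) (Fx z a x))) := by
  rcases ha with ha | ha
  · right
    refine ⟨Or.inr ?_, Or.inl (C_step_T1 x (mm_one (Or.inl (by linarith))) hz)⟩
    rw [Fa, ph_top ha, amt_zero (Or.inr (by linarith))]; ring
  · obtain ⟨ω, r, hω, hr, h1, h2⟩ := h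
    have := good_step (a := a) hω (by positivity) hr
      (by by_cases h : r ≤ 4
          · exact Or.inl h
          · right; nlinarith) h1 h2 hz (ph_zero ha) (by
        rcases le_total a (-1) with h | h
        · right
          refine ⟨amt_zero (Or.inl h), ?_⟩
          rw [kap, sg_zero (Or.inl h), h1]
          simp only [sub_zero, zero_mul, add_zero, ofReal_one, one_mul]
          rw [W_ray hr hω]
          congr 1; ring
        · exact Or.inl (mm_zero h (by linarith)))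
    rcases this with h | h
    · exact Or.inl h
    · exact Or.inr ⟨Or.inl h.1, h.2⟩

/-! ### the linear zone -/

lemma Fa_mem_Z1 {z : ℂ} {x : ℂ × ℂ} {a : ℝ} (h1 : 0 ≤ a) (h2 : a ≤ 1 / 2) :
    0 ≤ Fa z a x ∧ Fa z a x ≤ 1 := by
  have h3 := ph_add_amt h1 h2
  have h4 : 0 ≤ (1 - ee z) * bet z x := mul_nonneg (by linarith [ee_le_one z]) (bet_nonneg z x)
  have h5 : (1 - ee z) * bet z x ≤ 1 :=
    mul_le_one₀ (by linarith [ee_nonneg z]) (bet_nonneg z x) (bet_le_one z x)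
  unfold Fa
  constructor <;> nlinarith [ph_nonneg a, amt_nonneg a]

lemma Fa_mem_neg {z : ℂ} {x : ℂ × ℂ} {a : ℝ} (h1 : a ≤ 0) :
    0 ≤ Fa z a x ∧ Fa z a x ≤ 1 := by
  have h4 : 0 ≤ (1 - ee z) * bet z x := mul_nonneg (by linarith [ee_le_one z]) (bet_nonneg z x)
  have h5 : (1 - ee z) * bet z x ≤ 1 :=
    mul_le_one₀ (by linarith [ee_nonneg z]) (bet_nonneg z x) (bet_le_one z x)
  rw [Fa, ph_zero h1]
  constructor <;> nlinarith [amt_le_one a, amt_nonneg a]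

lemma Fa_eq_ph {z : ℂ} {x : ℂ × ℂ} {a : ℝ} (h : 1 / 2 ≤ a) : Fa z a x = ph a := by
  rw [Fa, amt_zero (Or.inr h)]; ring

lemma Z1_step {z : ℂ} {x : ℂ × ℂ} {a : ℝ} (h1 : 0 ≤ a) (h2 : a ≤ 1 / 2) (hz : normSq z ≤ 256)
    (h : Fa z a x < 1) :
    nn x < 1 ∧ Fz z a x = (pc x.1 : ℂ) * x.1 ∧ Fx z a x = Lam x := by
  have hb : bet z x < 1 := by
    refine lt_of_le_of_ne (bet_le_one z x) fun hb => ?_
    rw [Fa, hb, ee_zero hz] at h
    linarith [ph_add_amt h1 h2]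
  obtain ⟨h3, h4⟩ := of_bet_lt_one hb
  have hm := mm_zero (a := a) (by linarith) h2
  refine ⟨h4, ?_, ?_⟩
  · rw [Fz, hm, ee_zero hz, bb_zero h3.le]; simp
  · rw [Fx, hm, ee_zero hz, S_zero h4.le]; simp

lemma Fa_quiet {x : ℂ × ℂ} (a : ℝ) (h : nn x ≤ 1 / 4) : Fa 0 a x = ph a := by
  rw [Fa, bet_zero (by simp) h]; ring

end H6Ent
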