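import Mathlib

/-! The two-sphere in `ℂ × ℝ`, stereographic coordinate. -/

set_option autoImplicit false

open Filter Topology Set Complex

noncomputable section

namespace H6Ent

abbrev E3 := WithLp 2 (ℂ × ℝ)
abbrev S2 := Metric.sphere (0 : E3) 1

instance : Fact (Module.finrank ℝ E3 = 2 + 1) := ⟨by
  rw [(WithLp.linearEquiv 2 ℝ (ℂ × ℝ)).finrank_eq]; simp⟩

def sX (p : S2) : ℂ := (p : E3).fst
def sZ (p : S2) : ℝ := (p : E3).snd

lemma norm_sq_E3 (v : E3) : ‖v‖ ^ 2 = normSq v.fst + v.snd ^ 2 := by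
  rw [WithLp.prod_norm_sq_eq_of_L2, Complex.sq_norm, Real.norm_eq_abs, sq_abs]

lemma mem_S2 (x : ℂ) (z : ℝ) (h : normSq x + z ^ 2 = 1) :
    (WithLp.toLp 2 (x, z) : E3) ∈ Metric.sphere (0 : E3) 1 := by
  rw [mem_sphere_zero_iff_norm]
  have := norm_sq_E3 (WithLp.toLp 2 (x, z))
  have h2 : ‖(WithLp.toLp 2 (x, z) : E3)‖ ^ 2 = 1 := by rw [this]; exact h
  have h3 := norm_nonneg (WithLp.toLp 2 (x, z) : E3)
  nlinarith

def mk2 (x : ℂ) (z : ℝ) (h : normSq x + z ^ 2 = 1) : S2 := ⟨WithLp.toLp 2 (x, z), mem_S2 x z h⟩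

@[simp] lemma sX_mk2 (x : ℂ) (z : ℝ) (h) : sX (mk2 x z h) = x := rfl
@[simp] lemma sZ_mk2 (x : ℂ) (z : ℝ) (h) : sZ (mk2 x z h) = z := rfl

lemma sXZ (p : S2) : normSq (sX p) + sZ p ^ 2 = 1 := by
  have h := norm_sq_E3 (p : E3)
  rw [norm_eq_of_mem_sphere p] at h
  simpa [sX, sZ] using h.symm

lemma S2_ext {p q : S2} (h1 : sX p = sX q) (h2 : sZ p = sZ q) : p = q := by
  apply Subtype.ext
  apply (WithLp.equiv 2 _).injective
  exact Prod.ext h1 h2

@[fun_prop] lemma continuous_sX : Continuous sX :=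
  (WithLp.continuous_fst 2 ℂ ℝ).comp continuous_subtype_val
@[fun_prop] lemma continuous_sZ : Continuous sZ :=
  (WithLp.continuous_snd 2 ℂ ℝ).comp continuous_subtype_val

lemma continuous_S2 {A : Type*} [TopologicalSpace A] {g : A → S2} (h1 : Continuous fun a => sX (g a))
    (h2 : Continuous fun a => sZ (g a)) : Continuous g := by
  refine continuous_induced_rng.2 ?_
  have : (Subtype.val ∘ g) = fun a => (WithLp.toLp 2 (sX (g a), sZ (g a)) : E3) := rfl
  rw [this]
  exact (WithLp.prod_continuous_toLp 2 ℂ ℝ).comp (h1.prodMk h2)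

lemma dist_sq_S2 (p q : S2) : dist p q ^ 2 = normSq (sX p - sX q) + (sZ p - sZ q) ^ 2 := by
  rw [Subtype.dist_eq, dist_eq_norm, norm_sq_E3]; rfl

lemma sZ_le (p : S2) : sZ p ≤ 1 := by nlinarith [sXZ p, normSq_nonneg (sX p)]
lemma sZ_ge (p : S2) : -1 ≤ sZ p := by nlinarith [sXZ p, normSq_nonneg (sX p)]

/-- north pole -/
def NP : S2 := mk2 0 1 (by simp)

@[simp] lemma sX_NP : sX NP = 0 := rfl
@[simp] lemma sZ_NP : sZ NP = 1 := rfl

lemma eq_NP_iff (p : S2) : p = NP ↔ sZ p = 1 := by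
  refine ⟨fun h => h ▸ rfl, fun h => S2_ext ?_ h⟩
  have := sXZ p
  rw [h] at this
  simpa using this

lemma sZ_lt_one {p : S2} (h : p ≠ NP) : sZ p < 1 :=
  lt_of_le_of_ne (sZ_le p) fun h' => h ((eq_NP_iff p).2 h')

/-- inverse stereographic projection -/
def st (w : ℂ) : S2 := mk2 ((2 / (normSq w + 1) : ℝ) * w) ((normSq w - 1) / (normSq w + 1)) (by
  have := normSq_nonneg w
  rw [normSq_mul, normSq_ofReal]
  field_simp
  ring)

def zeta (p : S2) : ℂ := sX p / (1 - sZ p : ℝ)

lemma sX_st (w : ℂ) : sX (st w) = (2 / (normSq w + 1) : ℝ) * w := rfl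
lemma sZ_st (w : ℂ) : sZ (st w) = (normSq w - 1) / (normSq w + 1) := rfl

lemma one_sub_sZ_st (w : ℂ) : 1 - sZ (st w) = 2 / (normSq w + 1) := by
  have := normSq_nonneg w
  rw [sZ_st]; field_simp; ring

@[simp] lemma zeta_st (w : ℂ) : zeta (st w) = w := by
  have := normSq_nonneg w
  rw [zeta, one_sub_sZ_st, sX_st]
  have h : ((2 / (normSq w + 1) : ℝ) : ℂ) ≠ 0 := by
    exact_mod_cast (by positivity : (2 / (normSq w + 1) : ℝ) ≠ 0)
  field_simp

lemma st_ne_NP (w : ℂ) : st w ≠ NP := by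
  intro h
  have h1 := one_sub_sZ_st w
  have := normSq_nonneg w
  rw [h, sZ_NP] at h1
  have : (0 : ℝ) < 2 / (normSq w + 1) := by positivity
  linarith

lemma normSq_zeta {p : S2} (h : p ≠ NP) : normSq (zeta p) = (1 + sZ p) / (1 - sZ p) := by
  have h1 := sZ_lt_one h
  have h2 := sXZ p
  have h3 : 1 - sZ p ≠ 0 := by linarith
  rw [zeta, normSq_div, normSq_ofReal]
  field_simp
  nlinarith

lemma st_zeta {p : S2} (h : p ≠ NP) : st (zeta p) = p := by
  have h1 := sZ_lt_one h
  have h3 : 1 - sZ p ≠ 0 := by linarith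
  have h4 : normSq (zeta p) + 1 = 2 / (1 - sZ p) := by
    rw [normSq_zeta h]; field_simp; ring
  apply S2_ext
  · rw [sX_st, h4, zeta]
    have h5 : ((1 - sZ p : ℝ) : ℂ) ≠ 0 := by exact_mod_cast h3
    have : (2 / (2 / (1 - sZ p)) : ℝ) = 1 - sZ p := by field_simp
    rw [this]
    field_simp
  · rw [sZ_st, h4, normSq_zeta h]
    field_simp
    ring

lemma continuous_st : Continuous st := by
  have h : ∀ w : ℂ, normSq w + 1 ≠ 0 := fun w => by have := normSq_nonneg w; positivity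
  refine continuous_S2 ?_ ?_
  · simp only [sX_st]
    exact (continuous_ofReal.comp (continuous_const.div (by fun_prop) h)).mul continuous_id
  · simp only [sZ_st]
    exact Continuous.div (by fun_prop) (by fun_prop) h

lemma continuousAt_zeta {p : S2} (h : p ≠ NP) : ContinuousAt zeta p := by
  have h1 := sZ_lt_one h
  refine ContinuousAt.div continuous_sX.continuousAt (by fun_prop) ?_
  exact_mod_cast (by linarith : 1 - sZ p ≠ 0)

lemma dist_sq_NP (p : S2) : dist p NP ^ 2 = 2 * (1 - sZ p) := by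
  rw [dist_sq_S2]
  have := sXZ p
  simp only [sX_NP, sub_zero, sZ_NP]
  nlinarith

lemma dist_sq_st_NP (w : ℂ) : dist (st w) NP ^ 2 = 4 / (normSq w + 1) := by
  rw [dist_sq_NP, one_sub_sZ_st]; ring

lemma dist_st_NP_mono {w w' : ℂ} (h : normSq w ≤ normSq w') : dist (st w') NP ≤ dist (st w) NP := by
  have := normSq_nonneg w
  refine (pow_le_pow_iff_left₀ dist_nonneg dist_nonneg two_ne_zero).1 ?_
  rw [dist_sq_st_NP, dist_sq_st_NP]
  gcongr

/-- near the north pole the stereographic coordinate is large -/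
lemma eventually_zeta_large (R : ℝ) : ∀ᶠ p in 𝓝 NP, p ≠ NP → R ≤ normSq (zeta p) := by
  have hR : 0 < |R| + 1 := by positivity
  have : ∀ᶠ p in 𝓝 NP, 1 - 1 / (|R| + 1) < sZ p := by
    refine continuous_sZ.continuousAt.eventually (lt_mem_nhds ?_)
    have : 0 < 1 / (|R| + 1) := by positivity
    simp only [sZ_NP]; linarith
  filter_upwards [this] with p hp hne
  have h1 := sZ_lt_one hne
  rw [normSq_zeta hne, le_div_iff₀ (by linarith)]
  have h2 : (1 - sZ p) * (|R| + 1) < 1 := by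
    rw [← lt_div_iff₀ hR]; linarith
  have h3 : 1 / (|R| + 1) ≤ 1 := by
    rw [div_le_one hR]; linarith [abs_nonneg R]
  nlinarith [le_abs_self R]

open Classical in
/-- gluing a planar family of maps at the north pole -/
lemma continuous_glue {A : Type*} [TopologicalSpace A] (φ : A × ℂ → ℂ) (hφ : Continuous φ)
    (R : ℝ) (hR : ∀ a w, R ≤ normSq w → normSq w ≤ normSq (φ (a, w))) :
    Continuous fun q : A × S2 => if q.2 = NP then NP else st (φ (q.1, zeta q.2)) := by
  rw [continuous_iff_continuousAt]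
  rintro ⟨a, p⟩
  by_cases hp : p = NP
  · subst hp
    rw [ContinuousAt, if_pos rfl, tendsto_iff_dist_tendsto_zero]
    have h1 : Tendsto (fun q : A × S2 => dist q.2 NP) (𝓝 (a, NP)) (𝓝 0) := by
      have : Continuous fun q : A × S2 => dist q.2 NP := by fun_prop
      simpa using this.tendsto (a, NP)
    refine squeeze_zero' (Eventually.of_forall fun _ => dist_nonneg) ?_ h1
    filter_upwards [(continuous_snd.tendsto (a, NP)).eventually (eventually_zeta_large R)]
      with q hq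
    split_ifs with h
    · simp
    · conv_rhs => rw [← st_zeta h]
      exact dist_st_NP_mono (hR _ _ (hq h))
  · have h1 : ContinuousAt (fun q : A × S2 => st (φ (q.1, zeta q.2))) (a, p) :=
      continuous_st.continuousAt.comp (hφ.continuousAt.comp
        (continuousAt_fst.prodMk (ContinuousAt.comp (g := zeta) (f := Prod.snd) (x := (a, p))
          (continuousAt_zeta hp) continuousAt_snd)))
    refine h1.congr ?_
    filter_upwards [(continuous_snd.tendsto (a, p)).eventually (isOpen_ne.mem_nhds hp)] with q hq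
    rw [if_neg hq]

end H6Ent
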