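import Mathlib

/-! The self-similar telescope `Xf` and the `C¹` wrapping map `W`. -/

set_option autoImplicit false

open Filter Topology Set Complex

noncomputable section

namespace H6Ent

def S (t : ℝ) : ℝ := Real.smoothTransition ((t - 1) / 3)

lemma S_zero {t : ℝ} (h : t ≤ 1) : S t = 0 := Real.smoothTransition.zero_of_nonpos (by linarith)
lemma S_one {t : ℝ} (h : 4 ≤ t) : S t = 1 := Real.smoothTransition.one_of_one_le (by linarith)
lemma S_nonneg (t : ℝ) : 0 ≤ S t := Real.smoothTransition.nonneg _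
lemma S_le_one (t : ℝ) : S t ≤ 1 := Real.smoothTransition.le_one _
lemma S_mono {s t : ℝ} (h : s ≤ t) : S s ≤ S t := Real.smoothTransition.monotone (by linarith)
lemma lt_of_S_lt_one {t : ℝ} (h : S t < 1) : t < 4 := by
  by_contra h'; rw [S_one (by linarith)] at h; exact lt_irrefl _ h
lemma lt_of_S_ne_zero {t : ℝ} (h : S t ≠ 0) : 1 < t := by
  by_contra h'; exact h (S_zero (by linarith))

@[fun_prop] lemma contDiff_S {n : ℕ∞} : ContDiff ℝ n S :=
  Real.smoothTransition.contDiff.comp (by fun_prop)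

@[fun_prop] lemma contDiff_normSq' {n : WithTop ℕ∞} : ContDiff ℝ n fun z : ℂ => normSq z := by
  simp only [normSq_apply]
  exact (reCLM.contDiff.mul reCLM.contDiff).add (imCLM.contDiff.mul imCLM.contDiff)

def aa (j : ℕ) (q : ℝ) : ℝ := S (4 ^ (j + 1) * q) - if j = 0 then 0 else S (4 ^ j * q)

lemma aa_nonneg (j : ℕ) {q : ℝ} (hq : 0 ≤ q) : 0 ≤ aa j q := by
  unfold aa
  split_ifs
  · simpa using S_nonneg _
  · refine sub_nonneg.2 (S_mono ?_)
    gcongr
    · norm_num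
    · omega

lemma aa_le_one (j : ℕ) (q : ℝ) : aa j q ≤ 1 := by
  unfold aa
  have := S_le_one (4 ^ (j + 1) * q)
  have := S_nonneg (4 ^ j * q)
  split_ifs <;> linarith

def slot (j : ℕ) : ℂ →L[ℝ] ℂ × ℂ :=
  if Even j then ContinuousLinearMap.inl ℝ ℂ ℂ else ContinuousLinearMap.inr ℝ ℂ ℂ

lemma norm_slot (j : ℕ) (y : ℂ) : ‖slot j y‖ = ‖y‖ := by
  unfold slot; split_ifs <;> simp

def term (j : ℕ) (q : ℝ) (ω : ℂ) : ℂ × ℂ := (1 / 8 : ℝ) ^ j • slot j (aa j q * ω ^ 2 ^ (j + 1))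

lemma norm_term_le (j : ℕ) {q : ℝ} (hq : 0 ≤ q) {ω : ℂ} (hω : ‖ω‖ ≤ 1) :
    ‖term j q ω‖ ≤ (1 / 8 : ℝ) ^ j := by
  rw [term, norm_smul, norm_slot, norm_mul, norm_pow, norm_pow, Complex.norm_real,
    Real.norm_eq_abs, Real.norm_eq_abs, abs_of_nonneg (aa_nonneg j hq), abs_of_pos (by norm_num)]
  have h1 : ‖ω‖ ^ 2 ^ (j + 1) ≤ 1 := pow_le_one₀ (norm_nonneg _) hω
  have h2 := mul_le_one₀ (aa_le_one j q) (by positivity) h1
  exact mul_le_of_le_one_right (by positivity) h2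

lemma summable_geo8 : Summable fun j : ℕ => (1 / 8 : ℝ) ^ j :=
  summable_geometric_of_lt_one (by norm_num) (by norm_num)

lemma summable_term {q : ℝ} (hq : 0 ≤ q) {ω : ℂ} (hω : ‖ω‖ ≤ 1) : Summable fun j => term j q ω :=
  Summable.of_norm_bounded summable_geo8 fun j => norm_term_le j hq hω

def Xf (q : ℝ) (ω : ℂ) : ℂ × ℂ := ∑' j, term j q ω

def Lam (x : ℂ × ℂ) : ℂ × ℂ := (8 * x.2, 8 * x.1)

lemma norm_Xf_le {q : ℝ} (hq : 0 ≤ q) {ω : ℂ} (hω : ‖ω‖ ≤ 1) : ‖Xf q ω‖ ≤ 8 / 7 := by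
  have h := tsum_of_norm_bounded (hasSum_geometric_of_lt_one (r := (1 / 8 : ℝ)) (by norm_num)
    (by norm_num)) fun j => norm_term_le j hq hω
  norm_num at h ⊢
  exact h

lemma Xf_zero (ω : ℂ) : Xf 0 ω = 0 := by
  have : ∀ j, term j 0 ω = 0 := fun j => by simp [term, aa, S_zero]
  simp [Xf, this]

def LamL : ℂ × ℂ →L[ℝ] ℂ × ℂ :=
  (8 : ℝ) • ((ContinuousLinearMap.snd ℝ ℂ ℂ).prod (ContinuousLinearMap.fst ℝ ℂ ℂ))

lemma LamL_apply (x : ℂ × ℂ) : LamL x = Lam x := by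
  simp [LamL, Lam]

lemma Lam_term (j : ℕ) {q : ℝ} (hq : q ≤ 1 / 4) (ω : ℂ) :
    Lam (term (j + 1) q ω) = term j (4 * q) (ω ^ 2) := by
  have h1 : aa (j + 1) q = aa j (4 * q) := by
    unfold aa
    rw [if_neg (Nat.succ_ne_zero j)]
    split_ifs with h
    · subst h
      rw [S_zero (t := 4 ^ (0 + 1) * q) (by norm_num; linarith)]
      congr 2; ring
    · congr 2 <;> ring
  have h2 : ω ^ 2 ^ (j + 1 + 1) = (ω ^ 2) ^ 2 ^ (j + 1) := by
    rw [← pow_mul]; congr 1; ring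
  rw [term, term, h1, h2]
  generalize (aa j (4 * q) : ℂ) * (ω ^ 2) ^ 2 ^ (j + 1) = y
  unfold slot
  by_cases h : Even j
  · rw [if_pos h, if_neg (by simpa [Nat.even_add_one] using h)]
    simp [Lam]
    ring
  · rw [if_neg h, if_pos (by simpa [Nat.even_add_one] using h)]
    simp [Lam]
    ring

lemma Lam_Xf {q : ℝ} (hq0 : 0 ≤ q) (hq : q ≤ 1 / 4) {ω : ℂ} (hω : ‖ω‖ ≤ 1) :
    Lam (Xf q ω) = Xf (4 * q) (ω ^ 2) := by
  have h0 : term 0 q ω = 0 := by simp [term, aa, S_zero (t := 4 * q) (by linarith)]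
  rw [Xf, (summable_term hq0 hω).tsum_eq_zero_add, h0, zero_add, ← LamL_apply,
    LamL.map_tsum ((summable_nat_add_iff 1).2 (summable_term hq0 hω))]
  simp only [LamL_apply, Lam_term _ hq]
  rfl

lemma norm_Lam (x : ℂ × ℂ) : ‖Lam x‖ = 8 * ‖x‖ := by
  simp only [Lam, Prod.norm_def, norm_mul, Complex.norm_ofNat]
  rw [max_comm, mul_max_of_nonneg _ _ (by norm_num)]

lemma norm_Xf_small {q : ℝ} (hq0 : 0 ≤ q) (hq : q ≤ 1 / 4) {ω : ℂ} (hω : ‖ω‖ ≤ 1) :
    ‖Xf q ω‖ ≤ 1 / 7 := by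
  have h := norm_Xf_le (q := 4 * q) (by positivity) (ω := ω ^ 2)
    (by rw [norm_pow]; exact pow_le_one₀ (norm_nonneg _) hω)
  rw [← Lam_Xf hq0 hq hω, norm_Lam] at h
  linarith

lemma Xf_large {q : ℝ} (hq : 1 / 4 ≤ q) (ω : ℂ) :
    Xf q ω = ((S (4 * q) : ℂ) * ω ^ 2, (((1 - S (4 * q)) / 8 : ℝ) : ℂ) * ω ^ 4) := by
  have h : ∀ j ∉ ({0, 1} : Finset ℕ), term j q ω = 0 := by
    intro j hj
    simp only [Finset.mem_insert, Finset.mem_singleton, not_or] at hj
    have h16 : (16 : ℝ) ≤ 4 ^ j := by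
      calc (16 : ℝ) = 4 ^ 2 := by norm_num
        _ ≤ 4 ^ j := pow_le_pow_right₀ (by norm_num) (by omega)
    have : aa j q = 0 := by
      rw [aa, if_neg hj.1, S_one (by rw [pow_succ]; nlinarith), S_one (by nlinarith), sub_self]
    simp [term, this]
  rw [Xf, tsum_eq_sum h, Finset.sum_pair (by norm_num)]
  have h1 : aa 1 q = 1 - S (4 * q) := by
    rw [aa, if_neg (by norm_num), S_one (by norm_num; linarith)]; norm_num
  have h0 : aa 0 q = S (4 * q) := by simp [aa]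
  simp [term, slot, h0, h1]
  ring

/-- the wrapping map -/
def W (z : ℂ) : ℂ × ℂ := Xf (normSq z / 4) ((z / ‖z‖) ^ 2)

lemma norm_unit_le (z : ℂ) : ‖z / (‖z‖ : ℂ)‖ ≤ 1 := by
  rw [Complex.norm_div, Complex.norm_real, norm_norm]
  exact div_self_le_one _

lemma norm_W_le (z : ℂ) : ‖W z‖ ≤ 8 / 7 :=
  norm_Xf_le (by have := normSq_nonneg z; positivity)
    (by rw [norm_pow]; exact pow_le_one₀ (norm_nonneg _) (norm_unit_le z))

lemma W_ray {r : ℝ} (hr : 0 ≤ r) {ω : ℂ} (hω : ‖ω‖ = 1) : W (r * ω) = Xf (r ^ 2 / 4) (ω ^ 2) := by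
  rcases hr.eq_or_lt with rfl | hr
  · simp [W, Xf_zero]
  · have h1 : ‖(r : ℂ) * ω‖ = r := by
      rw [norm_mul, hω, Complex.norm_real, Real.norm_eq_abs, abs_of_pos hr, mul_one]
    have h2 : (r : ℂ) ≠ 0 := by exact_mod_cast hr.ne'
    rw [W, normSq_eq_norm_sq, h1, mul_div_cancel_left₀ _ h2]

/-- a function vanishing near `0` times a function smooth away from `0` is smooth -/
lemma contDiff_cut_mul {F : Type*} [NormedAddCommGroup F] [NormedSpace ℝ F] {n : ℕ∞} (k : ℝ)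
    (g : ℂ → F) (hg : ∀ z, z ≠ 0 → ContDiffAt ℝ n g z) :
    ContDiff ℝ n fun z : ℂ => S (k * normSq z) • g z := by
  rw [contDiff_iff_contDiffAt]
  intro z
  by_cases hz : z = 0
  · subst hz
    refine (contDiffAt_const (c := (0 : F))).congr_of_eventuallyEq ?_
    have : ∀ᶠ w : ℂ in 𝓝 0, k * normSq w < 1 := by
      have hc : Continuous fun w : ℂ => k * normSq w := by fun_prop
      exact hc.continuousAt.eventually (gt_mem_nhds (by simp))
    filter_upwards [this] with w hw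
    rw [S_zero hw.le, zero_smul]
  · have : ContDiff ℝ n fun z : ℂ => S (k * normSq z) := by fun_prop
    exact this.contDiffAt.smul (hg z hz)

lemma contDiffAt_unit {n : ℕ∞} {z : ℂ} (hz : z ≠ 0) :
    ContDiffAt ℝ n (fun z : ℂ => z / (‖z‖ : ℂ)) z := by
  have h1 : ContDiffAt ℝ n (fun z : ℂ => ‖z‖⁻¹ • z) z :=
    ((contDiffAt_norm ℝ hz).inv (norm_ne_zero_iff.2 hz)).smul contDiffAt_id
  refine h1.congr_of_eventuallyEq (Eventually.of_forall fun w => ?_)
  simp [div_eq_inv_mul]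

def tau (y : ℂ) : ℂ := ((S (4 * normSq y) - S (normSq y) : ℝ) : ℂ)

def nu (y : ℂ) : ℂ := S (16 * normSq y) • ((1 - S (normSq y / 4)) • (y / (‖y‖ : ℂ)))

lemma contDiff_tau : ContDiff ℝ 1 tau :=
  ofRealCLM.contDiff.comp (by
    have : ContDiff ℝ (1 : ℕ∞) fun y : ℂ => S (4 * normSq y) - S (normSq y) := by fun_prop
    exact this)

lemma contDiff_nu : ContDiff ℝ 1 nu :=
  contDiff_cut_mul (n := 1) 16 _ fun z hz => by
    have : ContDiff ℝ (1 : ℕ∞) fun y : ℂ => 1 - S (normSq y / 4) := by fun_prop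
    exact this.contDiffAt.smul (contDiffAt_unit hz)

lemma exists_fderiv_bound {g : ℂ → ℂ} (hg : ContDiff ℝ 1 g) (h0 : ∀ y, 16 ≤ normSq y → g y = 0) :
    ∃ C, 0 ≤ C ∧ ∀ y, ‖fderiv ℝ g y‖ ≤ C := by
  have hc : HasCompactSupport g := by
    refine HasCompactSupport.intro (isCompact_closedBall (0 : ℂ) 4) fun y hy => h0 y ?_
    rw [mem_closedBall_zero_iff, not_le] at hy
    rw [normSq_eq_norm_sq]; nlinarith
  obtain ⟨C, hC⟩ := (hg.continuous_fderiv one_ne_zero).bounded_above_of_compact_support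
    (hc.fderiv ℝ)
  exact ⟨C, (norm_nonneg _).trans (hC 0), hC⟩

lemma norm_tau_le (y : ℂ) : ‖tau y‖ ≤ 1 := by
  rw [tau, Complex.norm_real, Real.norm_eq_abs, abs_le]
  constructor <;> linarith [S_nonneg (4 * normSq y), S_le_one (4 * normSq y), S_nonneg (normSq y),
    S_le_one (normSq y)]

lemma norm_nu_le (y : ℂ) : ‖nu y‖ ≤ 1 := by
  rw [nu, norm_smul, norm_smul, Real.norm_eq_abs, Real.norm_eq_abs, abs_of_nonneg (S_nonneg _),
    abs_of_nonneg (by linarith [S_le_one (normSq y / 4)])]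
  refine mul_le_one₀ (S_le_one _) (mul_nonneg (by linarith [S_le_one (normSq y / 4)])
    (norm_nonneg _)) (mul_le_one₀ (by linarith [S_nonneg (normSq y / 4)]) (norm_nonneg _)
    (norm_unit_le y))

lemma tau_mul_nu (y : ℂ) (n : ℕ) : tau y * nu y ^ n = tau y * (y / (‖y‖ : ℂ)) ^ n := by
  by_cases h : tau y = 0
  · simp [h]
  · have h1 : 1 / 4 ≤ normSq y := by
      by_contra h'
      apply h
      rw [tau, S_zero (by linarith), S_zero (by linarith)]; simp
    have h2 : normSq y ≤ 4 := by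
      by_contra h'
      apply h
      rw [tau, S_one (by linarith), S_one (by linarith)]; simp
    rw [nu, S_one (by linarith), S_zero (by linarith)]
    simp

def gT (j : ℕ) (z : ℂ) : ℂ × ℂ :=
  (1 / 8 : ℝ) ^ (j + 1) • slot (j + 1)
    (tau ((2 ^ j : ℝ) • z) * nu ((2 ^ j : ℝ) • z) ^ 2 ^ (j + 3))

lemma gT_eq (j : ℕ) (z : ℂ) : gT j z = term (j + 1) (normSq z / 4) ((z / ‖z‖) ^ 2) := by
  have h1 : normSq ((2 ^ j : ℝ) • z) = 4 ^ j * normSq z := by
    rw [Complex.real_smul, normSq_mul, normSq_ofReal, ← mul_pow]; norm_num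
  have h2 : ((2 ^ j : ℝ) • z) / (‖(2 ^ j : ℝ) • z‖ : ℂ) = z / ‖z‖ := by
    rw [norm_smul, Real.norm_eq_abs, abs_of_pos (by positivity), Complex.real_smul]
    push_cast
    exact mul_div_mul_left _ _ (pow_ne_zero _ two_ne_zero)
  rw [gT, term, tau_mul_nu, h2, tau, h1, aa, if_neg (Nat.succ_ne_zero j), ← pow_mul]
  congr 5
  · congr 1; ring
  · congr 1; ring
  · ring

lemma contDiff_gT (j : ℕ) : ContDiff ℝ 1 (gT j) := by
  have h : ContDiff ℝ 1 fun z : ℂ => (2 ^ j : ℝ) • z := contDiff_id.const_smul _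
  exact ((slot (j + 1)).contDiff.comp
    ((contDiff_tau.comp h).mul ((contDiff_nu.comp h).pow _))).const_smul _

lemma exists_bound_gT : ∃ C : ℝ, ∀ j z, ‖fderiv ℝ (gT j) z‖ ≤ C * (1 / 2) ^ j := by
  obtain ⟨A, hA0, hA⟩ := exists_fderiv_bound contDiff_tau fun y hy => by
    rw [tau, S_one (by linarith), S_one (by linarith)]; simp
  obtain ⟨B, hB0, hB⟩ := exists_fderiv_bound contDiff_nu fun y hy => by
    rw [nu, S_one (t := normSq y / 4) (by linarith)]; simp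
  refine ⟨A + 8 * B, fun j z => ?_⟩
  set y := (2 ^ j : ℝ) • z
  set n := 2 ^ (j + 3) with hn
  have h0 : HasFDerivAt (fun z : ℂ => (2 ^ j : ℝ) • z)
      ((2 ^ j : ℝ) • ContinuousLinearMap.id ℝ ℂ) z := ((2 ^ j : ℝ) • ContinuousLinearMap.id ℝ ℂ).hasFDerivAt
  have h1 : HasFDerivAt tau (fderiv ℝ tau y) y :=
    (contDiff_tau.differentiable one_ne_zero y).hasFDerivAt
  have h2 : HasFDerivAt nu (fderiv ℝ nu y) y :=
    (contDiff_nu.differentiable one_ne_zero y).hasFDerivAt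
  have h3 := h1.mul (h2.pow n)
  set D := tau y • (n • nu y ^ (n - 1)) • fderiv ℝ nu y + nu y ^ n • fderiv ℝ tau y with hD
  have hDn : ‖D‖ ≤ n * B + A := by
    refine (norm_add_le _ _).trans (add_le_add ?_ ?_)
    · rw [norm_smul, norm_smul, nsmul_eq_mul, norm_mul, norm_pow, Complex.norm_natCast]
      have a1 : ‖nu y‖ ^ (n - 1) ≤ 1 := pow_le_one₀ (norm_nonneg _) (norm_nu_le y)
      calc ‖tau y‖ * (n * ‖nu y‖ ^ (n - 1) * ‖fderiv ℝ nu y‖) ≤ 1 * (n * 1 * B) := by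
            gcongr
            · exact norm_tau_le y
            · exact hB y
        _ = n * B := by ring
    · rw [norm_smul, norm_pow]
      have a1 : ‖nu y‖ ^ n ≤ 1 := pow_le_one₀ (norm_nonneg _) (norm_nu_le y)
      calc ‖nu y‖ ^ n * ‖fderiv ℝ tau y‖ ≤ 1 * A := by gcongr; exact hA y
        _ = A := one_mul A
  have h4 := (((slot (j + 1)).hasFDerivAt.comp y h3).comp z h0).const_smul ((1 / 8 : ℝ) ^ (j + 1))
  have h5 : fderiv ℝ (gT j) z = (1 / 8 : ℝ) ^ (j + 1) •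
      ((slot (j + 1)).comp D).comp ((2 ^ j : ℝ) • ContinuousLinearMap.id ℝ ℂ) := h4.fderiv
  rw [h5]
  have hs : ‖slot (j + 1)‖ ≤ 1 :=
    ContinuousLinearMap.opNorm_le_bound _ zero_le_one fun x => by rw [norm_slot, one_mul]
  have h6 : ‖((slot (j + 1)).comp D).comp ((2 ^ j : ℝ) • ContinuousLinearMap.id ℝ ℂ)‖ ≤
      1 * (n * B + A) * 2 ^ j := by
    refine (ContinuousLinearMap.opNorm_comp_le _ _).trans (mul_le_mul
      ((ContinuousLinearMap.opNorm_comp_le _ _).trans (by gcongr)) ?_ (norm_nonneg _)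
      (by positivity))
    rw [norm_smul, ContinuousLinearMap.norm_id, mul_one, Real.norm_eq_abs,
      abs_of_pos (by positivity)]
  rw [norm_smul, Real.norm_eq_abs, abs_of_pos (by positivity)]
  have hn' : (n : ℝ) = 8 * 2 ^ j := by rw [hn]; push_cast; ring
  have e1 : (1 / 8 : ℝ) ^ j * 2 ^ j * 2 ^ j = (1 / 2) ^ j := by
    rw [← mul_pow, ← mul_pow]; norm_num
  have e2 : (1 : ℝ) ≤ 2 ^ j := one_le_pow₀ (by norm_num)
  calc (1 / 8 : ℝ) ^ (j + 1) * ‖((slot (j + 1)).comp D).comp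
        ((2 ^ j : ℝ) • ContinuousLinearMap.id ℝ ℂ)‖
      ≤ (1 / 8 : ℝ) ^ j * (1 * (8 * 2 ^ j * B + A * 2 ^ j) * 2 ^ j) := by
        rw [hn'] at h6
        refine mul_le_mul ?_ ?_ (norm_nonneg _) (by positivity)
        · rw [pow_succ]
          exact mul_le_of_le_one_right (by positivity) (by norm_num)
        · refine h6.trans ?_
          gcongr
          exact le_mul_of_one_le_right hA0 e2
    _ = (A + 8 * B) * ((1 / 8 : ℝ) ^ j * 2 ^ j * 2 ^ j) := by ring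
    _ = _ := by rw [e1]

theorem contDiff_W : ContDiff ℝ 1 W := by
  obtain ⟨C, hC⟩ := exists_bound_gT
  have hs : Summable fun j : ℕ => C * (1 / 2 : ℝ) ^ j := summable_geometric_two.mul_left C
  have hsum : ∀ z : ℂ, Summable fun j => term j (normSq z / 4) ((z / ‖z‖) ^ 2) := fun z =>
    summable_term (by have := normSq_nonneg z; positivity)
      (by rw [norm_pow]; exact pow_le_one₀ (norm_nonneg _) (norm_unit_le z))
  have h1 : ContDiff ℝ 1 fun z => ∑' j, gT j z := by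
    have hd : ∀ j, Differentiable ℝ (gT j) := fun j => (contDiff_gT j).differentiable one_ne_zero
    rw [contDiff_one_iff_fderiv]
    refine ⟨differentiable_tsum hs (fun j z => (hd j z).hasFDerivAt) hC, ?_⟩
    have h0 : Summable fun j => gT j 0 := by
      have := (summable_nat_add_iff (f := fun j => term j (normSq (0 : ℂ) / 4)
        (((0 : ℂ) / ‖(0 : ℂ)‖) ^ 2)) 1).2 (hsum 0)
      exact this.congr fun j => (gT_eq j 0).symm
    rw [fderiv_tsum (x₀ := 0) hs hd hC h0]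
    exact continuous_tsum (fun j => (contDiff_gT j).continuous_fderiv one_ne_zero) hs hC
  have h2 : ContDiff ℝ 1 fun z : ℂ => S (1 * normSq z) • slot 0 (((z / ‖z‖) ^ 2) ^ 2) :=
    contDiff_cut_mul (n := 1) 1 _ fun z hz =>
      (slot 0).contDiff.contDiffAt.comp z (((contDiffAt_unit hz).pow 2).pow 2)
  have : W = fun z : ℂ => S (1 * normSq z) • slot 0 (((z / ‖z‖) ^ 2) ^ 2) + ∑' j, gT j z := by
    funext z
    rw [W, Xf, (hsum z).tsum_eq_zero_add]
    simp only [gT_eq]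
    congr 1
    have : aa 0 (normSq z / 4) = S (1 * normSq z) := by
      simp only [aa, if_pos, sub_zero]; congr 1; ring
    rw [term, this, ← Complex.real_smul, map_smul]
    simp
  rw [this]
  exact h2.add h1

end H6Ent
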