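import Crest.Agent.H3.KE.Model
import Crest.Agent.H3.KE.Cuntz

/-! S0098, piece HA: a Schmidt decomposition estimate. -/

set_option autoImplicit false

namespace Crest.Agent.H6.KE

open Finset
open scoped InnerProductSpace ComplexConjugate

theorem schmidt {K H E : Type} [Fintype K] [NormedAddCommGroup H] [InnerProductSpace ℂ H]
    [NormedAddCommGroup E] [InnerProductSpace ℂ E] {e : K → H}
    (he : Orthonormal ℂ e) (T : K → E) : ∃ (ε : K → H) (v : K → E), Orthonormal ℂ ε ∧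
      (∀ i j, i ≠ j → ⟪v i, v j⟫_ℂ = 0) ∧
      ∀ (y : H →L[ℂ] H) (σ : E →L[ℂ] E), ∑ γ, ∑ γ', ⟪e γ, y (e γ')⟫_ℂ * ⟪T γ, σ (T γ')⟫_ℂ =
        ∑ i, ∑ j, ⟪ε i, y (ε j)⟫_ℂ * ⟪v i, σ (v j)⟫_ℂ := by
  classical
  have hA : (Matrix.gram ℂ T).IsHermitian := Matrix.isHermitian_gram ℂ T
  set W : Matrix K K ℂ := (hA.eigenvectorUnitary : Matrix K K ℂ) with hW
  have h1 : star W * W = 1 := Unitary.coe_star_mul_self hA.eigenvectorUnitary
  have h2 : W * star W = 1 := Unitary.coe_mul_star_self hA.eigenvectorUnitary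
  have h3 : star W * Matrix.gram ℂ T * W = Matrix.diagonal (RCLike.ofReal ∘ hA.eigenvalues) := by
    have := hA.conjStarAlgAut_star_eigenvectorUnitary
    simpa [Unitary.conjStarAlgAut_apply] using this
  have h1' : ∀ i j, ∑ γ, conj (W γ i) * W γ j = if i = j then 1 else 0 := fun i j => by
    have := congrFun (congrFun h1 i) j
    simpa [Matrix.mul_apply, Matrix.one_apply] using this
  have h2' : ∀ γ γ', ∑ i, W γ i * conj (W γ' i) = if γ = γ' then 1 else 0 := fun i j => by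
    have := congrFun (congrFun h2 i) j
    simpa [Matrix.mul_apply, Matrix.one_apply] using this
  refine ⟨fun i => ∑ γ, conj (W γ i) • e γ, fun i => ∑ γ, W γ i • T γ, ?_, fun i j hij => ?_,
    fun y σ => ?_⟩
  · rw [orthonormal_iff_ite]
    intro i j
    rw [he.inner_sum]
    have := congrArg conj (h1' i j)
    simp only [map_sum, map_mul, Complex.conj_conj] at this ⊢
    rw [this]
    split_ifs <;> simp
  · have := congrFun (congrFun h3 i) j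
    rw [Matrix.diagonal_apply_ne _ hij] at this
    rw [← this]
    simp only [Matrix.mul_apply, Matrix.gram_apply, Matrix.star_apply, sum_inner, inner_sum,
      inner_smul_left, inner_smul_right, sum_mul, mul_sum, RCLike.star_def]
    exact sum_congr rfl fun a _ => sum_congr rfl fun b _ => by ring
  · have L : ∀ (x : H) (u : E), ∑ γ, ⟪x, y (e γ)⟫_ℂ * ⟪u, σ (T γ)⟫_ℂ =
        ∑ i, ⟪x, y (∑ γ, conj (W γ i) • e γ)⟫_ℂ * ⟪u, σ (∑ γ, W γ i • T γ)⟫_ℂ := by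
      intro x u
      have key : ∀ a b, ∑ i, conj (W a i) * ⟪x, y (e a)⟫_ℂ * (W b i * ⟪u, σ (T b)⟫_ℂ) =
          (if b = a then 1 else 0) * (⟪x, y (e a)⟫_ℂ * ⟪u, σ (T b)⟫_ℂ) := by
        intro a b
        rw [← h2' b a, sum_mul]
        exact sum_congr rfl fun _ _ => by ring
      simp only [map_sum, map_smul, inner_sum, inner_smul_right, sum_mul_sum]
      rw [sum_comm]
      refine sum_congr rfl fun a _ => ?_
      rw [sum_comm]
      simp [key]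
    have L' : ∀ (x : H) (u : E), ∑ γ, ⟪e γ, x⟫_ℂ * ⟪T γ, u⟫_ℂ =
        ∑ i, ⟪∑ γ, conj (W γ i) • e γ, x⟫_ℂ * ⟪∑ γ, W γ i • T γ, u⟫_ℂ := by
      intro x u
      have key : ∀ a b, ∑ i, W a i * ⟪e a, x⟫_ℂ * (conj (W b i) * ⟪T b, u⟫_ℂ) =
          (if a = b then 1 else 0) * (⟪e a, x⟫_ℂ * ⟪T b, u⟫_ℂ) := by
        intro a b
        rw [← h2' a b, sum_mul]
        exact sum_congr rfl fun _ _ => by ring
      simp only [sum_inner, inner_smul_left, Complex.conj_conj, sum_mul_sum]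
      rw [sum_comm]
      refine sum_congr rfl fun a _ => ?_
      rw [sum_comm]
      simp [key]
    simp only [L]
    rw [sum_comm]
    simp only [L']
    rw [sum_comm]

theorem HA {K H E : Type} [Fintype K] [NormedAddCommGroup H] [InnerProductSpace ℂ H]
    [CompleteSpace H] [NormedAddCommGroup E] [InnerProductSpace ℂ E] {e : K → H}
    (he : Orthonormal ℂ e) (T : K → E) : ∃ z : K → E,
      ∑ i, ∑ i', ‖⟪z i, z i'⟫_ℂ‖ ^ 2 = ∑ γ, ‖T γ‖ ^ 2 ∧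
      ∀ (y : H →L[ℂ] H) (σ : E →L[ℂ] E),
        ‖∑ γ, ∑ γ', ⟪e γ, y (e γ')⟫_ℂ * ⟪T γ, σ (T γ')⟫_ℂ‖ ^ 2 ≤
          ‖y‖ ^ 2 * (∑ γ, ‖T γ‖ ^ 2) * ∑ i, ∑ i', ‖⟪z i, σ (z i')⟫_ℂ‖ ^ 2 := by
  classical
  obtain ⟨ε, v, hε, hv, hid⟩ := schmidt he T
  have hN : ∑ γ, ‖T γ‖ ^ 2 = ∑ i, ‖v i‖ ^ 2 := by
    have := hid 1 1
    simp only [one_apply_eq_self, orthonormal_iff_ite.1 he, orthonormal_iff_ite.1 hε,
      ite_mul, one_mul, zero_mul, sum_ite_eq, mem_univ, if_true, inner_self_eq_norm_sq_to_K] at this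
    exact_mod_cast this
  let z : K → E := fun i => (((√‖v i‖)⁻¹ : ℝ) : ℂ) • v i
  have hvz : ∀ i, v i = ((√‖v i‖ : ℝ) : ℂ) • z i := by
    intro i
    by_cases h : v i = 0
    · simp [z, h]
    · have : √‖v i‖ ≠ 0 := (Real.sqrt_pos.2 (norm_pos_iff.2 h)).ne'
      simp only [z, smul_smul, ← Complex.ofReal_mul, mul_inv_cancel₀ this]
      simp
  have hz : ∀ i, ‖z i‖ ^ 2 = ‖v i‖ := by
    intro i
    by_cases h : v i = 0
    · simp [z, h]
    · have h0 : 0 < ‖v i‖ := norm_pos_iff.2 h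
      simp only [z, norm_smul, Complex.norm_real, norm_inv, Real.norm_eq_abs, abs_of_nonneg
        (Real.sqrt_nonneg _), mul_pow, inv_pow, Real.sq_sqrt h0.le]
      field_simp
  refine ⟨z, ?_, fun y σ => ?_⟩
  · rw [hN]
    refine sum_congr rfl fun i _ => ?_
    rw [sum_eq_single i]
    · rw [inner_self_eq_norm_sq_to_K, norm_pow, ← hz]
      simp
    · intro j _ hj
      simp only [z, inner_smul_left, inner_smul_right, hv i j (Ne.symm hj)]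
      simp
    · simp
  · rw [hid, hN]
    have e1 : ∀ i j, ‖⟪ε i, y (ε j)⟫_ℂ * ⟪v i, σ (v j)⟫_ℂ‖ =
        (‖⟪ε i, y (ε j)⟫_ℂ‖ * √(‖v i‖ * ‖v j‖)) * ‖⟪z i, σ (z j)⟫_ℂ‖ := by
      intro i j
      conv_lhs => rw [hvz i, hvz j]
      rw [map_smul, inner_smul_left, inner_smul_right, Real.sqrt_mul (norm_nonneg _)]
      simp only [norm_mul, Complex.conj_ofReal, Complex.norm_real, Real.norm_eq_abs,
        abs_of_nonneg (Real.sqrt_nonneg _)]
      ring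
    have e2 : ‖∑ i, ∑ j, ⟪ε i, y (ε j)⟫_ℂ * ⟪v i, σ (v j)⟫_ℂ‖ ≤ ∑ p : K × K,
        (‖⟪ε p.1, y (ε p.2)⟫_ℂ‖ * √(‖v p.1‖ * ‖v p.2‖)) * ‖⟪z p.1, σ (z p.2)⟫_ℂ‖ := by
      rw [← Fintype.sum_prod_type']
      exact (norm_sum_le _ _).trans (sum_le_sum fun p _ => (e1 p.1 p.2).le)
    refine (pow_le_pow_left₀ (norm_nonneg _) e2 2).trans ((sum_mul_sq_le_sq_mul_sq _ _ _).trans ?_)
    rw [Fintype.sum_prod_type (f := fun p : K × K => ‖⟪z p.1, σ (z p.2)⟫_ℂ‖ ^ 2)]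
    refine mul_le_mul_of_nonneg_right ?_ (by positivity)
    have b1 : ∀ j, ∑ i, ‖⟪ε i, y (ε j)⟫_ℂ‖ ^ 2 ≤ ‖y‖ ^ 2 := fun j => by
      refine (hε.sum_inner_products_le _).trans (pow_le_pow_left₀ (norm_nonneg _) ?_ 2)
      simpa [hε.1 j] using y.le_opNorm (ε j)
    have b2 : ∀ i, ∑ j, ‖⟪ε i, y (ε j)⟫_ℂ‖ ^ 2 ≤ ‖y‖ ^ 2 := fun i => by
      have : ∀ j, ‖⟪ε i, y (ε j)⟫_ℂ‖ = ‖⟪ε j, (ContinuousLinearMap.adjoint y) (ε i)⟫_ℂ‖ := fun j => by
        rw [ContinuousLinearMap.adjoint_inner_right, norm_inner_symm]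
      simp only [this]
      refine (hε.sum_inner_products_le _).trans (pow_le_pow_left₀ (norm_nonneg _) ?_ 2)
      simpa [hε.1 i] using (ContinuousLinearMap.adjoint y).le_opNorm (ε i)
    calc _ ≤ ∑ p : K × K, (‖⟪ε p.1, y (ε p.2)⟫_ℂ‖ ^ 2 * ‖v p.1‖ ^ 2 / 2 +
          ‖⟪ε p.1, y (ε p.2)⟫_ℂ‖ ^ 2 * ‖v p.2‖ ^ 2 / 2) := by
          refine sum_le_sum fun p _ => ?_
          rw [mul_pow, Real.sq_sqrt (by positivity)]
          nlinarith [mul_nonneg (sq_nonneg ‖⟪ε p.1, y (ε p.2)⟫_ℂ‖) (sq_nonneg (‖v p.1‖ - ‖v p.2‖))]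
      _ = ∑ i, (∑ j, ‖⟪ε i, y (ε j)⟫_ℂ‖ ^ 2) * ‖v i‖ ^ 2 / 2 +
          ∑ j, (∑ i, ‖⟪ε i, y (ε j)⟫_ℂ‖ ^ 2) * ‖v j‖ ^ 2 / 2 := by
          rw [sum_add_distrib, Fintype.sum_prod_type, Fintype.sum_prod_type_right]
          simp only [sum_mul, sum_div]
      _ ≤ ∑ i, ‖y‖ ^ 2 * ‖v i‖ ^ 2 / 2 + ∑ j, ‖y‖ ^ 2 * ‖v j‖ ^ 2 / 2 := by
          gcongr with i _ j _
          exacts [b2 i, b1 j]
      _ = _ := by
          rw [← sum_add_distrib, mul_sum]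
          exact sum_congr rfl fun _ _ => by ring

end Crest.Agent.H6.KE
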