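import Crest.Agent.H1KR.Defs

/-! KR-D, part 1: range projections, central supports, finite central projections. -/

set_option autoImplicit false
open scoped InnerProductSpace
open Crest.Agent.H2.KS Crest.Agent.H9.KB Crest.Agent.H1KR

namespace Crest.Agent.H6.KRD

variable {K : Type*} [NormedAddCommGroup K] [InnerProductSpace ℂ K] [CompleteSpace K]
variable {C : Set (K →L[ℂ] K)}

/-- An infinite family of equivalent orthogonal nonzero projections under `z₀`. -/
def InfFam (P : Set (K →L[ℂ] K)) (z₀ : K →L[ℂ] K) : Prop :=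
  ∃ (g : K →L[ℂ] K) (w : ℕ → (K →L[ℂ] K)), g ≠ 0 ∧ (∀ k, w k ∈ P ∧ z₀ * w k = w k) ∧
    ∀ k l, star (w k) * w l = if k = l then g else 0

/-- The projection on the closed span of the ranges of a family in `P`. -/
theorem exists_rproj (hC : ∀ c ∈ C, star c ∈ C) (A : Set (K →L[ℂ] K))
    (hA : ∀ a ∈ A, a ∈ C.centralizer) :
    ∃ E ∈ C.centralizer, IsStarProjection E ∧ (∀ a ∈ A, E * a = a) ∧
      ∀ f : K →L[ℂ] K, (∀ a ∈ A, f * a = 0) → f * E = 0 := by
  let V₀ : Submodule ℂ K := Submodule.span ℂ {x | ∃ a ∈ A, ∃ ξ, a ξ = x}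
  let V : Submodule ℂ K := V₀.topologicalClosure
  have : CompleteSpace V := V₀.isClosed_topologicalClosure.completeSpace_coe
  have hinv : ∀ c ∈ C, ∀ x ∈ V, c x ∈ V := by
    intro c hc x hx
    refine map_mem_closure c.continuous hx fun y hy => ?_
    have : V₀ ≤ V₀.comap (c : K →ₗ[ℂ] K) := by
      refine Submodule.span_le.mpr ?_
      rintro _ ⟨a, ha, ξ, rfl⟩
      refine Submodule.subset_span ⟨a, ha, c ξ, ?_⟩
      exact (congrArg (fun T : K →L[ℂ] K => T ξ) (hA a ha c hc)).symm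
    exact this hy
  refine ⟨V.starProjection, fun c hc => ?_, isStarProjection_starProjection, fun a ha => ?_,
    fun f hf => ?_⟩
  · ext x
    show c (V.starProjection x) = V.starProjection (c x)
    refine (Submodule.eq_starProjection_of_mem_of_inner_eq_zero
      (hinv c hc _ (V.starProjection_apply_mem x)) fun w hw => ?_).symm
    rw [← map_sub, ← ContinuousLinearMap.adjoint_inner_right,
      ← ContinuousLinearMap.star_eq_adjoint]
    exact V.starProjection_inner_eq_zero x _ (hinv _ (hC c hc) w hw)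
  · ext ξ
    exact Submodule.starProjection_eq_self_iff.mpr
      (V₀.le_topologicalClosure (Submodule.subset_span ⟨a, ha, ξ, rfl⟩))
  · have h1 : V₀ ≤ LinearMap.ker (f : K →ₗ[ℂ] K) := by
      refine Submodule.span_le.mpr ?_
      rintro _ ⟨a, ha, ξ, rfl⟩
      exact congrArg (fun T : K →L[ℂ] K => T ξ) (hf a ha)
    have h2 : V ≤ LinearMap.ker (f : K →ₗ[ℂ] K) :=
      V₀.topologicalClosure_minimal h1 f.isClosed_ker
    ext ξ
    exact h2 (V.starProjection_apply_mem ξ)

/-- The central support. -/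
theorem exists_cs (hC : ∀ c ∈ C, star c ∈ C) {a : K →L[ℂ] K} (ha : a ∈ C.centralizer) :
    ∃ z, IsCP C.centralizer z ∧ z * a = a ∧
      (∀ f : K →L[ℂ] K, (∀ b ∈ C.centralizer, f * b * a = 0) → f * z = 0) ∧
      ∀ z₀, IsCP C.centralizer z₀ → z₀ * a = a → z₀ * z = z := by
  obtain ⟨E, hE, hp, h1, h2⟩ := exists_rproj hC {x | ∃ b ∈ C.centralizer, b * a = x} (by
    rintro _ ⟨b, hb, rfl⟩
    exact mul_mem hb ha)
  have h3 : ∀ f : K →L[ℂ] K, (∀ b ∈ C.centralizer, f * b * a = 0) → f * E = 0 := by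
    intro f hf
    refine h2 f ?_
    rintro _ ⟨b, hb, rfl⟩
    rw [← mul_assoc, hf b hb]
  refine ⟨E, central_of hC hp hE fun x hx => ?_, ?_, h3, fun z₀ hz hza => ?_⟩
  · have := h3 ((1 - E) * x) fun b hb => by
      rw [mul_assoc, mul_assoc, ← mul_assoc x, sub_mul, one_mul,
        h1 _ ⟨_, mul_mem hx hb, rfl⟩, sub_self]
    rwa [sub_mul, sub_mul, one_mul, sub_eq_zero] at this
  · simpa using h1 _ ⟨1, one_mem, rfl⟩
  · have := h3 (1 - z₀) fun b hb => by
      rw [sub_mul, sub_mul, one_mul, (hz.comm b hb).eq, mul_assoc, hza, sub_self]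
    rwa [sub_mul, one_mul, sub_eq_zero, eq_comm] at this

theorem fin_eq (hC : ∀ c ∈ C, star c ∈ C) {z₀ : K →L[ℂ] K}
    (h : ¬ InfFam C.centralizer z₀) {s g : K →L[ℂ] K} (hs : s ∈ C.centralizer)
    (hg : star s * s = g) (hgp : IsStarProjection g) (hzg : z₀ * g = g) (hgs : g * s = s) :
    s * star s = g := by
  by_contra hne
  have hsg : s * g = s := by
    have := pi_mul (u := s) (hg ▸ hgp)
    rwa [hg] at this
  have hgP : g ∈ C.centralizer := hg ▸ mul_mem (star_mem hC hs) hs
  set d := g - s * star s with hd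
  have hdP : d ∈ C.centralizer := sub_mem hgP (mul_mem hs (star_mem hC hs))
  have hds : star d = d := by rw [hd, star_sub, star_mul, star_star, hgp.isSelfAdjoint.star_eq]
  have hgd : g * d = d := by rw [hd, mul_sub, hgp.isIdempotentElem.eq, ← mul_assoc, hgs]
  have hd_s : d * s = 0 := by rw [hd, sub_mul, hgs, mul_assoc, hg, hsg, sub_self]
  have hdg : d * g = d := by
    have := star_eq_of hgd
    rwa [hds, hgp.isSelfAdjoint.star_eq] at this
  have hdd : d * d = d := by
    conv_lhs => rhs; rw [hd]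
    rw [mul_sub, hdg, ← mul_assoc, hd_s, zero_mul, sub_zero]
  have hgk : ∀ j, g * (s ^ j * d) = s ^ j * d := by
    intro j
    cases j with
    | zero => simpa using hgd
    | succ j => rw [pow_succ', ← mul_assoc, ← mul_assoc, hgs]
  have key : ∀ m k, star (s ^ k * d) * (s ^ (k + m) * d) = d * (s ^ m * d) := by
    intro m k
    induction k with
    | zero => simp [hds]
    | succ k ih =>
      rw [show k + 1 + m = (k + m) + 1 by ring, pow_succ', pow_succ', mul_assoc s, mul_assoc s,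
        star_mul, mul_assoc, ← mul_assoc (star s), hg, hgk, ih]
  have key' : ∀ k l, k < l → star (s ^ k * d) * (s ^ l * d) = 0 := by
    intro k l hkl
    obtain ⟨m, rfl⟩ := Nat.exists_eq_add_of_lt hkl
    rw [add_assoc, key, pow_succ', ← mul_assoc, ← mul_assoc, hd_s, zero_mul, zero_mul]
  refine h ⟨d, fun k => s ^ k * d, fun h0 => hne (sub_eq_zero.mp h0).symm, fun k => ⟨?_, ?_⟩,
    fun k l => ?_⟩
  · exact mul_mem (fun c hc => Commute.pow_right (hs c hc) k) hdP
  · show z₀ * (s ^ k * d) = s ^ k * d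
    rw [← hgk, ← mul_assoc, hzg]
  · rcases lt_trichotomy k l with h1 | rfl | h1
    · rw [if_neg h1.ne, key' k l h1]
    · have := key 0 k
      rw [add_zero] at this
      rw [if_pos rfl, this, pow_zero, one_mul, hdd]
    · have := star_eq_of (key' l k h1)
      rw [star_star, star_zero] at this
      rw [if_neg h1.ne', this]

theorem cover (hC : ∀ c ∈ C, star c ∈ C) {z₀ : K →L[ℂ] K} (hz : IsCP C.centralizer z₀)
    (h : ¬ InfFam C.centralizer z₀) {g : K →L[ℂ] K} (hgP : g ∈ C.centralizer)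
    (hgp : IsStarProjection g) (hzg : z₀ * g = g) (hg0 : g ≠ 0) :
    ∃ z, IsCP C.centralizer z ∧ z ≠ 0 ∧ z₀ * z = z ∧ ∃ (k : ℕ) (w : Fin k → (K →L[ℂ] K)),
      (∀ i, w i ∈ C.centralizer ∧ w i * g = w i) ∧ ∑ i, w i * star (w i) = z := by
  by_contra hno
  let Good : (K →L[ℂ] K) → Prop := fun p => IsStarProjection p ∧ z₀ * p = p ∧ p * g = g ∧
    ∃ (k : ℕ) (w : Fin k → (K →L[ℂ] K)),
      (∀ i, w i ∈ C.centralizer ∧ w i * g = w i) ∧ ∑ i, w i * star (w i) = p
  have hzs : star z₀ = z₀ := hz.proj.isSelfAdjoint.star_eq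
  have step : ∀ p : {p // Good p}, ∃ w, (w ∈ C.centralizer ∧ star w * w = g ∧ p.1 * w = 0 ∧
      z₀ * w = w ∧ w * g = w) ∧ Good (p.1 + w * star w) := by
    rintro ⟨p, hp, hzp, hpg, k, v, hv, hsum⟩
    show ∃ w, (w ∈ C.centralizer ∧ star w * w = g ∧ p * w = 0 ∧
      z₀ * w = w ∧ w * g = w) ∧ Good (p + w * star w)
    have hpP : p ∈ C.centralizer :=
      hsum ▸ sum_mem _ fun i => mul_mem (hv i).1 (star_mem hC (hv i).1)
    have he : IsStarProjection (z₀ - p) := hp.sub_of_mul_eq_right hz.proj hzp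
    obtain ⟨w, hw, h1, h2, h3, h4⟩ := comparison hC g (z₀ - p) hgp he hgP (sub_mem hz.mem hpP)
      (by rw [sub_mul, hzg, hpg, sub_self])
    have hpz : p * z₀ = p := by
      have := star_eq_of hzp
      rwa [hzs, hp.isSelfAdjoint.star_eq] at this
    have hpw : p * w = 0 := by
      rw [← h2, ← mul_assoc, mul_sub, hpz, hp.isIdempotentElem.eq, sub_self, zero_mul]
    have hzw : z₀ * w = w := by
      rw [← h2, ← mul_assoc, mul_sub, hzp, hz.proj.isIdempotentElem.eq]
    have hww : star w * w = g := by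
      by_contra hne
      obtain ⟨z, hzc, k1, k2, k3⟩ :=
        exists_cs hC (sub_mem hgP (mul_mem (star_mem hC hw) hw))
      have k4 := k2 _ h4
      have k5 : z₀ * z = z := k3 z₀ hz (by
        rw [mul_sub, hzg, (hz.comm _ (mul_mem (star_mem hC hw) hw)).eq, mul_assoc,
          ← (hz.comm _ hw).eq, hzw])
      refine hno ⟨z, hzc, fun h0 => hne ?_, k5, k + 1, fun i => z * Fin.cons (α := fun _ => K →L[ℂ] K) w v i, fun i => ?_, ?_⟩
      · rw [h0, zero_mul] at k1
        exact (sub_eq_zero.mp k1.symm).symm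
      · cases i using Fin.cases with
        | zero => exact ⟨mul_mem hzc.mem hw, by rw [mul_assoc]; exact congrArg _ h3⟩
        | succ i => exact ⟨mul_mem hzc.mem (hv i).1, by rw [mul_assoc]; exact congrArg _ (hv i).2⟩
      · have e1 : ∀ x ∈ C.centralizer, z * x * star (z * x) = x * star x * z := by
          intro x hx
          rw [star_mul, hzc.proj.isSelfAdjoint.star_eq, mul_assoc, ← mul_assoc x,
            ← (hzc.comm _ (mul_mem hx (star_mem hC hx))).eq, ← mul_assoc,
            hzc.proj.isIdempotentElem.eq]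
        rw [Fin.sum_univ_succ]
        simp only [Fin.cons_zero, Fin.cons_succ]
        rw [e1 w hw, Finset.sum_congr rfl fun i _ => e1 _ (hv i).1, ← Finset.sum_mul, hsum]
        rw [sub_mul, sub_mul, k5, sub_sub, sub_eq_zero] at k4
        rw [add_comm, ← k4]
    have hwp : star w * p = 0 := by
      have := star_eq_of hpw
      rwa [hp.isSelfAdjoint.star_eq, star_zero] at this
    have hq : IsStarProjection (w * star w) := by
      refine ⟨?_, by simp [IsSelfAdjoint]⟩
      show _ * _ = _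
      rw [mul_assoc, ← mul_assoc (star w), ← mul_assoc, pi_mul h1]
    refine ⟨w, ⟨hw, hww, hpw, hzw, h3⟩, ?_, ?_, ?_, k + 1,
      Fin.cons (α := fun _ => K →L[ℂ] K) w v, fun i => ?_, ?_⟩
    · exact hp.add hq (by rw [← mul_assoc, hpw, zero_mul])
    · rw [mul_add, hzp, ← mul_assoc, hzw]
    · rw [add_mul, hpg, ← hpg, mul_assoc, ← mul_assoc (star w), hwp, zero_mul, mul_zero, add_zero]
    · cases i using Fin.cases with
      | zero => exact ⟨hw, h3⟩
      | succ i => exact hv i
    · rw [Fin.sum_univ_succ]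
      simp only [Fin.cons_zero, Fin.cons_succ]
      rw [hsum, add_comm]
  choose W hW hG using step
  have g0 : Good g := ⟨hgp, hzg, hgp.isIdempotentElem.eq, 1, fun _ => g,
    fun _ => ⟨hgP, hgp.isIdempotentElem.eq⟩, by
      simp [hgp.isSelfAdjoint.star_eq, hgp.isIdempotentElem.eq]⟩
  let p : ℕ → {p // Good p} := fun n => Nat.rec ⟨g, g0⟩
    (fun _ p => ⟨p.1 + W p * star (W p), hG p⟩) n
  have hp : ∀ n, (p (n + 1)).1 = (p n).1 + W (p n) * star (W (p n)) := fun n => rfl
  have hWp : ∀ n, star (W (p n)) * (p n).1 = 0 := fun n => by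
    have := star_eq_of (hW (p n)).2.2.1
    rwa [(p n).2.1.isSelfAdjoint.star_eq, star_zero] at this
  have hmono : ∀ m j, (p (m + j + 1)).1 * W (p m) = W (p m) := by
    intro m j
    induction j with
    | zero =>
      rw [add_zero, hp m, add_mul, (hW _).2.2.1, zero_add, mul_assoc, (hW _).2.1, (hW _).2.2.2.2]
    | succ j ih =>
      rw [← add_assoc, hp (m + j + 1), add_mul, ih, mul_assoc]
      conv_lhs => rhs; rhs; rhs; rw [← ih]
      rw [← mul_assoc (star _), hWp (m + j + 1), zero_mul, mul_zero, add_zero]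
  have key : ∀ k l, l < k → star (W (p k)) * W (p l) = 0 := by
    intro k l hkl
    obtain ⟨m, rfl⟩ := Nat.exists_eq_add_of_lt hkl
    rw [← hmono l m, ← mul_assoc, hWp (l + m + 1), zero_mul]
  refine h ⟨g, fun k => W (p k), hg0, fun k => ⟨(hW _).1, (hW _).2.2.2.1⟩, fun k l => ?_⟩
  rcases lt_trichotomy k l with h1 | rfl | h1
  · have := star_eq_of (key l k h1)
    rw [star_star, star_zero] at this
    rw [if_neg h1.ne, this]
  · rw [if_pos rfl, (hW _).2.1]
  · rw [if_neg h1.ne', key k l h1]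

theorem typeI_of_abel (hC : ∀ c ∈ C, star c ∈ C) {z₀ : K →L[ℂ] K} (hz : IsCP C.centralizer z₀)
    (h : ¬ InfFam C.centralizer z₀) {g : K →L[ℂ] K} (hg : Abel C.centralizer g)
    (hzg : z₀ * g = g) (hg0 : g ≠ 0) :
    ∃ z, IsCP C.centralizer z ∧ z ≠ 0 ∧ z₀ * z = z ∧ TypeI C.centralizer z := by
  obtain ⟨z, h1, h2, h3, k, w, h4, h5⟩ := cover hC hz h hg.1 hg.2.1 hzg hg0
  exact ⟨z, h1, h2, h3, k, g, w, hg, h4, h5⟩

end Crest.Agent.H6.KRD
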