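import Mathlib

/-! Semi-discrete optimal transport: Laguerre cells. -/

set_option autoImplicit false

namespace Crest.Agent.H6OT

open MeasureTheory Set Filter Topology
open scoped ENNReal RealInnerProductSpace

abbrev Eu (d : ℕ) := EuclideanSpace ℝ (Fin d)

variable {d : ℕ} {ι : Type} [Fintype ι] [Nonempty ι]

noncomputable def aff (y : ι → Eu d) (ψ : ι → ℝ) (i : ι) (x : Eu d) : ℝ := ⟪y i, x⟫ - ψ i

noncomputable def pot (y : ι → Eu d) (ψ : ι → ℝ) (x : Eu d) : ℝ :=
  Finset.univ.sup' Finset.univ_nonempty fun i => aff y ψ i x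

def cell (y : ι → Eu d) (ψ : ι → ℝ) (i : ι) : Set (Eu d) :=
  {x | ∀ j, j ≠ i → aff y ψ j x < aff y ψ i x}

omit [Fintype ι] [Nonempty ι] in
lemma continuous_aff (y : ι → Eu d) (ψ : ι → ℝ) (i : ι) : Continuous (aff y ψ i) := by
  unfold aff; fun_prop

lemma continuous_pot (y : ι → Eu d) (ψ : ι → ℝ) : Continuous (pot y ψ) :=
  Continuous.finset_sup'_apply _ fun i _ => continuous_aff y ψ i

lemma aff_le_pot (y : ι → Eu d) (ψ : ι → ℝ) (i : ι) (x : Eu d) : aff y ψ i x ≤ pot y ψ x :=
  Finset.le_sup' (fun i => aff y ψ i x) (Finset.mem_univ i)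

lemma pot_le {y : ι → Eu d} {ψ : ι → ℝ} {x : Eu d} {c : ℝ} (h : ∀ i, aff y ψ i x ≤ c) :
    pot y ψ x ≤ c := Finset.sup'_le _ _ fun i _ => h i

lemma exists_pot_eq (y : ι → Eu d) (ψ : ι → ℝ) (x : Eu d) : ∃ i, pot y ψ x = aff y ψ i x := by
  obtain ⟨i, -, hi⟩ := Finset.exists_mem_eq_sup' Finset.univ_nonempty fun i => aff y ψ i x
  exact ⟨i, hi⟩

lemma pot_eq_of_mem {y : ι → Eu d} {ψ : ι → ℝ} {i : ι} {x : Eu d} (h : x ∈ cell y ψ i) :
    pot y ψ x = aff y ψ i x := by
  refine le_antisymm (pot_le fun j => ?_) (aff_le_pot y ψ i x)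
  by_cases hj : j = i
  · rw [hj]
  · exact (h j hj).le

omit [Nonempty ι] in
lemma isOpen_cell (y : ι → Eu d) (ψ : ι → ℝ) (i : ι) : IsOpen (cell y ψ i) := by
  have : cell y ψ i = ⋂ j, {x | j ≠ i → aff y ψ j x < aff y ψ i x} := by
    ext x; simp [cell]
  rw [this]
  refine isOpen_iInter_of_finite fun j => ?_
  by_cases hj : j = i
  · simp [hj]
  · simpa [hj] using isOpen_lt (continuous_aff y ψ j) (continuous_aff y ψ i)

omit [Nonempty ι] in
lemma measurableSet_cell (y : ι → Eu d) (ψ : ι → ℝ) (i : ι) : MeasurableSet (cell y ψ i) :=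
  (isOpen_cell y ψ i).measurableSet

omit [Fintype ι] [Nonempty ι] in
lemma cell_disjoint (y : ι → Eu d) (ψ : ι → ℝ) : Pairwise (Function.onFun Disjoint (cell y ψ)) := by
  intro i j hij
  refine Set.disjoint_left.mpr fun x hi hj => ?_
  exact lt_asymm (hi j hij.symm) (hj i hij)

lemma hyperplane_null {v : Eu d} (hv : v ≠ 0) (c : ℝ) : volume {x : Eu d | ⟪v, x⟫ = c} = 0 := by
  have hv2 : ⟪v, v⟫ ≠ 0 := fun h => hv (inner_self_eq_zero.mp h)
  let s : AffineSubspace ℝ (Eu d) :=
    { carrier := {x | ⟪v, x⟫ = c}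
      smul_vsub_vadd_mem' := by
        intro a p q r hp hq hr
        simp only [mem_ofPred_eq, vsub_eq_sub, vadd_eq_add] at hp hq hr ⊢
        rw [inner_add_right, inner_smul_right, inner_sub_right, hp, hq, hr]; ring }
  have hs : s ≠ ⊤ := by
    intro h
    have h0 : (0 : Eu d) ∈ s := h ▸ AffineSubspace.mem_top _ _ _
    have h1 : v ∈ s := h ▸ AffineSubspace.mem_top _ _ _
    have h0' : ⟪v, (0 : Eu d)⟫ = c := h0
    have h1' : ⟪v, v⟫ = c := h1
    rw [inner_zero_right] at h0'
    exact hv2 (h1'.trans h0'.symm)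
  exact Measure.addHaar_affineSubspace volume s hs

lemma ae_mem_cell {ρ : Measure (Eu d)} (hρ : ρ ≪ volume) {y : ι → Eu d}
    (hy : Function.Injective y) (ψ : ι → ℝ) : ∀ᵐ x ∂ρ, x ∈ ⋃ i, cell y ψ i := by
  have h : ∀ᵐ x ∂ρ, ∀ i j, i ≠ j → aff y ψ i x ≠ aff y ψ j x := by
    refine ae_all_iff.mpr fun i => ae_all_iff.mpr fun j => ?_
    by_cases hij : i = j
    · simp [hij]
    refine hρ.ae_le ?_
    have := hyperplane_null (sub_ne_zero.mpr fun h => hij (hy h)) (ψ i - ψ j)
    filter_upwards [measure_eq_zero_iff_ae_notMem.mp this] with x hx _ he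
    refine hx ?_
    simp only [mem_ofPred_eq, inner_sub_left]
    unfold aff at he; linarith
  filter_upwards [h] with x hx
  obtain ⟨i, hi⟩ := exists_pot_eq y ψ x
  refine mem_iUnion.mpr ⟨i, fun j hj => lt_of_le_of_ne (hi ▸ aff_le_pot y ψ j x) (hx j i hj)⟩

/-- Standing assumptions on the source measure. -/
structure Src (ρ : Measure (Eu d)) (R : ℝ) : Prop where
  prob : IsProbabilityMeasure ρ
  ac : ρ ≪ volume
  bdd : ∀ᵐ x ∂ρ, ‖x‖ ≤ R

lemma Src.integrable {ρ : Measure (Eu d)} {R : ℝ} (h : Src ρ R) {F : Type*}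
    [NormedAddCommGroup F] [SecondCountableTopology F] {f : Eu d → F} (hf : Continuous f) :
    Integrable f ρ := by
  have := h.prob
  obtain ⟨C, hC⟩ := (isCompact_closedBall (0 : Eu d) R).exists_bound_of_continuousOn
    hf.continuousOn
  refine Integrable.mono' (integrable_const C) hf.aestronglyMeasurable ?_
  filter_upwards [h.bdd] with x hx using hC x (by simpa using hx)

lemma integral_eq_sum_cells {ρ : Measure (Eu d)} (hρ : ρ ≪ volume) {y : ι → Eu d}
    (hy : Function.Injective y) (ψ : ι → ℝ) {f : Eu d → ℝ} (hf : Integrable f ρ) :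
    ∫ x, f x ∂ρ = ∑ i, ∫ x in cell y ψ i, f x ∂ρ := by
  rw [← integral_iUnion_fintype (measurableSet_cell y ψ) (cell_disjoint y ψ)
    fun i => hf.integrableOn, Measure.restrict_eq_self_of_ae_mem (ae_mem_cell hρ hy ψ)]

lemma sum_mass {ρ : Measure (Eu d)} {R : ℝ} (h : Src ρ R) {y : ι → Eu d}
    (hy : Function.Injective y) (ψ : ι → ℝ) : ∑ i, ρ.real (cell y ψ i) = 1 := by
  have := h.prob
  have := integral_eq_sum_cells h.ac hy ψ (integrable_const (1 : ℝ))
  simpa using this.symm

/-- First moment of a cell. -/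
noncomputable def mom (ρ : Measure (Eu d)) (y : ι → Eu d) (ψ : ι → ℝ) (i : ι) : Eu d :=
  ∫ x in cell y ψ i, x ∂ρ

omit [Nonempty ι] in
lemma setIntegral_aff {ρ : Measure (Eu d)} {R : ℝ} (h : Src ρ R) (y y' : ι → Eu d)
    (ψ ψ' : ι → ℝ) (i : ι) :
    ∫ x in cell y ψ i, aff y' ψ' i x ∂ρ =
      ⟪y' i, mom ρ y ψ i⟫ - ρ.real (cell y ψ i) * ψ' i := by
  have := h.prob
  unfold aff mom
  rw [integral_sub (h.integrable (by fun_prop)).integrableOn (integrable_const _),
    integral_inner (h.integrable continuous_id').integrableOn]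
  simp

/-- The fundamental inequality. -/
lemma mom_le {ρ : Measure (Eu d)} {R : ℝ} (h : Src ρ R) {y : ι → Eu d}
    (hy : Function.Injective y) (ψ : ι → ℝ) (y' : ι → Eu d) (ψ' : ι → ℝ) :
    ∑ i, ⟪y' i, mom ρ y ψ i⟫ ≤ ∫ x, pot y' ψ' x ∂ρ + ∑ i, ρ.real (cell y ψ i) * ψ' i := by
  rw [integral_eq_sum_cells h.ac hy ψ (h.integrable (continuous_pot y' ψ')),
    ← Finset.sum_add_distrib]
  refine Finset.sum_le_sum fun i _ => ?_
  have := setIntegral_aff h y y' ψ ψ' i
  have h2 : ∫ x in cell y ψ i, aff y' ψ' i x ∂ρ ≤ ∫ x in cell y ψ i, pot y' ψ' x ∂ρ :=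
    integral_mono (h.integrable (continuous_aff y' ψ' i)).integrableOn
      (h.integrable (continuous_pot y' ψ')).integrableOn fun x => aff_le_pot y' ψ' i x
  linarith

lemma mom_eq {ρ : Measure (Eu d)} {R : ℝ} (h : Src ρ R) {y : ι → Eu d}
    (hy : Function.Injective y) (ψ : ι → ℝ) :
    ∑ i, ⟪y i, mom ρ y ψ i⟫ = ∫ x, pot y ψ x ∂ρ + ∑ i, ρ.real (cell y ψ i) * ψ i := by
  rw [integral_eq_sum_cells h.ac hy ψ (h.integrable (continuous_pot y ψ)),
    ← Finset.sum_add_distrib]
  refine Finset.sum_congr rfl fun i _ => ?_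
  have := setIntegral_aff h y y ψ ψ i
  rw [setIntegral_congr_fun (measurableSet_cell y ψ i) fun x hx => pot_eq_of_mem hx]
  linarith

lemma pot_le_pot_add (y : ι → Eu d) (ψ ψ' : ι → ℝ) (x : Eu d) {c : ℝ}
    (h : ∀ i, ψ' i - ψ i ≤ c) : pot y ψ x ≤ pot y ψ' x + c :=
  pot_le fun i => by
    have := aff_le_pot y ψ' i x
    have := h i
    unfold aff at *; linarith

lemma continuous_integral_pot {ρ : Measure (Eu d)} {R : ℝ} (h : Src ρ R) (y : ι → Eu d) :
    Continuous fun ψ : ι → ℝ => ∫ x, pot y ψ x ∂ρ := by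
  have := h.prob
  have key : ∀ ψ ψ' : ι → ℝ, ∫ x, pot y ψ x ∂ρ ≤ ∫ x, pot y ψ' x ∂ρ + dist ψ ψ' := by
    intro ψ ψ'
    calc ∫ x, pot y ψ x ∂ρ ≤ ∫ x, (pot y ψ' x + dist ψ ψ') ∂ρ :=
          integral_mono (h.integrable (continuous_pot y ψ))
            ((h.integrable (continuous_pot y ψ')).add (integrable_const _)) fun x =>
            pot_le_pot_add y ψ ψ' x fun i => by
              have := dist_le_pi_dist ψ' ψ i
              rw [Real.dist_eq, dist_comm] at this
              exact (le_abs_self _).trans this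
      _ = _ := by
          rw [integral_add (h.integrable (continuous_pot y ψ')) (integrable_const _)]; simp
  exact (LipschitzWith.of_le_add key).continuous

/-- Existence of weights with prescribed (penalised) masses. -/
theorem exists_weights {ρ : Measure (Eu d)} {R : ℝ} (h : Src ρ R) {y : ι → Eu d}
    (hy : Function.Injective y) {m : ι → ℝ} (hm : ∀ i, 0 < m i) (hm1 : ∑ i, m i = 1)
    (ψ0 : ι → ℝ) {ε : ℝ} (hε : 0 ≤ ε) :
    ∃ ψ : ι → ℝ, ∀ i, ρ.real (cell y ψ i) = m i * (1 + ε * (ψ i - ψ0 i)) := by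
  classical
  have := h.prob
  set G : (ι → ℝ) → ℝ := fun ψ => ∫ x, pot y ψ x ∂ρ with hG
  set F : (ι → ℝ) → ℝ := fun ψ => G ψ + ∑ i, m i * ψ i +
    ε / 2 * ∑ i, m i * (ψ i - ψ0 i) ^ 2 + (∑ i, m i * (ψ i - ψ0 i)) ^ 2 / 2 with hF
  have hFc : Continuous F := by
    have := continuous_integral_pot h y
    simp only [hF]
    fun_prop
  have hGl : ∀ ψ j, -(‖y j‖ * |R|) - ψ j ≤ G ψ := by
    intro ψ j
    calc -(‖y j‖ * |R|) - ψ j = ∫ _x, (-(‖y j‖ * |R|) - ψ j) ∂ρ := by simp
      _ ≤ G ψ := by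
        refine integral_mono_ae (integrable_const _) (h.integrable (continuous_pot y ψ)) ?_
        filter_upwards [h.bdd] with x hx
        refine le_trans ?_ (aff_le_pot y ψ j x)
        unfold aff
        have h1 := abs_real_inner_le_norm (y j) x
        have h2 : ‖y j‖ * ‖x‖ ≤ ‖y j‖ * |R| := by gcongr; exact hx.trans (le_abs_self R)
        have := neg_abs_le ⟪y j, x⟫
        linarith
  have hbd : Bornology.IsBounded {ψ | F ψ ≤ F ψ0} := by
    obtain ⟨c, hc⟩ : ∃ c : ℝ, ∀ j, F ψ0 + ‖y j‖ * |R| + ψ0 j - ∑ i, m i * ψ0 i ≤ c :=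
      ⟨Finset.univ.sup' Finset.univ_nonempty fun j =>
        F ψ0 + ‖y j‖ * |R| + ψ0 j - ∑ i, m i * ψ0 i, fun j => Finset.le_sup'
          (fun j => F ψ0 + ‖y j‖ * |R| + ψ0 j - ∑ i, m i * ψ0 i) (Finset.mem_univ j)⟩
    set B := 2 * |c| + 1 with hB
    have hb : Bornology.IsBounded (Set.pi univ fun j => Icc (ψ0 j - B) (ψ0 j + 2 * B / m j)) :=
      Bornology.IsBounded.pi fun j => Metric.isBounded_Icc _ _
    refine hb.subset fun ψ hψ => ?_
    simp only [mem_ofPred_eq] at hψ
    set hb := ∑ i, m i * (ψ i - ψ0 i) with hhb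
    have e1 : ∑ i, m i * ψ i = hb + ∑ i, m i * ψ0 i := by
      rw [hhb, ← Finset.sum_add_distrib]; exact Finset.sum_congr rfl fun i _ => by ring
    have h1 : ∀ j, hb - (ψ j - ψ0 j) + hb ^ 2 / 2 ≤ c := by
      intro j
      have := hGl ψ j
      have := hc j
      have h3 : 0 ≤ ε / 2 * ∑ i, m i * (ψ i - ψ0 i) ^ 2 :=
        mul_nonneg (by linarith) (Finset.sum_nonneg fun i _ => mul_nonneg (hm i).le (sq_nonneg _))
      have h4 : F ψ = G ψ + ∑ i, m i * ψ i +
        ε / 2 * ∑ i, m i * (ψ i - ψ0 i) ^ 2 + hb ^ 2 / 2 := rfl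
      linarith
    have h2 : hb ^ 2 / 2 ≤ c := by
      have : ∑ j, m j * (hb - (ψ j - ψ0 j) + hb ^ 2 / 2) ≤ ∑ j, m j * c :=
        Finset.sum_le_sum fun j _ => mul_le_mul_of_nonneg_left (h1 j) (hm j).le
      have e2 : ∑ j, m j * (hb - (ψ j - ψ0 j) + hb ^ 2 / 2) =
          (∑ j, m j) * (hb + hb ^ 2 / 2) - hb := by
        rw [Finset.sum_mul, hhb, ← Finset.sum_sub_distrib]
        exact Finset.sum_congr rfl fun i _ => by ring
      rw [e2, ← Finset.sum_mul, hm1] at this
      linarith
    have hca := le_abs_self c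
    have h3 : |hb| ≤ |c| + 1 := by
      rw [abs_le]; constructor <;> nlinarith [sq_nonneg (hb - 1), sq_nonneg (hb + 1)]
    have h4 : ∀ j, -B ≤ ψ j - ψ0 j := fun j => by
      have := h1 j
      have := neg_abs_le hb
      nlinarith [sq_nonneg hb]
    intro j _
    refine ⟨by linarith [h4 j], ?_⟩
    have h5 : m j * (ψ j - ψ0 j + B) ≤ ∑ i, m i * (ψ i - ψ0 i + B) :=
      Finset.single_le_sum (f := fun i => m i * (ψ i - ψ0 i + B))
        (fun i _ => mul_nonneg (hm i).le (by linarith [h4 i])) (Finset.mem_univ j)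
    have e3 : ∑ i, m i * (ψ i - ψ0 i + B) = hb + (∑ i, m i) * B := by
      rw [Finset.sum_mul, hhb, ← Finset.sum_add_distrib]
      exact Finset.sum_congr rfl fun i _ => by ring
    rw [e3, hm1] at h5
    have h6 : ψ j - ψ0 j ≤ 2 * B / m j := by
      rw [le_div_iff₀ (hm j)]
      have := le_abs_self hb
      have := abs_nonneg c
      have : 0 ≤ m j * B := mul_nonneg (hm j).le (by linarith)
      nlinarith
    linarith
  obtain ⟨ψ, hψ⟩ := hFc.exists_forall_le_of_isBounded ψ0 hbd
  set hb := ∑ i, m i * (ψ i - ψ0 i) with hhb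
  -- coordinate directions
  have hco : ∀ i, ρ.real (cell y ψ i) ≤ m i * (1 + ε * (ψ i - ψ0 i) + hb) := by
    intro i
    have hs : ∀ s : ℝ, 0 < s → ρ.real (cell y (ψ + Pi.single i s) i) ≤
        m i * (1 + ε * (ψ i - ψ0 i) + hb) + s * ((ε * m i + m i ^ 2) / 2) := by
      intro s hs
      set ψs : ι → ℝ := ψ + Pi.single i s with hψs
      have hG1 : G ψs ≤ G ψ - s * ρ.real (cell y ψs i) := by
        have : G ψ - s * ρ.real (cell y ψs i) =
            ∫ x, (pot y ψ x - (cell y ψs i).indicator (fun _ => s) x) ∂ρ := by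
          rw [integral_sub (h.integrable (continuous_pot y ψ))
            ((integrable_const s).indicator (measurableSet_cell y ψs i)),
            integral_indicator (measurableSet_cell y ψs i)]
          simp [hG, mul_comm]
        rw [this]
        refine integral_mono (h.integrable (continuous_pot y ψs))
          ((h.integrable (continuous_pot y ψ)).sub
            ((integrable_const s).indicator (measurableSet_cell y ψs i))) fun x => ?_
        by_cases hx : x ∈ cell y ψs i
        · simp only [indicator_of_mem hx]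
          rw [pot_eq_of_mem hx]
          have := aff_le_pot y ψ i x
          simp only [aff, hψs, Pi.add_apply, Pi.single_eq_same] at this ⊢
          linarith
        · simp only [indicator_of_notMem hx]
          have := pot_le_pot_add y ψs ψ x (c := 0) fun j => by
            simp only [hψs, Pi.add_apply, sub_add_cancel_left, Left.neg_nonpos_iff]
            by_cases hj : j = i
            · simp [hj, hs.le]
            · simp [hj]
          linarith
      have sing : ∀ φ : ι → ℝ → ℝ, (∀ j, φ j 0 = 0) →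
          ∑ j, φ j ((Pi.single i s : ι → ℝ) j) = φ i s := by
        intro φ hφ
        rw [Finset.sum_eq_single i (fun j _ hj => by simp [hj, hφ]) (by simp)]
        simp
      have e1 : ∑ j, m j * ψs j = ∑ j, m j * ψ j + m i * s := by
        rw [← sing (fun j t => m j * t) (by simp), ← Finset.sum_add_distrib]
        exact Finset.sum_congr rfl fun j _ => by simp only [hψs, Pi.add_apply]; ring
      have e2 : ∑ j, m j * (ψs j - ψ0 j) = hb + m i * s := by
        rw [← sing (fun j t => m j * t) (by simp), hhb, ← Finset.sum_add_distrib]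
        exact Finset.sum_congr rfl fun j _ => by simp only [hψs, Pi.add_apply]; ring
      have e3 : ∑ j, m j * (ψs j - ψ0 j) ^ 2 = ∑ j, m j * (ψ j - ψ0 j) ^ 2 +
          m i * (2 * (ψ i - ψ0 i) * s + s ^ 2) := by
        rw [← sing (fun j t => m j * (2 * (ψ j - ψ0 j) * t + t ^ 2)) (by simp),
          ← Finset.sum_add_distrib]
        exact Finset.sum_congr rfl fun j _ => by simp only [hψs, Pi.add_apply]; ring
      have h1 := hψ ψs
      simp only [hF] at h1
      rw [e1, e2, e3, ← hhb] at h1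
      have : s * ρ.real (cell y ψs i) ≤ s * (m i * (1 + ε * (ψ i - ψ0 i) + hb) +
          s * ((ε * m i + m i ^ 2) / 2)) := by nlinarith
      exact le_of_mul_le_mul_left this hs
    set u : ℕ → Set (Eu d) := fun n => cell y (ψ + Pi.single i (1 / ((n : ℝ) + 1))) i with hu
    have hmem : ∀ s x, x ∈ cell y (ψ + Pi.single i s) i ↔
        ∀ j, j ≠ i → aff y ψ j x < aff y ψ i x - s := by
      intro s x
      refine forall₂_congr fun j hj => ?_
      simp only [aff, Pi.add_apply, Pi.single_eq_same, Pi.single_eq_of_ne hj, add_zero]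
      constructor <;> intro <;> linarith
    have hmono : Monotone u := by
      intro a b hab x hx
      rw [hu] at hx ⊢
      simp only [hmem] at hx ⊢
      intro j hj
      have := Nat.one_div_le_one_div (α := ℝ) hab
      linarith [hx j hj]
    have hU : ⋃ n, u n = cell y ψ i := by
      ext x
      simp only [mem_iUnion, hu, hmem]
      constructor
      · rintro ⟨n, hn⟩ j hj
        have := Nat.one_div_pos_of_nat (α := ℝ) (n := n)
        linarith [hn j hj]
      · intro hx
        have : ∀ᶠ n : ℕ in atTop, ∀ j, j ≠ i → aff y ψ j x < aff y ψ i x - 1 / ((n : ℝ) + 1) := by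
          refine eventually_all.mpr fun j => ?_
          by_cases hj : j = i
          · simp [hj]
          have h0 : 0 < aff y ψ i x - aff y ψ j x := sub_pos.mpr (hx j hj)
          filter_upwards [(tendsto_one_div_add_atTop_nhds_zero_nat (𝕜 := ℝ)).eventually
            (gt_mem_nhds h0)] with n hn _
          linarith
        exact this.exists
    have ht : Tendsto (fun n => ρ.real (u n)) atTop (𝓝 (ρ.real (cell y ψ i))) := by
      have := tendsto_measure_iUnion_atTop (μ := ρ) hmono
      rw [hU] at this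
      exact (ENNReal.tendsto_toReal (measure_ne_top _ _)).comp this
    have ht2 : Tendsto (fun n : ℕ => m i * (1 + ε * (ψ i - ψ0 i) + hb) +
        1 / ((n : ℝ) + 1) * ((ε * m i + m i ^ 2) / 2)) atTop
        (𝓝 (m i * (1 + ε * (ψ i - ψ0 i) + hb) + 0 * ((ε * m i + m i ^ 2) / 2))) :=
      tendsto_const_nhds.add (tendsto_one_div_add_atTop_nhds_zero_nat.mul_const _)
    have := le_of_tendsto_of_tendsto' ht ht2 fun n => hs _ Nat.one_div_pos_of_nat
    simpa using this
  -- constant direction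
  have hb0 : hb ≤ 0 := by
    have hs : ∀ s : ℝ, 0 < s → hb ≤ s := by
      intro s hs
      set ψs : ι → ℝ := fun j => ψ j - s with hψs
      have hG1 : G ψs ≤ G ψ + s := by
        have : G ψ + s = ∫ x, (pot y ψ x + s) ∂ρ := by
          rw [integral_add (h.integrable (continuous_pot y ψ)) (integrable_const _)]
          simp [hG]
        rw [this]
        exact integral_mono (h.integrable (continuous_pot y ψs))
          ((h.integrable (continuous_pot y ψ)).add (integrable_const _)) fun x =>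
          pot_le_pot_add y ψs ψ x fun j => by simp [hψs]
      have e1 : ∑ j, m j * ψs j = ∑ j, m j * ψ j - (∑ j, m j) * s := by
        rw [Finset.sum_mul, ← Finset.sum_sub_distrib]
        exact Finset.sum_congr rfl fun j _ => by simp only [hψs]; ring
      have e2 : ∑ j, m j * (ψs j - ψ0 j) = hb - (∑ j, m j) * s := by
        rw [Finset.sum_mul, hhb, ← Finset.sum_sub_distrib]
        exact Finset.sum_congr rfl fun j _ => by simp only [hψs]; ring
      have e3 : ∑ j, m j * (ψs j - ψ0 j) ^ 2 = ∑ j, m j * (ψ j - ψ0 j) ^ 2 - 2 * s * hb +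
          (∑ j, m j) * s ^ 2 := by
        rw [Finset.sum_mul, hhb, Finset.mul_sum, ← Finset.sum_sub_distrib,
          ← Finset.sum_add_distrib]
        exact Finset.sum_congr rfl fun j _ => by simp only [hψs]; ring
      have h1 := hψ ψs
      simp only [hF] at h1
      rw [e1, e2, e3, ← hhb, hm1] at h1
      have h2 : ((1 + ε) * s) * hb ≤ ((1 + ε) * s) * (s / 2) := by nlinarith
      have := le_of_mul_le_mul_left h2 (by positivity)
      linarith
    exact le_of_forall_pos_le_add fun s hs' => by simpa using hs s hs'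
  have esum : ∑ i, m i * (1 + ε * (ψ i - ψ0 i) + hb) = 1 + (1 + ε) * hb := by
    have : ∑ i, m i * (1 + ε * (ψ i - ψ0 i) + hb) = (∑ i, m i) * (1 + hb) + ε * hb := by
      rw [Finset.sum_mul, hhb, Finset.mul_sum, ← Finset.sum_add_distrib]
      exact Finset.sum_congr rfl fun j _ => by ring
    rw [this, hm1]; ring
  have hle := Finset.sum_le_sum fun i (_ : i ∈ Finset.univ) => hco i
  rw [sum_mass h hy, esum] at hle
  have hb1 : hb = 0 := le_antisymm hb0 (by nlinarith)
  have := (Finset.sum_eq_sum_iff_of_le fun i (_ : i ∈ Finset.univ) => hco i).mp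
    (by rw [sum_mass h hy, esum, hb1]; ring)
  exact ⟨ψ, fun i => by rw [this i (Finset.mem_univ i), hb1, add_zero]⟩

end Crest.Agent.H6OT
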