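import Mathlib

/-! Midpoint Prékopa–Leindler inequality on Euclidean space. -/

set_option autoImplicit false

namespace Crest.Agent.H6OT

open MeasureTheory Set Filter Topology
open scoped ENNReal

lemma bm1_compact {A B C : Set ℝ} (hA : IsCompact A) (hB : IsCompact B) (hAn : A.Nonempty)
    (hBn : B.Nonempty) (hC : ∀ x ∈ A, ∀ y ∈ B, (x + y) / 2 ∈ C) :
    volume A + volume B ≤ 2 * volume C := by
  have ha := hA.sSup_mem hAn
  have hb := hB.sInf_mem hBn
  set a := sSup A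
  set b := sInf B
  set m := (a + b) / 2
  have key : ∀ (c : ℝ) (S : Set ℝ), volume ((fun x => (x + c) / 2) ⁻¹' S) = 2 * volume S := by
    intro c S
    have : (fun x : ℝ => (x + c) / 2) ⁻¹' S = (fun x => x + c) ⁻¹' ((· * (1 / 2 : ℝ)) ⁻¹' S) := by
      ext x; simp [div_eq_mul_inv]
    rw [this, measure_preimage_add_right, Real.volume_preimage_mul_right (by norm_num)]
    norm_num
  have h1 : volume A ≤ 2 * volume (C ∩ Iic m) := by
    rw [← key b]
    refine measure_mono fun x hx => ⟨hC x hx b hb, ?_⟩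
    have := le_csSup hA.bddAbove hx
    simp only [mem_Iic, m]; linarith
  have h2 : volume B ≤ 2 * volume (C \ Iic m) := by
    have e : volume (C \ Iic m) = volume (C ∩ Ici m) := by
      refine measure_congr ?_
      have : C \ Iic m = C ∩ Ioi m := by ext x; simp
      rw [this]
      exact (ae_eq_refl C).inter Ioi_ae_eq_Ici
    rw [e, ← key a]
    refine measure_mono fun y hy => ⟨?_, ?_⟩
    · have := hC a ha y hy
      rwa [add_comm] at this
    · have := csInf_le hB.bddBelow hy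
      simp only [mem_Ici, m]; linarith
  calc volume A + volume B ≤ 2 * volume (C ∩ Iic m) + 2 * volume (C \ Iic m) := add_le_add h1 h2
    _ = 2 * volume C := by rw [← mul_add, measure_inter_add_sdiff _ measurableSet_Iic]

lemma bm1 {A B C : Set ℝ} (hA : MeasurableSet A) (hB : MeasurableSet B) (hAn : A.Nonempty)
    (hBn : B.Nonempty) (hC : ∀ x ∈ A, ∀ y ∈ B, (x + y) / 2 ∈ C) :
    volume A + volume B ≤ 2 * volume C := by
  obtain ⟨a, ha⟩ := hAn
  obtain ⟨b, hb⟩ := hBn
  have h : ∀ K ⊆ A, IsCompact K → ∀ L ⊆ B, IsCompact L → volume K + volume L ≤ 2 * volume C := by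
    intro K hK hKc L hL hLc
    refine le_trans (add_le_add (measure_mono (subset_insert a K))
      (measure_mono (subset_insert b L))) ?_
    refine bm1_compact (hKc.insert a) (hLc.insert b) (insert_nonempty _ _) (insert_nonempty _ _) ?_
    intro x hx y hy
    exact hC x (insert_subset ha hK hx) y (insert_subset hb hL hy)
  by_contra hcon
  push Not at hcon
  obtain ⟨r, hr, s, hs, hrs⟩ : ∃ r ≤ volume A, ∃ s ≤ volume B, 2 * volume C < r + s ∧
      (r < volume A ∨ r = 0) ∧ (s < volume B ∨ s = 0) := by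
    by_cases hA0 : volume A = 0
    · refine ⟨0, zero_le, ?_⟩
      rw [hA0, zero_add] at hcon
      obtain ⟨s, hs1, hs2⟩ := exists_between hcon
      exact ⟨s, hs2.le, by simpa using hs1, Or.inr rfl, Or.inl hs2⟩
    by_cases hB0 : volume B = 0
    · rw [hB0, add_zero] at hcon
      obtain ⟨s, hs1, hs2⟩ := exists_between hcon
      exact ⟨s, hs2.le, 0, zero_le, by simpa using hs1, Or.inl hs2, Or.inr rfl⟩
    obtain ⟨r, hr, s, hs, h⟩ := ENNReal.exists_lt_add_of_lt_add hcon hA0 hB0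
    exact ⟨r, hr.le, s, hs.le, h, Or.inl hr, Or.inl hs⟩
  obtain ⟨hlt, h1, h2⟩ := hrs
  obtain ⟨K, hK, hKc, hKr⟩ : ∃ K ⊆ A, IsCompact K ∧ r ≤ volume K := by
    rcases h1 with h1 | rfl
    · obtain ⟨K, hK, hKc, hKr⟩ := hA.exists_lt_isCompact h1
      exact ⟨K, hK, hKc, hKr.le⟩
    · exact ⟨∅, empty_subset _, isCompact_empty, zero_le⟩
  obtain ⟨L, hL, hLc, hLr⟩ : ∃ K ⊆ B, IsCompact K ∧ s ≤ volume K := by
    rcases h2 with h1 | rfl
    · obtain ⟨K, hK, hKc, hKr⟩ := hB.exists_lt_isCompact h1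
      exact ⟨K, hK, hKc, hKr.le⟩
    · exact ⟨∅, empty_subset _, isCompact_empty, zero_le⟩
  exact absurd ((add_le_add hKr hLr).trans (h K hK hKc L hL hLc)) (not_le.mpr hlt)

lemma layer (f : ℝ → ℝ≥0∞) (hf : Measurable f) (h1 : ∀ x, f x ≤ 1) :
    ∫⁻ x, f x = ∫⁻ t in Ioi (0 : ℝ), volume {x | ENNReal.ofReal t < f x} := by
  have hne : ∀ x, f x ≠ ∞ := fun x => ne_top_of_le_ne_top ENNReal.one_ne_top (h1 x)
  have := lintegral_eq_lintegral_meas_lt (volume : Measure ℝ) (f := fun x => (f x).toReal)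
    (Eventually.of_forall fun x => ENNReal.toReal_nonneg) hf.ennreal_toReal.aemeasurable
  simp only [ENNReal.ofReal_toReal (hne _)] at this
  rw [this]
  refine setLIntegral_congr_fun measurableSet_Ioi fun t ht => ?_
  congr 1
  ext x
  simp only [mem_ofPred_eq]
  rw [ENNReal.ofReal_lt_iff_lt_toReal (le_of_lt ht) (hne x)]

lemma pl1_core {f g h : ℝ → ℝ≥0∞} (hf : Measurable f) (hg : Measurable g) (hh : Measurable h)
    (hf1 : ∀ x, f x ≤ 1) (hg1 : ∀ x, g x ≤ 1) (hfs : ∀ t < 1, ∃ x, t < f x)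
    (hgs : ∀ t < 1, ∃ x, t < g x) (H : ∀ x y, f x * g y ≤ h ((x + y) / 2) ^ 2) :
    (∫⁻ x, f x) + ∫⁻ x, g x ≤ 2 * ∫⁻ x, h x := by
  have hm : Measurable fun x => min (h x) 1 := hh.min measurable_const
  have mono : ∀ φ : ℝ → ℝ≥0∞, Measurable fun t : ℝ => volume {x | ENNReal.ofReal t < φ x} := by
    intro φ
    refine Antitone.measurable fun s t hst => measure_mono fun x hx => ?_
    exact lt_of_le_of_lt (ENNReal.ofReal_le_ofReal hst) hx
  calc (∫⁻ x, f x) + ∫⁻ x, g x
      = ∫⁻ t in Ioi (0 : ℝ), (volume {x | ENNReal.ofReal t < f x} +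
          volume {x | ENNReal.ofReal t < g x}) := by
        rw [layer f hf hf1, layer g hg hg1, lintegral_add_left (mono f)]
    _ ≤ ∫⁻ t in Ioi (0 : ℝ), 2 * volume {x | ENNReal.ofReal t < min (h x) 1} := by
        refine lintegral_mono fun t => ?_
        by_cases ht : ENNReal.ofReal t < 1
        · refine bm1 (measurableSet_lt measurable_const hf) (measurableSet_lt measurable_const hg)
            (hfs _ ht) (hgs _ ht) fun x hx y hy => ?_
          simp only [mem_ofPred_eq, lt_min_iff] at hx hy ⊢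
          refine ⟨?_, ht⟩
          by_contra hcon
          push Not at hcon
          have h2 : h ((x + y) / 2) ^ 2 ≤ ENNReal.ofReal t * ENNReal.ofReal t := by
            rw [sq]; exact mul_le_mul' hcon hcon
          exact absurd ((H x y).trans h2) (not_le.mpr (ENNReal.mul_lt_mul hx hy))
        · push Not at ht
          have e1 : {x | ENNReal.ofReal t < f x} = ∅ := by
            ext x; simpa using (hf1 x).trans ht
          have e2 : {x | ENNReal.ofReal t < g x} = ∅ := by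
            ext x; simpa using (hg1 x).trans ht
          simp [e1, e2]
    _ = 2 * ∫⁻ x, min (h x) 1 := by
        rw [lintegral_const_mul _ (mono _), layer _ hm fun x => min_le_right _ _]
    _ ≤ 2 * ∫⁻ x, h x := by
        gcongr with x
        exact min_le_left _ _

lemma ennreal_amgm {x y z : ℝ≥0∞} (h : x + y ≤ 2 * z) : x * y ≤ z ^ 2 := by
  by_cases hz : z = ∞
  · simp [hz]
  have hxy : x + y ≠ ∞ := ne_top_of_le_ne_top (ENNReal.mul_ne_top (by norm_num) hz) h
  have hx : x ≠ ∞ := fun e => hxy (by simp [e])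
  have hy : y ≠ ∞ := fun e => hxy (by simp [e])
  lift x to NNReal using hx
  lift y to NNReal using hy
  lift z to NNReal using hz
  have h' : (x : ℝ) + y ≤ 2 * z := by exact_mod_cast h
  have : (x : ℝ) * y ≤ z ^ 2 := by
    have := x.2; have := y.2
    nlinarith [sq_nonneg ((x : ℝ) - y), NNReal.coe_nonneg x, NNReal.coe_nonneg y]
  exact_mod_cast this

lemma pl1_bdd {f g h : ℝ → ℝ≥0∞} (hf : Measurable f) (hg : Measurable g) (hh : Measurable h)
    (hfb : (⨆ x, f x) ≠ ∞) (hgb : (⨆ x, g x) ≠ ∞)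
    (H : ∀ x y, f x * g y ≤ h ((x + y) / 2) ^ 2) :
    (∫⁻ x, f x) * ∫⁻ x, g x ≤ (∫⁻ x, h x) ^ 2 := by
  set a := ⨆ x, f x with ha
  set b := ⨆ x, g x with hb
  by_cases ha0 : a = 0
  · have : ∀ x, f x = 0 := fun x => le_antisymm (ha0 ▸ le_iSup f x) zero_le
    simp [this]
  by_cases hb0 : b = 0
  · have : ∀ x, g x = 0 := fun x => le_antisymm (hb0 ▸ le_iSup g x) zero_le
    simp [this]
  set c := (a * b) ^ (1 / 2 : ℝ) with hc
  have hc2 : c ^ 2 = a * b := by
    rw [hc, ← ENNReal.rpow_natCast, ← ENNReal.rpow_mul]; norm_num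
  have hc0 : c ≠ 0 := fun e => by
    rw [e] at hc2; simp only [ne_eq, OfNat.ofNat_ne_zero, not_false_eq_true, zero_pow] at hc2
    exact (mul_ne_zero ha0 hb0) hc2.symm
  have hct : c ≠ ∞ := fun e => by
    rw [e] at hc2; simp only [ne_eq, OfNat.ofNat_ne_zero, not_false_eq_true, ENNReal.top_pow] at hc2
    exact (ENNReal.mul_ne_top hfb hgb) hc2.symm
  have sup : ∀ (φ : ℝ → ℝ≥0∞) (s : ℝ≥0∞), s = ⨆ x, φ x → s ≠ 0 → s ≠ ∞ →
      (∀ x, s⁻¹ * φ x ≤ 1) ∧ ∀ t < 1, ∃ x, t < s⁻¹ * φ x := by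
    intro φ s hs h0 ht
    constructor
    · intro x
      calc s⁻¹ * φ x ≤ s⁻¹ * s := by gcongr; exact hs ▸ le_iSup φ x
        _ = 1 := ENNReal.inv_mul_cancel h0 ht
    · intro t ht1
      have : t < ⨆ x, s⁻¹ * φ x := by
        rw [← ENNReal.mul_iSup, ← hs, ENNReal.inv_mul_cancel h0 ht]; exact ht1
      exact lt_iSup_iff.mp this
  obtain ⟨f1, f2⟩ := sup f a ha ha0 hfb
  obtain ⟨g1, g2⟩ := sup g b hb hb0 hgb
  have hinv : c⁻¹ ^ 2 = a⁻¹ * b⁻¹ := by
    rw [← ENNReal.inv_pow, hc2, ENNReal.mul_inv (Or.inl ha0) (Or.inl hfb)]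
  have key := pl1_core (f := fun x => a⁻¹ * f x) (g := fun x => b⁻¹ * g x)
    (h := fun x => c⁻¹ * h x) (hf.const_mul _) (hg.const_mul _) (hh.const_mul _) f1 g1 f2 g2
    (fun x y => by
      rw [mul_pow, hinv, mul_mul_mul_comm]
      gcongr
      exact H x y)
  rw [lintegral_const_mul _ hf, lintegral_const_mul _ hg, lintegral_const_mul _ hh] at key
  have k2 := ennreal_amgm key
  rw [mul_pow, hinv, mul_mul_mul_comm] at k2
  exact (ENNReal.mul_le_mul_iff_right (mul_ne_zero (ENNReal.inv_ne_zero.mpr hfb)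
    (ENNReal.inv_ne_zero.mpr hgb)) (ENNReal.mul_ne_top (ENNReal.inv_ne_top.mpr ha0)
    (ENNReal.inv_ne_top.mpr hb0))).mp k2

lemma pl1 {f g h : ℝ → ℝ≥0∞} (hf : Measurable f) (hg : Measurable g) (hh : Measurable h)
    (H : ∀ x y, f x * g y ≤ h ((x + y) / 2) ^ 2) :
    (∫⁻ x, f x) * ∫⁻ x, g x ≤ (∫⁻ x, h x) ^ 2 := by
  have tr : ∀ φ : ℝ → ℝ≥0∞, Measurable φ → ∫⁻ x, φ x = ⨆ n : ℕ, ∫⁻ x, min (φ x) n := by
    intro φ hφ
    rw [← lintegral_iSup (fun n => hφ.min measurable_const)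
      (fun m n hmn x => min_le_min_left _ (by exact_mod_cast hmn))]
    congr 1
    ext x
    rw [← inf_iSup_eq, ENNReal.iSup_natCast]
    simp
  rw [tr f hf, tr g hg, ENNReal.iSup_mul]
  refine iSup_le fun n => ?_
  rw [ENNReal.mul_iSup]
  refine iSup_le fun m => ?_
  refine pl1_bdd (hf.min measurable_const) (hg.min measurable_const) hh ?_ ?_ fun x y => ?_
  · exact ne_top_of_le_ne_top (ENNReal.natCast_ne_top n) (iSup_le fun x => min_le_right _ _)
  · exact ne_top_of_le_ne_top (ENNReal.natCast_ne_top m) (iSup_le fun x => min_le_right _ _)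
  · exact (mul_le_mul' (min_le_left _ _) (min_le_left _ _)).trans (H x y)

lemma pl_pi (n : ℕ) : ∀ {f g h : (Fin n → ℝ) → ℝ≥0∞}, Measurable f → Measurable g →
    Measurable h → (∀ x y, f x * g y ≤ h (fun i => (x i + y i) / 2) ^ 2) →
    (∫⁻ x, f x) * ∫⁻ x, g x ≤ (∫⁻ x, h x) ^ 2 := by
  induction n with
  | zero =>
    intro f g h _ _ _ H
    simp only [lintegral_unique, volume_pi, Measure.pi_univ, Finset.univ_eq_empty,
      Finset.prod_empty, mul_one]
    convert H default default using 3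
  | succ n ih =>
    intro f g h hf hg hh H
    have e := (volume_preserving_piFinSuccAbove (fun _ : Fin (n + 1) => ℝ) 0).symm
    set E := (MeasurableEquiv.piFinSuccAbove (fun _ : Fin (n + 1) => ℝ) 0).symm with hE
    have tr : ∀ φ : (Fin (n + 1) → ℝ) → ℝ≥0∞, Measurable φ →
        ∫⁻ x, φ x = ∫⁻ s : ℝ, ∫⁻ z : Fin n → ℝ, φ (E (s, z)) := by
      intro φ hφ
      rw [← e.lintegral_comp hφ, Measure.volume_eq_prod]
      exact lintegral_prod _ (hφ.comp E.measurable).aemeasurable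
    have ms : ∀ φ : (Fin (n + 1) → ℝ) → ℝ≥0∞, Measurable φ →
        Measurable fun s : ℝ => ∫⁻ z : Fin n → ℝ, φ (E (s, z)) := fun φ hφ =>
      (hφ.comp E.measurable).lintegral_prod_right'
    have mz : ∀ φ : (Fin (n + 1) → ℝ) → ℝ≥0∞, Measurable φ → ∀ s : ℝ,
        Measurable fun z : Fin n → ℝ => φ (E (s, z)) := fun φ hφ s =>
      hφ.comp (E.measurable.comp measurable_prodMk_left)
    rw [tr f hf, tr g hg, tr h hh]
    refine pl1 (ms f hf) (ms g hg) (ms h hh) fun s t => ?_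
    refine ih (mz f hf s) (mz g hg t) (mz h hh _) fun x y => ?_
    convert H (E (s, x)) (E (t, y)) using 3
    ext i
    simp only [hE, MeasurableEquiv.piFinSuccAbove_symm_apply, Fin.insertNthEquiv_apply,
      Fin.insertNth_zero']
    refine Fin.cases ?_ (fun j => ?_) i <;> simp

/-- Prékopa–Leindler, midpoint form. -/
theorem prekopa {n : ℕ} {f g h : EuclideanSpace ℝ (Fin n) → ℝ≥0∞} (hf : Measurable f)
    (hg : Measurable g) (hh : Measurable h)
    (H : ∀ x y, f x * g y ≤ h ((1 / 2 : ℝ) • (x + y)) ^ 2) :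
    (∫⁻ x, f x) * ∫⁻ x, g x ≤ (∫⁻ x, h x) ^ 2 := by
  have e := PiLp.volume_preserving_toLp (Fin n)
  rw [← e.lintegral_comp hf, ← e.lintegral_comp hg, ← e.lintegral_comp hh]
  refine pl_pi n (hf.comp e.measurable) (hg.comp e.measurable) (hh.comp e.measurable)
    fun x y => ?_
  convert H (WithLp.toLp 2 x) (WithLp.toLp 2 y) using 3
  ext i
  simp
  ring

end Crest.Agent.H6OT
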