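import Mathlib
import Crest.Agent.H6.OTPL
import Crest.Agent.H6.OTCells

/-! The key estimate: cell moments move no faster than cell masses. -/

set_option autoImplicit false

namespace Crest.Agent.H6OT

open MeasureTheory Set Filter Topology
open scoped ENNReal RealInnerProductSpace

variable {d : ℕ}

/-- Prékopa–Leindler property of the source measure. -/
def PL (ρ : Measure (Eu d)) (R : ℝ) : Prop :=
  ∀ f g h : Eu d → ℝ≥0∞, Measurable f → Measurable g → Measurable h →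
    (∀ x y, ‖x‖ ≤ R → ‖y‖ ≤ R → f x * g y ≤ h ((1 / 2 : ℝ) • (x + y)) ^ 2) →
    (∫⁻ x, f x ∂ρ) * ∫⁻ x, g x ∂ρ ≤ (∫⁻ x, h x ∂ρ) ^ 2

lemma PL.real {ρ : Measure (Eu d)} {R : ℝ} (hs : Src ρ R) (hP : PL ρ R) {f g h : Eu d → ℝ}
    (hf : Continuous f) (hg : Continuous g) (hh : Continuous h) (f0 : ∀ x, 0 ≤ f x)
    (g0 : ∀ x, 0 ≤ g x) (h0 : ∀ x, 0 ≤ h x) {A B C : Set (Eu d)} (hA : MeasurableSet A)
    (hB : MeasurableSet B) (hC : MeasurableSet C)
    (hmid : ∀ x ∈ A, ∀ y ∈ B, (1 / 2 : ℝ) • (x + y) ∈ C)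
    (H : ∀ x y, ‖x‖ ≤ R → ‖y‖ ≤ R → f x * g y ≤ h ((1 / 2 : ℝ) • (x + y)) ^ 2) :
    (∫ x in A, f x ∂ρ) * ∫ x in B, g x ∂ρ ≤ (∫ x in C, h x ∂ρ) ^ 2 := by
  have conv : ∀ (φ : Eu d → ℝ) (S : Set (Eu d)), Continuous φ → (∀ x, 0 ≤ φ x) →
      MeasurableSet S → ∫⁻ x, S.indicator (fun x => ENNReal.ofReal (φ x)) x ∂ρ =
        ENNReal.ofReal (∫ x in S, φ x ∂ρ) := by
    intro φ S hφ h0 hS
    rw [lintegral_indicator hS, ofReal_integral_eq_lintegral_ofReal
      (hs.integrable hφ).integrableOn (Eventually.of_forall h0)]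
  have key := hP (A.indicator fun x => ENNReal.ofReal (f x))
    (B.indicator fun x => ENNReal.ofReal (g x)) (C.indicator fun x => ENNReal.ofReal (h x))
    (hf.measurable.ennreal_ofReal.indicator hA) (hg.measurable.ennreal_ofReal.indicator hB)
    (hh.measurable.ennreal_ofReal.indicator hC) (fun x y hx hy => by
      by_cases hxA : x ∈ A
      · by_cases hyB : y ∈ B
        · rw [indicator_of_mem hxA, indicator_of_mem hyB, indicator_of_mem (hmid x hxA y hyB),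
            ← ENNReal.ofReal_mul (f0 x), ← ENNReal.ofReal_pow (h0 _)]
          exact ENNReal.ofReal_le_ofReal (H x y hx hy)
        · simp [indicator_of_notMem hyB]
      · simp [indicator_of_notMem hxA])
  rw [conv f A hf f0 hA, conv g B hg g0 hB, conv h C hh h0 hC,
    ← ENNReal.ofReal_mul (integral_nonneg f0), ← ENNReal.ofReal_pow (integral_nonneg h0)] at key
  exact (ENNReal.ofReal_le_ofReal_iff (sq_nonneg _)).mp key

/-- Gaussian weight. -/
noncomputable def om (l : ℝ) (x : Eu d) : ℝ := Real.exp (-(l / 2 * ‖x‖ ^ 2))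

lemma continuous_om (l : ℝ) : Continuous (om l : Eu d → ℝ) := by unfold om; fun_prop

lemma om_pos (l : ℝ) (x : Eu d) : 0 < om l x := Real.exp_pos _

lemma jensen_exp {ρ : Measure (Eu d)} {R : ℝ} (hs : Src ρ R) (l : ℝ) {G : Eu d → ℝ}
    (hG : Continuous G) (A : Set (Eu d)) (hP : 0 < ∫ x in A, om l x ∂ρ) :
    (∫ x in A, om l x ∂ρ) * Real.exp ((∫ x in A, om l x * G x ∂ρ) / ∫ x in A, om l x ∂ρ) ≤
      ∫ x in A, om l x * Real.exp (G x) ∂ρ := by
  set P := ∫ x in A, om l x ∂ρ with hPd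
  set c := (∫ x in A, om l x * G x ∂ρ) / P with hc
  have h1 := continuous_om (d := d) l
  have e : P * Real.exp c = ∫ x in A, (Real.exp c * (1 - c) * om l x +
      Real.exp c * (om l x * G x)) ∂ρ := by
    rw [integral_add (hs.integrable (by fun_prop)).integrableOn
      (hs.integrable (by fun_prop)).integrableOn, integral_const_mul, integral_const_mul, ← hPd]
    have : ∫ x in A, om l x * G x ∂ρ = c * P := by rw [hc]; field_simp
    rw [this]; ring
  rw [e]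
  refine integral_mono (hs.integrable (by fun_prop)).integrableOn
    (hs.integrable (by fun_prop)).integrableOn fun x => ?_
  have h2 : Real.exp (G x) = Real.exp c * Real.exp (G x - c) := by
    rw [← Real.exp_add]; ring_nf
  have h3 := Real.add_one_le_exp (G x - c)
  have h4 := mul_pos (om_pos l x) (Real.exp_pos c)
  simp only
  rw [h2]
  nlinarith

lemma cell_gain {ρ : Measure (Eu d)} {R : ℝ} (hs : Src ρ R) (hP : PL ρ R) {l : ℝ} (hl : 0 < l)
    {F : Eu d → ℝ} (hF : Continuous F)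
    (hL : ∀ x y, ‖x‖ ≤ R → ‖y‖ ≤ R → |F x - F y| ≤ ‖x - y‖) {A B C : Set (Eu d)}
    (hA : MeasurableSet A) (hB : MeasurableSet B) (hC : MeasurableSet C)
    (hmid : ∀ x ∈ A, ∀ y ∈ B, (1 / 2 : ℝ) • (x + y) ∈ C) {P Q D : ℝ}
    (hPd : P = ∫ x in A, om l x ∂ρ) (hQd : Q = ∫ x in B, om l x ∂ρ) (hP0 : 0 < P) (hQ0 : 0 < Q)
    (hD : D = (∫ x in A, om l x * F x ∂ρ) / P - (∫ x in B, om l x * F x ∂ρ) / Q) :
    √P * √Q * (1 + l * D ^ 2 / 8) ≤ ∫ x in C, om l x ∂ρ := by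
  set s := l * D / 2 with hsd
  have h1 := continuous_om (d := d) l
  have j1 := jensen_exp hs l (G := fun x => s * F x) (by fun_prop) A (hPd ▸ hP0)
  have j2 := jensen_exp hs l (G := fun x => -s * F x) (by fun_prop) B (hQd ▸ hQ0)
  have e1 : ∫ x in A, om l x * (s * F x) ∂ρ = s * ∫ x in A, om l x * F x ∂ρ := by
    rw [← integral_const_mul]; congr 1; ext x; ring
  have e2 : ∫ x in B, om l x * (-s * F x) ∂ρ = -s * ∫ x in B, om l x * F x ∂ρ := by
    rw [← integral_const_mul]; congr 1; ext x; ring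
  rw [e1, ← hPd] at j1
  rw [e2, ← hQd] at j2
  have key := PL.real hs hP (f := fun x => om l x * Real.exp (s * F x))
    (g := fun x => om l x * Real.exp (-s * F x))
    (h := fun x => Real.exp (s ^ 2 / l / 2) * om l x) (by fun_prop) (by fun_prop) (by fun_prop)
    (fun x => (mul_pos (om_pos l x) (Real.exp_pos _)).le)
    (fun x => (mul_pos (om_pos l x) (Real.exp_pos _)).le)
    (fun x => (mul_pos (Real.exp_pos _) (om_pos l x)).le) hA hB hC hmid (fun x y hx hy => by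
      simp only [om, sq, ← Real.exp_add]
      refine Real.exp_le_exp.mpr ?_
      have hpar := parallelogram_law_with_norm ℝ x y
      have hn : ‖(1 / 2 : ℝ) • (x + y)‖ = ‖x + y‖ / 2 := by
        rw [norm_smul]; norm_num; ring
      rw [hn]
      have h2 : s * (F x - F y) ≤ |s| * ‖x - y‖ :=
        (le_abs_self _).trans (by rw [abs_mul]; gcongr; exact hL x y hx hy)
      have h3 : |s| * ‖x - y‖ ≤ l * ‖x - y‖ ^ 2 / 4 + s * s / l := by
        have : s * s / l = |s| * |s| / l := by rw [abs_mul_abs_self]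
        rw [this, ← sub_nonneg]
        have : l * ‖x - y‖ ^ 2 / 4 + |s| * |s| / l - |s| * ‖x - y‖ =
            (l * ‖x - y‖ / 2 - |s|) ^ 2 / l := by field_simp; ring
        rw [this]; positivity
      nlinarith)
  rw [integral_const_mul] at key
  set N := ∫ x in C, om l x ∂ρ with hN
  have hN0 : 0 ≤ N := integral_nonneg fun x => (om_pos l x).le
  set a := (∫ x in A, om l x * F x ∂ρ)
  set b := (∫ x in B, om l x * F x ∂ρ)
  have k2 : P * Real.exp (s * a / P) * (Q * Real.exp (-s * b / Q)) ≤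
      (Real.exp (s ^ 2 / l / 2) * N) ^ 2 :=
    (mul_le_mul j1 j2 (by positivity) (le_trans (by positivity) j1)).trans key
  have e3 : P * Real.exp (s * a / P) * (Q * Real.exp (-s * b / Q)) =
      (Real.exp (s ^ 2 / l / 2) * (√P * √Q * Real.exp (l * D ^ 2 / 8))) ^ 2 := by
    rw [mul_pow, mul_pow, mul_pow, Real.sq_sqrt hP0.le, Real.sq_sqrt hQ0.le,
      ← Real.exp_nat_mul, ← Real.exp_nat_mul]
    have : P * Real.exp (s * a / P) * (Q * Real.exp (-s * b / Q)) =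
        P * Q * Real.exp (s * a / P + -s * b / Q) := by rw [Real.exp_add]; ring
    rw [this, mul_left_comm, ← Real.exp_add]
    congr 2
    have : s * a / P + -s * b / Q = s * D := by rw [hD]; ring
    rw [this, hsd]; field_simp; ring
  rw [e3] at k2
  have k3 := le_of_mul_le_mul_left (abs_le_of_sq_le_sq' k2 (by positivity)).2
    (Real.exp_pos (s ^ 2 / l / 2))
  refine le_trans ?_ k3
  gcongr
  linarith [Real.add_one_le_exp (l * D ^ 2 / 8)]

lemma alg_H {a b p q α D l R : ℝ} (ha : 0 < a) (hp : 0 < p) (hq : 0 < q) (hab : a ≤ 2 * b)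
    (hqb : b ≤ 2 * q ^ 2) (hqp : q ≤ 2 * p) (hα : 1 ≤ α)
    (h : (p ^ 2 - q ^ 2) * α = (a - b) - q ^ 2 * (2 * l * R * D)) :
    (p - q) ^ 2 ≤ 8 * ((a - b) ^ 2 / a) + 16 * (l ^ 2 * R ^ 2) * (p * q * D ^ 2) := by
  have h1 : (p ^ 2 - q ^ 2) ^ 2 ≤ ((p ^ 2 - q ^ 2) * α) ^ 2 := by
    rw [mul_pow]
    exact le_mul_of_one_le_right (sq_nonneg _) (one_le_pow₀ hα)
  have h2 : ((a - b) - q ^ 2 * (2 * l * R * D)) ^ 2 ≤
      2 * (a - b) ^ 2 + 2 * (q ^ 2 * (2 * l * R * D)) ^ 2 := by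
    nlinarith [sq_nonneg ((a - b) + q ^ 2 * (2 * l * R * D))]
  have h3 : (p - q) ^ 2 * q ^ 2 ≤ (p ^ 2 - q ^ 2) ^ 2 := by
    have : (p ^ 2 - q ^ 2) ^ 2 = (p - q) ^ 2 * (p + q) ^ 2 := by ring
    rw [this]; gcongr; linarith
  have h4 : 2 * (a - b) ^ 2 ≤ 8 * ((a - b) ^ 2 / a) * q ^ 2 := by
    have : 2 * (a - b) ^ 2 = 2 * ((a - b) ^ 2 / a) * a := by field_simp
    rw [this]
    have h0 : 0 ≤ (a - b) ^ 2 / a := by positivity
    nlinarith
  have h5 : 2 * (q ^ 2 * (2 * l * R * D)) ^ 2 ≤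
      16 * (l ^ 2 * R ^ 2) * (p * q * D ^ 2) * q ^ 2 := by
    have e1 : 2 * (q ^ 2 * (2 * l * R * D)) ^ 2 =
      8 * (l ^ 2 * R ^ 2 * D ^ 2 * q ^ 3) * q := by ring
    have e2 : 16 * (l ^ 2 * R ^ 2) * (p * q * D ^ 2) * q ^ 2 =
      8 * (l ^ 2 * R ^ 2 * D ^ 2 * q ^ 3) * (2 * p) := by ring
    rw [e1, e2]; gcongr
  have h6 : (p - q) ^ 2 * q ^ 2 ≤
      (8 * ((a - b) ^ 2 / a) + 16 * (l ^ 2 * R ^ 2) * (p * q * D ^ 2)) * q ^ 2 := by
    rw [h] at h1; linarith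
  exact le_of_mul_le_mul_right h6 (by positivity)

lemma alg_X {a b p q γ D R n θ : ℝ} (hp : 0 < p) (hq : 0 < q) (hba : b ≤ 2 * a)
    (hpa : p ^ 2 ≤ a) (hqb : q ^ 2 ≤ b) (hqp : q ≤ 2 * p) (hγ : |γ| ≤ 2 * R) (hn : 0 ≤ n)
    (hR : 0 < R) (hθ : 0 < θ) :
    n * (q ^ 2 * (γ - 3 * D) - p ^ 2 * γ) ≤
      θ * (6 * R + 3) * (a * n ^ 2) + θ⁻¹ * (R * (p - q) ^ 2 + 3 * (p * q * D ^ 2)) := by
  have amgm : ∀ u v : ℝ, 2 * (u * v) ≤ θ * u ^ 2 + θ⁻¹ * v ^ 2 := by
    intro u v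
    have : θ * u ^ 2 + θ⁻¹ * v ^ 2 - 2 * (u * v) = θ⁻¹ * (θ * u - v) ^ 2 := by field_simp; ring
    have h0 : 0 ≤ θ⁻¹ * (θ * u - v) ^ 2 := by positivity
    linarith
  have h1 : n * ((q ^ 2 - p ^ 2) * γ) ≤ R * (2 * ((n * (p + q)) * |p - q|)) := by
    have : (q ^ 2 - p ^ 2) * γ ≤ (p + q) * |p - q| * (2 * R) := by
      refine (le_abs_self _).trans ?_
      have e : (q ^ 2 - p ^ 2) * γ = -((p + q) * (p - q) * γ) := by ring
      rw [e, abs_neg, abs_mul, abs_mul, abs_of_pos (by linarith : 0 < p + q)]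
      gcongr
    nlinarith
  have h2 := amgm (n * (p + q)) |p - q|
  rw [sq_abs] at h2
  have h3 : (n * (p + q)) ^ 2 ≤ 6 * (a * n ^ 2) := by
    have : (p + q) ^ 2 ≤ 6 * a := by nlinarith [sq_nonneg (p - q)]
    rw [mul_pow]; nlinarith [sq_nonneg n]
  have h4 := amgm (n * q) (-(q * D))
  have h5 : (n * q) ^ 2 ≤ 2 * (a * n ^ 2) := by
    rw [mul_pow]; nlinarith [sq_nonneg n]
  have h6 : (-(q * D)) ^ 2 ≤ 2 * (p * q * D ^ 2) := by
    have : (-(q * D)) ^ 2 = (q * D ^ 2) * q := by ring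
    rw [this]
    have : 2 * (p * q * D ^ 2) = (q * D ^ 2) * (2 * p) := by ring
    rw [this]; gcongr
  have hθ' : 0 < θ⁻¹ := inv_pos.mpr hθ
  have h7 : R * (2 * ((n * (p + q)) * |p - q|)) ≤
      R * (θ * (6 * (a * n ^ 2)) + θ⁻¹ * (p - q) ^ 2) := by
    gcongr
    refine h2.trans ?_
    gcongr
  have h8 : 2 * (n * q * -(q * D)) ≤ θ * (2 * (a * n ^ 2)) + θ⁻¹ * (2 * (p * q * D ^ 2)) := by
    refine h4.trans ?_
    gcongr
  nlinarith

lemma exp_lip {s t : ℝ} (hs : s ≤ 1 / 2) (ht : t ≤ 1 / 2) :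
    |Real.exp s - Real.exp t| ≤ 2 * |s - t| := by
  have two : ∀ u : ℝ, u ≤ 1 / 2 → Real.exp u ≤ 2 := by
    intro u hu
    have h1 := Real.add_one_le_exp (-u)
    have h2 : Real.exp u * Real.exp (-u) = 1 := by rw [← Real.exp_add]; simp
    have := Real.exp_pos u
    nlinarith
  have key : ∀ u v : ℝ, u ≤ 1 / 2 → Real.exp u - Real.exp v ≤ 2 * |u - v| := by
    intro u v hu
    have h1 := Real.add_one_le_exp (v - u)
    have h2 : Real.exp v = Real.exp u * Real.exp (v - u) := by rw [← Real.exp_add]; ring_nf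
    have h3 := two u hu
    have h4 := Real.exp_pos u
    have h5 := le_abs_self (u - v)
    have h6 := abs_nonneg (u - v)
    nlinarith
  rw [abs_le]
  constructor
  · have := key t s ht
    rw [abs_sub_comm] at this; linarith
  · exact key s t hs

variable {ι : Type} [Fintype ι] [Nonempty ι]

omit [Fintype ι] [Nonempty ι] in
lemma cell_mid (y : ι → Eu d) (ψ ψ' : ι → ℝ) (i : ι) :
    ∀ x ∈ cell y ψ i, ∀ x' ∈ cell y ψ' i,
      (1 / 2 : ℝ) • (x + x') ∈ cell y (fun j => (ψ j + ψ' j) / 2) i := by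
  intro x hx x' hx' j hj
  have h1 := hx j hj
  have h2 := hx' j hj
  simp only [aff, inner_smul_right, inner_add_right] at *
  linarith

/-- The constant of the key estimate. -/
noncomputable def keyC (R : ℝ) : ℝ := 6 * R + 3 + (16 * R + 192 * (128 * R ^ 2))

theorem key_estimate {ρ : Measure (Eu d)} {R : ℝ} (hR : 0 < R) (hs : Src ρ R) (hP : PL ρ R)
    {y : ι → Eu d} (hy : Function.Injective y) (ψ ψ' : ι → ℝ) (a b : ι → ℝ)
    (ha : ∀ i, ρ.real (cell y ψ i) = a i) (hb : ∀ i, ρ.real (cell y ψ' i) = b i)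
    (ha0 : ∀ i, 0 < a i) (hab : ∀ i, a i ≤ 2 * b i) (hba : ∀ i, b i ≤ 2 * a i)
    (w : ι → Eu d) {θ : ℝ} (hθ : 0 < θ) :
    ∑ i, ⟪w i, mom ρ y ψ' i⟫ - ∑ i, ⟪w i, mom ρ y ψ i⟫ ≤
      keyC R * (θ * ∑ i, a i * ‖w i‖ ^ 2 + θ⁻¹ * ∑ i, (a i - b i) ^ 2 / a i) := by
  have := hs.prob
  set l : ℝ := 1 / (128 * R ^ 2) with hl
  have hl0 : 0 < l := by positivity
  have hlR : l * R ^ 2 = 1 / 128 := by rw [hl]; field_simp
  set κ : Eu d → ℝ := fun x => Real.exp (l / 2 * ‖x‖ ^ 2) with hκ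
  have hκc : Continuous κ := by fun_prop
  have hoc := continuous_om (d := d) l
  have hκo : ∀ x, om l x * κ x = 1 := fun x => by simp [om, hκ, ← Real.exp_add]
  have hsm : ∀ x : Eu d, ‖x‖ ≤ R → l / 2 * ‖x‖ ^ 2 ≤ 1 / 2 := fun x hx => by
    have : ‖x‖ ^ 2 ≤ R ^ 2 := by gcongr
    nlinarith
  have hκ1 : ∀ x, 1 ≤ κ x := fun x => Real.one_le_exp (by positivity)
  have hκ2 : ∀ x, ‖x‖ ≤ R → κ x ≤ 2 := fun x hx => by
    have h1 := exp_lip (hsm x hx) (show (0 : ℝ) ≤ 1 / 2 by norm_num)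
    rw [Real.exp_zero, sub_zero, abs_of_nonneg (by positivity : 0 ≤ l / 2 * ‖x‖ ^ 2)] at h1
    have h2 := le_abs_self (Real.exp (l / 2 * ‖x‖ ^ 2) - 1)
    have h3 := hsm x hx
    simp only [hκ]; linarith
  have hκL : ∀ x y, ‖x‖ ≤ R → ‖y‖ ≤ R → |κ x - κ y| ≤ 2 * l * R * ‖x - y‖ := by
    intro x y hx hy
    refine (exp_lip (hsm x hx) (hsm y hy)).trans ?_
    have e : l / 2 * ‖x‖ ^ 2 - l / 2 * ‖y‖ ^ 2 = l / 2 * ((‖x‖ + ‖y‖) * (‖x‖ - ‖y‖)) := by ring
    rw [e, abs_mul, abs_mul, abs_of_pos (by positivity : 0 < l / 2),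
      abs_of_nonneg (by positivity : 0 ≤ ‖x‖ + ‖y‖)]
    have h1 := abs_norm_sub_norm_le x y
    have h2 : (‖x‖ + ‖y‖) * |‖x‖ - ‖y‖| ≤ (2 * R) * ‖x - y‖ := by
      gcongr; linarith
    nlinarith
  -- weighted masses
  have wm : ∀ (S : Set (Eu d)), MeasurableSet S → (∫ x in S, om l x ∂ρ ≤ ρ.real S) ∧
      ρ.real S ≤ 2 * ∫ x in S, om l x ∂ρ ∧ ∫ x in S, om l x * κ x ∂ρ = ρ.real S := by
    intro S hS
    have e : ∫ x in S, om l x * κ x ∂ρ = ρ.real S := by simp [hκo]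
    refine ⟨?_, ?_, e⟩
    · rw [← e]
      exact integral_mono (hs.integrable hoc).integrableOn
        (hs.integrable (by fun_prop)).integrableOn fun x =>
          le_mul_of_one_le_right (om_pos l x).le (hκ1 x)
    · rw [← e, ← integral_const_mul]
      refine integral_mono_ae (hs.integrable (by fun_prop)).integrableOn
        (hs.integrable (by fun_prop)).integrableOn ?_
      filter_upwards [ae_restrict_of_ae hs.bdd] with x hx
      have := hκ2 x hx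
      have := om_pos l x
      nlinarith
  set P : ι → ℝ := fun i => ∫ x in cell y ψ i, om l x ∂ρ with hPd
  set Q : ι → ℝ := fun i => ∫ x in cell y ψ' i, om l x ∂ρ with hQd
  have hPa : ∀ i, P i ≤ a i := fun i => ha i ▸ (wm _ (measurableSet_cell y ψ i)).1
  have haP : ∀ i, a i ≤ 2 * P i := fun i => ha i ▸ (wm _ (measurableSet_cell y ψ i)).2.1
  have hQb : ∀ i, Q i ≤ b i := fun i => hb i ▸ (wm _ (measurableSet_cell y ψ' i)).1
  have hbQ : ∀ i, b i ≤ 2 * Q i := fun i => hb i ▸ (wm _ (measurableSet_cell y ψ' i)).2.1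
  have hP0 : ∀ i, 0 < P i := fun i => by linarith [haP i, ha0 i]
  have hQ0 : ∀ i, 0 < Q i := fun i => by linarith [hbQ i, ha0 i, hab i]
  set p : ι → ℝ := fun i => √(P i) with hp
  set q : ι → ℝ := fun i => √(Q i) with hq
  have hp0 : ∀ i, 0 < p i := fun i => Real.sqrt_pos.mpr (hP0 i)
  have hq0 : ∀ i, 0 < q i := fun i => Real.sqrt_pos.mpr (hQ0 i)
  have hp2 : ∀ i, p i ^ 2 = P i := fun i => Real.sq_sqrt (hP0 i).le
  have hq2 : ∀ i, q i ^ 2 = Q i := fun i => Real.sq_sqrt (hQ0 i).le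
  have hqp : ∀ i, q i ≤ 2 * p i := fun i => by
    refine (abs_le_of_sq_le_sq' ?_ (by linarith [hp0 i])).2
    rw [mul_pow, hp2, hq2]; linarith [hQb i, hba i, haP i]
  set H := ∑ i, (p i - q i) ^ 2 with hH
  have gain : ∀ (F : ι → Eu d → ℝ) (D : ι → ℝ), (∀ i, Continuous (F i)) →
      (∀ i x y, ‖x‖ ≤ R → ‖y‖ ≤ R → |F i x - F i y| ≤ ‖x - y‖) →
      (∀ i, D i = (∫ x in cell y ψ i, om l x * F i x ∂ρ) / P i -
        (∫ x in cell y ψ' i, om l x * F i x ∂ρ) / Q i) →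
      l * ∑ i, p i * q i * D i ^ 2 ≤ 4 * H := by
    intro F D hFc hFL hD
    have h1 := Finset.sum_le_sum fun i (_ : i ∈ Finset.univ) =>
      cell_gain hs hP hl0 (hFc i) (hFL i) (measurableSet_cell y ψ i) (measurableSet_cell y ψ' i)
        (measurableSet_cell y _ i) (cell_mid y ψ ψ' i) rfl rfl (hP0 i) (hQ0 i) (hD i)
    rw [← integral_eq_sum_cells hs.ac hy _ (hs.integrable hoc)] at h1
    have h2 := integral_eq_sum_cells hs.ac hy ψ (hs.integrable hoc)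
    have h3 := integral_eq_sum_cells hs.ac hy ψ' (hs.integrable hoc)
    have e1 : H = ∑ i, P i + ∑ i, Q i - 2 * ∑ i, p i * q i := by
      rw [hH, Finset.mul_sum, ← Finset.sum_add_distrib, ← Finset.sum_sub_distrib]
      exact Finset.sum_congr rfl fun i _ => by rw [← hp2, ← hq2]; ring
    have e2 : ∑ i, p i * q i * (1 + l * D i ^ 2 / 8) =
        ∑ i, p i * q i + l * (∑ i, p i * q i * D i ^ 2) / 8 := by
      rw [Finset.mul_sum, Finset.sum_div, ← Finset.sum_add_distrib]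
      exact Finset.sum_congr rfl fun i _ => by ring
    have h4 : ∑ i, p i * q i * (1 + l * D i ^ 2 / 8) ≤ ∫ x, om l x ∂ρ := h1
    have h5 : ∫ x, om l x ∂ρ = ∑ i, P i := h2
    have h6 : ∫ x, om l x ∂ρ = ∑ i, Q i := h3
    linarith
  set S := ∑ i, (a i - b i) ^ 2 / a i with hS
  -- first application
  have hHS : H ≤ 16 * S := by
    have hlR0 : 0 < 2 * l * R := by positivity
    set D : ι → ℝ := fun i => (a i / P i - b i / Q i) / (2 * l * R) with hD
    have g1 := gain (fun _ x => κ x / (2 * l * R)) D (fun _ => by fun_prop)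
      (fun _ x y hx hy => by
        rw [← sub_div, abs_div, abs_of_pos hlR0, div_le_iff₀ hlR0]
        linarith [hκL x y hx hy])
      (fun i => by
        simp only [← mul_div_assoc, integral_div, hD]
        rw [(wm _ (measurableSet_cell y ψ i)).2.2, (wm _ (measurableSet_cell y ψ' i)).2.2,
          ha, hb]
        ring)
    have h1 : H ≤ ∑ i, (8 * ((a i - b i) ^ 2 / a i) +
        16 * (l ^ 2 * R ^ 2) * (p i * q i * D i ^ 2)) := by
      refine Finset.sum_le_sum fun i _ => alg_H (α := a i / P i) (ha0 i) (hp0 i) (hq0 i) (hab i)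
        (by rw [hq2]; exact hbQ i) (hqp i) (by rw [le_div_iff₀ (hP0 i)]; linarith [hPa i]) ?_
      rw [hp2, hq2]
      have := (hP0 i).ne'
      have := (hQ0 i).ne'
      simp only [hD]
      field_simp
      ring
    rw [Finset.sum_add_distrib, ← Finset.mul_sum, ← Finset.mul_sum, ← hS] at h1
    have e : 16 * (l ^ 2 * R ^ 2) * ∑ i, p i * q i * D i ^ 2 =
        16 * (l * R ^ 2) * (l * ∑ i, p i * q i * D i ^ 2) := by ring
    rw [e, hlR] at h1
    linarith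
  -- second application
  set u : ι → Eu d := fun i => ‖w i‖⁻¹ • w i with hu
  have hu1 : ∀ i, ‖u i‖ ≤ 1 := fun i => by
    simp only [hu, norm_smul, norm_inv, norm_norm]
    exact inv_mul_le_one_of_le₀ le_rfl (norm_nonneg _)
  have hwu : ∀ i, w i = ‖w i‖ • u i := fun i => by
    by_cases h : w i = 0
    · simp [hu, h]
    · simp [hu, smul_smul, mul_inv_cancel₀ (norm_ne_zero_iff.mpr h)]
  set γ : ι → ℝ := fun i => ⟪u i, mom ρ y ψ i⟫ / P i with hγ
  set γ' : ι → ℝ := fun i => ⟪u i, mom ρ y ψ' i⟫ / Q i with hγ'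
  set D : ι → ℝ := fun i => (γ i - γ' i) / 3 with hD
  have hin : ∀ (v x : Eu d), ‖v‖ ≤ 1 → |⟪v, x⟫| ≤ ‖x‖ := fun v x hv =>
    (abs_real_inner_le_norm v x).trans (mul_le_of_le_one_left (norm_nonneg _) hv)
  have emom : ∀ (φ : ι → ℝ) (i : ι), ∫ x in cell y φ i, om l x * (⟪u i, x⟫ * κ x / 3) ∂ρ =
      ⟪u i, mom ρ y φ i⟫ / 3 := by
    intro φ i
    unfold mom
    rw [← integral_inner (hs.integrable continuous_id').integrableOn, ← integral_div]
    congr 1; ext x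
    have := hκo x
    calc om l x * (⟪u i, x⟫ * κ x / 3) = (om l x * κ x) * ⟪u i, x⟫ / 3 := by ring
      _ = _ := by rw [this, one_mul]
  have g2 := gain (fun i x => ⟪u i, x⟫ * κ x / 3) D (fun _ => by fun_prop)
    (fun i x y hx hy => by
      have e : ⟪u i, x⟫ * κ x / 3 - ⟪u i, y⟫ * κ y / 3 =
          (⟪u i, x - y⟫ * κ x + ⟪u i, y⟫ * (κ x - κ y)) / 3 := by
        rw [inner_sub_right]; ring
      rw [e, abs_div, abs_of_pos (by norm_num : (0 : ℝ) < 3), div_le_iff₀ (by norm_num)]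
      refine (abs_add_le _ _).trans ?_
      rw [abs_mul, abs_mul, abs_of_pos (by linarith [hκ1 x] : 0 < κ x)]
      have h1 : |⟪u i, x - y⟫| * κ x ≤ ‖x - y‖ * 2 :=
        mul_le_mul (hin _ _ (hu1 i)) (hκ2 x hx) (by linarith [hκ1 x]) (norm_nonneg _)
      have h2 : |⟪u i, y⟫| * |κ x - κ y| ≤ R * (2 * l * R * ‖x - y‖) :=
        mul_le_mul ((hin _ _ (hu1 i)).trans hy) (hκL x y hx hy) (abs_nonneg _) hR.le
      have h3 : R * (2 * l * R * ‖x - y‖) = 2 * (l * R ^ 2) * ‖x - y‖ := by ring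
      rw [h3, hlR] at h2
      linarith [norm_nonneg (x - y)])
    (fun i => by
      rw [emom, emom]
      simp only [hD, hγ, hγ']
      ring)
  have hγb : ∀ i, |γ i| ≤ 2 * R := by
    intro i
    simp only [hγ]
    rw [abs_div, abs_of_pos (hP0 i), div_le_iff₀ (hP0 i)]
    refine (hin _ _ (hu1 i)).trans ?_
    have : ‖mom ρ y ψ i‖ ≤ R * ρ.real (cell y ψ i) := by
      unfold mom
      exact norm_setIntegral_le_of_norm_le_const_ae (measure_lt_top _ _)
        (ae_restrict_of_ae hs.bdd)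
    rw [ha] at this
    nlinarith [haP i]
  have h1 : ∑ i, ⟪w i, mom ρ y ψ' i⟫ - ∑ i, ⟪w i, mom ρ y ψ i⟫ ≤
      ∑ i, (θ * (6 * R + 3) * (a i * ‖w i‖ ^ 2) +
        θ⁻¹ * (R * (p i - q i) ^ 2 + 3 * (p i * q i * D i ^ 2))) := by
    rw [← Finset.sum_sub_distrib]
    refine Finset.sum_le_sum fun i _ => le_trans (le_of_eq ?_)
      (alg_X (b := b i) (γ := γ i) (hp0 i) (hq0 i) (hba i) (by rw [hp2]; exact hPa i)
        (by rw [hq2]; exact hQb i) (hqp i) (hγb i) (norm_nonneg (w i)) hR hθ)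
    rw [hp2, hq2]
    have ew : ∀ v : Eu d, ⟪w i, v⟫ = ‖w i‖ * ⟪u i, v⟫ := fun v => by
      rw [← real_inner_smul_left, ← hwu i]
    rw [ew, ew]
    have := (hP0 i).ne'
    have := (hQ0 i).ne'
    simp only [hD, hγ, hγ']
    field_simp
    ring
  rw [Finset.sum_add_distrib, ← Finset.mul_sum, ← Finset.mul_sum, Finset.sum_add_distrib,
    ← Finset.mul_sum, ← Finset.mul_sum, ← hH] at h1
  have h2 : ∑ i, p i * q i * D i ^ 2 ≤ 64 * (128 * R ^ 2) * S := by
    have : l * ∑ i, p i * q i * D i ^ 2 ≤ l * (64 * (128 * R ^ 2) * S) := by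
      have e : l * (64 * (128 * R ^ 2) * S) = 64 * 128 * (l * R ^ 2) * S := by ring
      rw [e, hlR]; linarith
    exact le_of_mul_le_mul_left this hl0
  have hS0 : 0 ≤ S := Finset.sum_nonneg fun i _ => div_nonneg (sq_nonneg _) (ha0 i).le
  have hW0 : 0 ≤ ∑ i, a i * ‖w i‖ ^ 2 :=
    Finset.sum_nonneg fun i _ => mul_nonneg (ha0 i).le (sq_nonneg _)
  have hθ' : 0 < θ⁻¹ := inv_pos.mpr hθ
  refine h1.trans ?_
  have h3 : θ⁻¹ * (R * H + 3 * ∑ i, p i * q i * D i ^ 2) ≤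
      θ⁻¹ * ((16 * R + 192 * (128 * R ^ 2)) * S) := by
    gcongr
    nlinarith
  unfold keyC
  have h4 : 0 ≤ (16 * R + 192 * (128 * R ^ 2)) * (θ * ∑ i, a i * ‖w i‖ ^ 2) := by positivity
  have h5 : 0 ≤ (6 * R + 3) * (θ⁻¹ * S) := by positivity
  nlinarith

end Crest.Agent.H6OT
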