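import Mathlib
import Crest.Prelude.Def_QuadraticTransport
import Crest.Agent.H4.OTSplit
import Crest.Agent.H6.OTCells

/-! Optimal maps are approximate subgradients of semi-discrete potentials. -/

set_option autoImplicit false

namespace Crest.Agent.H6OT

open MeasureTheory Set Filter Topology Crest.AnalysisR.OT
open scoped ENNReal RealInnerProductSpace

variable {d : ℕ}

lemma ae_push {ρ μ : Measure (Eu d)} {S : Eu d → Eu d} (hS : Measurable S) (h : ρ.map S = μ)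
    {p : Eu d → Prop} (hp : ∀ᵐ v ∂μ, p v) : ∀ᵐ x ∂ρ, p (S x) :=
  ae_of_ae_map hS.aemeasurable (h ▸ hp)

lemma integrable_inner_map {ρ μ : Measure (Eu d)} {R L : ℝ} (hs : Src ρ R) {S : Eu d → Eu d}
    (hS : Measurable S) (h : ρ.map S = μ) (hL : ∀ᵐ v ∂μ, ‖v‖ ≤ L) :
    Integrable (fun x => ⟪S x, x⟫) ρ := by
  have := hs.prob
  refine Integrable.of_bound (hS.inner measurable_id).aestronglyMeasurable (L * R) ?_
  filter_upwards [hs.bdd, ae_push hS h hL] with x h1 h2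
  exact (abs_real_inner_le_norm _ _).trans
    (mul_le_mul h2 h1 (norm_nonneg _) ((norm_nonneg _).trans h2))

lemma cost_eq {ρ μ : Measure (Eu d)} {R L : ℝ} (hs : Src ρ R) {S : Eu d → Eu d}
    (hS : Measurable S) (h : ρ.map S = μ) (hL : ∀ᵐ v ∂μ, ‖v‖ ≤ L) :
    ∫⁻ x, ‖x - S x‖ₑ ^ 2 ∂ρ =
      ENNReal.ofReal (∫ x, ‖x‖ ^ 2 ∂ρ + ∫ v, ‖v‖ ^ 2 ∂μ - 2 * ∫ x, ⟪S x, x⟫ ∂ρ) ∧
    0 ≤ ∫ x, ‖x‖ ^ 2 ∂ρ + ∫ v, ‖v‖ ^ 2 ∂μ - 2 * ∫ x, ⟪S x, x⟫ ∂ρ := by
  have := hs.prob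
  have i1 : Integrable (fun x : Eu d => ‖x‖ ^ 2) ρ := hs.integrable (by fun_prop)
  have i2 : Integrable (fun x : Eu d => ‖S x‖ ^ 2) ρ := by
    refine Integrable.of_bound (hS.norm.pow_const 2).aestronglyMeasurable (L ^ 2) ?_
    filter_upwards [ae_push hS h hL] with x h2
    rw [norm_pow, norm_norm]; gcongr
  have i3 := integrable_inner_map hs hS h hL
  have e1 : ∫ v, ‖v‖ ^ 2 ∂μ = ∫ x, ‖S x‖ ^ 2 ∂ρ := by
    rw [← h, integral_map hS.aemeasurable (by fun_prop)]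
  have e2 : ∀ x, ‖x - S x‖ ^ 2 = ‖x‖ ^ 2 + ‖S x‖ ^ 2 - 2 * ⟪S x, x⟫ := fun x => by
    rw [norm_sub_sq_real, real_inner_comm]; ring
  have e3 : ∫ x, ‖x‖ ^ 2 ∂ρ + ∫ v, ‖v‖ ^ 2 ∂μ - 2 * ∫ x, ⟪S x, x⟫ ∂ρ =
      ∫ x, ‖x - S x‖ ^ 2 ∂ρ := by
    simp only [e2]
    rw [integral_sub (i1.fun_add i2) (i3.const_mul 2), integral_add i1 i2, integral_const_mul, e1]
  rw [e3]
  refine ⟨?_, integral_nonneg fun x => sq_nonneg _⟩
  rw [ofReal_integral_eq_lintegral_ofReal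
    (by simp only [e2]; exact (i1.add i2).sub (i3.const_mul 2))
    (Eventually.of_forall fun x => sq_nonneg _)]
  congr 1; ext x
  rw [ENNReal.ofReal_pow (norm_nonneg _), ofReal_norm]

lemma opt_inner {ρ μ : Measure (Eu d)} {R L : ℝ} (hs : Src ρ R) {T S : Eu d → Eu d}
    (hT : IsOptimalMap ρ μ T) (hS : Measurable S) (h : ρ.map S = μ) (hL : ∀ᵐ v ∂μ, ‖v‖ ≤ L) :
    ∫ x, ⟪S x, x⟫ ∂ρ ≤ ∫ x, ⟪T x, x⟫ ∂ρ := by
  have h1 := hT.2.2 S hS h
  rw [(cost_eq hs hS h hL).1, (cost_eq hs hT.1 hT.2.1 hL).1,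
    ENNReal.ofReal_le_ofReal_iff (cost_eq hs hS h hL).2] at h1
  linarith

lemma opt_of_inner {ρ μ : Measure (Eu d)} {R L : ℝ} (hs : Src ρ R) {T : Eu d → Eu d}
    (hT : Measurable T) (hTμ : ρ.map T = μ) (hL : ∀ᵐ v ∂μ, ‖v‖ ≤ L)
    (H : ∀ S : Eu d → Eu d, Measurable S → ρ.map S = μ →
      ∫ x, ⟪S x, x⟫ ∂ρ ≤ ∫ x, ⟪T x, x⟫ ∂ρ) : IsOptimalMap ρ μ T := by
  refine ⟨hT, hTμ, fun S hS h => ?_⟩
  rw [(cost_eq hs hS h hL).1, (cost_eq hs hT hTμ hL).1]
  exact ENNReal.ofReal_le_ofReal (by linarith [H S hS h])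

variable {ι : Type} [Fintype ι] [Nonempty ι]

/-- Gluing maps along the cells. -/
lemma exists_glue {ρ : Measure (Eu d)} (hρ : ρ ≪ volume) {y : ι → Eu d}
    (hy : Function.Injective y) (ψ : ι → ℝ) (T : ι → Eu d → Eu d) (hT : ∀ i, Measurable (T i)) :
    ∃ S : Eu d → Eu d, Measurable S ∧ (∀ i, ∀ x ∈ cell y ψ i, S x = T i x) ∧
      ρ.map S = ∑ i, (ρ.restrict (cell y ψ i)).map (T i) := by
  classical
  set S : Eu d → Eu d := fun x => ∑ i, (cell y ψ i).indicator (T i) x with hSd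
  have hS : Measurable S :=
    Finset.measurable_sum _ fun i _ => (hT i).indicator (measurableSet_cell y ψ i)
  have hST : ∀ i, ∀ x ∈ cell y ψ i, S x = T i x := by
    intro i x hx
    simp only [hSd]
    rw [Finset.sum_eq_single i (fun j _ hj => indicator_of_notMem
      (fun hxj => Set.disjoint_left.mp (cell_disjoint y ψ hj) hxj hx) _) (by simp),
      indicator_of_mem hx]
  refine ⟨S, hS, hST, ?_⟩
  have hsum : ρ = Measure.sum fun i => ρ.restrict (cell y ψ i) := by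
    rw [← Measure.restrict_iUnion (cell_disjoint y ψ) (measurableSet_cell y ψ),
      Measure.restrict_eq_self_of_ae_mem (ae_mem_cell hρ hy ψ)]
  conv_lhs => rw [hsum]
  rw [Measure.map_sum hS.aemeasurable, Measure.sum_fintype]
  refine Finset.sum_congr rfl fun i _ => Measure.map_congr ?_
  filter_upwards [ae_restrict_mem (measurableSet_cell y ψ i)] with x hx using hST i x hx

theorem exists_gap [Nontrivial (Eu d)] {ρ μ : Measure (Eu d)} {R L δ : ℝ} (hR : 0 ≤ R)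
    (hs : Src ρ R) {T : Eu d → Eu d} (hT : IsOptimalMap ρ μ T) (hL : ∀ᵐ v ∂μ, ‖v‖ ≤ L)
    {y : ι → Eu d} (hy : Function.Injective y) {m : ι → ℝ} (hm1 : ∑ i, m i = 1)
    {μs : ι → Measure (Eu d)} (hμ : μ = ∑ i, μs i) [∀ i, IsFiniteMeasure (μs i)]
    (hμm : ∀ i, (μs i).real univ = m i) (hμδ : ∀ i, ∀ᵐ v ∂μs i, ‖v - y i‖ ≤ δ)
    {ψs : ι → ℝ} (hψs : ∀ i, ρ.real (cell y ψs i) = m i) (ψ : ι → ℝ) :
    ∃ g : Eu d → ℝ, Integrable g ρ ∧
      (∀ x x', ‖x'‖ ≤ R → pot y ψ x + ⟪T x, x' - x⟫ - g x ≤ pot y ψ x') ∧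
      ∫ x, g x ∂ρ ≤ (∫ x, pot y ψ x ∂ρ + ∑ i, m i * ψ i) -
        (∫ x, pot y ψs x ∂ρ + ∑ i, m i * ψs i) + 2 * (R * δ) := by
  have := hs.prob
  have : NullSingletonClass ρ := ⟨fun x => hs.ac (measure_singleton x)⟩
  set ub : Eu d → ℝ := fun v => Finset.univ.inf' Finset.univ_nonempty
    fun i => ψ i + R * ‖v - y i‖ with hub
  have hubc : Continuous ub := Continuous.finset_inf'_apply _ fun i _ => by fun_prop
  have hub1 : ∀ v i, ub v ≤ ψ i + R * ‖v - y i‖ := fun v i =>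
    Finset.inf'_le (fun i => ψ i + R * ‖v - y i‖) (Finset.mem_univ i)
  have hub2 : ∀ v x', ‖x'‖ ≤ R → ⟪v, x'⟫ - ub v ≤ pot y ψ x' := by
    intro v x' hx'
    obtain ⟨i, -, hi⟩ := Finset.exists_mem_eq_inf' Finset.univ_nonempty
      fun i => ψ i + R * ‖v - y i‖
    have h1 : ub v = ψ i + R * ‖v - y i‖ := hi
    have h2 := aff_le_pot y ψ i x'
    have h3 : ⟪v - y i, x'⟫ ≤ R * ‖v - y i‖ :=
      (real_inner_le_norm _ _).trans (by rw [mul_comm]; gcongr)
    rw [inner_sub_left] at h3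
    unfold aff at h2
    linarith
  have intμ : ∀ (ν : Measure (Eu d)) [IsFiniteMeasure ν], (∀ᵐ v ∂ν, ‖v‖ ≤ L) → Integrable ub ν := by
    intro ν _ hν
    obtain ⟨C, hC⟩ := (isCompact_closedBall (0 : Eu d) L).exists_bound_of_continuousOn
      hubc.continuousOn
    refine Integrable.of_bound hubc.aestronglyMeasurable C ?_
    filter_upwards [hν] with x hx using hC x (by simpa using hx)
  have hLi : ∀ i, ∀ᵐ v ∂μs i, ‖v‖ ≤ L := by
    intro i
    refine (Measure.absolutelyContinuous_of_le ?_).ae_le hL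
    rw [hμ]
    exact Finset.single_le_sum (f := μs) (fun j _ => Measure.zero_le _) (Finset.mem_univ i)
  have : IsProbabilityMeasure μ := hT.2.1 ▸ Measure.isProbabilityMeasure_map hT.1.aemeasurable
  have i1 : Integrable (fun x => ub (T x)) ρ := by
    have := intμ μ hL
    rw [← hT.2.1] at this
    exact (integrable_map_measure hubc.aestronglyMeasurable hT.1.aemeasurable).mp this
  have i2 := integrable_inner_map hs hT.1 hT.2.1 hL
  have i3 := hs.integrable (continuous_pot y ψ)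
  refine ⟨fun x => pot y ψ x + ub (T x) - ⟪T x, x⟫, (i3.add i1).sub i2, fun x x' hx' => ?_, ?_⟩
  · have := hub2 (T x) x' hx'
    rw [inner_sub_right]; linarith
  rw [integral_sub (i3.fun_add i1) i2, integral_add i3 i1]
  have b1 : ∫ x, ub (T x) ∂ρ ≤ ∑ i, m i * ψ i + R * δ := by
    rw [← integral_map hT.1.aemeasurable hubc.aestronglyMeasurable, hT.2.1, hμ,
      integral_finsetSum_measure fun i _ => intμ _ (hLi i)]
    calc ∑ i, ∫ v, ub v ∂μs i ≤ ∑ i, m i * (ψ i + R * δ) := by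
          refine Finset.sum_le_sum fun i _ => ?_
          rw [← hμm i, ← smul_eq_mul, ← integral_const]
          refine integral_mono_ae (intμ _ (hLi i)) (integrable_const _) ?_
          filter_upwards [hμδ i] with v hv
          refine (hub1 v i).trans ?_
          gcongr
      _ = ∑ i, m i * ψ i + (∑ i, m i) * (R * δ) := by
          rw [Finset.sum_mul, ← Finset.sum_add_distrib]
          exact Finset.sum_congr rfl fun i _ => by ring
      _ = _ := by rw [hm1, one_mul]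
  have ex : ∀ i, ∃ S : Eu d → Eu d, Measurable S ∧ (ρ.restrict (cell y ψs i)).map S = μs i := by
    intro i
    refine H4OT.exists_transport _ _ ?_
    rw [Measure.restrict_apply_univ, ← ofReal_measureReal, ← ofReal_measureReal (μ := μs i),
      hψs, hμm]
  choose Si hSi hSiμ using ex
  obtain ⟨S, hS, hSS, hSμ⟩ := exists_glue hs.ac hy ψs Si hSi
  simp only [hSiμ, ← hμ] at hSμ
  have b2 := opt_inner hs hT hS hSμ hL
  have i4 := integrable_inner_map hs hS hSμ hL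
  have b3 : ∑ i, ⟪y i, mom ρ y ψs i⟫ - R * δ ≤ ∫ x, ⟪S x, x⟫ ∂ρ := by
    rw [integral_eq_sum_cells hs.ac hy ψs i4]
    have e : ∑ i, ⟪y i, mom ρ y ψs i⟫ - R * δ =
        ∑ i, ∫ x in cell y ψs i, aff y (fun _ => R * δ) i x ∂ρ := by
      simp only [setIntegral_aff hs, hψs]
      rw [Finset.sum_sub_distrib, ← Finset.sum_mul, hm1, one_mul]
    rw [e]
    refine Finset.sum_le_sum fun i _ => integral_mono_ae
      (hs.integrable (continuous_aff _ _ i)).integrableOn i4.integrableOn ?_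
    have h1 : ∀ᵐ x ∂ρ.restrict (cell y ψs i), ‖Si i x - y i‖ ≤ δ :=
      ae_push (hSi i) (hSiμ i) (hμδ i)
    filter_upwards [h1, ae_restrict_mem (measurableSet_cell y ψs i),
      ae_restrict_of_ae hs.bdd] with x h1 h2 h3
    rw [hSS i x h2]
    have h4 : |⟪Si i x - y i, x⟫| ≤ R * δ :=
      (abs_real_inner_le_norm _ _).trans (by
        rw [mul_comm]; exact mul_le_mul h3 h1 (norm_nonneg _) hR)
    have := neg_abs_le ⟪Si i x - y i, x⟫
    rw [inner_sub_left] at *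
    unfold aff
    linarith
  have b4 := mom_eq hs hy ψs
  simp only [hψs] at b4
  linarith

end Crest.Agent.H6OT
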