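import Mathlib
import Crest.Prelude.Def_QuadraticTransport
import Crest.Agent.H6.OTKey

/-! Uniform source on a convex body; reverse Poincaré inequality for approximate subgradients. -/

set_option autoImplicit false

namespace Crest.Agent.H6OT

open MeasureTheory Set Filter Topology Crest.AnalysisR.OT
open scoped ENNReal RealInnerProductSpace

variable {d : ℕ}

lemma src_uniform {K : Set (Eu d)} {R : ℝ} (hK : MeasurableSet K) (h0 : volume K ≠ 0)
    (ht : volume K ≠ ∞) (hR : ∀ x ∈ K, ‖x‖ ≤ R) : Src (uniformProbOn K) R where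
  prob := ⟨by simp [uniformProbOn, ENNReal.inv_mul_cancel h0 ht]⟩
  ac := (Measure.absolutelyContinuous_of_le Measure.restrict_le_self).smul_left _
  bdd := Measure.ae_smul_measure ((ae_restrict_mem hK).mono hR) _

lemma ae_uniform {K : Set (Eu d)} (hK : MeasurableSet K) : ∀ᵐ x ∂uniformProbOn K, x ∈ K :=
  Measure.ae_smul_measure (ae_restrict_mem hK) _

lemma pl_uniform {K : Set (Eu d)} {R : ℝ} (hK : MeasurableSet K)
    (hKv : Convex ℝ K) (hR : ∀ x ∈ K, ‖x‖ ≤ R) : PL (uniformProbOn K) R := by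
  intro f g h hf hg hh H
  simp only [uniformProbOn, lintegral_smul_measure, smul_eq_mul, ← lintegral_indicator hK]
  rw [mul_pow, sq (volume K)⁻¹, mul_mul_mul_comm]
  gcongr
  refine prekopa (hf.indicator hK) (hg.indicator hK) (hh.indicator hK) fun x y => ?_
  by_cases hx : x ∈ K
  · by_cases hy : y ∈ K
    · have : (1 / 2 : ℝ) • (x + y) ∈ K := by
        rw [smul_add]; exact hKv hx hy (by norm_num) (by norm_num) (by norm_num)
      rw [indicator_of_mem hx, indicator_of_mem hy, indicator_of_mem this]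
      exact H x y (hR x hx) (hR y hy)
    · simp [indicator_of_notMem hy]
  · simp [indicator_of_notMem hx]

lemma integral_uniform_le (K : Set (Eu d)) {φ : Eu d → ℝ} (hφ : Integrable φ volume)
    (h0 : ∀ x, 0 ≤ φ x) : ∫ x, φ x ∂uniformProbOn K ≤ (volume K)⁻¹.toReal * ∫ x, φ x := by
  rw [uniformProbOn, integral_smul_measure, smul_eq_mul]
  exact mul_le_mul_of_nonneg_left (setIntegral_le_integral hφ (Eventually.of_forall h0))
    ENNReal.toReal_nonneg

lemma integrable_uniform {K : Set (Eu d)} (h0 : volume K ≠ 0) {φ : Eu d → ℝ}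
    (hφ : Integrable φ volume) : Integrable φ (uniformProbOn K) :=
  hφ.integrableOn.integrable.smul_measure (ENNReal.inv_ne_top.mpr h0)

lemma shift_bound {K : Set (Eu d)} (hKc : IsCompact K) (h0 : volume K ≠ 0) {φ : Eu d → ℝ}
    (hφ : Continuous φ) (hφ0 : ∀ x, 0 ≤ φ x) (v : Eu d) :
    Integrable (fun x => K.indicator φ (x + v)) (uniformProbOn K) ∧
    ∫ x, K.indicator φ (x + v) ∂uniformProbOn K ≤ ∫ x, φ x ∂uniformProbOn K := by
  have hi : Integrable (K.indicator φ) volume :=
    (integrable_indicator_iff hKc.measurableSet).mpr (hφ.continuousOn.integrableOn_compact hKc)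
  have hi' : Integrable (fun x => K.indicator φ (x + v)) volume := hi.comp_add_right v
  refine ⟨integrable_uniform h0 hi', (integral_uniform_le K hi'
    fun x => indicator_nonneg (fun x _ => hφ0 x) _).trans (le_of_eq ?_)⟩
  rw [integral_add_right_eq_self (K.indicator φ) v, integral_indicator hKc.measurableSet,
    uniformProbOn, integral_smul_measure, smul_eq_mul]

lemma second_diff {v : Eu d → ℝ} (hv : Continuous v) {L R r : ℝ} (hr : 0 ≤ r) (hr1 : r ≤ 1)
    (hL : ∀ x x', |v x - v x'| ≤ L * ‖x - x'‖) {a : Eu d} (ha : ‖a‖ ≤ r) (hL0 : 0 ≤ L) :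
    Integrable (fun x => max (R + 1 - ‖x‖) 0 * (v (x + a) + v (x - a) - 2 * v x)) volume ∧
    ∫ x, max (R + 1 - ‖x‖) 0 * (v (x + a) + v (x - a) - 2 * v x) ≤
      L * r ^ 2 * volume.real (Metric.closedBall (0 : Eu d) (R + 2)) := by
  set χ : Eu d → ℝ := fun x => max (R + 1 - ‖x‖) 0 with hχ
  have hχc : Continuous χ := by fun_prop
  have hχ0 : ∀ x, R + 1 ≤ ‖x‖ → χ x = 0 := fun x hx => max_eq_right (by linarith)
  have hs1 : HasCompactSupport χ :=
    HasCompactSupport.intro (isCompact_closedBall (0 : Eu d) (R + 1)) fun x hx =>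
      hχ0 x (by simpa using (not_le.mp (by simpa using hx) : R + 1 < ‖x‖).le)
  have hfar : ∀ x : Eu d, x ∉ Metric.closedBall (0 : Eu d) (R + 2) → χ (x - a) = 0 ∧ χ x = 0 := by
    intro x hx
    have h1 : R + 2 < ‖x‖ := by simpa using hx
    have h2 := norm_sub_norm_le x a
    exact ⟨hχ0 _ (by linarith), hχ0 _ (by linarith)⟩
  have hs2 : HasCompactSupport fun x => χ (x - a) :=
    HasCompactSupport.intro (isCompact_closedBall (0 : Eu d) (R + 2)) fun x hx => (hfar x hx).1
  set D : Eu d → ℝ := fun x => v x - v (x - a) with hD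
  have hDc : Continuous D := by fun_prop
  have i0 : Integrable (fun x => χ x * D (x + a)) volume :=
    Continuous.integrable_of_hasCompactSupport (by fun_prop) hs1.mul_right
  have i1 : Integrable (fun x => χ x * D x) volume :=
    Continuous.integrable_of_hasCompactSupport (by fun_prop) hs1.mul_right
  have i2 : Integrable (fun x => χ (x - a) * D x) volume :=
    Continuous.integrable_of_hasCompactSupport (by fun_prop) hs2.mul_right
  have e : (fun x => χ x * (v (x + a) + v (x - a) - 2 * v x)) =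
      fun x => χ x * D (x + a) - χ x * D x := by
    ext x; simp only [hD, add_sub_cancel_right]; ring
  change Integrable (fun x => χ x * (v (x + a) + v (x - a) - 2 * v x)) volume ∧
    ∫ x, χ x * (v (x + a) + v (x - a) - 2 * v x) ≤ _
  rw [e]
  refine ⟨i0.sub i1, ?_⟩
  have e2 : ∫ x, χ x * D (x + a) = ∫ x, χ (x - a) * D x := by
    rw [← integral_add_right_eq_self (fun x => χ (x - a) * D x) a]
    simp only [add_sub_cancel_right]
  rw [integral_sub i0 i1, e2, ← integral_sub i2 i1]
  have hB : MeasurableSet (Metric.closedBall (0 : Eu d) (R + 2)) := measurableSet_closedBall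
  have e3 : L * r ^ 2 * volume.real (Metric.closedBall (0 : Eu d) (R + 2)) =
      ∫ x, (Metric.closedBall (0 : Eu d) (R + 2)).indicator (fun _ => L * r ^ 2) x := by
    rw [integral_indicator hB]; simp [mul_comm]
  rw [e3]
  refine integral_mono (i2.sub i1) ((integrable_indicator_iff hB).mpr
    (integrableOn_const (measure_closedBall_lt_top).ne)) fun x => ?_
  by_cases hx : x ∈ Metric.closedBall (0 : Eu d) (R + 2)
  · simp only [indicator_of_mem hx]
    have h1 : |χ (x - a) - χ x| ≤ r := by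
      refine (abs_max_sub_max_le_abs _ _ _).trans ?_
      have := abs_norm_sub_norm_le x (x - a)
      rw [sub_sub_cancel] at this
      rw [show R + 1 - ‖x - a‖ - (R + 1 - ‖x‖) = ‖x‖ - ‖x - a‖ by ring]
      linarith
    have h2 : |D x| ≤ L * r := by
      refine (hL _ _).trans ?_
      rw [sub_sub_cancel]; gcongr
    calc χ (x - a) * D x - χ x * D x = (χ (x - a) - χ x) * D x := by ring
      _ ≤ |χ (x - a) - χ x| * |D x| := by rw [← abs_mul]; exact le_abs_self _
      _ ≤ r * (L * r) := mul_le_mul h1 h2 (abs_nonneg _) hr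
      _ = _ := by ring
  · simp [indicator_of_notMem hx, (hfar x hx).1, (hfar x hx).2]

lemma boundary_layer {K : Set (Eu d)} (hKc : IsCompact K) (hKv : Convex ℝ K) (h0 : volume K ≠ 0)
    {x0 : Eu d} {r0 r : ℝ} (hr0 : 0 < r0) (hb : Metric.closedBall x0 r0 ⊆ K) (hr : 0 < r)
    (hr1 : r ≤ r0) :
    ∃ K' : Set (Eu d), MeasurableSet K' ∧ (∀ x ∈ K', ∀ a : Eu d, ‖a‖ ≤ r → x + a ∈ K) ∧
      (uniformProbOn K).real K'ᶜ ≤ d * (r / r0) := by
  set s := r / r0 with hs
  have hs0 : 0 < s := by positivity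
  have hs1 : s ≤ 1 := (div_le_one hr0).mpr hr1
  set K' := AffineMap.homothety x0 (1 - s) '' K with hK'
  have hK'c : IsCompact K' := hKc.image (AffineMap.homothety_continuous _ _)
  have hmem : ∀ x ∈ K', ∀ a : Eu d, ‖a‖ ≤ r → x + a ∈ K := by
    rintro _ ⟨x, hx, rfl⟩ a ha
    have h1 : x0 + s⁻¹ • a ∈ K := hb (by
      rw [Metric.mem_closedBall, dist_eq_norm, add_sub_cancel_left, norm_smul, norm_inv,
        Real.norm_eq_abs, abs_of_pos hs0, inv_mul_le_iff₀ hs0, hs]
      rw [div_mul_cancel₀ _ hr0.ne']; exact ha)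
    have h2 := hKv hx h1 (a := 1 - s) (b := s) (by linarith) hs0.le (by ring)
    convert h2 using 1
    rw [AffineMap.homothety_apply, smul_add, smul_smul, mul_inv_cancel₀ hs0.ne', one_smul]
    simp only [vsub_eq_sub, vadd_eq_add]
    module
  have hsub : K' ⊆ K := fun x hx => by simpa using hmem x hx 0 (by simpa using hr.le)
  refine ⟨K', hK'c.measurableSet, hmem, ?_⟩
  have ht := hKc.measure_lt_top (μ := volume)
  have : IsProbabilityMeasure (uniformProbOn K) :=
    ⟨by simp [uniformProbOn, ENNReal.inv_mul_cancel h0 ht.ne]⟩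
  rw [probReal_compl_eq_one_sub hK'c.measurableSet]
  have e : (uniformProbOn K).real K' = (1 - s) ^ d := by
    rw [measureReal_def, uniformProbOn, Measure.smul_apply, Measure.restrict_apply
      hK'c.measurableSet, inter_eq_left.mpr hsub, hK', Measure.addHaar_image_homothety,
      smul_eq_mul, mul_left_comm, ENNReal.inv_mul_cancel h0 ht.ne, mul_one,
      ENNReal.toReal_ofReal (abs_nonneg _), finrank_euclideanSpace_fin,
      abs_of_nonneg (pow_nonneg (by linarith) _)]
  rw [e]
  have := one_add_mul_le_pow (show (-2 : ℝ) ≤ -s by linarith) d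
  rw [← sub_eq_add_neg] at this
  linarith

/-- Reverse Poincaré inequality in one direction. -/
theorem rev_poincare {K : Set (Eu d)} (hKc : IsCompact K) (hKv : Convex ℝ K) (h0 : volume K ≠ 0)
    {R : ℝ} (hR : ∀ x ∈ K, ‖x‖ ≤ R)
    {x0 : Eu d} {r0 r : ℝ} (hr0 : 0 < r0) (hb : Metric.closedBall x0 r0 ⊆ K) (hr : 0 < r)
    (hr1 : r ≤ r0) (hr2 : r ≤ 1) {u v g g' : Eu d → ℝ} {T T' : Eu d → Eu d} {L : ℝ} (hL0 : 0 ≤ L)
    (hu : Continuous u) (hv : Continuous v) (hvL : ∀ x x', |v x - v x'| ≤ L * ‖x - x'‖)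
    (hvc : ∀ x a, 0 ≤ v (x + a) + v (x - a) - 2 * v x)
    (hg : Integrable g (uniformProbOn K)) (hg' : Integrable g' (uniformProbOn K))
    (hT : Measurable T) (hT' : Measurable T') (hTL : ∀ᵐ x ∂uniformProbOn K, ‖T x‖ ≤ L)
    (hTL' : ∀ᵐ x ∂uniformProbOn K, ‖T' x‖ ≤ L)
    (hgu : ∀ x x', ‖x'‖ ≤ R → u x + ⟪T x, x' - x⟫ - g x ≤ u x')
    (hgv : ∀ x x', ‖x'‖ ≤ R → v x + ⟪T' x, x' - x⟫ - g' x ≤ v x') {e : Eu d} (he : ‖e‖ ≤ 1) :
    r ^ 2 * ∫ x, ⟪e, T x - T' x⟫ ^ 2 ∂uniformProbOn K ≤
      9 * ∫ x, (u x - v x) ^ 2 ∂uniformProbOn K +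
      4 * L * r * ((volume K)⁻¹.toReal *
        (L * r ^ 2 * volume.real (Metric.closedBall (0 : Eu d) (R + 2))) +
        ∫ x, g x ∂uniformProbOn K + ∫ x, g' x ∂uniformProbOn K) +
      4 * L ^ 2 * r ^ 2 * (d * (r / r0)) := by
  have hK := hKc.measurableSet
  have hs := src_uniform hK h0 hKc.measure_lt_top.ne hR
  have := hs.prob
  set ρ := uniformProbOn K with hρ
  obtain ⟨K', hK'm, hK'1, hK'2⟩ := boundary_layer hKc hKv h0 hr0 hb hr hr1
  set a := r • e with ha
  have har : ‖a‖ ≤ r := by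
    rw [ha, norm_smul, Real.norm_eq_abs, abs_of_pos hr]
    exact mul_le_of_le_one_right hr.le he
  set h2 : Eu d → ℝ := fun x => (u x - v x) ^ 2 with hh2
  have hc : Continuous h2 := by fun_prop
  obtain ⟨i1, b1⟩ := shift_bound hKc h0 hc (fun x => sq_nonneg _) a
  obtain ⟨i2, b2⟩ := shift_bound hKc h0 hc (fun x => sq_nonneg _) (-a)
  have i3 := hs.integrable hc
  obtain ⟨i4, b4⟩ := second_diff (R := R) hv hr.le hr2 hvL har hL0
  set Δ : Eu d → ℝ := fun x => max (R + 1 - ‖x‖) 0 * (v (x + a) + v (x - a) - 2 * v x) with hΔ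
  have hΔ0 : ∀ x, 0 ≤ Δ x := fun x => mul_nonneg (le_max_right _ _) (hvc x a)
  have b4' := (integral_uniform_le K i4 hΔ0).trans
    (mul_le_mul_of_nonneg_left b4 ENNReal.toReal_nonneg)
  have i4' : Integrable Δ ρ := integrable_uniform h0 i4
  have i5 : Integrable (K'ᶜ.indicator fun _ => (1 : ℝ)) ρ :=
    (integrable_const _).indicator hK'm.compl
  have b5 : ∫ x, K'ᶜ.indicator (fun _ => (1 : ℝ)) x ∂ρ ≤ d * (r / r0) := by
    rw [integral_indicator hK'm.compl]; simpa using hK'2
  have habs : ∀ᵐ x ∂ρ, |⟪e, T x - T' x⟫| ≤ 2 * L := by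
    filter_upwards [hTL, hTL'] with x h1 h2
    refine (abs_real_inner_le_norm _ _).trans ?_
    have := norm_sub_le (T x) (T' x)
    have := mul_le_of_le_one_left (norm_nonneg (T x - T' x)) he
    linarith
  have i0 : Integrable (fun x => ⟪e, T x - T' x⟫ ^ 2) ρ := by
    refine Integrable.of_bound
      ((measurable_const.inner (hT.sub hT')).pow_const 2).aestronglyMeasurable ((2 * L) ^ 2) ?_
    filter_upwards [habs] with x hx
    rw [norm_pow, Real.norm_eq_abs]; gcongr
  have key : ∀ᵐ x ∂ρ, r ^ 2 * ⟪e, T x - T' x⟫ ^ 2 ≤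
      3 * (K.indicator h2 (x + a) + K.indicator h2 (x + -a) + h2 x) +
      4 * L * r * (Δ x + g x + g' x) + 4 * L ^ 2 * r ^ 2 * K'ᶜ.indicator (fun _ => (1 : ℝ)) x := by
    filter_upwards [habs, ae_uniform hK] with x hx hxK
    have hxR := hR x hxK
    have g0 : 0 ≤ g x := by have := hgu x x hxR; simp at this; linarith
    have g0' : 0 ≤ g' x := by have := hgv x x hxR; simp at this; linarith
    have hc0 : 0 ≤ Δ x + g x + g' x := by linarith [hΔ0 x]
    by_cases hx' : x ∈ K'
    · have m1 : x + a ∈ K := hK'1 x hx' a har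
      have m2 : x + -a ∈ K := hK'1 x hx' (-a) (by simpa using har)
      rw [indicator_of_mem m1, indicator_of_mem m2, indicator_of_notMem (by simpa using hx')]
      have p1 := hgu x _ (hR _ m1)
      have p2 := hgu x _ (hR _ m2)
      have p3 := hgv x _ (hR _ m1)
      have p4 := hgv x _ (hR _ m2)
      simp only [add_sub_cancel_left, inner_neg_right, ha, real_inner_smul_right] at p1 p2 p3 p4
      have hΔ1 : v (x + a) + v (x + -a) - 2 * v x ≤ Δ x := by
        rw [← sub_eq_add_neg]
        exact le_mul_of_one_le_left (hvc x a) (le_max_of_le_left (by linarith))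
      set A := ⟪e, T x - T' x⟫ with hA
      have hA' : A = ⟪T x, e⟫ - ⟪T' x, e⟫ := by
        rw [hA, inner_sub_right, real_inner_comm e, real_inner_comm e]
      simp only [hh2, ← ha] at p1 p2 p3 p4 ⊢
      set α := u (x + a) - v (x + a) with hα
      set β := u (x + -a) - v (x + -a) with hβ
      set γ := u x - v x with hγ
      set c := Δ x + g x + g' x with hcd
      have q1 : r * A ≤ α - γ + c := by rw [hA']; nlinarith
      have q2 : -(r * A) ≤ β - γ + c := by rw [hA']; nlinarith
      have q3 : |r * A| ≤ (|α| + |β| + |γ|) + c := by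
        rw [abs_le]
        constructor
        · linarith [le_abs_self β, neg_abs_le γ, abs_nonneg α]
        · linarith [le_abs_self α, neg_abs_le γ, abs_nonneg β]
      have q4 : |r * A| ≤ r * (2 * L) := by rw [abs_mul, abs_of_pos hr]; gcongr
      have q5 : |r * A| * |r * A| ≤ |r * A| * (|α| + |β| + |γ|) + r * (2 * L) * c := by
        calc |r * A| * |r * A| ≤ |r * A| * ((|α| + |β| + |γ|) + c) := by gcongr
          _ = |r * A| * (|α| + |β| + |γ|) + |r * A| * c := by ring
          _ ≤ _ := by gcongr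
      have q6 : (|α| + |β| + |γ|) ^ 2 ≤ 3 * (α ^ 2 + β ^ 2 + γ ^ 2) := by
        rw [← sq_abs α, ← sq_abs β, ← sq_abs γ]
        nlinarith [sq_nonneg (|α| - |β|), sq_nonneg (|α| - |γ|), sq_nonneg (|β| - |γ|)]
      have q7 : r ^ 2 * A ^ 2 = |r * A| * |r * A| := by rw [abs_mul_abs_self]; ring
      rw [q7]
      nlinarith [sq_nonneg (|r * A| - (|α| + |β| + |γ|))]
    · rw [indicator_of_mem (s := K'ᶜ) (by simpa using hx')]
      have n1 : 0 ≤ K.indicator h2 (x + a) := indicator_nonneg (fun _ _ => sq_nonneg _) _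
      have n2 : 0 ≤ K.indicator h2 (x + -a) := indicator_nonneg (fun _ _ => sq_nonneg _) _
      have n3 : 0 ≤ h2 x := sq_nonneg _
      have n4 : ⟪e, T x - T' x⟫ ^ 2 ≤ (2 * L) ^ 2 := by rw [← sq_abs]; gcongr
      have n5 := mul_le_mul_of_nonneg_left n4 (sq_nonneg r)
      have n6 : 0 ≤ 4 * L * r * (Δ x + g x + g' x) := by positivity
      nlinarith
  have j1 := (i1.fun_add i2).fun_add i3
  have j2 := (i4'.fun_add hg).fun_add hg'
  have fin := integral_mono_ae (i0.const_mul _)
    (((j1.const_mul 3).fun_add (j2.const_mul (4 * L * r))).fun_add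
      (i5.const_mul (4 * L ^ 2 * r ^ 2))) key
  rw [integral_add ((j1.const_mul 3).fun_add (j2.const_mul (4 * L * r))) (i5.const_mul _),
    integral_add (j1.const_mul 3) (j2.const_mul _), integral_const_mul, integral_const_mul,
    integral_const_mul, integral_const_mul, integral_add (i1.fun_add i2) i3, integral_add i1 i2,
    integral_add (i4'.fun_add hg) hg', integral_add i4' hg] at fin
  refine fin.trans ?_
  have : 0 ≤ 4 * L * r := by positivity
  refine add_le_add (add_le_add (by linarith) ?_) (mul_le_mul_of_nonneg_left b5 (by positivity))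
  gcongr

end Crest.Agent.H6OT
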