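import Mathlib
import Crest.Agent.H6.OTKey

/-! Lipschitz stability of semi-discrete Kantorovich potentials. -/

set_option autoImplicit false

namespace Crest.Agent.H6OT

open MeasureTheory Set Filter Topology
open scoped ENNReal RealInnerProductSpace

variable {d : ℕ} {ι : Type} [Fintype ι] [Nonempty ι]

lemma discrete_int {V V' σ σ' : ℚ → ℝ} {c : ℝ}
    (h1 : ∀ s t : ℚ, V t + ((s : ℝ) - t) * σ t ≤ V s)
    (h2 : ∀ s t : ℚ, V' t + ((s : ℝ) - t) * σ' t ≤ V' s) (h3 : ∀ t, σ' t - σ t ≤ c) :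
    V' 1 - V' 0 - (V 1 - V 0) ≤ c := by
  have key : ∀ n : ℕ, V' 1 - V' 0 - (V 1 - V 0) ≤ c + 1 / ((n : ℝ) + 1) * (σ 1 - σ 0) := by
    intro n
    set h : ℚ := 1 / ((n : ℚ) + 1) with hh
    have hR : (h : ℝ) = 1 / ((n : ℝ) + 1) := by simp [hh]
    have h0 : (0 : ℝ) < h := by rw [hR]; positivity
    have ind : ∀ k : ℕ, V' (k * h) - V' 0 - (V (k * h) - V 0) ≤
        k * h * c + h * (σ (k * h) - σ 0) := by
      intro k
      induction k with
      | zero => simp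
      | succ k ih =>
        have a1 := h1 (((k + 1 : ℕ) : ℚ) * h) (k * h)
        have a2 := h2 (k * h) (((k + 1 : ℕ) : ℚ) * h)
        have a3 := mul_le_mul_of_nonneg_left (h3 (((k + 1 : ℕ) : ℚ) * h)) h0.le
        push_cast at a1 a2 a3 ⊢
        nlinarith
    have := ind (n + 1)
    have e : (((n + 1 : ℕ) : ℚ) * h) = 1 := by rw [hh]; push_cast; field_simp
    have e' : (((n + 1 : ℕ) : ℝ) * h) = 1 := by rw [hR]; push_cast; field_simp
    rw [e, e', hR] at this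
    linarith
  have ht : Tendsto (fun n : ℕ => c + 1 / ((n : ℝ) + 1) * (σ 1 - σ 0)) atTop
      (𝓝 (c + 0 * (σ 1 - σ 0))) :=
    tendsto_const_nhds.add (tendsto_one_div_add_atTop_nhds_zero_nat.mul_const _)
  simpa using ge_of_tendsto' ht key

theorem var_bound {ρ : Measure (Eu d)} {R : ℝ} (hR : 0 < R) (hs : Src ρ R) (hP : PL ρ R)
    {y z : ι → Eu d} (hyz : ∀ t : ℚ, Function.Injective fun i => y i + (t : ℝ) • (z i - y i))
    {m m' : ι → ℝ} (hm : ∀ i, 0 < m i) (hm1 : ∑ i, m i = 1) (hm1' : ∑ i, m' i = 1)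
    (hab : ∀ i, m i ≤ 2 * m' i) (hba : ∀ i, m' i ≤ 2 * m i) {ψ ψ' : ι → ℝ}
    (hψ : ∀ i, ρ.real (cell y ψ i) = m i) (hψ' : ∀ i, ρ.real (cell z ψ' i) = m' i)
    {θ : ℝ} (hθ : 0 < θ) :
    ∑ i, (m' i - m i) * (ψ' i - ψ i) ≤
      keyC R * (θ * ∑ i, m i * ‖z i - y i‖ ^ 2 + θ⁻¹ * ∑ i, (m i - m' i) ^ 2 / m i) := by
  set Y : ℚ → ι → Eu d := fun t i => y i + (t : ℝ) • (z i - y i) with hY
  have hm' : ∀ i, 0 < m' i := fun i => by linarith [hm i, hab i]
  have hY0 : Y 0 = y := by ext1 i; simp [hY]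
  have hY1 : Y 1 = z := by ext1 i; simp [hY]
  have hy : Function.Injective y := hY0 ▸ hyz 0
  have hz : Function.Injective z := hY1 ▸ hyz 1
  have ex : ∀ n : ι → ℝ, (∀ i, 0 < n i) → ∑ i, n i = 1 → ∀ t : ℚ, ∃ φ : ι → ℝ,
      ∀ i, ρ.real (cell (Y t) φ i) = n i := by
    intro n hn hn1 t
    obtain ⟨φ, hφ⟩ := exists_weights hs (hyz t) hn hn1 0 le_rfl
    exact ⟨φ, fun i => by simpa using hφ i⟩
  choose φ hφ using ex m hm hm1
  choose φ' hφ' using ex m' hm' hm1'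
  have sub : ∀ (n : ι → ℝ) (χ : ℚ → ι → ℝ), (∀ t i, ρ.real (cell (Y t) (χ t) i) = n i) →
      ∀ s t : ℚ, (∫ x, pot (Y t) (χ t) x ∂ρ + ∑ i, n i * χ t i) +
        ((s : ℝ) - t) * ∑ i, ⟪z i - y i, mom ρ (Y t) (χ t) i⟫ ≤
        ∫ x, pot (Y s) (χ s) x ∂ρ + ∑ i, n i * χ s i := by
    intro n χ hχ s t
    have a1 := mom_eq hs (hyz t) (χ t)
    have a2 := mom_le hs (hyz t) (χ t) (Y s) (χ s)
    change ∑ i, ⟪Y t i, mom ρ (Y t) (χ t) i⟫ =
      ∫ x, pot (Y t) (χ t) x ∂ρ + ∑ i, ρ.real (cell (Y t) (χ t) i) * χ t i at a1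
    change ∑ i, ⟪Y s i, mom ρ (Y t) (χ t) i⟫ ≤
      ∫ x, pot (Y s) (χ s) x ∂ρ + ∑ i, ρ.real (cell (Y t) (χ t) i) * χ s i at a2
    simp only [hχ] at a1 a2
    rw [← a1, Finset.mul_sum, ← Finset.sum_add_distrib]
    refine le_trans (le_of_eq (Finset.sum_congr rfl fun i _ => ?_)) a2
    simp only [hY, inner_add_left, real_inner_smul_left]
    ring
  have main := discrete_int (sub m φ hφ) (sub m' φ' hφ') fun t =>
    key_estimate hR hs hP (hyz t) (φ t) (φ' t) m m' (hφ t) (hφ' t) hm hab hba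
      (fun i => z i - y i) hθ
  have cmp : ∀ (v : ι → Eu d), Function.Injective v → ∀ (χ χ' n : ι → ℝ),
      (∀ i, ρ.real (cell v χ i) = n i) →
      ∫ x, pot v χ x ∂ρ + ∑ i, n i * χ i ≤ ∫ x, pot v χ' x ∂ρ + ∑ i, n i * χ' i := by
    intro v hv χ χ' n hn
    have a1 := mom_eq hs hv χ
    have a2 := mom_le hs hv χ v χ'
    simp only [hn] at a1 a2
    linarith
  have b1 := cmp z hz ψ' (φ' 1) m' hψ'
  have b2 := cmp z hz (φ 1) ψ' m (hY1 ▸ hφ 1)
  have b3 := cmp y hy (φ' 0) ψ m' (hY0 ▸ hφ' 0)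
  have b4 := cmp y hy ψ (φ 0) m hψ
  rw [hY0, hY1] at main
  have e : ∑ i, (m' i - m i) * (ψ' i - ψ i) =
      ∑ i, m' i * ψ' i - ∑ i, m i * ψ' i - ∑ i, m' i * ψ i + ∑ i, m i * ψ i := by
    rw [← Finset.sum_sub_distrib, ← Finset.sum_sub_distrib, ← Finset.sum_add_distrib]
    exact Finset.sum_congr rfl fun i _ => by ring
  linarith

lemma pos_part_bound {ρ : Measure (Eu d)} {R : ℝ} (hs : Src ρ R) {y : ι → Eu d}
    (hy : Function.Injective y) (z : ι → Eu d) (ψ ψ' : ι → ℝ) :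
    ∫ x, max (pot y ψ x - pot z ψ' x) 0 ^ 2 ∂ρ ≤
      ∑ i, ρ.real (cell y ψ i) * (2 * R ^ 2 * ‖z i - y i‖ ^ 2 + 2 * (ψ' i - ψ i) ^ 2) := by
  have := hs.prob
  have hc : Continuous fun x => max (pot y ψ x - pot z ψ' x) 0 ^ 2 := by
    have := continuous_pot y ψ
    have := continuous_pot z ψ'
    fun_prop
  rw [integral_eq_sum_cells hs.ac hy ψ (hs.integrable hc)]
  refine Finset.sum_le_sum fun i _ => ?_
  rw [← smul_eq_mul, ← setIntegral_const]
  refine setIntegral_mono_on_ae (hs.integrable hc).integrableOn (integrable_const _).integrableOn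
    (measurableSet_cell y ψ i) ?_
  filter_upwards [hs.bdd] with x hx hxi
  have h1 := aff_le_pot z ψ' i x
  rw [pot_eq_of_mem hxi]
  have h2 : |⟪z i - y i, x⟫| ≤ R * ‖z i - y i‖ :=
    (abs_real_inner_le_norm _ _).trans (by rw [mul_comm]; gcongr)
  have h3 : max (aff y ψ i x - pot z ψ' x) 0 ≤ R * ‖z i - y i‖ + |ψ' i - ψ i| := by
    refine max_le ?_ (add_nonneg ((abs_nonneg _).trans h2) (abs_nonneg _))
    have := neg_abs_le ⟪z i - y i, x⟫
    have := le_abs_self (ψ' i - ψ i)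
    rw [inner_sub_left] at *
    unfold aff at *
    linarith
  calc max (aff y ψ i x - pot z ψ' x) 0 ^ 2 ≤ (R * ‖z i - y i‖ + |ψ' i - ψ i|) ^ 2 := by
        gcongr
    _ ≤ _ := by nlinarith [sq_nonneg (R * ‖z i - y i‖ - |ψ' i - ψ i|), sq_abs (ψ' i - ψ i)]

/-- The constant of the potential estimate. -/
noncomputable def potC (R : ℝ) : ℝ := 6 * (R ^ 2 + 4 * keyC R ^ 2)

theorem semi_main {ρ : Measure (Eu d)} {R : ℝ} (hR : 0 < R) (hs : Src ρ R) (hP : PL ρ R)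
    {y z : ι → Eu d} (hyz : ∀ t : ℚ, Function.Injective fun i => y i + (t : ℝ) • (z i - y i))
    {m : ι → ℝ} (hm : ∀ i, 0 < m i) (hm1 : ∑ i, m i = 1) {η : ℝ} (hη : 0 < η) :
    ∃ ψ ψ' ψs : ι → ℝ, (∀ i, ρ.real (cell y ψ i) = m i) ∧ (∀ i, ρ.real (cell z ψs i) = m i) ∧
      ∫ x, pot z ψ' x ∂ρ + ∑ i, m i * ψ' i ≤ ∫ x, pot z ψs x ∂ρ + ∑ i, m i * ψs i + η ∧
      ∫ x, (pot y ψ x - pot z ψ' x) ^ 2 ∂ρ ≤ potC R * ∑ i, m i * ‖z i - y i‖ ^ 2 := by
  have hy : Function.Injective y := by simpa using hyz 0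
  have hz : Function.Injective z := by simpa using hyz 1
  obtain ⟨ψ, hψ⟩ := exists_weights hs hy hm hm1 0 le_rfl
  obtain ⟨ψs, hψs⟩ := exists_weights hs hz hm hm1 0 le_rfl
  simp only [zero_mul, add_zero, mul_one] at hψ hψs
  set G := ∑ i, m i * (ψs i - ψ i) ^ 2 with hG
  have hG0 : 0 ≤ G := Finset.sum_nonneg fun i _ => mul_nonneg (hm i).le (sq_nonneg _)
  obtain ⟨ε, hε, hε1, hε2⟩ : ∃ ε : ℝ, 0 < ε ∧ ε * G ≤ η ∧ ∀ i, ε ^ 2 * G ≤ m i / 4 := by
    have t1 : Tendsto (fun ε : ℝ => ε * G) (𝓝[>] 0) (𝓝 0) := by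
      have : Tendsto (fun ε : ℝ => ε * G) (𝓝 0) (𝓝 (0 * G)) := (continuous_mul_const G).tendsto 0
      rw [zero_mul] at this
      exact this.mono_left nhdsWithin_le_nhds
    have t2 : Tendsto (fun ε : ℝ => ε ^ 2 * G) (𝓝[>] 0) (𝓝 0) := by
      have : Tendsto (fun ε : ℝ => ε ^ 2 * G) (𝓝 0) (𝓝 (0 ^ 2 * G)) :=
        (by fun_prop : Continuous fun ε : ℝ => ε ^ 2 * G).tendsto 0
      simp only [ne_eq, OfNat.ofNat_ne_zero, not_false_eq_true, zero_pow, zero_mul] at this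
      exact this.mono_left nhdsWithin_le_nhds
    have e1 := t1.eventually (ge_mem_nhds hη)
    have e2 : ∀ᶠ ε : ℝ in 𝓝[>] 0, ∀ i, ε ^ 2 * G ≤ m i / 4 :=
      eventually_all.mpr fun i => t2.eventually (ge_mem_nhds (by linarith [hm i]))
    exact ((eventually_mem_nhdsWithin (a := (0 : ℝ)) (s := Ioi 0)).and (e1.and e2)).exists
  obtain ⟨ψ', hψ'⟩ := exists_weights hs hz hm hm1 ψ hε.le
  set h : ι → ℝ := fun i => ψ' i - ψ i with hh
  set m' : ι → ℝ := fun i => m i * (1 + ε * h i) with hm'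
  set V := ∑ i, m i * h i ^ 2 with hV
  have hm1' : ∑ i, m' i = 1 := by
    rw [← sum_mass hs hz ψ']; exact Finset.sum_congr rfl fun i _ => (hψ' i).symm
  have a1 := mom_eq hs hz ψ'
  have a2 := mom_le hs hz ψ' z ψs
  have a3 := mom_eq hs hz ψs
  have a4 := mom_le hs hz ψs z ψ'
  simp only [hψ', hψs] at a1 a2 a3 a4
  have e1 : ∑ i, m i * (1 + ε * (ψ' i - ψ i)) * ψs i - ∑ i, m i * (1 + ε * (ψ' i - ψ i)) * ψ' i
      = ∑ i, m i * ψs i - ∑ i, m i * ψ' i +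
        ε * ∑ i, m i * (h i * (ψs i - ψ i) - h i ^ 2) := by
    rw [Finset.mul_sum, ← Finset.sum_sub_distrib, ← Finset.sum_sub_distrib,
      ← Finset.sum_add_distrib]
    exact Finset.sum_congr rfl fun i _ => by simp only [hh]; ring
  have e2 : ∑ i, m i * (h i * (ψs i - ψ i) - h i ^ 2) ≤ (G - V) / 2 := by
    rw [hG, hV, ← Finset.sum_sub_distrib, Finset.sum_div]
    refine Finset.sum_le_sum fun i _ => ?_
    nlinarith [mul_nonneg (hm i).le (sq_nonneg (h i - (ψs i - ψ i)))]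
  have e3 := mul_le_mul_of_nonneg_left e2 hε.le
  have hV0 : 0 ≤ V := Finset.sum_nonneg fun i _ => mul_nonneg (hm i).le (sq_nonneg _)
  have hVG : V ≤ G := by
    have : 0 ≤ ε * ((G - V) / 2) := by linarith
    have := (mul_nonneg_iff_of_pos_left hε).mp this
    linarith
  have hεh : ∀ i, |ε * h i| ≤ 1 / 2 := by
    intro i
    have h1 : m i * h i ^ 2 ≤ V := Finset.single_le_sum (f := fun i => m i * h i ^ 2)
      (fun i _ => mul_nonneg (hm i).le (sq_nonneg _)) (Finset.mem_univ i)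
    have h2 : m i * (ε * h i) ^ 2 ≤ m i * (1 / 2) ^ 2 := by
      have := mul_le_mul_of_nonneg_left (h1.trans hVG) (sq_nonneg ε)
      nlinarith [hε2 i]
    exact abs_le_of_sq_le_sq (le_of_mul_le_mul_left h2 (hm i)) (by norm_num)
  have hab : ∀ i, m i ≤ 2 * m' i := fun i => by
    have := (abs_le.mp (hεh i)).1
    simp only [hm']; nlinarith [hm i]
  have hba : ∀ i, m' i ≤ 2 * m i := fun i => by
    have := (abs_le.mp (hεh i)).2
    simp only [hm']; nlinarith [hm i]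
  have hC : 0 < keyC R := by unfold keyC; positivity
  set W := ∑ i, m i * ‖z i - y i‖ ^ 2 with hW
  have hVW : V ≤ 4 * keyC R ^ 2 * W := by
    have k := var_bound hR hs hP hyz hm hm1 hm1' hab hba hψ hψ'
      (θ := 2 * keyC R * ε) (by positivity)
    have f1 : ∑ i, (m' i - m i) * (ψ' i - ψ i) = ε * V := by
      rw [hV, Finset.mul_sum]
      exact Finset.sum_congr rfl fun i _ => by simp only [hm', hh]; ring
    have f2 : ∑ i, (m i - m' i) ^ 2 / m i = ε ^ 2 * V := by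
      rw [hV, Finset.mul_sum]
      refine Finset.sum_congr rfl fun i _ => ?_
      have := (hm i).ne'
      simp only [hm']; field_simp; ring
    rw [f1, f2, ← hW] at k
    have f3 : keyC R * (2 * keyC R * ε * W + (2 * keyC R * ε)⁻¹ * (ε ^ 2 * V)) =
        ε * (2 * keyC R ^ 2 * W + V / 2) := by field_simp
    rw [f3] at k
    have := le_of_mul_le_mul_left k hε
    linarith
  refine ⟨ψ, ψ', ψs, hψ, hψs, ?_, ?_⟩
  · have : ε * ((G - V) / 2) ≤ ε * G := by gcongr; linarith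
    linarith
  · have c1 := continuous_pot y ψ
    have c2 := continuous_pot z ψ'
    have p1 := pos_part_bound hs hy z ψ ψ'
    have p2 := pos_part_bound hs hz y ψ' ψ
    have e : ∫ x, (pot y ψ x - pot z ψ' x) ^ 2 ∂ρ =
        ∫ x, max (pot y ψ x - pot z ψ' x) 0 ^ 2 ∂ρ +
          ∫ x, max (pot z ψ' x - pot y ψ x) 0 ^ 2 ∂ρ := by
      rw [← integral_add (hs.integrable (by fun_prop)) (hs.integrable (by fun_prop))]
      congr 1; ext x
      rcases le_total (pot y ψ x) (pot z ψ' x) with h | h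
      · rw [max_eq_right (by linarith), max_eq_left (by linarith)]; ring
      · rw [max_eq_left (by linarith), max_eq_right (by linarith)]; ring
    have q1 : ∑ i, ρ.real (cell y ψ i) * (2 * R ^ 2 * ‖z i - y i‖ ^ 2 + 2 * (ψ' i - ψ i) ^ 2) =
        2 * R ^ 2 * W + 2 * V := by
      rw [hW, hV, Finset.mul_sum, Finset.mul_sum, ← Finset.sum_add_distrib]
      exact Finset.sum_congr rfl fun i _ => by rw [hψ]; simp only [hh]; ring
    have q2 : ∑ i, ρ.real (cell z ψ' i) * (2 * R ^ 2 * ‖y i - z i‖ ^ 2 + 2 * (ψ i - ψ' i) ^ 2) ≤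
        2 * (2 * R ^ 2 * W + 2 * V) := by
      rw [← q1, Finset.mul_sum]
      refine Finset.sum_le_sum fun i _ => ?_
      rw [hψ, hψ', norm_sub_rev (y i), ← mul_assoc,
        show (ψ i - ψ' i) ^ 2 = (ψ' i - ψ i) ^ 2 by ring]
      exact mul_le_mul_of_nonneg_right (hba i) (by positivity)
    rw [e]
    unfold potC
    nlinarith

end Crest.Agent.H6OT
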