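import Mathlib
import Crest.Agent.H6.OTVar
import Crest.Agent.H6.OTMaps
import Crest.Agent.H6.OTRev

/-! Quantisation of couplings and the main stability estimate. -/

set_option autoImplicit false

namespace Crest.Agent.H6OT

open MeasureTheory Set Filter Topology Crest.AnalysisR.OT
open scoped ENNReal RealInnerProductSpace

variable {d : ℕ}

theorem quantize [Nontrivial (Eu d)] (π : Measure (Eu d × Eu d)) [IsProbabilityMeasure π] {L : ℝ}
    (hL : ∀ᵐ p ∂π, ‖p.1‖ ≤ L ∧ ‖p.2‖ ≤ L) {δ : ℝ} (hδ : 0 < δ) :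
    ∃ (ι : Type) (_ : Fintype ι) (_ : Nonempty ι) (y z : ι → Eu d) (P : ι → Set (Eu d × Eu d)),
      π = Measure.sum (fun i => π.restrict (P i)) ∧ (∀ i, 0 < π.real (P i)) ∧
      (∀ i, ∀ᵐ p ∂π.restrict (P i), ‖p.1 - y i‖ ≤ δ ∧ ‖p.2 - z i‖ ≤ δ) ∧
      (∀ i, ‖z i‖ ≤ L + δ) ∧
      ∀ t : ℚ, Function.Injective fun i => y i + (t : ℝ) • (z i - y i) := by
  classical
  have hB : IsCompact (Metric.closedBall (0 : Eu d) L ×ˢ Metric.closedBall (0 : Eu d) L) :=
    (isCompact_closedBall _ _).prod (isCompact_closedBall _ _)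
  obtain ⟨t, htB, htf, hcov⟩ := finite_cover_balls_of_compact hB (half_pos hδ)
  obtain ⟨n, c, hc⟩ := htf.fin_param
  obtain ⟨-, hc⟩ := hc
  set P : Fin n → Set (Eu d × Eu d) := fun i =>
    Metric.ball (c i) (δ / 2) ∩ ⋂ j, {p | j < i → p ∉ Metric.ball (c j) (δ / 2)} with hP
  have hPm : ∀ i, MeasurableSet (P i) := fun i =>
    measurableSet_ball.inter (MeasurableSet.iInter fun j => by
      by_cases h : j < i
      · simp only [h, forall_const]
        exact (measurableSet_ball (x := c j) (ε := δ / 2)).compl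
      · simp [h])
  have hPd : Pairwise (Function.onFun Disjoint P) := by
    intro i j hij
    refine Set.disjoint_left.mpr fun p hi hj => ?_
    rcases lt_or_gt_of_ne hij with h | h
    · exact mem_iInter.mp hj.2 i h hi.1
    · exact mem_iInter.mp hi.2 j h hj.1
  have hae : ∀ᵐ p ∂π, p ∈ ⋃ i : {i // π (P i) ≠ 0}, P i := by
    have h0 : ∀ᵐ p ∂π, ∀ i, π (P i) = 0 → p ∉ P i := ae_all_iff.mpr fun i => by
      by_cases h : π (P i) = 0
      · filter_upwards [measure_eq_zero_iff_ae_notMem.mp h] with p hp _ using hp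
      · simp [h]
    filter_upwards [hL, h0] with p hp h0
    have h1 := hcov (show p ∈ _ ×ˢ _ from ⟨by simpa using hp.1, by simpa using hp.2⟩)
    simp only [mem_iUnion] at h1
    obtain ⟨x, hx, hpx⟩ := h1
    rw [← hc] at hx
    obtain ⟨i, rfl⟩ := hx
    obtain ⟨k, hk, hmin⟩ := (Finset.univ.filter fun j => p ∈ Metric.ball (c j) (δ / 2)).exists_min_image
      id ⟨i, by simpa using hpx⟩
    have hk' : p ∈ P k := ⟨by simpa using hk, mem_iInter.mpr fun j hj hpj =>
      absurd (hmin j (by simpa using hpj)) (not_le.mpr hj)⟩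
    exact mem_iUnion.mpr ⟨⟨k, fun h => h0 k h hk'⟩, hk'⟩
  have hne : Nonempty {i // π (P i) ≠ 0} := by
    obtain ⟨p, hp⟩ := hae.exists
    obtain ⟨i, -⟩ := mem_iUnion.mp hp
    exact ⟨i⟩
  obtain ⟨e, he⟩ := exists_norm_eq (Eu d) zero_le_one
  set bad : Set ℝ := ⋃ (q : ℚ) (i : Fin n) (j : Fin n), {s | i ≠ j ∧
    (c i).1 + (s * i) • e + (q : ℝ) • ((c i).2 - (c i).1) =
      (c j).1 + (s * j) • e + (q : ℝ) • ((c j).2 - (c j).1)} with hbad
  have hbc : bad.Countable := by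
    refine countable_iUnion fun q => countable_iUnion fun i => countable_iUnion fun j =>
      Set.Subsingleton.countable ?_
    rintro s ⟨hij, hs⟩ s' ⟨-, hs'⟩
    have h1 : ((s - s') * ((i : ℝ) - j)) • e = 0 := by
      have := congrArg₂ (· - ·) hs hs'
      simp only [add_sub_add_right_eq_sub, add_sub_add_left_eq_sub] at this
      rw [← sub_smul, ← sub_smul, ← sub_eq_zero, ← sub_smul] at this
      rw [← this]; congr 1; ring
    have he0 : e ≠ 0 := fun h => by simp [h] at he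
    rcases mul_eq_zero.mp ((smul_eq_zero.mp h1).resolve_right he0) with h | h
    · linarith
    · exact absurd (Fin.ext (by exact_mod_cast sub_eq_zero.mp h)) hij
  obtain ⟨s, hs, hs0, hs1⟩ := (hbc.dense_compl ℝ).exists_between
    (show (0 : ℝ) < δ / 2 / (n + 1) by positivity)
  have hsm : ∀ i : Fin n, ‖(s * i) • e‖ ≤ δ / 2 := by
    intro i
    rw [norm_smul, he, mul_one, Real.norm_eq_abs, abs_of_nonneg (by positivity)]
    have h1 : ((i : ℕ) : ℝ) ≤ n + 1 := by exact_mod_cast (i.2.le.trans (Nat.le_succ n))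
    rw [lt_div_iff₀ (by positivity)] at hs1
    nlinarith
  refine ⟨{i // π (P i) ≠ 0}, inferInstance, hne, fun i => (c i).1 + (s * (i : Fin n)) • e,
    fun i => (c i).2 + (s * (i : Fin n)) • e, fun i => P i, ?_, fun i => ?_, fun i => ?_,
    fun i => ?_, fun q i j hij => ?_⟩
  · rw [← Measure.restrict_iUnion (s := fun i : {i // π (P i) ≠ 0} => P i)
      (fun i j hij => hPd (Subtype.coe_ne_coe.mpr hij))
      fun i => hPm _, Measure.restrict_eq_self_of_ae_mem hae]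
  · exact ENNReal.toReal_pos i.2 (measure_ne_top _ _)
  · filter_upwards [ae_restrict_mem (hPm i)] with p hp
    have h1 : dist p (c i) < δ / 2 := hp.1
    rw [Prod.dist_eq, max_lt_iff, dist_eq_norm, dist_eq_norm] at h1
    constructor
    · rw [← sub_sub]; linarith [norm_sub_le (p.1 - (c i).1) ((s * (i : Fin n)) • e), hsm i]
    · rw [← sub_sub]; linarith [norm_sub_le (p.2 - (c i).2) ((s * (i : Fin n)) • e), hsm i]
  · have h1 : c i ∈ t := hc ▸ mem_range_self _
    have h2 : ‖(c i).2‖ ≤ L := by simpa using (htB h1).2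
    linarith [norm_add_le (c i).2 ((s * (i : Fin n)) • e), hsm i]
  · by_contra hne
    refine hs (mem_iUnion.mpr ⟨q, mem_iUnion.mpr ⟨i, mem_iUnion.mpr ⟨j,
      Subtype.coe_ne_coe.mpr hne, ?_⟩⟩⟩)
    simpa only [add_sub_add_right_eq_sub] using hij

lemma pot_lip {ι : Type} [Fintype ι] [Nonempty ι] {z : ι → Eu d} {L : ℝ} (hz : ∀ i, ‖z i‖ ≤ L)
    (ψ : ι → ℝ) (x x' : Eu d) : |pot z ψ x - pot z ψ x'| ≤ L * ‖x - x'‖ := by
  have key : ∀ x x' : Eu d, pot z ψ x ≤ pot z ψ x' + L * ‖x - x'‖ := fun x x' =>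
    pot_le fun i => by
      have h1 := aff_le_pot z ψ i x'
      have h2 : ⟪z i, x - x'⟫ ≤ L * ‖x - x'‖ :=
        (real_inner_le_norm _ _).trans (by gcongr; exact hz i)
      rw [inner_sub_right] at h2
      unfold aff at *; linarith
  rw [abs_le]
  constructor
  · have := key x' x
    rw [norm_sub_rev] at this; linarith
  · linarith [key x x']

lemma pot_convex {ι : Type} [Fintype ι] [Nonempty ι] (z : ι → Eu d) (ψ : ι → ℝ) (x a : Eu d) :
    0 ≤ pot z ψ (x + a) + pot z ψ (x - a) - 2 * pot z ψ x := by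
  obtain ⟨i, hi⟩ := exists_pot_eq z ψ x
  have h1 := aff_le_pot z ψ i (x + a)
  have h2 := aff_le_pot z ψ i (x - a)
  rw [hi]
  simp only [aff, inner_add_right, inner_sub_right] at *
  linarith

lemma le_of_small {X A B : ℝ} (h : ∀ δ, 0 < δ → δ ≤ 1 → X ≤ A + δ * B) : X ≤ A := by
  have t : Tendsto (fun δ : ℝ => A + δ * B) (𝓝[>] 0) (𝓝 (A + 0 * B)) :=
    ((by fun_prop : Continuous fun δ : ℝ => A + δ * B).tendsto 0).mono_left nhdsWithin_le_nhds
  have := ge_of_tendsto t (by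
    filter_upwards [Ioc_mem_nhdsGT (show (0 : ℝ) < 1 by norm_num)] with δ hδ using h δ hδ.1 hδ.2)
  simpa using this

theorem main_real [Nontrivial (Eu d)] {K : Set (Eu d)} (hKc : IsCompact K) (hKv : Convex ℝ K)
    (h0 : volume K ≠ 0) {R : ℝ} (hR0 : 0 < R) (hR : ∀ x ∈ K, ‖x‖ ≤ R)
    {x0 : Eu d} {r0 r : ℝ} (hr0 : 0 < r0) (hb : Metric.closedBall x0 r0 ⊆ K) (hr : 0 < r)
    (hr1 : r ≤ r0) (hr2 : r ≤ 1) {L : ℝ} (hL0 : 0 ≤ L) {μ ν : Measure (Eu d)}
    (hμ : ∀ᵐ v ∂μ, ‖v‖ ≤ L) (hν : ∀ᵐ v ∂ν, ‖v‖ ≤ L) {T T' : Eu d → Eu d}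
    (hT : IsOptimalMap (uniformProbOn K) μ T) (hT' : IsOptimalMap (uniformProbOn K) ν T')
    {π : Measure (Eu d × Eu d)} [IsProbabilityMeasure π] (hπ : IsPairCoupling μ ν π)
    {e : Eu d} (he : ‖e‖ ≤ 1) :
    r ^ 2 * ∫ x, ⟪e, T x - T' x⟫ ^ 2 ∂uniformProbOn K ≤
      18 * potC R * ∫ p, ‖p.1 - p.2‖ ^ 2 ∂π +
      r ^ 3 * (4 * (L + 1) ^ 2 * ((volume K)⁻¹.toReal *
        volume.real (Metric.closedBall (0 : Eu d) (R + 2)) + d / r0)) := by
  have hK := hKc.measurableSet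
  have hs := src_uniform hK h0 hKc.measure_lt_top.ne hR
  have hP := pl_uniform hK hKv hR
  have hL : ∀ᵐ p ∂π, ‖p.1‖ ≤ L ∧ ‖p.2‖ ≤ L :=
    (ae_of_ae_map (p := fun v => ‖v‖ ≤ L) measurable_fst.aemeasurable (hπ.1 ▸ hμ)).and
      (ae_of_ae_map (p := fun v => ‖v‖ ≤ L) measurable_snd.aemeasurable (hπ.2 ▸ hν))
  have hC : 0 ≤ potC R := by unfold potC; positivity
  refine le_of_small (B := 72 * potC R + 4 * (L + 1) * r * (4 * R + 1)) fun δ hδ hδ1 => ?_
  obtain ⟨ι, _, _, y, z, P, hsum, hm, hyzδ, hzL, hyz⟩ := quantize π hL hδ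
  set m : ι → ℝ := fun i => π.real (P i) with hmd
  have hm1 : ∑ i, m i = 1 := by
    have h1 : π univ = ∑ i, π (P i) := by
      conv_lhs => rw [hsum]
      simp [Measure.sum_fintype]
    simp only [hmd, measureReal_def]
    rw [← ENNReal.toReal_sum fun i _ => measure_ne_top _ _, ← h1]
    simp
  have hy : Function.Injective y := by simpa using hyz 0
  have hz : Function.Injective z := by simpa using hyz 1
  obtain ⟨ψ, ψ', ψs, hψ, hψs, hnear, hvar⟩ := semi_main hR0 hs hP hyz hm hm1 hδ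
  have dec : ∀ f : Eu d × Eu d → Eu d, Measurable f →
      π.map f = ∑ i, (π.restrict (P i)).map f := by
    intro f hf
    conv_lhs => rw [hsum]
    rw [Measure.map_sum hf.aemeasurable, Measure.sum_fintype]
  have mass : ∀ f : Eu d × Eu d → Eu d, Measurable f → ∀ i,
      ((π.restrict (P i)).map f).real univ = m i := by
    intro f hf i
    simp [measureReal_def, Measure.map_apply hf, hmd]
  have mb : ∀ v : Eu d, MeasurableSet {x : Eu d | ‖x - v‖ ≤ δ} := fun v =>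
    measurableSet_le (by fun_prop) measurable_const
  obtain ⟨g, hg, hg1, hg2⟩ := exists_gap hR0.le hs hT hμ hy hm1
    (hπ.1.symm.trans (dec _ measurable_fst)) (mass _ measurable_fst)
    (fun i => (ae_map_iff measurable_fst.aemeasurable (mb _)).mpr
      ((hyzδ i).mono fun p hp => hp.1)) hψ ψ
  obtain ⟨g', hg', hg1', hg2'⟩ := exists_gap hR0.le hs hT' hν hz hm1
    (hπ.2.symm.trans (dec _ measurable_snd)) (mass _ measurable_snd)
    (fun i => (ae_map_iff measurable_snd.aemeasurable (mb _)).mpr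
      ((hyzδ i).mono fun p hp => hp.2)) hψs ψ'
  have key := rev_poincare hKc hKv h0 hR hr0 hb hr hr1 hr2 (L := L + 1) (by linarith)
    (continuous_pot y ψ) (continuous_pot z ψ')
    (pot_lip (fun i => (hzL i).trans (by linarith)) ψ') (pot_convex z ψ') hg hg' hT.1 hT'.1
    ((ae_push hT.1 hT.2.1 hμ).mono fun x hx => hx.trans (by linarith))
    ((ae_push hT'.1 hT'.2.1 hν).mono fun x hx => hx.trans (by linarith)) hg1 hg1' he
  have iq : Integrable (fun p : Eu d × Eu d => ‖p.1 - p.2‖ ^ 2) π := by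
    refine Integrable.of_bound (by fun_prop) ((2 * L) ^ 2) ?_
    filter_upwards [hL] with p hp
    rw [norm_pow, norm_norm]
    gcongr
    linarith [norm_sub_le p.1 p.2]
  have hW : ∑ i, m i * ‖z i - y i‖ ^ 2 ≤ 2 * ∫ p, ‖p.1 - p.2‖ ^ 2 ∂π + 8 * δ ^ 2 := by
    have e1 : ∫ p, ‖p.1 - p.2‖ ^ 2 ∂π = ∑ i, ∫ p in P i, ‖p.1 - p.2‖ ^ 2 ∂π := by
      conv_lhs => rw [hsum, Measure.sum_fintype]
      exact integral_finsetSum_measure fun i _ => iq.integrableOn
    have e2 : 8 * δ ^ 2 = ∑ i, m i * (8 * δ ^ 2) := by rw [← Finset.sum_mul, hm1, one_mul]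
    rw [e1, e2, Finset.mul_sum, ← Finset.sum_add_distrib]
    refine Finset.sum_le_sum fun i _ => ?_
    have e3 : 2 * ∫ p in P i, ‖p.1 - p.2‖ ^ 2 ∂π + m i * (8 * δ ^ 2) =
        ∫ p in P i, (2 * ‖p.1 - p.2‖ ^ 2 + 8 * δ ^ 2) ∂π := by
      rw [integral_add (iq.const_mul 2).integrableOn (integrable_const _), integral_const_mul]
      simp [hmd]
    have e4 : m i * ‖z i - y i‖ ^ 2 = ∫ _p in P i, ‖z i - y i‖ ^ 2 ∂π := by simp [hmd]
    rw [e3, e4]
    refine integral_mono_ae (integrable_const _)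
      ((iq.const_mul 2).integrableOn.add (integrable_const _)) ?_
    filter_upwards [hyzδ i] with p hp
    have h1 : ‖z i - y i‖ ≤ ‖p.1 - p.2‖ + 2 * δ := by
      have : z i - y i = -(p.2 - z i) + (p.1 - y i) - (p.1 - p.2) := by abel
      rw [this]
      refine (norm_sub_le _ _).trans ?_
      have := norm_add_le (-(p.2 - z i)) (p.1 - y i)
      rw [norm_neg] at this
      linarith [hp.1, hp.2]
    calc ‖z i - y i‖ ^ 2 ≤ (‖p.1 - p.2‖ + 2 * δ) ^ 2 := by gcongr
      _ ≤ _ := by nlinarith [sq_nonneg (‖p.1 - p.2‖ - 2 * δ)]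
  have h1 := hvar.trans (mul_le_mul_of_nonneg_left hW hC)
  have h2 : potC R * (8 * δ ^ 2) ≤ potC R * (8 * δ) := by gcongr; nlinarith
  have h3 : 4 * (L + 1) * r * (∫ x, g x ∂uniformProbOn K + ∫ x, g' x ∂uniformProbOn K) ≤
      4 * (L + 1) * r * (δ * (4 * R + 1)) := by
    gcongr
    linarith
  have e : r ^ 3 * (4 * (L + 1) ^ 2 * ((volume K)⁻¹.toReal *
        volume.real (Metric.closedBall (0 : Eu d) (R + 2)) + d / r0)) =
      4 * (L + 1) * r * ((volume K)⁻¹.toReal *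
        ((L + 1) * r ^ 2 * volume.real (Metric.closedBall (0 : Eu d) (R + 2)))) +
      4 * (L + 1) ^ 2 * r ^ 2 * (d * (r / r0)) := by ring
  rw [e]
  nlinarith

end Crest.Agent.H6OT
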