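import Mathlib
import Crest.Agent.H6.OTMaps
import Crest.Agent.H6.OTRev

/-! Semi-discrete optimal maps; the three-atom example on the cube. -/

set_option autoImplicit false

namespace Crest.Agent.H6OT

open MeasureTheory Set Filter Topology Crest.AnalysisR.OT ProbabilityTheory
open scoped ENNReal RealInnerProductSpace

variable {d : ℕ}

theorem semi_opt {ι : Type} [Fintype ι] [Nonempty ι] {ρ : Measure (Eu d)} {R : ℝ} (hs : Src ρ R)
    {y : ι → Eu d} (hy : Function.Injective y) (ψ : ι → ℝ) {m : ι → ℝ}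
    (hm : ∀ i, ρ.real (cell y ψ i) = m i) :
    (∃ T, IsOptimalMap ρ (∑ i, ENNReal.ofReal (m i) • Measure.dirac (y i)) T) ∧
    ∀ T, IsOptimalMap ρ (∑ i, ENNReal.ofReal (m i) • Measure.dirac (y i)) T →
      ∀ i, ∀ᵐ x ∂ρ, x ∈ cell y ψ i → T x = y i := by
  classical
  have := hs.prob
  set μ : Measure (Eu d) := ∑ i, ENNReal.ofReal (m i) • Measure.dirac (y i) with hμ
  have hm0 : ∀ i, 0 ≤ m i := fun i => hm i ▸ measureReal_nonneg
  have hae : ∀ᵐ v ∂μ, ∃ i, v = y i := by
    rw [hμ, ← Measure.sum_fintype, Measure.ae_sum_iff]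
    intro i
    exact Measure.ae_smul_measure (by simp only [ae_dirac_eq, eventually_pure]; exact ⟨i, rfl⟩) _
  set L := ∑ i, ‖y i‖ with hL
  have hLμ : ∀ᵐ v ∂μ, ‖v‖ ≤ L := hae.mono fun v ⟨i, hi⟩ => hi ▸
    Finset.single_le_sum (f := fun i => ‖y i‖) (fun _ _ => norm_nonneg _) (Finset.mem_univ i)
  set ph : Eu d → ℝ := fun v => ∑ i, ({y i} : Set (Eu d)).indicator (fun _ => ψ i) v with hph
  have hphm : Measurable ph :=
    Finset.measurable_sum _ fun i _ => measurable_const.indicator (measurableSet_singleton _)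
  have hphy : ∀ i, ph (y i) = ψ i := by
    intro i
    simp only [hph]
    rw [Finset.sum_eq_single i (fun j _ hj => indicator_of_notMem (s := {y j})
      (fun h => hj (hy h).symm) _) (by simp)]
    simp
  have gap : ∀ S : Eu d → Eu d, Measurable S → ρ.map S = μ →
      Integrable (fun x => pot y ψ x + ph (S x) - ⟪S x, x⟫) ρ ∧
      (∀ᵐ x ∂ρ, ∃ j, S x = y j ∧ pot y ψ x + ph (S x) - ⟪S x, x⟫ = pot y ψ x - aff y ψ j x) ∧
      ∫ x, (pot y ψ x + ph (S x) - ⟪S x, x⟫) ∂ρ =
        ∫ x, pot y ψ x ∂ρ + ∑ i, m i * ψ i - ∫ x, ⟪S x, x⟫ ∂ρ := by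
    intro S hS hSμ
    have i1 : Integrable (fun x => ph (S x)) ρ := by
      refine Integrable.of_bound (hphm.comp hS).aestronglyMeasurable (∑ i, ‖ψ i‖) ?_
      filter_upwards [ae_push hS hSμ hae] with x ⟨i, hi⟩
      rw [hi, hphy]
      exact Finset.single_le_sum (f := fun i => ‖ψ i‖) (fun _ _ => norm_nonneg _)
        (Finset.mem_univ i)
    have i2 := integrable_inner_map hs hS hSμ hLμ
    have i3 := hs.integrable (continuous_pot y ψ)
    refine ⟨(i3.add i1).sub i2, ?_, ?_⟩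
    · filter_upwards [ae_push hS hSμ hae] with x ⟨i, hi⟩
      exact ⟨i, hi, by rw [hi, hphy]; unfold aff; ring⟩
    · rw [integral_sub (i3.fun_add i1) i2, integral_add i3 i1,
        ← integral_map hS.aemeasurable hphm.aestronglyMeasurable, hSμ, hμ,
        integral_finsetSum_measure fun i _ =>
          (integrable_dirac (by simp)).smul_measure ENNReal.ofReal_ne_top]
      simp [hphy, ENNReal.toReal_ofReal (hm0 _)]
  obtain ⟨T0, hT0, hT0y, hT0μ⟩ := exists_glue hs.ac hy ψ (fun i _ => y i)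
    fun i => measurable_const
  have hT0μ' : ρ.map T0 = μ := by
    rw [hT0μ, hμ]
    refine Finset.sum_congr rfl fun i _ => ?_
    rw [Measure.map_const, Measure.restrict_apply_univ, ← hm, ofReal_measureReal]
  have val : ∫ x, ⟪T0 x, x⟫ ∂ρ = ∫ x, pot y ψ x ∂ρ + ∑ i, m i * ψ i := by
    have h1 := mom_eq hs hy ψ
    simp only [hm] at h1
    rw [← h1, integral_eq_sum_cells hs.ac hy ψ (integrable_inner_map hs hT0 hT0μ' hLμ)]
    refine Finset.sum_congr rfl fun i _ => ?_
    rw [setIntegral_congr_fun (measurableSet_cell y ψ i)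
      (g := fun x => ⟪y i, x⟫) fun x hx => by simp only [hT0y i x hx]]
    exact integral_inner (hs.integrable continuous_id').integrableOn _
  have nn : ∀ S : Eu d → Eu d, Measurable S → ρ.map S = μ →
      0 ≤ᵐ[ρ] fun x => pot y ψ x + ph (S x) - ⟪S x, x⟫ := by
    intro S hS hSμ
    filter_upwards [(gap S hS hSμ).2.1] with x ⟨j, _, hj⟩
    rw [hj]; exact sub_nonneg.mpr (aff_le_pot y ψ j x)
  refine ⟨⟨T0, opt_of_inner hs hT0 hT0μ' hLμ fun S hS hSμ => ?_⟩, fun T hT i => ?_⟩
  · have := integral_nonneg_of_ae (nn S hS hSμ)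
    rw [(gap S hS hSμ).2.2] at this
    linarith
  · obtain ⟨g1, g2, g3⟩ := gap T hT.1 hT.2.1
    have h1 := opt_inner hs hT hT0 hT0μ' hLμ
    have h2 := (integral_eq_zero_iff_of_nonneg_ae (nn T hT.1 hT.2.1) g1).mp
      (le_antisymm (by rw [g3]; linarith) (integral_nonneg_of_ae (nn T hT.1 hT.2.1)))
    filter_upwards [h2, g2] with x h2 ⟨j, hj, hj'⟩ hx
    by_cases hji : j = i
    · rw [hj, hji]
    · have h3 := hx j hji
      rw [hj', pot_eq_of_mem hx] at h2
      simp only [Pi.zero_apply] at h2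
      linarith

/-- The cube. -/
def cube (d : ℕ) : Set (Eu d) := {x | ∀ i, |x i| ≤ 1}

lemma cube_eq : cube d = WithLp.ofLp ⁻¹' (Set.pi univ fun _ => Icc (-1 : ℝ) 1) := by
  ext x; simp [cube, abs_le, Pi.le_def, forall_and]

lemma volume_cube_inter (s : Fin d → Set ℝ) (hs : ∀ i, MeasurableSet (s i)) :
    volume (WithLp.ofLp ⁻¹' (Set.pi univ s) ∩ cube d) = ∏ i, volume (s i ∩ Icc (-1 : ℝ) 1) := by
  rw [cube_eq, ← preimage_inter, ← pi_inter_distrib,
    (PiLp.volume_preserving_ofLp (Fin d)).measure_preimage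
      (MeasurableSet.univ_pi fun i => (hs i).inter measurableSet_Icc).nullMeasurableSet,
    volume_pi_pi]

lemma volume_cube : volume (cube d) = 2 ^ d := by
  have := volume_cube_inter (d := d) (fun _ => univ) fun _ => MeasurableSet.univ
  simp only [pi_univ, preimage_univ, univ_inter, Real.volume_Icc, Finset.prod_const,
    Finset.card_univ, Fintype.card_fin] at this
  rw [this]; norm_num

lemma measurableSet_cube : MeasurableSet (cube d) := by
  rw [cube_eq]
  exact (PiLp.volume_preserving_ofLp (Fin d)).measurable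
    (MeasurableSet.univ_pi fun i => measurableSet_Icc)

/-- Uniform law on `[-1, 1]`. -/
noncomputable def UU : Measure ℝ := (2 : ℝ≥0∞)⁻¹ • volume.restrict (Icc (-1 : ℝ) 1)

lemma UU_apply {s : Set ℝ} (hs : MeasurableSet s) : UU s = 2⁻¹ * volume (s ∩ Icc (-1 : ℝ) 1) := by
  simp [UU, Measure.restrict_apply hs]

instance : IsProbabilityMeasure UU := ⟨by
  rw [UU_apply MeasurableSet.univ, univ_inter, Real.volume_Icc]
  norm_num
  exact ENNReal.inv_mul_cancel (by norm_num) (by norm_num)⟩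

lemma cube_map : (uniformProbOn (cube d)).map WithLp.ofLp = Measure.pi fun _ : Fin d => UU := by
  refine (Measure.pi_eq fun s hs => ?_).symm
  have hm := (PiLp.volume_preserving_ofLp (Fin d)).measurable
  rw [Measure.map_apply hm (MeasurableSet.univ_pi hs), uniformProbOn, Measure.smul_apply,
    Measure.restrict_apply (hm (MeasurableSet.univ_pi hs)), volume_cube_inter s hs, volume_cube]
  simp only [UU_apply (hs _), Finset.prod_mul_distrib, Finset.prod_const, Finset.card_univ,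
    Fintype.card_fin, smul_eq_mul, ENNReal.inv_pow]

lemma cube_two {i j : Fin d} (hij : i ≠ j) {S : Set (ℝ × ℝ)} (hS : MeasurableSet S) :
    uniformProbOn (cube d) {x | (x i, x j) ∈ S} = (UU.prod UU) S := by
  have hm := (PiLp.volume_preserving_ofLp (Fin d)).measurable
  have h1 := ((iIndepFun_pi (μ := fun _ : Fin d => UU) (X := fun _ => id)
    fun _ => aemeasurable_id).indepFun hij).map_prod_eq_prod_map_map
    (measurable_pi_apply i).aemeasurable (measurable_pi_apply j).aemeasurable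
  have e : ∀ k : Fin d, (Measure.pi fun _ : Fin d => UU).map (fun ω => ω k) = UU := fun k =>
    (measurePreserving_eval (fun _ : Fin d => UU) k).map_eq
  have hm2 : Measurable fun ω : Fin d → ℝ => (ω i, ω j) := by fun_prop
  change Measure.map (fun ω : Fin d → ℝ => (ω i, ω j)) _ =
    (Measure.map (fun ω : Fin d → ℝ => ω i) _).prod
    (Measure.map (fun ω : Fin d → ℝ => ω j) _) at h1
  rw [e, e, ← cube_map, Measure.map_map hm2 hm] at h1
  rw [← h1, Measure.map_apply (hm2.comp hm) hS]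
  rfl

lemma side_mass {ε τ : ℝ} (hτ : 0 ≤ τ) (hτε : τ ≤ ε) (hε : ε ≤ 1 / 2) {S : Set (ℝ × ℝ)}
    (hS : MeasurableSet S) (h : ∀ t, 0 ≤ ε + τ * t → ε + τ * t ≤ 1 →
      volume ((fun s => (s, t)) ⁻¹' S ∩ Icc (-1 : ℝ) 1) = ENNReal.ofReal (1 - (ε + τ * t))) :
    (UU.prod UU) S = ENNReal.ofReal ((1 - ε) / 2) := by
  rw [Measure.prod_apply_symm hS]
  have hae : ∀ᵐ t ∂UU, t ∈ Icc (-1 : ℝ) 1 :=
    Measure.ae_smul_measure (ae_restrict_mem measurableSet_Icc) _
  have e1 : ∫⁻ t, UU ((fun s => (s, t)) ⁻¹' S) ∂UU =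
      ∫⁻ t, ENNReal.ofReal ((1 - (ε + τ * t)) / 2) ∂UU := by
    refine lintegral_congr_ae ?_
    filter_upwards [hae] with t ht
    rw [UU_apply (measurable_prodMk_right hS), h t (by nlinarith [ht.1]) (by nlinarith [ht.2]),
      ENNReal.ofReal_div_of_pos (by norm_num), div_eq_mul_inv, mul_comm]
    simp
  have hi : Integrable (fun t : ℝ => (1 - (ε + τ * t)) / 2) UU :=
    (Continuous.integrableOn_Icc (by fun_prop)).integrable.smul_measure (by simp)
  rw [e1, ← ofReal_integral_eq_lintegral_ofReal hi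
    (hae.mono fun t ht => by have := ht.2; simp only [Pi.zero_apply]; nlinarith)]
  congr 1
  rw [UU, integral_smul_measure, integral_Icc_eq_integral_Ioc,
    ← intervalIntegral.integral_of_le (by norm_num)]
  have : (fun t : ℝ => (1 - (ε + τ * t)) / 2) = fun t => (1 - ε) / 2 - τ / 2 * t := by
    ext t; ring
  rw [this, intervalIntegral.integral_sub (by simp)
    (Continuous.intervalIntegrable (by fun_prop) _ _), intervalIntegral.integral_const_mul,
    integral_id]
  simp
  ring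

/-- Sites of the example. -/
noncomputable def site (i j : Fin d) (τ : ℝ) : Fin 3 → Eu d :=
  ![-EuclideanSpace.single i 1, τ • EuclideanSpace.single j 1, EuclideanSpace.single i 1]

lemma site_inj {i j : Fin d} (hij : i ≠ j) (τ : ℝ) : Function.Injective (site i j τ) := by
  intro a b hab
  have h := congrArg (fun v : Eu d => v i) hab
  fin_cases a <;> fin_cases b <;> simp [site, hij] at h ⊢ <;> norm_num at h

lemma site_mem {i j : Fin d} {τ : ℝ} (h0 : 0 ≤ τ) (h1 : τ ≤ 1) (a : Fin 3) :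
    site i j τ a ∈ cube d := by
  intro k
  fin_cases a <;> simp [site] <;> split_ifs <;> simp [abs_of_nonneg h0, h1]

lemma aff_site (i j : Fin d) (τ ε : ℝ) (x : Eu d) :
    aff (site i j τ) ![ε, 0, ε] 0 x = -x i - ε ∧ aff (site i j τ) ![ε, 0, ε] 1 x = τ * x j ∧
      aff (site i j τ) ![ε, 0, ε] 2 x = x i - ε := by
  simp [aff, site, EuclideanSpace.inner_single_left, real_inner_smul_left]

lemma mem_cell_site (i j : Fin d) (τ ε : ℝ) (x : Eu d) :
    (x ∈ cell (site i j τ) ![ε, 0, ε] 0 ↔ x i < 0 ∧ x i < -(ε + τ * x j)) ∧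
    (x ∈ cell (site i j τ) ![ε, 0, ε] 1 ↔ -(ε + τ * x j) < x i ∧ x i < ε + τ * x j) ∧
    (x ∈ cell (site i j τ) ![ε, 0, ε] 2 ↔ 0 < x i ∧ ε + τ * x j < x i) := by
  obtain ⟨h0, h1, h2⟩ := aff_site i j τ ε x
  simp only [cell, mem_ofPred_eq, Fin.forall_fin_succ, Fin.succ_zero_eq_one, Fin.succ_one_eq_two,
    h0, h1, h2]
  refine ⟨?_, ?_, ?_⟩
  · simp; constructor <;> rintro ⟨a, b⟩ <;> constructor <;> linarith
  · simp; constructor <;> rintro ⟨a, b⟩ <;> constructor <;> linarith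
  · simp; intro _; constructor <;> intro <;> linarith

lemma src_cube : Src (uniformProbOn (cube d)) d := by
  refine src_uniform measurableSet_cube (by simp [volume_cube]) (by simp [volume_cube])
    fun x hx => ?_
  refine (abs_le_of_sq_le_sq' ?_ (Nat.cast_nonneg d)).2
  rw [EuclideanSpace.real_norm_sq_eq]
  calc ∑ i, x i ^ 2 ≤ ∑ _i : Fin d, (1 : ℝ) :=
        Finset.sum_le_sum fun i _ => by rw [← sq_abs]; exact pow_le_one₀ (abs_nonneg _) (hx i)
    _ = d := by simp
    _ ≤ (d : ℝ) ^ 2 := by exact_mod_cast Nat.le_self_pow (by norm_num) d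

lemma mass_site {i j : Fin d} (hij : i ≠ j) {ε τ : ℝ} (hτ : 0 ≤ τ) (hτε : τ ≤ ε)
    (hε : ε ≤ 1 / 2) (a : Fin 3) :
    (uniformProbOn (cube d)).real (cell (site i j τ) ![ε, 0, ε] a) =
      ![(1 - ε) / 2, ε, (1 - ε) / 2] a := by
  have m0 : (uniformProbOn (cube d)).real (cell (site i j τ) ![ε, 0, ε] 0) = (1 - ε) / 2 := by
    have hS : MeasurableSet {p : ℝ × ℝ | p.1 < 0 ∧ p.1 < -(ε + τ * p.2)} :=
      (measurableSet_lt measurable_fst measurable_const).inter
        (measurableSet_lt measurable_fst (by fun_prop))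
    have e : cell (site i j τ) ![ε, 0, ε] 0 =
        {x | (x i, x j) ∈ {p : ℝ × ℝ | p.1 < 0 ∧ p.1 < -(ε + τ * p.2)}} := by
      ext x; exact (mem_cell_site i j τ ε x).1
    rw [measureReal_def, e, cube_two hij hS, side_mass hτ hτε hε hS,
      ENNReal.toReal_ofReal (by linarith)]
    intro t h0 h1
    refine Eq.trans (measure_congr (t := Ico (-1) (-(ε + τ * t))) ?_) (by simp; congr 1; ring)
    filter_upwards [Measure.ae_ne volume 0] with s hs
    simp only [eq_iff_iff]
    change (s < 0 ∧ s < -(ε + τ * t)) ∧ (-1 ≤ s ∧ s ≤ 1) ↔ (-1 ≤ s ∧ s < -(ε + τ * t))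
    constructor
    · rintro ⟨⟨a, b⟩, c, e⟩; exact ⟨c, b⟩
    · rintro ⟨a, b⟩; exact ⟨⟨by linarith, b⟩, a, by linarith⟩
  have m2 : (uniformProbOn (cube d)).real (cell (site i j τ) ![ε, 0, ε] 2) = (1 - ε) / 2 := by
    have hS : MeasurableSet {p : ℝ × ℝ | 0 < p.1 ∧ ε + τ * p.2 < p.1} :=
      (measurableSet_lt measurable_const measurable_fst).inter
        (measurableSet_lt (by fun_prop) measurable_fst)
    have e : cell (site i j τ) ![ε, 0, ε] 2 =
        {x | (x i, x j) ∈ {p : ℝ × ℝ | 0 < p.1 ∧ ε + τ * p.2 < p.1}} := by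
      ext x; exact (mem_cell_site i j τ ε x).2.2
    rw [measureReal_def, e, cube_two hij hS, side_mass hτ hτε hε hS,
      ENNReal.toReal_ofReal (by linarith)]
    intro t h0 h1
    have : (fun s => (s, t)) ⁻¹' {p : ℝ × ℝ | 0 < p.1 ∧ ε + τ * p.2 < p.1} ∩ Icc (-1 : ℝ) 1 =
        Ioc (ε + τ * t) 1 := by
      ext s
      change (0 < s ∧ ε + τ * t < s) ∧ (-1 ≤ s ∧ s ≤ 1) ↔ (ε + τ * t < s ∧ s ≤ 1)
      constructor
      · rintro ⟨⟨a, b⟩, c, e⟩; exact ⟨b, e⟩
      · rintro ⟨a, b⟩; exact ⟨⟨by linarith, a⟩, by linarith, b⟩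
    rw [this, Real.volume_Ioc]
  have hsum := sum_mass (src_cube (d := d)) (site_inj hij τ) ![ε, 0, ε]
  rw [Fin.sum_univ_three, m0, m2] at hsum
  fin_cases a
  · simpa using m0
  · simp only [Fin.mk_one, Matrix.cons_val_one, Matrix.cons_val_zero]; linarith
  · simpa using m2

end Crest.Agent.H6OT
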