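import Mathlib

/-! Real-variable analysis for the quadric threefold example (three fixed points). -/

set_option autoImplicit false

namespace Crest.Agent.H6Quad

open Real

/-- the small parameter -/
noncomputable def κ : ℝ := 1 / 4

lemma κ_pos : 0 < κ := by unfold κ; norm_num

/-- the angle `κ (1 - c) / (1 + κ² b²)` -/
noncomputable def ang (b c : ℝ) : ℝ := κ * (1 - c) / (1 + (κ * b) ^ 2)

lemma den_pos (b : ℝ) : 0 < 1 + (κ * b) ^ 2 := by positivity

lemma ang_nonneg (b : ℝ) {c : ℝ} (hc : c ≤ 1) : 0 ≤ ang b c := by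
  unfold ang
  have := κ_pos
  have := den_pos b
  have : 0 ≤ 1 - c := by linarith
  positivity

lemma ang_le (b : ℝ) {c : ℝ} (hc : c ≤ 1) : ang b c ≤ κ * (1 - c) := by
  unfold ang
  have h1 := κ_pos
  have h2 := den_pos b
  have h3 : 0 ≤ 1 - c := by linarith
  rw [div_le_iff₀ h2]
  have : 0 ≤ κ * (1 - c) * (κ * b) ^ 2 := by positivity
  nlinarith

lemma ang_le_half (b : ℝ) {c : ℝ} (hc : c ≤ 1) (hc' : -1 ≤ c) : ang b c ≤ 1 / 2 := by
  have := ang_le b hc
  unfold κ at this
  linarith

lemma cos_ge_of_le_half {y : ℝ} (h0 : 0 ≤ y) (h1 : y ≤ 1 / 2) : 7 / 8 ≤ cos y := by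
  have := one_sub_sq_div_two_le_cos (x := y)
  nlinarith

lemma cos_ang_ge (b : ℝ) {c : ℝ} (hc : c ≤ 1) (hc' : -1 ≤ c) : 7 / 8 ≤ cos (ang b c) :=
  cos_ge_of_le_half (ang_nonneg b hc) (ang_le_half b hc hc')

lemma sin_ang_nonneg (b : ℝ) {c : ℝ} (hc : c ≤ 1) (hc' : -1 ≤ c) : 0 ≤ sin (ang b c) := by
  apply sin_nonneg_of_nonneg_of_le_pi (ang_nonneg b hc)
  have := ang_le_half b hc hc'
  have := pi_gt_three
  linarith

lemma eq_one_of_sin_ang (b : ℝ) {c : ℝ} (hc : c ≤ 1) (hc' : -1 ≤ c) (h : sin (ang b c) = 0) :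
    c = 1 := by
  by_contra hne
  have hlt : c < 1 := lt_of_le_of_ne hc hne
  have h1 : 0 < ang b c := by
    unfold ang
    have := κ_pos
    have := den_pos b
    have : 0 < 1 - c := by linarith
    positivity
  have h2 := ang_le_half b hc hc'
  have := pi_gt_three
  have := sin_pos_of_pos_of_lt_pi h1 (by linarith)
  linarith

lemma tan_lt_tan' {x y : ℝ} (h0 : 0 ≤ x) (h1 : y ≤ 1 / 2) (h : x < y) : tan x < tan y := by
  apply tan_lt_tan_of_nonneg_of_lt_pi_div_two h0 _ h
  have := pi_gt_three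
  linarith

lemma tan_le_tan' {x y : ℝ} (h0 : 0 ≤ x) (h1 : y ≤ 1 / 2) (h : x ≤ y) : tan x ≤ tan y := by
  rcases h.eq_or_lt with h | h
  · rw [h]
  · exact (tan_lt_tan' h0 h1 h).le

lemma tan_le_mul {y : ℝ} (h0 : 0 ≤ y) (h1 : y ≤ 1 / 2) : tan y ≤ 8 / 7 * y := by
  have hc := cos_ge_of_le_half h0 h1
  rw [tan_eq_sin_div_cos, div_le_iff₀ (by linarith)]
  have := sin_le h0
  nlinarith

/-- `x ↦ tan (k (1 + x)) / x` is decreasing. -/
lemma tan_ratio {k A C : ℝ} (hk0 : 0 < k) (hk : k ≤ 1 / 4) (hC : 0 < C) (hCA : C ≤ A) (hA : A ≤ 1) :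
    C * tan (k * (1 + A)) ≤ A * tan (k * (1 + C)) := by
  set p := k * (1 + A) with hp
  set q := k * (1 + C) with hq
  have hp0 : 0 ≤ p := by rw [hp]; nlinarith
  have hq0 : 0 ≤ q := by rw [hq]; nlinarith
  have hp1 : p ≤ 1 / 2 := by rw [hp]; nlinarith
  have hq1 : q ≤ 1 / 2 := by rw [hq]; nlinarith
  have hcp := cos_ge_of_le_half hp0 hp1
  have hcq := cos_ge_of_le_half hq0 hq1
  have hpq : p - q = k * (A - C) := by rw [hp, hq]; ring
  have hs : sin (p - q) ≤ k * (A - C) := by
    rw [← hpq]; apply sin_le; rw [hpq]; nlinarith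
  have ht : q ≤ tan q := le_tan hq0 (by have := pi_gt_three; linarith)
  have hdiff : tan p - tan q = sin (p - q) / (cos p * cos q) := by
    rw [tan_eq_sin_div_cos, tan_eq_sin_div_cos, sin_sub]
    field_simp
  have hcc : 49 / 64 ≤ cos p * cos q := by nlinarith
  have hAC : 0 ≤ k * (A - C) := by nlinarith
  have hdiff2 : tan p - tan q ≤ 2 * (k * (A - C)) := by
    rw [hdiff, div_le_iff₀ (by linarith)]
    nlinarith
  have h1 : C * (tan p - tan q) ≤ C * (2 * (k * (A - C))) :=
    mul_le_mul_of_nonneg_left hdiff2 hC.le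
  have h2 : (A - C) * q ≤ (A - C) * tan q := mul_le_mul_of_nonneg_left ht (by linarith)
  have h3 : C * (2 * (k * (A - C))) ≤ (A - C) * q := by
    rw [hq]
    have : 0 ≤ k * (A - C) * (1 - C) := by
      apply mul_nonneg hAC; linarith
    nlinarith
  nlinarith

/-- The defining equations of the two nondegenerate fixed points. -/
def Special (A B : ℝ) : Prop :=
  0 < A ∧ 0 < B ∧ A ^ 2 + B ^ 2 + (κ * B ^ 2) ^ 2 = 1 ∧ tan (ang B (-A)) * A = κ * B ^ 2

lemma exists_special : ∃ A B, Special A B := by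
  let a : ℝ → ℝ := fun B => sqrt (1 - B ^ 2 - (κ * B ^ 2) ^ 2)
  let g : ℝ → ℝ := fun B => sin (ang B (-(a B))) * a B - κ * B ^ 2 * cos (ang B (-(a B)))
  have ha : Continuous a := by
    simp only [a]; fun_prop
  have hang : Continuous fun B => ang B (-(a B)) := by
    unfold ang
    apply Continuous.div
    · fun_prop
    · fun_prop
    · intro B; exact (den_pos B).ne'
  have hg : Continuous g := by
    simp only [g]; fun_prop
  have ha0 : ∀ B, 0 ≤ a B := fun B => sqrt_nonneg _
  have ha1 : ∀ B, a B ≤ 1 := fun B => by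
    simp only [a]
    rw [sqrt_le_one]
    nlinarith [sq_nonneg B, sq_nonneg (κ * B ^ 2)]
  have hcos : ∀ B, 7 / 8 ≤ cos (ang B (-(a B))) := fun B =>
    cos_ang_ge B (by linarith [ha0 B]) (by linarith [ha1 B])
  have g0 : 0 < g 0 := by
    have : a 0 = 1 := by simp [a]
    simp only [g, this]
    have h : ang 0 (-1) = 1 / 2 := by unfold ang κ; norm_num
    rw [h]
    have := sin_pos_of_pos_of_lt_pi (x := 1 / 2) (by norm_num) (by have := pi_gt_three; linarith)
    simpa using this
  have hneg : ∀ B, 0 < B → a B = 0 → g B < 0 := fun B hB h => by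
    simp only [g]
    have h1 := hcos B
    generalize ang B (-(a B)) = θ at h1 ⊢
    rw [h]
    have h2 : 0 < κ * B ^ 2 := by have := κ_pos; positivity
    have h3 : 0 < κ * B ^ 2 * cos θ := mul_pos h2 (by linarith)
    linarith
  have g1 : g 1 < 0 := by
    apply hneg 1 one_pos
    simp only [a]
    apply sqrt_eq_zero_of_nonpos
    nlinarith [sq_nonneg (κ * 1 ^ 2)]
  obtain ⟨B, hB, hgB⟩ : ∃ B ∈ Set.Icc (0 : ℝ) 1, g B = 0 :=
    intermediate_value_Icc' zero_le_one hg.continuousOn ⟨g1.le, g0.le⟩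
  have hB0 : 0 < B := by
    rcases hB.1.eq_or_lt with h | h
    · rw [← h] at hgB; linarith
    · exact h
  have haB : 0 < a B := by
    rcases (ha0 B).eq_or_lt with h | h
    · have := hneg B hB0 h.symm; linarith
    · exact h
  refine ⟨a B, B, haB, hB0, ?_, ?_⟩
  · have h : 0 < 1 - B ^ 2 - (κ * B ^ 2) ^ 2 := sqrt_pos.mp haB
    have : a B ^ 2 = 1 - B ^ 2 - (κ * B ^ 2) ^ 2 := sq_sqrt h.le
    linarith
  · have h1 := hcos B
    rw [tan_eq_sin_div_cos]
    field_simp
    simp only [g] at hgB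
    linarith

lemma ang_mono {b d c c' : ℝ} (hbd : d ^ 2 ≤ b ^ 2) (hc : c' ≤ c) (hc1 : c ≤ 1) :
    ang b c ≤ ang d c' := by
  unfold ang
  have h1 := κ_pos
  apply div_le_div₀
  · nlinarith
  · nlinarith
  · exact den_pos d
  · have : 0 ≤ κ ^ 2 * (b ^ 2 - d ^ 2) := by
      apply mul_nonneg (sq_nonneg _); linarith
    nlinarith

lemma special_unique {A B A' B' : ℝ} (h : Special A B) (h' : Special A' B') : A = A' ∧ B = B' := by
  have key : ∀ {A B A' B' : ℝ}, Special A B → Special A' B' → ¬ A < A' := by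
    intro A B A' B' ⟨hA, hB, h1, h2⟩ ⟨hA', hB', h1', h2'⟩ hlt
    have hκ := κ_pos
    have hA1 : A' ≤ 1 := by nlinarith [sq_nonneg B', sq_nonneg (κ * B' ^ 2)]
    have hBB : B' ^ 2 ≤ B ^ 2 := by
      by_contra hc
      push Not at hc
      have : (κ * B ^ 2) ^ 2 ≤ (κ * B' ^ 2) ^ 2 := by
        apply pow_le_pow_left₀ (by positivity)
        nlinarith
      nlinarith
    have hm : ang B (-A) ≤ ang B' (-A') := ang_mono hBB (by linarith) (by linarith)
    have ht : tan (ang B (-A)) ≤ tan (ang B' (-A')) :=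
      tan_le_tan' (ang_nonneg _ (by linarith)) (ang_le_half _ (by linarith) (by linarith)) hm
    have hpos : 0 < tan (ang B (-A)) := by
      by_contra hc
      push Not at hc
      have : 0 < κ * B ^ 2 := by positivity
      nlinarith
    have : tan (ang B (-A)) * A < tan (ang B' (-A')) * A' := by nlinarith
    nlinarith
  have hA : A = A' := le_antisymm (not_lt.mp (key h' h)) (not_lt.mp (key h h'))
  refine ⟨hA, ?_⟩
  obtain ⟨hA0, hB, h1, h2⟩ := h
  obtain ⟨hA0', hB', h1', h2'⟩ := h'
  have hκ := κ_pos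
  subst hA
  have : (B ^ 2 - B' ^ 2) * (1 + κ ^ 2 * (B ^ 2 + B' ^ 2)) = 0 := by nlinarith
  have h3 : 0 < 1 + κ ^ 2 * (B ^ 2 + B' ^ 2) := by positivity
  have h4 : B ^ 2 - B' ^ 2 = 0 := by
    rcases mul_eq_zero.mp this with h | h
    · exact h
    · linarith
  have : (B - B') * (B + B') = 0 := by nlinarith
  rcases mul_eq_zero.mp this with h | h
  · linarith
  · linarith

lemma le_of_sq_le_sq_of_nonneg_aux {x y : ℝ} (hy : 0 ≤ y) (h : x ^ 2 ≤ y ^ 2) : x ≤ y :=
  (abs_le_of_sq_le_sq' h hy).2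

/-- The reflected fixed point system. -/
lemma solve_reflected {a b c d : ℝ}
    (hu : a ^ 2 + b ^ 2 + (κ * b * d) ^ 2 = 1) (hv : c ^ 2 + d ^ 2 + (κ * b * d) ^ 2 = 1)
    (e1 : tan (ang b c) * a = -(κ * b * d)) (e2 : tan (ang d a) * c = -(κ * b * d)) :
    (a = 1 ∧ b = 0 ∧ c = 1 ∧ d = 0) ∨ (c = a ∧ d = b ∧ Special (-a) |b|) := by
  have hκ := κ_pos
  have hκ' : κ = 1 / 4 := rfl
  have ha1 : a ≤ 1 := by nlinarith [sq_nonneg b, sq_nonneg (κ * b * d)]
  have ha2 : -1 ≤ a := by nlinarith [sq_nonneg b, sq_nonneg (κ * b * d)]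
  have hc1 : c ≤ 1 := by nlinarith [sq_nonneg d, sq_nonneg (κ * b * d)]
  have hc2 : -1 ≤ c := by nlinarith [sq_nonneg d, sq_nonneg (κ * b * d)]
  have tan0 : ∀ {b c : ℝ}, c ≤ 1 → -1 ≤ c → tan (ang b c) = 0 → c = 1 := by
    intro b c h1 h2 h
    apply eq_one_of_sin_ang b h1 h2
    have := cos_ang_ge b h1 h2
    rw [tan_eq_sin_div_cos, div_eq_zero_iff] at h
    rcases h with h | h
    · exact h
    · linarith
  have tnn : ∀ {b c : ℝ}, c ≤ 1 → -1 ≤ c → 0 ≤ tan (ang b c) := by
    intro b c h1 h2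
    have := tan_le_tan' le_rfl (ang_le_half b h1 h2) (ang_nonneg b h1)
    simpa using this
  have t1 := tnn (b := b) hc1 hc2
  have t2 := tnn (b := d) ha1 ha2
  rcases lt_trichotomy (b * d) 0 with hbd | hbd | hbd
  · -- impossible case
    exfalso
    have hm : 0 < -(κ * b * d) := by nlinarith
    have ha0 : 0 < a := by
      by_contra h; push Not at h; nlinarith
    have hc0 : 0 < c := by
      by_contra h; push Not at h; nlinarith
    have key : ∀ {a b c d : ℝ}, a ^ 2 + b ^ 2 + (κ * b * d) ^ 2 = 1 →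
        c ^ 2 + d ^ 2 + (κ * b * d) ^ 2 = 1 → tan (ang b c) * a = -(κ * b * d) → b * d < 0 →
        0 < a → a ≤ c → False := by
      intro a b c d hu hv e1 hbd ha0 hac
      have hc1 : c ≤ 1 := by nlinarith [sq_nonneg d, sq_nonneg (κ * b * d)]
      have hb1 : b ^ 2 ≤ 1 := by nlinarith [sq_nonneg a, sq_nonneg (κ * b * d)]
      have h1 := tan_le_mul (ang_nonneg b hc1) (ang_le_half b hc1 (by linarith))
      have h2 := ang_le b hc1
      have h3 : tan (ang b c) ≤ 8 / 7 * (κ * (1 - c)) := by linarith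
      have h4 : -(κ * b * d) ≤ 8 / 7 * (κ * (1 - c)) * c := by
        rw [← e1]
        have h5 : 0 ≤ 8 / 7 * (κ * (1 - c)) := by
          have : 0 ≤ 1 - c := by linarith
          positivity
        calc tan (ang b c) * a ≤ 8 / 7 * (κ * (1 - c)) * a :=
              mul_le_mul_of_nonneg_right h3 ha0.le
          _ ≤ 8 / 7 * (κ * (1 - c)) * c := mul_le_mul_of_nonneg_left hac h5
      have hdb : d ^ 2 ≤ b ^ 2 := by nlinarith
      have h6 : d ^ 2 ≤ -(b * d) := by
        apply le_of_sq_le_sq_of_nonneg_aux (by linarith)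
        have := mul_le_mul_of_nonneg_right hdb (sq_nonneg d)
        nlinarith
      have h7 : 1 - c ^ 2 ≤ 17 / 16 * d ^ 2 := by
        have := mul_le_mul_of_nonneg_right hb1 (sq_nonneg d)
        rw [hκ'] at hv
        nlinarith
      have hd0 : 0 < d ^ 2 := by
        have : d ≠ 0 := by rintro rfl; simp at hbd
        positivity
      have hc0 : 0 < c := by linarith
      have hclt : c < 1 := by nlinarith [sq_nonneg (κ * b * d)]
      rw [hκ'] at h4
      have h8 : 0 < (1 - c) * c := mul_pos (by linarith) hc0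
      have h9 : 0 ≤ (1 - c) * (1 - c) := mul_self_nonneg _
      nlinarith
    rcases le_total a c with h | h
    · exact key hu hv e1 hbd ha0 h
    · refine key (a := c) (b := d) (c := a) (d := b) ?_ ?_ ?_ ?_ hc0 h
      · rw [← hv]; ring
      · rw [← hu]; ring
      · rw [e2]; ring
      · linarith [mul_comm b d]
  · left
    have h0 : κ * b * d = 0 := by rw [mul_assoc, hbd, mul_zero]
    rw [h0] at hu hv e1 e2
    have hac : a = 1 ∧ c = 1 := by
      rcases mul_eq_zero.mp hbd with hb | hd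
      · have ha : a ≠ 0 := by
          rintro rfl; rw [hb] at hu; norm_num at hu
        have hc : c = 1 := tan0 hc1 hc2 (by simpa [ha] using e1)
        refine ⟨tan0 ha1 ha2 (by simpa [hc] using e2), hc⟩
      · have hc : c ≠ 0 := by
          rintro rfl; rw [hd] at hv; norm_num at hv
        have ha : a = 1 := tan0 ha1 ha2 (by simpa [hc] using e2)
        refine ⟨ha, tan0 hc1 hc2 (by simpa [ha] using e1)⟩
    obtain ⟨rfl, rfl⟩ := hac
    refine ⟨rfl, by nlinarith, rfl, by nlinarith⟩
  · right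
    have hm : 0 < κ * b * d := by nlinarith
    have ha0 : a < 0 := by
      by_contra h; push Not at h; nlinarith
    have hc0 : c < 0 := by
      by_contra h; push Not at h; nlinarith
    have key : ∀ {a b c d : ℝ}, a ^ 2 + b ^ 2 + (κ * b * d) ^ 2 = 1 →
        c ^ 2 + d ^ 2 + (κ * b * d) ^ 2 = 1 → tan (ang b c) * a = -(κ * b * d) →
        tan (ang d a) * c = -(κ * b * d) → c < 0 → a < c → False := by
      intro a b c d hu hv e1 e2 hc0 hac
      have ha2 : -1 ≤ a := by nlinarith [sq_nonneg b, sq_nonneg (κ * b * d)]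
      have hbd : b ^ 2 < d ^ 2 := by nlinarith
      have hk0 : 0 < κ / (1 + (κ * d) ^ 2) := div_pos hκ (den_pos d)
      have hk1 : κ / (1 + (κ * d) ^ 2) ≤ 1 / 4 := by
        rw [div_le_iff₀ (den_pos d)]
        nlinarith [sq_nonneg (κ * d)]
      have h1 := tan_ratio hk0 hk1 (C := -c) (A := -a) (by linarith) (by linarith) (by linarith)
      have r1 : κ / (1 + (κ * d) ^ 2) * (1 + -a) = ang d a := by unfold ang; ring
      have r2 : κ / (1 + (κ * d) ^ 2) * (1 + -c) = ang d c := by unfold ang; ring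
      rw [r1, r2] at h1
      have h2 : ang d c < ang b c := by
        unfold ang
        apply div_lt_div_of_pos_left
        · nlinarith
        · exact den_pos b
        · have : 0 < κ ^ 2 * (d ^ 2 - b ^ 2) := by
            apply mul_pos (by positivity); linarith
          nlinarith
      have h3 := tan_lt_tan' (ang_nonneg d (by linarith)) (ang_le_half b (by linarith)
        (by linarith)) h2
      nlinarith
    have hac : c = a := by
      rcases lt_trichotomy a c with h | h | h
      · exact (key hu hv e1 e2 hc0 h).elim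
      · exact h.symm
      · refine (key (a := c) (b := d) (c := a) (d := b) ?_ ?_ ?_ ?_ ha0 h).elim
        · rw [← hv]; ring
        · rw [← hu]; ring
        · rw [e2]; ring
        · rw [e1]; ring
    subst hac
    have hdb : d = b := by
      have : (d - b) * (d + b) = 0 := by nlinarith
      rcases mul_eq_zero.mp this with h | h
      · linarith
      · have : d = -b := by linarith
        rw [this] at hbd; nlinarith
    subst hdb
    refine ⟨rfl, rfl, by linarith, abs_pos.mpr (by rintro rfl; simp at hbd), ?_, ?_⟩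
    · rw [sq_abs, ← hu]; ring
    · have : ang |d| (- -c) = ang d c := by
        unfold ang; rw [mul_pow, mul_pow, sq_abs, neg_neg]
      rw [this, sq_abs]
      linarith

/-- The full fixed point system on `S² × S²`. -/
lemma solve_full {a b e e' c d f f' γ β : ℝ}
    (hu : a ^ 2 + b ^ 2 + e ^ 2 = 1) (hv : c ^ 2 + d ^ 2 + f ^ 2 = 1)
    (hγ : sin γ = -(κ * d) * cos γ) (hγ' : cos γ ≠ 0)
    (hβ : sin β = -(κ * b) * cos β) (hβ' : cos β ≠ 0)
    (a1 : sin (ang b c) * (e + e') = 0) (a2 : cos (ang b c) * (e' - e) = -2 * sin (ang b c) * a)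
    (g1 : sin γ * (e + e') = 0) (g2 : cos γ * (e - e') = 2 * sin γ * b)
    (b1 : sin β * (f + f') = 0) (b2 : cos β * (f' - f) = 2 * sin β * d)
    (d1 : sin (ang d a) * (f + f') = 0) (d2 : cos (ang d a) * (f - f') = -2 * sin (ang d a) * c) :
    (a = 1 ∧ b = 0 ∧ e = 0 ∧ c = 1 ∧ d = 0 ∧ f = 0) ∨
      (c = a ∧ d = b ∧ Special (-a) |b| ∧ e = -(κ * b ^ 2) ∧ f = κ * b ^ 2) := by
  have ha1 : a ≤ 1 := by nlinarith [sq_nonneg b, sq_nonneg e]
  have ha2 : -1 ≤ a := by nlinarith [sq_nonneg b, sq_nonneg e]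
  have hc1 : c ≤ 1 := by nlinarith [sq_nonneg d, sq_nonneg f]
  have hc2 : -1 ≤ c := by nlinarith [sq_nonneg d, sq_nonneg f]
  have hca := cos_ang_ge b hc1 hc2
  have hcd := cos_ang_ge d ha1 ha2
  by_cases he : e + e' = 0
  · by_cases hf : f + f' = 0
    · have he' : e' = -e := by linarith
      have hf' : f' = -f := by linarith
      subst he' hf'
      have E1 : e = -(κ * b * d) := by
        rw [hγ] at g2
        have : cos γ * (e + κ * b * d) = 0 := by linarith
        rcases mul_eq_zero.mp this with h | h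
        · exact absurd h hγ'
        · linarith
      have E2 : f = κ * b * d := by
        rw [hβ] at b2
        have : cos β * (f - κ * b * d) = 0 := by linarith
        rcases mul_eq_zero.mp this with h | h
        · exact absurd h hβ'
        · linarith
      have t1 : tan (ang b c) * a = -(κ * b * d) := by
        rw [tan_eq_sin_div_cos, ← E1]
        field_simp
        linarith
      have t2 : tan (ang d a) * c = -(κ * b * d) := by
        rw [tan_eq_sin_div_cos, ← E2]
        field_simp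
        linarith
      have hu' : a ^ 2 + b ^ 2 + (κ * b * d) ^ 2 = 1 := by rw [← hu, E1]; ring
      have hv' : c ^ 2 + d ^ 2 + (κ * b * d) ^ 2 = 1 := by rw [← hv, E2]
      rcases solve_reflected hu' hv' t1 t2 with ⟨h1, h2, h3, h4⟩ | ⟨h1, h2, h3⟩
      · left
        refine ⟨h1, h2, ?_, h3, h4, ?_⟩
        · rw [E1, h2]; ring
        · rw [E2, h2]; ring
      · right
        refine ⟨h1, h2, h3, ?_, ?_⟩
        · rw [E1, h2]; ring
        · rw [E2, h2]; ring
    · left
      have s1 : sin (ang d a) = 0 := by simpa [hf] using d1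
      have ha : a = 1 := eq_one_of_sin_ang d ha1 ha2 s1
      subst ha
      have hb : b = 0 := by nlinarith
      have he0 : e = 0 := by nlinarith
      subst hb he0
      have he' : e' = 0 := by linarith
      subst he'
      have s2 : sin (ang 0 c) = 0 := by linarith
      have hc : c = 1 := eq_one_of_sin_ang 0 hc1 hc2 s2
      subst hc
      exact ⟨rfl, rfl, rfl, rfl, by nlinarith, by nlinarith⟩
  · left
    have s1 : sin (ang b c) = 0 := by simpa [he] using a1
    have hc : c = 1 := eq_one_of_sin_ang b hc1 hc2 s1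
    subst hc
    have hd : d = 0 := by nlinarith
    have hf0 : f = 0 := by nlinarith
    subst hd hf0
    have hf' : f' = 0 := by
      have : cos β * f' = 0 := by linarith
      rcases mul_eq_zero.mp this with h | h
      · exact absurd h hβ'
      · exact h
    subst hf'
    have s2 : sin (ang 0 a) = 0 := by linarith
    have ha : a = 1 := eq_one_of_sin_ang 0 ha1 ha2 s2
    subst ha
    exact ⟨rfl, by nlinarith, by nlinarith, rfl, rfl, rfl⟩

end Crest.Agent.H6Quad
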