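import Mathlib
import Crest.Prelude.Def_QuadricHamiltonian
import Crest.Agent.H6.QuadReal

/-! Explicit Hamiltonian twist flows on `ℂ⁵` preserving the unit isotropic cone. -/

set_option autoImplicit false

namespace Crest.Agent.H6Quad

open Crest.GeometryTopology.Quadric
open scoped ContDiff

abbrev V : Type := Fin 5 → ℂ

noncomputable def pr (i : Fin 5) : V →L[ℂ] ℂ := ContinuousLinearMap.proj i

@[simp] lemma pr_apply (i : Fin 5) (z : V) : pr i z = z i := rfl

noncomputable def P : V →L[ℂ] V := ContinuousLinearMap.pi ![pr 0, pr 1, pr 2, pr 3, 0]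

lemma P_apply (z : V) : P z = ![z 0, z 1, z 2, z 3, 0] := by
  ext i; fin_cases i <;> simp [P]

/-- bilinear form -/
def bil (u w : V) : ℂ := ∑ j, u j * w j

lemma herm_add_left (u u' w : V) : herm (u + u') w = herm u w + herm u' w := by
  simp [herm, add_mul, Finset.sum_add_distrib]
lemma herm_add_right (u w w' : V) : herm u (w + w') = herm u w + herm u w' := by
  simp [herm, mul_add, Finset.sum_add_distrib]
lemma herm_sub_left (u u' w : V) : herm (u - u') w = herm u w - herm u' w := by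
  simp [herm, sub_mul, Finset.sum_sub_distrib]
lemma herm_sub_right (u w w' : V) : herm u (w - w') = herm u w - herm u w' := by
  simp [herm, mul_sub, Finset.sum_sub_distrib]
lemma herm_neg_left (u w : V) : herm (-u) w = -herm u w := by
  simp [herm]
lemma herm_neg_right (u w : V) : herm u (-w) = -herm u w := by
  simp [herm]
lemma herm_smul_left (c : ℂ) (u w : V) : herm (c • u) w = starRingEnd ℂ c * herm u w := by
  simp [herm, Finset.mul_sum, mul_assoc]
lemma herm_smul_right (c : ℂ) (u w : V) : herm u (c • w) = c * herm u w := by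
  simp [herm, Finset.mul_sum, mul_left_comm]
lemma herm_conj (u w : V) : starRingEnd ℂ (herm u w) = herm w u := by
  simp [herm, mul_comm]
lemma herm_P (u w : V) : herm (P u) w = herm u (P w) := by
  simp [herm, P_apply, Fin.sum_univ_five]
lemma bil_P (u w : V) : bil (P u) w = bil u (P w) := by
  simp [bil, P_apply, Fin.sum_univ_five]
lemma P_P (u : V) : P (P u) = P u := by
  simp [P_apply]
lemma bil_add_left (u u' w : V) : bil (u + u') w = bil u w + bil u' w := by
  simp [bil, add_mul, Finset.sum_add_distrib]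
lemma bil_add_right (u w w' : V) : bil u (w + w') = bil u w + bil u w' := by
  simp [bil, mul_add, Finset.sum_add_distrib]
lemma bil_sub_left (u u' w : V) : bil (u - u') w = bil u w - bil u' w := by
  simp [bil, sub_mul, Finset.sum_sub_distrib]
lemma bil_sub_right (u w w' : V) : bil u (w - w') = bil u w - bil u w' := by
  simp [bil, mul_sub, Finset.sum_sub_distrib]
lemma bil_neg_right (u w : V) : bil u (-w) = -bil u w := by
  simp [bil]
lemma bil_smul_left (c : ℂ) (u w : V) : bil (c • u) w = c * bil u w := by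
  simp [bil, Finset.mul_sum, mul_assoc]
lemma bil_smul_right (c : ℂ) (u w : V) : bil u (c • w) = c * bil u w := by
  simp [bil, Finset.mul_sum, mul_left_comm]
lemma bil_comm (u w : V) : bil u w = bil w u := by
  simp [bil, mul_comm]

lemma mem_cone_iff (z : V) : z ∈ unitCone ↔ herm z z = 1 ∧ bil z z = 0 := by
  simp [unitCone, bil, sq]

/-- A real skew complex structure on the first four coordinates. -/
structure CS where
  J : V →L[ℂ] V
  sq : ∀ z, J (J z) = -P z
  JP : ∀ z, J (P z) = J z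
  PJ : ∀ z, P (J z) = J z
  skew : ∀ u w, herm (J u) w = -herm u (J w)
  bskew : ∀ u w, bil (J u) w = -bil u (J w)

/-- rotation `exp (θ J)` -/
noncomputable def E (A : CS) (θ : ℝ) (z : V) : V :=
  (Real.cos θ : ℂ) • P z + (Real.sin θ : ℂ) • A.J z + (z - P z)

/-- moment map -/
noncomputable def mu (A : CS) (z : V) : ℝ := (herm (A.J z) z).im

lemma E_zero (A : CS) (z : V) : E A 0 z = z := by simp [E]

lemma E_smul (A : CS) (θ : ℝ) (c : ℂ) (z : V) : E A θ (c • z) = c • E A θ z := by
  simp only [E, map_smul, smul_add, smul_sub, smul_smul, mul_comm]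

lemma E_add (A : CS) (θ : ℝ) (z w : V) : E A θ (z + w) = E A θ z + E A θ w := by
  simp only [E, map_add, smul_add]; abel

lemma cs_sq (θ : ℝ) : (Real.cos θ : ℂ) ^ 2 + (Real.sin θ : ℂ) ^ 2 = 1 := by
  exact_mod_cast Real.cos_sq_add_sin_sq θ

lemma herm_E (A : CS) (θ : ℝ) (z : V) : herm (E A θ z) (E A θ z) = herm z z := by
  have h := cs_sq θ
  simp only [E, herm_add_left, herm_add_right, herm_sub_left, herm_sub_right, herm_smul_left,
    herm_smul_right, herm_P, P_P, A.skew, A.PJ, A.JP, A.sq, herm_neg_right, Complex.conj_ofReal]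
  linear_combination (herm z (P z)) * h

lemma bil_E (A : CS) (θ : ℝ) (z : V) : bil (E A θ z) (E A θ z) = bil z z := by
  have h := cs_sq θ
  simp only [E, bil_add_left, bil_add_right, bil_sub_left, bil_sub_right, bil_smul_left,
    bil_smul_right, bil_P, P_P, A.bskew, A.PJ, A.JP, A.sq, bil_neg_right]
  linear_combination (bil z (P z)) * h

lemma E_cone (A : CS) (θ : ℝ) {z : V} (hz : z ∈ unitCone) : E A θ z ∈ unitCone := by
  rw [mem_cone_iff] at hz ⊢
  rw [herm_E, bil_E]; exact hz

lemma E_four (A : CS) (θ : ℝ) (z : V) : E A θ z 4 = z 4 := by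
  have h1 : A.J z 4 = 0 := by rw [← A.PJ, P_apply]; simp
  have h2 : P z 4 = 0 := by rw [P_apply]; simp
  simp [E, h1, h2]

lemma mu_smul (A : CS) {c : ℂ} (hc : ‖c‖ = 1) (z : V) : mu A (c • z) = mu A z := by
  have : starRingEnd ℂ c * c = 1 := by
    rw [mul_comm, Complex.mul_conj, Complex.normSq_eq_norm_sq, hc]; simp
  simp only [mu, map_smul, herm_smul_left, herm_smul_right, ← mul_assoc]
  rw [mul_comm c, this, one_mul]

/-- commuting structures -/
def Comm (A B : CS) : Prop := ∀ z, A.J (B.J z) = B.J (A.J z)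

lemma Comm.symm {A B : CS} (h : Comm A B) : Comm B A := fun z => (h z).symm

lemma Comm.refl (A : CS) : Comm A A := fun _ => rfl

lemma J_E {A B : CS} (h : Comm A B) (θ : ℝ) (z : V) : A.J (E B θ z) = E B θ (A.J z) := by
  simp only [E, map_add, map_smul, map_sub, A.JP, A.PJ, h z, sub_self]

lemma P_E (B : CS) (θ : ℝ) (z : V) : P (E B θ z) = E B θ (P z) := by
  simp only [E, map_add, map_smul, map_sub, B.JP, B.PJ, P_P]

lemma E_E {A B : CS} (h : Comm A B) (θ θ' : ℝ) (z : V) :
    E A θ (E B θ' z) = E B θ' (E A θ z) := by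
  simp only [E, map_add, map_smul, map_sub, A.JP, A.PJ, B.JP, B.PJ, h z, P_P, sub_self, smul_add,
    smul_smul]
  simp only [smul_zero, add_zero, mul_comm]
  abel

lemma herm_E_E (A : CS) (θ : ℝ) (z w : V) : herm (E A θ z) (E A θ w) = herm z w := by
  have h := cs_sq θ
  simp only [E, herm_add_left, herm_add_right, herm_sub_left, herm_sub_right, herm_smul_left,
    herm_smul_right, herm_P, P_P, A.skew, A.PJ, A.JP, A.sq, herm_neg_right, Complex.conj_ofReal]
  linear_combination (herm z (P w)) * h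

lemma mu_E_comm {A B : CS} (h : Comm A B) (θ : ℝ) (z : V) : mu A (E B θ z) = mu A z := by
  simp only [mu, J_E h, herm_E_E]

/-- `(A, B, C)` behave like the quaternion units `i, j, k`. -/
structure Trip (A B C : CS) : Prop where
  ab : ∀ z, A.J (B.J z) = C.J z
  ba : ∀ z, B.J (A.J z) = -C.J z
  bc : ∀ z, B.J (C.J z) = A.J z
  cb : ∀ z, C.J (B.J z) = -A.J z
  ca : ∀ z, C.J (A.J z) = B.J z
  ac : ∀ z, A.J (C.J z) = -B.J z

lemma Trip.rot {A B C : CS} (h : Trip A B C) : Trip B C A :=
  ⟨h.bc, h.cb, h.ca, h.ac, h.ab, h.ba⟩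

lemma mu_E_B {A B C : CS} (h : Trip A B C) (θ : ℝ) (z : V) :
    mu B (E A θ z) = (Real.cos θ ^ 2 - Real.sin θ ^ 2) * mu B z
      - 2 * Real.cos θ * Real.sin θ * mu C z := by
  have : herm (B.J (E A θ z)) (E A θ z) = ((Real.cos θ ^ 2 - Real.sin θ ^ 2 : ℝ) : ℂ) *
      herm (B.J z) z - ((2 * Real.cos θ * Real.sin θ : ℝ) : ℂ) * herm (C.J z) z := by
    simp only [E, map_add, map_smul, map_sub, B.JP, sub_self, add_zero, h.ba, herm_add_left,
      herm_add_right, herm_sub_right, herm_smul_left, herm_smul_right, herm_neg_left,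
      Complex.conj_ofReal, B.skew, C.skew, C.JP, h.ca, herm_neg_right]
    push_cast
    ring
  simp only [mu, this, Complex.sub_im, Complex.im_ofReal_mul]

lemma mu_E_C {A B C : CS} (h : Trip A B C) (θ : ℝ) (z : V) :
    mu C (E A θ z) = (Real.cos θ ^ 2 - Real.sin θ ^ 2) * mu C z
      + 2 * Real.cos θ * Real.sin θ * mu B z := by
  have : herm (C.J (E A θ z)) (E A θ z) = ((Real.cos θ ^ 2 - Real.sin θ ^ 2 : ℝ) : ℂ) *
      herm (C.J z) z + ((2 * Real.cos θ * Real.sin θ : ℝ) : ℂ) * herm (B.J z) z := by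
    simp only [E, map_add, map_smul, map_sub, C.JP, sub_self, add_zero, h.ca, herm_add_left,
      herm_add_right, herm_sub_right, herm_smul_left, herm_smul_right,
      Complex.conj_ofReal, B.skew, C.skew, B.JP, h.ba, herm_neg_right]
    push_cast
    ring
  simp only [mu, this, Complex.add_im, Complex.im_ofReal_mul]

lemma contDiff_herm {X : Type*} [NormedAddCommGroup X] [NormedSpace ℝ X] {n : WithTop ℕ∞}
    {f g : X → V} (hf : ContDiff ℝ n f) (hg : ContDiff ℝ n g) :
    ContDiff ℝ n fun x => herm (f x) (g x) := by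
  unfold herm
  apply ContDiff.sum
  intro j _
  apply ContDiff.mul
  · exact Complex.conjCLE.contDiff.comp (contDiff_pi.mp hf j)
  · exact contDiff_pi.mp hg j

lemma contDiff_J (A : CS) {n : WithTop ℕ∞} : ContDiff ℝ n fun z : V => A.J z :=
  (A.J.restrictScalars ℝ).contDiff

lemma contDiff_P {n : WithTop ℕ∞} : ContDiff ℝ n fun z : V => P z :=
  (P.restrictScalars ℝ).contDiff

lemma contDiff_mu (A : CS) {n : WithTop ℕ∞} : ContDiff ℝ n (mu A) :=
  Complex.imCLM.contDiff.comp (contDiff_herm (contDiff_J A) contDiff_id)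

lemma contDiff_E (A : CS) {X : Type*} [NormedAddCommGroup X] [NormedSpace ℝ X] {n : WithTop ℕ∞}
    {θ : X → ℝ} {f : X → V} (hθ : ContDiff ℝ n θ) (hf : ContDiff ℝ n f) :
    ContDiff ℝ n fun x => E A (θ x) (f x) := by
  unfold E
  have h1 : ContDiff ℝ n fun x => P (f x) := (contDiff_P (n := n)).comp hf
  have h2 : ContDiff ℝ n fun x => A.J (f x) := (contDiff_J A (n := n)).comp hf
  have h3 : ContDiff ℝ n fun x => (Real.cos (θ x) : ℂ) :=
    Complex.ofRealCLM.contDiff.comp (Real.contDiff_cos.comp hθ)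
  have h4 : ContDiff ℝ n fun x => (Real.sin (θ x) : ℂ) :=
    Complex.ofRealCLM.contDiff.comp (Real.contDiff_sin.comp hθ)
  exact ContDiff.add (ContDiff.add (h3.smul h1) (h4.smul h2)) (hf.sub h1)

lemma hasDerivAt_E (A : CS) {θ : ℝ → ℝ} {f : ℝ → V} {θ' : ℝ} {f' : V} {s : ℝ}
    (hθ : HasDerivAt θ θ' s) (hf : HasDerivAt f f' s) :
    HasDerivAt (fun s => E A (θ s) (f s))
      ((θ' : ℂ) • A.J (E A (θ s) (f s)) + E A (θ s) f') s := by
  have h1 : HasDerivAt (fun s => P (f s)) (P f') s :=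
    (P.restrictScalars ℝ).hasFDerivAt.comp_hasDerivAt s hf
  have h2 : HasDerivAt (fun s => A.J (f s)) (A.J f') s :=
    (A.J.restrictScalars ℝ).hasFDerivAt.comp_hasDerivAt s hf
  have h3 : HasDerivAt (fun s => (Real.cos (θ s) : ℂ)) ((-Real.sin (θ s) * θ' : ℝ) : ℂ) s :=
    hθ.cos.ofReal_comp
  have h4 : HasDerivAt (fun s => (Real.sin (θ s) : ℂ)) ((Real.cos (θ s) * θ' : ℝ) : ℂ) s :=
    hθ.sin.ofReal_comp
  have := ((h3.smul h1).add (h4.smul h2)).add (hf.sub h1)
  refine HasDerivAt.congr_deriv this ?_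
  simp only [E, map_add, map_smul, map_sub, A.JP, A.sq, sub_self, add_zero, smul_add, smul_smul,
    smul_neg]
  push_cast
  module

lemma hasDerivAt_mu_line (A : CS) (x w : V) :
    HasDerivAt (fun t : ℝ => mu A (x + (t : ℂ) • w)) (2 * (herm (A.J x) w).im) 0 := by
  have key : ∀ t : ℝ, mu A (x + (t : ℂ) • w) =
      mu A x + t * (2 * (herm (A.J x) w).im) + t ^ 2 * mu A w := by
    intro t
    have h1 : (herm (A.J w) x).im = (herm (A.J x) w).im := by
      rw [A.skew, ← herm_conj]; simp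
    simp only [mu, map_add, map_smul, herm_add_left, herm_add_right, herm_smul_left,
      herm_smul_right, Complex.conj_ofReal, Complex.add_im, Complex.im_ofReal_mul, h1]
    ring
  simp only [key]
  have h1 : HasDerivAt (fun t : ℝ => t) 1 (0 : ℝ) := hasDerivAt_id _
  have := ((h1.mul_const (2 * (herm (A.J x) w).im)).const_add (mu A x)).add
    ((h1.pow 2).mul_const (mu A w))
  refine HasDerivAt.congr_deriv this ?_
  simp

lemma fderiv_eq_of_line {H : V → ℝ} (hH : ContDiff ℝ ∞ H) (x w : V) {r : ℝ}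
    (h : HasDerivAt (fun t : ℝ => H (x + (t : ℂ) • w)) r 0) : fderiv ℝ H x w = r := by
  have h1 : HasDerivAt (fun t : ℝ => x + (t : ℂ) • w) w 0 := by
    have : HasDerivAt (fun t : ℝ => (t : ℂ)) 1 0 := by
      simpa using (hasDerivAt_id (0 : ℝ)).ofReal_comp
    simpa using (this.smul_const w).const_add x
  have h2 : HasFDerivAt H (fderiv ℝ H x) (x + ((0 : ℝ) : ℂ) • w) := by
    simpa using (hH.differentiable (by simp) x).hasFDerivAt
  exact (h2.comp_hasDerivAt (0 : ℝ) h1).unique h

/-- An autonomous Hamiltonian flow, lifted to `ℂ⁵`. -/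
structure HFlow where
  Φ : ℝ × V → V
  H : V → ℝ
  smoothΦ : ContDiff ℝ ∞ Φ
  smoothH : ContDiff ℝ ∞ H
  zero : ∀ z, Φ (0, z) = z
  cone : ∀ s, ∀ z ∈ unitCone, Φ (s, z) ∈ unitCone
  equiv : ∀ s z, ∀ c : ℂ, ‖c‖ = 1 → Φ (s, c • z) = c • Φ (s, z)
  inv : ∀ z, ∀ c : ℂ, ‖c‖ = 1 → H (c • z) = H z
  ham : ∀ s z, ∃ X, HasDerivAt (fun s => Φ (s, z)) X s ∧
    ∀ w, 2 * (herm X w).im = fderiv ℝ H (Φ (s, z)) w

noncomputable def angA (A B : CS) (z : V) : ℝ := ang (mu A z) (mu B z)
noncomputable def angB (A : CS) (τ : ℝ) (z : V) : ℝ := τ - Real.arctan (κ * mu A z)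

lemma contDiff_angA (A B : CS) : ContDiff ℝ ∞ (angA A B) := by
  unfold angA ang
  have h1 := contDiff_mu A (n := ∞)
  have h2 := contDiff_mu B (n := ∞)
  apply ContDiff.div
  · exact contDiff_const.mul (contDiff_const.sub h2)
  · exact contDiff_const.add ((contDiff_const.mul h1).pow 2)
  · intro z; exact (den_pos _).ne'

lemma contDiff_angB (A : CS) (τ : ℝ) : ContDiff ℝ ∞ (angB A τ) := by
  unfold angB
  exact contDiff_const.sub (Real.contDiff_arctan.comp (contDiff_const.mul (contDiff_mu A)))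

noncomputable def twistH (A B : CS) (τ : ℝ) (z : V) : ℝ :=
  Real.arctan (κ * mu A z) * (1 - mu B z) + τ * mu B z

lemma contDiff_twistH (A B : CS) (τ : ℝ) : ContDiff ℝ ∞ (twistH A B τ) := by
  unfold twistH
  exact ((Real.contDiff_arctan.comp (contDiff_const.mul (contDiff_mu A))).mul
    (contDiff_const.sub (contDiff_mu B))).add (contDiff_const.mul (contDiff_mu B))

lemma fderiv_twistH (A B : CS) (τ : ℝ) (x w : V) :
    fderiv ℝ (twistH A B τ) x w =
      angA A B x * (2 * (herm (A.J x) w).im) + angB A τ x * (2 * (herm (B.J x) w).im) := by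
  apply fderiv_eq_of_line (contDiff_twistH A B τ)
  have hA := hasDerivAt_mu_line A x w
  have hB := hasDerivAt_mu_line B x w
  have := (((hA.const_mul κ).arctan).mul (hB.const_sub 1)).add (hB.const_mul τ)
  refine HasDerivAt.congr_deriv this ?_
  simp only [angA, angB, ang, Complex.ofReal_zero, zero_smul, add_zero]
  have := (den_pos (mu A x)).ne'
  field_simp
  ring

/-- The twist flow. -/
noncomputable def twist (A B : CS) (h : Comm A B) (τ : ℝ) : HFlow where
  Φ p := E A (p.1 * angA A B p.2) (E B (p.1 * angB A τ p.2) p.2)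
  H := twistH A B τ
  smoothΦ := contDiff_E A (contDiff_fst.mul ((contDiff_angA A B).comp contDiff_snd))
    (contDiff_E B (contDiff_fst.mul ((contDiff_angB A τ).comp contDiff_snd)) contDiff_snd)
  smoothH := contDiff_twistH A B τ
  zero z := by simp [E_zero]
  cone s z hz := E_cone _ _ (E_cone _ _ hz)
  equiv s z c hc := by
    simp only [angA, angB, mu_smul _ hc, E_smul]
  inv z c hc := by simp only [twistH, mu_smul _ hc]
  ham s z := by
    have h1 : HasDerivAt (fun s : ℝ => s * angA A B z) (angA A B z) s := by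
      simpa using (hasDerivAt_id s).mul_const (angA A B z)
    have h2 : HasDerivAt (fun s : ℝ => s * angB A τ z) (angB A τ z) s := by
      simpa using (hasDerivAt_id s).mul_const (angB A τ z)
    refine ⟨_, hasDerivAt_E A h1 (hasDerivAt_E B h2 (hasDerivAt_const s z)), fun w => ?_⟩
    have hz : ∀ θ, E B θ 0 = 0 := fun θ => by simp [E]
    rw [fderiv_twistH, hz, add_zero, E_smul, ← J_E h.symm]
    simp only [angA, angB, mu_E_comm (Comm.refl A), mu_E_comm h, mu_E_comm h.symm,
      mu_E_comm (Comm.refl B), herm_add_left, herm_smul_left, Complex.conj_ofReal,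
      Complex.add_im, Complex.im_ofReal_mul]
    ring

noncomputable def ρ₁ (t : ℝ) : ℝ := Real.smoothTransition (3 * t)
noncomputable def ρ₂ (t : ℝ) : ℝ := Real.smoothTransition (3 * t - 2)

lemma contDiff_ρ₁ : ContDiff ℝ ∞ ρ₁ :=
  Real.smoothTransition.contDiff.comp (contDiff_const.mul contDiff_id)
lemma contDiff_ρ₂ : ContDiff ℝ ∞ ρ₂ :=
  Real.smoothTransition.contDiff.comp ((contDiff_const.mul contDiff_id).sub contDiff_const)

lemma ρ₂_eventually {t : ℝ} (ht : t < 2 / 3) : ρ₂ =ᶠ[nhds t] fun _ => 0 := by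
  filter_upwards [gt_mem_nhds ht] with s hs
  exact Real.smoothTransition.zero_of_nonpos (by linarith)

lemma ρ₁_eventually {t : ℝ} (ht : 1 / 3 < t) : ρ₁ =ᶠ[nhds t] fun _ => 1 := by
  filter_upwards [lt_mem_nhds ht] with s hs
  exact Real.smoothTransition.one_of_one_le (by linarith)

/-- Concatenation of two flows. -/
noncomputable def glue (F G : HFlow) : HamiltonianConeLift where
  Ψ p := G.Φ (ρ₂ p.1, F.Φ (ρ₁ p.1, p.2))
  H p := deriv ρ₁ p.1 * F.H p.2 + deriv ρ₂ p.1 * G.H p.2
  smooth_Ψ := G.smoothΦ.comp ((contDiff_ρ₂.comp contDiff_fst).prodMk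
    (F.smoothΦ.comp ((contDiff_ρ₁.comp contDiff_fst).prodMk contDiff_snd)))
  smooth_H := (((contDiff_infty_iff_deriv.mp contDiff_ρ₁).2.comp contDiff_fst).mul
      (F.smoothH.comp contDiff_snd)).add
    (((contDiff_infty_iff_deriv.mp contDiff_ρ₂).2.comp contDiff_fst).mul
      (G.smoothH.comp contDiff_snd))
  mapsTo_cone t z hz := G.cone _ _ (F.cone _ _ hz)
  compatible t z _ c hc := ⟨c, by simp only [F.equiv _ _ c hc, G.equiv _ _ c hc]⟩
  start z _ := ⟨1, by
    have h1 : ρ₁ 0 = 0 := Real.smoothTransition.zero_of_nonpos (by norm_num)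
    have h2 : ρ₂ 0 = 0 := Real.smoothTransition.zero_of_nonpos (by norm_num)
    simp [h1, h2, F.zero, G.zero]⟩
  invariant t z _ c hc := by simp only [F.inv _ c hc, G.inv _ c hc]
  hamilton t _ z _ w _ := by
    have hfd : ∀ x, fderiv ℝ (fun x : V => deriv ρ₁ t * F.H x + deriv ρ₂ t * G.H x) x w =
        deriv ρ₁ t * fderiv ℝ F.H x w + deriv ρ₂ t * fderiv ℝ G.H x w := by
      intro x
      have h1 := (F.smoothH.differentiable (by simp) x).hasFDerivAt
      have h2 := (G.smoothH.differentiable (by simp) x).hasFDerivAt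
      rw [((h1.const_mul (deriv ρ₁ t)).fun_add (h2.const_mul (deriv ρ₂ t))).fderiv]
      simp
    simp only
    rw [hfd]
    rcases lt_or_ge t (2 / 3) with ht | ht
    · have he := ρ₂_eventually ht
      have h0 : ρ₂ t = 0 := he.eq_of_nhds
      have hd : deriv ρ₂ t = 0 := by rw [he.deriv_eq]; simp
      have he2 : (fun s => G.Φ (ρ₂ s, F.Φ (ρ₁ s, z))) =ᶠ[nhds t] fun s => F.Φ (ρ₁ s, z) := by
        filter_upwards [he] with s hs
        rw [hs, G.zero]
      obtain ⟨X, hX, hw⟩ := F.ham (ρ₁ t) z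
      have h3 := hX.scomp t (contDiff_ρ₁.differentiable (by simp) t).hasDerivAt
      have h4 : deriv (fun s => F.Φ (ρ₁ s, z)) t = deriv ρ₁ t • X := h3.deriv
      rw [he2.deriv_eq, h4, hd, h0, G.zero, ← hw w, ← Complex.coe_smul, herm_smul_left]
      simp only [Complex.conj_ofReal, Complex.im_ofReal_mul]
      ring
    · have he := ρ₁_eventually (t := t) (by linarith)
      have h0 : ρ₁ t = 1 := he.eq_of_nhds
      have hd : deriv ρ₁ t = 0 := by rw [he.deriv_eq]; simp
      have he2 : (fun s => G.Φ (ρ₂ s, F.Φ (ρ₁ s, z))) =ᶠ[nhds t]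
          fun s => G.Φ (ρ₂ s, F.Φ (1, z)) := by
        filter_upwards [he] with s hs
        rw [hs]
      obtain ⟨X, hX, hw⟩ := G.ham (ρ₂ t) (F.Φ (1, z))
      have h3 := hX.scomp t (contDiff_ρ₂.differentiable (by simp) t).hasDerivAt
      have h4 : deriv (fun s => G.Φ (ρ₂ s, F.Φ (1, z))) t = deriv ρ₂ t • X := h3.deriv
      rw [he2.deriv_eq, h4, hd, h0, ← hw w, ← Complex.coe_smul, herm_smul_left]
      simp only [Complex.conj_ofReal, Complex.im_ofReal_mul]
      ring

lemma glue_one (F G : HFlow) (z : V) : (glue F G).Ψ (1, z) = G.Φ (1, F.Φ (1, z)) := by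
  have h1 : ρ₁ 1 = 1 := Real.smoothTransition.one_of_one_le (by norm_num)
  have h2 : ρ₂ 1 = 1 := Real.smoothTransition.one_of_one_le (by norm_num)
  simp [glue, h1, h2]

end Crest.Agent.H6Quad
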