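import Mathlib
import Crest.Agent.H6.QuadFlow

/-! A Hamiltonian diffeomorphism of the quadric threefold with three fixed points. -/

set_option autoImplicit false

namespace Crest.Agent.H6Quad

open Crest.GeometryTopology.Quadric
open scoped ContDiff

noncomputable def mkL (v : Fin 5 → (V →L[ℂ] ℂ)) : V →L[ℂ] V := ContinuousLinearMap.pi v

lemma mkL_apply (v : Fin 5 → (V →L[ℂ] ℂ)) (z : V) (i : Fin 5) : mkL v z i = v i z := rfl

macro "cs_tac" : tactic => `(tactic| first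
  | (intro z; ext i; fin_cases i <;> simp [mkL_apply, P_apply]; done)
  | (intro u w; simp [herm, bil, mkL_apply, Fin.sum_univ_five]; ring))

noncomputable def J0 : CS :=
  ⟨mkL ![-pr 1, pr 0, -pr 3, pr 2, 0], by cs_tac, by cs_tac, by cs_tac, by cs_tac, by cs_tac⟩
noncomputable def J1 : CS :=
  ⟨mkL ![-pr 2, pr 3, pr 0, -pr 1, 0], by cs_tac, by cs_tac, by cs_tac, by cs_tac, by cs_tac⟩
noncomputable def J2 : CS :=
  ⟨mkL ![-pr 3, -pr 2, pr 1, pr 0, 0], by cs_tac, by cs_tac, by cs_tac, by cs_tac, by cs_tac⟩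
noncomputable def K0 : CS :=
  ⟨mkL ![-pr 1, pr 0, pr 3, -pr 2, 0], by cs_tac, by cs_tac, by cs_tac, by cs_tac, by cs_tac⟩
noncomputable def K1 : CS :=
  ⟨mkL ![-pr 2, -pr 3, pr 0, pr 1, 0], by cs_tac, by cs_tac, by cs_tac, by cs_tac, by cs_tac⟩
noncomputable def K2 : CS :=
  ⟨mkL ![pr 3, -pr 2, pr 1, -pr 0, 0], by cs_tac, by cs_tac, by cs_tac, by cs_tac, by cs_tac⟩

macro "rel_tac" : tactic => `(tactic|
  (intro z; ext i; fin_cases i <;> simp [mkL_apply, J0, J1, J2, K0, K1, K2]))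

lemma tripJ : Trip J0 J1 J2 :=
  ⟨by rel_tac, by rel_tac, by rel_tac, by rel_tac, by rel_tac, by rel_tac⟩
lemma tripK : Trip K0 K1 K2 :=
  ⟨by rel_tac, by rel_tac, by rel_tac, by rel_tac, by rel_tac, by rel_tac⟩
lemma c00 : Comm J0 K0 := by rel_tac
lemma c01 : Comm J0 K1 := by rel_tac
lemma c02 : Comm J0 K2 := by rel_tac
lemma c10 : Comm J1 K0 := by rel_tac
lemma c11 : Comm J1 K1 := by rel_tac
lemma c12 : Comm J1 K2 := by rel_tac
lemma c20 : Comm J2 K0 := by rel_tac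
lemma c21 : Comm J2 K1 := by rel_tac

lemma mu_J0 (z : V) : mu J0 z = 2 * (-(z 1).re * (z 0).im + (z 0).re * (z 1).im
    - (z 3).re * (z 2).im + (z 2).re * (z 3).im) := by
  simp [mu, herm, J0, mkL_apply, Fin.sum_univ_five]; ring
lemma mu_J1 (z : V) : mu J1 z = 2 * (-(z 2).re * (z 0).im + (z 3).re * (z 1).im
    + (z 0).re * (z 2).im - (z 1).re * (z 3).im) := by
  simp [mu, herm, J1, mkL_apply, Fin.sum_univ_five]; ring
lemma mu_J2 (z : V) : mu J2 z = 2 * (-(z 3).re * (z 0).im - (z 2).re * (z 1).im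
    + (z 1).re * (z 2).im + (z 0).re * (z 3).im) := by
  simp [mu, herm, J2, mkL_apply, Fin.sum_univ_five]; ring
lemma mu_K0 (z : V) : mu K0 z = 2 * (-(z 1).re * (z 0).im + (z 0).re * (z 1).im
    + (z 3).re * (z 2).im - (z 2).re * (z 3).im) := by
  simp [mu, herm, K0, mkL_apply, Fin.sum_univ_five]; ring
lemma mu_K1 (z : V) : mu K1 z = 2 * (-(z 2).re * (z 0).im - (z 3).re * (z 1).im
    + (z 0).re * (z 2).im + (z 1).re * (z 3).im) := by
  simp [mu, herm, K1, mkL_apply, Fin.sum_univ_five]; ring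
lemma mu_K2 (z : V) : mu K2 z = 2 * ((z 3).re * (z 0).im - (z 2).re * (z 1).im
    + (z 1).re * (z 2).im - (z 0).re * (z 3).im) := by
  simp [mu, herm, K2, mkL_apply, Fin.sum_univ_five]; ring

/-- real form of the cone equations when the last coordinate vanishes -/
lemma cone_real {z : V} (hz : z ∈ unitCone) (h4 : z 4 = 0) :
    (z 0).re ^ 2 + (z 1).re ^ 2 + (z 2).re ^ 2 + (z 3).re ^ 2 = 1 / 2 ∧
    (z 0).im ^ 2 + (z 1).im ^ 2 + (z 2).im ^ 2 + (z 3).im ^ 2 = 1 / 2 ∧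
    (z 0).re * (z 0).im + (z 1).re * (z 1).im + (z 2).re * (z 2).im + (z 3).re * (z 3).im = 0 := by
  obtain ⟨h1, h2⟩ := hz
  have a1 := congrArg Complex.re h1
  have a2 := congrArg Complex.re h2
  have a3 := congrArg Complex.im h2
  simp [herm, Fin.sum_univ_five, h4, sq] at a1 a2 a3
  refine ⟨by nlinarith, by nlinarith, by nlinarith⟩

lemma norm_u {z : V} (hz : z ∈ unitCone) (h4 : z 4 = 0) :
    mu J0 z ^ 2 + mu J1 z ^ 2 + mu J2 z ^ 2 = 1 := by
  obtain ⟨h1, h2, h3⟩ := cone_real hz h4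
  rw [mu_J0, mu_J1, mu_J2]
  linear_combination (4 * ((z 0).im ^ 2 + (z 1).im ^ 2 + (z 2).im ^ 2 + (z 3).im ^ 2)) * h1
    + 2 * h2 - 4 * ((z 0).re * (z 0).im + (z 1).re * (z 1).im + (z 2).re * (z 2).im
      + (z 3).re * (z 3).im) * h3

lemma norm_v {z : V} (hz : z ∈ unitCone) (h4 : z 4 = 0) :
    mu K0 z ^ 2 + mu K1 z ^ 2 + mu K2 z ^ 2 = 1 := by
  obtain ⟨h1, h2, h3⟩ := cone_real hz h4
  rw [mu_K0, mu_K1, mu_K2]
  linear_combination (4 * ((z 0).im ^ 2 + (z 1).im ^ 2 + (z 2).im ^ 2 + (z 3).im ^ 2)) * h1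
    + 2 * h2 - 4 * ((z 0).re * (z 0).im + (z 1).re * (z 1).im + (z 2).re * (z 2).im
      + (z 3).re * (z 3).im) * h3

lemma herm_real {z : V} (hz : z ∈ unitCone) :
    (z 0).re ^ 2 + (z 1).re ^ 2 + (z 2).re ^ 2 + (z 3).re ^ 2 + (z 4).re ^ 2 +
    ((z 0).im ^ 2 + (z 1).im ^ 2 + (z 2).im ^ 2 + (z 3).im ^ 2 + (z 4).im ^ 2) = 1 := by
  have a1 := congrArg Complex.re hz.1
  simp [herm, Fin.sum_univ_five] at a1
  nlinarith

lemma bound_J0 {z : V} (hz : z ∈ unitCone) : mu J0 z ≤ 1 ∧ -1 ≤ mu J0 z := by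
  have h := herm_real hz
  rw [mu_J0]
  constructor
  · nlinarith [sq_nonneg ((z 1).re + (z 0).im), sq_nonneg ((z 0).re - (z 1).im),
      sq_nonneg ((z 3).re + (z 2).im), sq_nonneg ((z 2).re - (z 3).im), sq_nonneg (z 4).re,
      sq_nonneg (z 4).im]
  · nlinarith [sq_nonneg ((z 1).re - (z 0).im), sq_nonneg ((z 0).re + (z 1).im),
      sq_nonneg ((z 3).re - (z 2).im), sq_nonneg ((z 2).re + (z 3).im), sq_nonneg (z 4).re,
      sq_nonneg (z 4).im]

lemma bound_K0 {z : V} (hz : z ∈ unitCone) : mu K0 z ≤ 1 ∧ -1 ≤ mu K0 z := by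
  have h := herm_real hz
  rw [mu_K0]
  constructor
  · nlinarith [sq_nonneg ((z 1).re + (z 0).im), sq_nonneg ((z 0).re - (z 1).im),
      sq_nonneg ((z 3).re - (z 2).im), sq_nonneg ((z 2).re + (z 3).im), sq_nonneg (z 4).re,
      sq_nonneg (z 4).im]
  · nlinarith [sq_nonneg ((z 1).re - (z 0).im), sq_nonneg ((z 0).re + (z 1).im),
      sq_nonneg ((z 3).re + (z 2).im), sq_nonneg ((z 2).re - (z 3).im), sq_nonneg (z 4).re,
      sq_nonneg (z 4).im]

noncomputable def r2 : ℝ := Real.sqrt 2 / 2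

lemma r2_sq : r2 ^ 2 = 1 / 2 := by
  unfold r2
  have := Real.sq_sqrt (show (0 : ℝ) ≤ 2 by norm_num)
  nlinarith

lemma r2_ne : r2 ≠ 0 := by
  intro h
  have := r2_sq
  rw [h] at this
  norm_num at this

/-- the cone point with both spin vectors equal to `p` -/
noncomputable def zOf (p0 p1 p2 : ℝ) : V :=
  ![(r2 : ℂ), (r2 * p0 : ℝ) * Complex.I, (r2 * p1 : ℝ) * Complex.I, (r2 * p2 : ℝ) * Complex.I, 0]

lemma zOf_cone {p0 p1 p2 : ℝ} (h : p0 ^ 2 + p1 ^ 2 + p2 ^ 2 = 1) : zOf p0 p1 p2 ∈ unitCone := by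
  have h1 := r2_sq
  constructor
  · apply Complex.ext
    · simp [herm, zOf, Fin.sum_univ_five]
      linear_combination r2 ^ 2 * h + 2 * h1
    · simp [herm, zOf, Fin.sum_univ_five]
  · apply Complex.ext
    · simp [zOf, Fin.sum_univ_five, sq]
      linear_combination (-r2 ^ 2) * h
    · simp [zOf, Fin.sum_univ_five, sq]

lemma mu_zOf (p0 p1 p2 : ℝ) :
    mu J0 (zOf p0 p1 p2) = p0 ∧ mu J1 (zOf p0 p1 p2) = p1 ∧ mu J2 (zOf p0 p1 p2) = p2 ∧
    mu K0 (zOf p0 p1 p2) = p0 ∧ mu K1 (zOf p0 p1 p2) = p1 ∧ mu K2 (zOf p0 p1 p2) = -p2 := by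
  have h1 := r2_sq
  rw [mu_J0, mu_J1, mu_J2, mu_K0, mu_K1, mu_K2]
  simp [zOf]
  refine ⟨?_, ?_, ?_, ?_⟩
  · linear_combination 2 * p0 * h1
  · linear_combination 2 * p1 * h1
  · linear_combination 2 * p2 * h1
  · refine ⟨?_, ?_, ?_⟩
    · linear_combination 2 * p0 * h1
    · linear_combination 2 * p1 * h1
    · linear_combination 2 * p2 * h1

lemma eq_smul_zOf {z : V} (hz : z ∈ unitCone) (h4 : z 4 = 0) {p0 p1 p2 : ℝ}
    (u0 : mu J0 z = p0) (u1 : mu J1 z = p1) (u2 : mu J2 z = p2)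
    (v0 : mu K0 z = p0) (v1 : mu K1 z = p1) (v2 : mu K2 z = -p2) :
    z = (z 0 / r2) • zOf p0 p1 p2 := by
  obtain ⟨h1, h2, h3⟩ := cone_real hz h4
  rw [mu_J0] at u0; rw [mu_J1] at u1; rw [mu_J2] at u2
  rw [mu_K0] at v0; rw [mu_K1] at v1; rw [mu_K2] at v2
  have w01 : (z 0).re * (z 1).im - (z 1).re * (z 0).im = p0 / 2 := by linarith
  have w02 : (z 0).re * (z 2).im - (z 2).re * (z 0).im = p1 / 2 := by linarith
  have w03 : (z 0).re * (z 3).im - (z 3).re * (z 0).im = p2 / 2 := by linarith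
  have w23 : (z 2).re * (z 3).im - (z 3).re * (z 2).im = 0 := by linarith
  have w13 : (z 1).re * (z 3).im - (z 3).re * (z 1).im = 0 := by linarith
  have w12 : (z 1).re * (z 2).im - (z 2).re * (z 1).im = 0 := by linarith
  have hr : (r2 : ℂ) ≠ 0 := by exact_mod_cast r2_ne
  have e1 : z 1 = z 0 * (p0 * Complex.I) := by
    apply Complex.ext
    · simp
      linear_combination (-2 * (z 1).re) * h2 + 2 * (z 1).im * h3 - 2 * (z 0).im * w01
        + 2 * (z 2).im * w12 + 2 * (z 3).im * w13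
    · simp
      linear_combination (-2 * (z 1).im) * h1 + 2 * (z 1).re * h3 + 2 * (z 0).re * w01
        - 2 * (z 2).re * w12 - 2 * (z 3).re * w13
  have e2 : z 2 = z 0 * (p1 * Complex.I) := by
    apply Complex.ext
    · simp
      linear_combination (-2 * (z 2).re) * h2 + 2 * (z 2).im * h3 - 2 * (z 0).im * w02
        - 2 * (z 1).im * w12 + 2 * (z 3).im * w23
    · simp
      linear_combination (-2 * (z 2).im) * h1 + 2 * (z 2).re * h3 + 2 * (z 0).re * w02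
        + 2 * (z 1).re * w12 - 2 * (z 3).re * w23
  have e3 : z 3 = z 0 * (p2 * Complex.I) := by
    apply Complex.ext
    · simp
      linear_combination (-2 * (z 3).re) * h2 + 2 * (z 3).im * h3 - 2 * (z 0).im * w03
        - 2 * (z 1).im * w13 - 2 * (z 2).im * w23
    · simp
      linear_combination (-2 * (z 3).im) * h1 + 2 * (z 3).re * h3 + 2 * (z 0).re * w03
        + 2 * (z 1).re * w13 + 2 * (z 2).re * w23
  ext i
  fin_cases i
  · simp [zOf]; field_simp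
  · simp [zOf, e1]; field_simp
  · simp [zOf, e2]; field_simp
  · simp [zOf, e3]; field_simp
  · simp [zOf, h4]

lemma norm_of_smul_cone {z : V} {c : ℂ} (hz : z ∈ unitCone) (hcz : c • z ∈ unitCone) : ‖c‖ = 1 := by
  have h := hcz.1
  rw [herm_smul_left, herm_smul_right, hz.1, mul_one, mul_comm, Complex.mul_conj,
    Complex.normSq_eq_norm_sq] at h
  have h2 : ‖c‖ ^ 2 = 1 := by exact_mod_cast h
  have := norm_nonneg c
  nlinarith

noncomputable def F1 : HFlow := twist J1 K0 c10 0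
noncomputable def F2 : HFlow := twist K1 J0 c01.symm Real.pi
noncomputable def L : HamiltonianConeLift := glue F1 F2

noncomputable def mid (z : V) : V := E J1 (angA J1 K0 z) (E K0 (angB J1 0 z) z)

lemma L_one (z : V) : L.Ψ (1, z) =
    E K1 (angA K1 J0 (mid z)) (E J0 (angB K1 Real.pi (mid z)) (mid z)) := by
  simp [L, glue_one, F1, F2, twist, mid]

lemma mid_cone {z : V} (hz : z ∈ unitCone) : mid z ∈ unitCone := E_cone _ _ (E_cone _ _ hz)

lemma sin_angB (A : CS) (τ : ℝ) (hτ : Real.sin τ = 0) (z : V) :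
    Real.sin (angB A τ z) = -(κ * mu A z) * Real.cos (angB A τ z) := by
  unfold angB
  have h1 := Real.tan_arctan (κ * mu A z)
  have h2 := Real.cos_arctan_pos (κ * mu A z)
  rw [Real.tan_eq_sin_div_cos, div_eq_iff h2.ne'] at h1
  rw [Real.sin_sub, Real.cos_sub, hτ, h1]
  ring

lemma cos_angB_zero (A : CS) (z : V) : 0 < Real.cos (angB A 0 z) := by
  unfold angB
  rw [zero_sub, Real.cos_neg]
  exact Real.cos_arctan_pos _

lemma cos_angB_pi (A : CS) (z : V) : Real.cos (angB A Real.pi z) < 0 := by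
  unfold angB
  rw [Real.cos_pi_sub]
  have := Real.cos_arctan_pos (κ * mu A z)
  linarith

lemma E_neg_E (A : CS) (θ : ℝ) (z : V) : E A (-θ) (E A θ z) = z := by
  have h := cs_sq θ
  simp only [E, map_add, map_smul, map_sub, A.JP, A.PJ, A.sq, P_P, sub_self, add_zero,
    Real.cos_neg, Real.sin_neg, Complex.ofReal_neg]
  have : z = ((Real.cos θ : ℂ) ^ 2 + (Real.sin θ : ℂ) ^ 2) • P z + (z - P z) := by
    rw [h]; simp
  conv_rhs => rw [this]
  module

lemma re_herm_J (A : CS) (w : V) : (herm w (A.J w)).re = 0 := by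
  have h1 := A.skew w w
  rw [← herm_conj w (A.J w)] at h1
  have := congrArg Complex.re h1
  simp at this
  linarith

lemma re_herm_EE {A B C : CS} (h : Trip A B C) (θ θ' : ℝ) (w : V) :
    (herm w (P (E A θ (E B θ' w)))).re = Real.cos θ * Real.cos θ' * (herm w (P w)).re := by
  simp only [E, map_add, map_smul, map_sub, A.JP, A.PJ, B.PJ, C.PJ, P_P, sub_self, add_zero, h.ab,
    herm_add_right, herm_smul_right, Complex.add_re, Complex.re_ofReal_mul, re_herm_J]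
  ring

lemma re_herm_P (z : V) : (herm z (P z)).re = (z 0).re ^ 2 + (z 1).re ^ 2 + (z 2).re ^ 2
    + (z 3).re ^ 2 + ((z 0).im ^ 2 + (z 1).im ^ 2 + (z 2).im ^ 2 + (z 3).im ^ 2) := by
  simp [herm, P_apply, Fin.sum_univ_five]; ring

lemma re_herm_P_pos {z : V} (hz : z ∈ unitCone) : 0 < (herm z (P z)).re := by
  have h1 := herm_real hz
  have a2 := congrArg Complex.re hz.2
  have a3 := congrArg Complex.im hz.2
  simp [Fin.sum_univ_five, sq] at a2 a3
  rw [re_herm_P]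
  by_contra hc
  push Not at hc
  have x0 : (z 0).re = 0 := by nlinarith [sq_nonneg (z 0).re, sq_nonneg (z 1).re, sq_nonneg (z 2).re, sq_nonneg (z 3).re, sq_nonneg (z 0).im, sq_nonneg (z 1).im, sq_nonneg (z 2).im, sq_nonneg (z 3).im]
  have x1 : (z 1).re = 0 := by nlinarith [sq_nonneg (z 0).re, sq_nonneg (z 1).re, sq_nonneg (z 2).re, sq_nonneg (z 3).re, sq_nonneg (z 0).im, sq_nonneg (z 1).im, sq_nonneg (z 2).im, sq_nonneg (z 3).im]
  have x2 : (z 2).re = 0 := by nlinarith [sq_nonneg (z 0).re, sq_nonneg (z 1).re, sq_nonneg (z 2).re, sq_nonneg (z 3).re, sq_nonneg (z 0).im, sq_nonneg (z 1).im, sq_nonneg (z 2).im, sq_nonneg (z 3).im]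
  have x3 : (z 3).re = 0 := by nlinarith [sq_nonneg (z 0).re, sq_nonneg (z 1).re, sq_nonneg (z 2).re, sq_nonneg (z 3).re, sq_nonneg (z 0).im, sq_nonneg (z 1).im, sq_nonneg (z 2).im, sq_nonneg (z 3).im]
  have y0 : (z 0).im = 0 := by nlinarith [sq_nonneg (z 0).re, sq_nonneg (z 1).re, sq_nonneg (z 2).re, sq_nonneg (z 3).re, sq_nonneg (z 0).im, sq_nonneg (z 1).im, sq_nonneg (z 2).im, sq_nonneg (z 3).im]
  have y1 : (z 1).im = 0 := by nlinarith [sq_nonneg (z 0).re, sq_nonneg (z 1).re, sq_nonneg (z 2).re, sq_nonneg (z 3).re, sq_nonneg (z 0).im, sq_nonneg (z 1).im, sq_nonneg (z 2).im, sq_nonneg (z 3).im]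
  have y2 : (z 2).im = 0 := by nlinarith [sq_nonneg (z 0).re, sq_nonneg (z 1).re, sq_nonneg (z 2).re, sq_nonneg (z 3).re, sq_nonneg (z 0).im, sq_nonneg (z 1).im, sq_nonneg (z 2).im, sq_nonneg (z 3).im]
  have y3 : (z 3).im = 0 := by nlinarith [sq_nonneg (z 0).re, sq_nonneg (z 1).re, sq_nonneg (z 2).re, sq_nonneg (z 3).re, sq_nonneg (z 0).im, sq_nonneg (z 1).im, sq_nonneg (z 2).im, sq_nonneg (z 3).im]
  rw [x0, x1, x2, x3, y0, y1, y2, y3] at h1 a2 a3
  have : (z 4).re * (z 4).im = 0 := by linarith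
  rcases mul_eq_zero.mp this with h | h <;> rw [h] at h1 a2 <;> nlinarith

lemma not_fixed {z : V} (hz : z ∈ unitCone) : L.Ψ (1, z) ≠ z := by
  intro h
  rw [L_one] at h
  set δ := angA K1 J0 (mid z) with hδ
  set γ := angB K1 Real.pi (mid z) with hγ
  have hcδ : 7 / 8 ≤ Real.cos δ :=
    cos_ang_ge _ (bound_J0 (mid_cone hz)).1 (bound_J0 (mid_cone hz)).2
  have hcγ : Real.cos γ < 0 := cos_angB_pi _ _
  clear_value δ γ
  unfold mid at h
  set α := angA J1 K0 z with hα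
  set β := angB J1 0 z with hβ
  have hcα : 7 / 8 ≤ Real.cos α := cos_ang_ge _ (bound_K0 hz).1 (bound_K0 hz).2
  have hcβ : 0 < Real.cos β := cos_angB_zero _ _
  clear_value α β
  have h1 : E J0 γ (E J1 α z) = E K0 (-β) (E K1 (-δ) z) := by
    conv_rhs => rw [← h, E_neg_E, E_E c10, E_E c00, E_neg_E]
  have h2 := re_herm_EE tripJ γ α z
  have h3 := re_herm_EE tripK (-β) (-δ) z
  rw [h1, h3, Real.cos_neg, Real.cos_neg] at h2
  have h4 := re_herm_P_pos hz
  have h5 : 0 < Real.cos β * Real.cos δ := mul_pos hcβ (by linarith)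
  have h6 : Real.cos γ * Real.cos α < 0 := mul_neg_of_neg_of_pos hcγ (by linarith)
  nlinarith

lemma mu_mid (z : V) :
    mu J0 (mid z) = (Real.cos (angA J1 K0 z) ^ 2 - Real.sin (angA J1 K0 z) ^ 2) * mu J0 z
      + 2 * Real.cos (angA J1 K0 z) * Real.sin (angA J1 K0 z) * mu J2 z ∧
    mu J1 (mid z) = mu J1 z ∧
    mu J2 (mid z) = (Real.cos (angA J1 K0 z) ^ 2 - Real.sin (angA J1 K0 z) ^ 2) * mu J2 z
      - 2 * Real.cos (angA J1 K0 z) * Real.sin (angA J1 K0 z) * mu J0 z ∧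
    mu K0 (mid z) = mu K0 z ∧
    mu K1 (mid z) = (Real.cos (angB J1 0 z) ^ 2 - Real.sin (angB J1 0 z) ^ 2) * mu K1 z
      - 2 * Real.cos (angB J1 0 z) * Real.sin (angB J1 0 z) * mu K2 z ∧
    mu K2 (mid z) = (Real.cos (angB J1 0 z) ^ 2 - Real.sin (angB J1 0 z) ^ 2) * mu K2 z
      + 2 * Real.cos (angB J1 0 z) * Real.sin (angB J1 0 z) * mu K1 z := by
  unfold mid
  refine ⟨?_, ?_, ?_, ?_, ?_, ?_⟩
  · rw [mu_E_C tripJ.rot, mu_E_comm c00, mu_E_comm c20]
  · rw [mu_E_comm (Comm.refl _), mu_E_comm c10]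
  · rw [mu_E_B tripJ.rot, mu_E_comm c00, mu_E_comm c20]
  · rw [mu_E_comm c10.symm, mu_E_comm (Comm.refl _)]
  · rw [mu_E_comm c11.symm, mu_E_B tripK]
  · rw [mu_E_comm c12.symm, mu_E_C tripK]

lemma mu_fin (δ γ : ℝ) (w : V) :
    mu J0 (E K1 δ (E J0 γ w)) = mu J0 w ∧
    mu J1 (E K1 δ (E J0 γ w)) = (Real.cos γ ^ 2 - Real.sin γ ^ 2) * mu J1 w
      - 2 * Real.cos γ * Real.sin γ * mu J2 w ∧
    mu J2 (E K1 δ (E J0 γ w)) = (Real.cos γ ^ 2 - Real.sin γ ^ 2) * mu J2 w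
      + 2 * Real.cos γ * Real.sin γ * mu J1 w ∧
    mu K0 (E K1 δ (E J0 γ w)) = (Real.cos δ ^ 2 - Real.sin δ ^ 2) * mu K0 w
      + 2 * Real.cos δ * Real.sin δ * mu K2 w ∧
    mu K1 (E K1 δ (E J0 γ w)) = mu K1 w ∧
    mu K2 (E K1 δ (E J0 γ w)) = (Real.cos δ ^ 2 - Real.sin δ ^ 2) * mu K2 w
      - 2 * Real.cos δ * Real.sin δ * mu K0 w := by
  refine ⟨?_, ?_, ?_, ?_, ?_, ?_⟩
  · rw [mu_E_comm c01, mu_E_comm (Comm.refl _)]
  · rw [mu_E_comm c11, mu_E_B tripJ]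
  · rw [mu_E_comm c21, mu_E_C tripJ]
  · rw [mu_E_C tripK.rot, mu_E_comm c00.symm, mu_E_comm c02.symm]
  · rw [mu_E_comm (Comm.refl _), mu_E_comm c01.symm]
  · rw [mu_E_B tripK.rot, mu_E_comm c00.symm, mu_E_comm c02.symm]

lemma L_four (z : V) : L.Ψ (1, z) 4 = z 4 := by
  rw [L_one]; unfold mid; simp only [E_four]

lemma midpoint_eqs {θ x y x' y' : ℝ}
    (h1 : x' = (Real.cos θ ^ 2 - Real.sin θ ^ 2) * x - 2 * Real.cos θ * Real.sin θ * y)
    (h2 : y' = (Real.cos θ ^ 2 - Real.sin θ ^ 2) * y + 2 * Real.cos θ * Real.sin θ * x) :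
    Real.cos θ * (x' - x) = -Real.sin θ * (y' + y) ∧
      Real.cos θ * (y' - y) = Real.sin θ * (x' + x) := by
  have h := Real.cos_sq_add_sin_sq θ
  subst h1 h2
  constructor
  · linear_combination (Real.cos θ * x - Real.sin θ * y) * h
  · linear_combination (Real.cos θ * y + Real.sin θ * x) * h

lemma fixed_cases {z : V} (hz : z ∈ unitCone) {c : ℂ} (h : L.Ψ (1, z) = c • z) :
    z 4 = 0 ∧ ((mu J0 z = 1 ∧ mu J1 z = 0 ∧ mu J2 z = 0 ∧ mu K0 z = 1 ∧ mu K1 z = 0 ∧ mu K2 z = 0) ∨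
      (mu K0 z = mu J0 z ∧ mu K1 z = mu J1 z ∧ Special (-mu J0 z) |mu J1 z| ∧
        mu J2 z = -(κ * mu J1 z ^ 2) ∧ mu K2 z = κ * mu J1 z ^ 2)) := by
  have h4 : z 4 = 0 := by
    by_contra hne
    have h1 := L_four z
    rw [h] at h1
    have hc : c = 1 := by
      simp only [Pi.smul_apply, smul_eq_mul] at h1
      exact mul_right_cancel₀ hne (by rw [h1, one_mul])
    rw [hc, one_smul] at h
    exact not_fixed hz h
  refine ⟨h4, ?_⟩
  have hc : ‖c‖ = 1 := norm_of_smul_cone hz (h ▸ L.mapsTo_cone 1 z hz)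
  obtain ⟨m0, m1, m2, m3, m4, m5⟩ := mu_mid z
  obtain ⟨f0, f1, f2, f3, f4, f5⟩ := mu_fin (angA K1 J0 (mid z)) (angB K1 Real.pi (mid z)) (mid z)
  rw [← L_one, h, mu_smul _ hc] at f0 f1 f2 f3 f4 f5
  obtain ⟨a1, a2⟩ := midpoint_eqs m2 m0
  obtain ⟨b1, b2⟩ := midpoint_eqs m4 m5
  obtain ⟨g1, g2⟩ := midpoint_eqs f1 f2
  obtain ⟨d1, d2⟩ := midpoint_eqs f5 f3
  have sγ := sin_angB K1 Real.pi Real.sin_pi (mid z)
  have sβ := sin_angB J1 0 Real.sin_zero z
  have hδ : angA K1 J0 (mid z) = ang (mu K1 z) (mu J0 z) := by rw [angA, ← f4, ← f0]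
  have hα : angA J1 K0 z = ang (mu J1 z) (mu K0 z) := rfl
  rw [hδ] at d1 d2
  rw [hα] at a1 a2
  rw [← f0] at a1 a2
  rw [← f4] at b1 b2 sγ
  rw [m1] at g1 g2
  rw [m3] at d1 d2
  refine solve_full (e' := mu J2 (mid z)) (f' := mu K2 (mid z)) (norm_u hz h4) (norm_v hz h4)
    sγ (cos_angB_pi _ _).ne sβ (cos_angB_zero _ _).ne' ?_ ?_ ?_ ?_ ?_ ?_ ?_ ?_
  · linear_combination -a2
  · linear_combination a1
  · linear_combination g1
  · linear_combination g2
  · linear_combination b1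
  · linear_combination b2
  · linear_combination -d2
  · linear_combination d1

lemma reflect_eqs {θ x y : ℝ} (h : Real.cos θ * y = -Real.sin θ * x) :
    (Real.cos θ ^ 2 - Real.sin θ ^ 2) * x - 2 * Real.cos θ * Real.sin θ * y = x ∧
    (Real.cos θ ^ 2 - Real.sin θ ^ 2) * y + 2 * Real.cos θ * Real.sin θ * x = -y := by
  have h1 := Real.cos_sq_add_sin_sq θ
  constructor
  · linear_combination x * h1 - 2 * Real.sin θ * h
  · linear_combination (-y) * h1 + 2 * Real.cos θ * h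

lemma reflect_eqs' {θ x y : ℝ} (h : Real.cos θ * x = Real.sin θ * y) :
    (Real.cos θ ^ 2 - Real.sin θ ^ 2) * x - 2 * Real.cos θ * Real.sin θ * y = -x ∧
    (Real.cos θ ^ 2 - Real.sin θ ^ 2) * y + 2 * Real.cos θ * Real.sin θ * x = y := by
  have h1 := Real.cos_sq_add_sin_sq θ
  constructor
  · linear_combination (-x) * h1 + 2 * Real.cos θ * h
  · linear_combination y * h1 + 2 * Real.sin θ * h

lemma fixed_of {a b : ℝ} (hn : a ^ 2 + b ^ 2 + (-(κ * b ^ 2)) ^ 2 = 1)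
    (he : Real.cos (ang b a) * (-(κ * b ^ 2)) = Real.sin (ang b a) * a) :
    L.Ψ (1, zOf a b (-(κ * b ^ 2))) ∈ Submodule.span ℂ {zOf a b (-(κ * b ^ 2))} := by
  set z := zOf a b (-(κ * b ^ 2)) with hzdef
  have hz : z ∈ unitCone := zOf_cone hn
  obtain ⟨u0, u1, u2, v0, v1, v2⟩ := mu_zOf a b (-(κ * b ^ 2))
  rw [← hzdef] at u0 u1 u2 v0 v1 v2
  obtain ⟨m0, m1, m2, m3, m4, m5⟩ := mu_mid z
  have hα : angA J1 K0 z = ang b a := by rw [angA, u1, v0]
  have sβ := sin_angB J1 0 Real.sin_zero z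
  rw [hα, u0, u2, (reflect_eqs' he).2] at m0
  rw [hα, u0, u2, (reflect_eqs' he).1] at m2
  rw [u1] at m1 sβ
  rw [v0] at m3
  have hβ : Real.cos (angB J1 0 z) * (- -(κ * b ^ 2)) = -Real.sin (angB J1 0 z) * b := by
    rw [sβ]; ring
  rw [v1, v2, (reflect_eqs hβ).1] at m4
  rw [v1, v2, (reflect_eqs hβ).2] at m5
  obtain ⟨f0, f1, f2, f3, f4, f5⟩ := mu_fin (angA K1 J0 (mid z)) (angB K1 Real.pi (mid z)) (mid z)
  rw [← L_one] at f0 f1 f2 f3 f4 f5
  have hδ : angA K1 J0 (mid z) = ang b a := by rw [angA, m4, m0]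
  have sγ := sin_angB K1 Real.pi Real.sin_pi (mid z)
  rw [m4] at sγ f4
  rw [m0] at f0
  have hγ : Real.cos (angB K1 Real.pi (mid z)) * (- -(κ * b ^ 2)) =
      -Real.sin (angB K1 Real.pi (mid z)) * b := by
    rw [sγ]; ring
  rw [m1, m2, (reflect_eqs hγ).1] at f1
  rw [m1, m2, (reflect_eqs hγ).2] at f2
  have he' : Real.cos (ang b a) * (- - -(κ * b ^ 2)) = Real.sin (ang b a) * a := by
    rw [← he]; ring
  rw [hδ, m3, m5, (reflect_eqs' he').2] at f3
  rw [hδ, m3, m5, (reflect_eqs' he').1] at f5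
  have := eq_smul_zOf (L.mapsTo_cone 1 z hz) (by rw [L_four, hzdef]; simp [zOf]) f0 f1
    (p2 := -(κ * b ^ 2)) (by rw [f2]; ring) f3 f4 (by rw [f5]; ring)
  rw [this]
  exact Submodule.smul_mem _ _ (Submodule.mem_span_singleton_self _)

lemma span_eq_of_smul {z w : V} (hz : z ∈ unitCone) {c : ℂ} (h : z = c • w) :
    Submodule.span ℂ {z} = Submodule.span ℂ {w} := by
  have hc : c ≠ 0 := by
    rintro rfl
    have := hz.1
    rw [h] at this
    simp [herm] at this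
  rw [h]
  exact Submodule.span_singleton_smul_eq (IsUnit.mk0 c hc) w

lemma mu_eq_of_span {z w : V} (hz : z ∈ unitCone) (hw : w ∈ unitCone)
    (h : Submodule.span ℂ {z} = Submodule.span ℂ {w}) (A : CS) : mu A z = mu A w := by
  have : z ∈ Submodule.span ℂ {w} := h ▸ Submodule.mem_span_singleton_self z
  obtain ⟨c, rfl⟩ := Submodule.mem_span_singleton.mp this
  exact mu_smul _ (norm_of_smul_cone hw hz) _

theorem ncard_fixed : (fixedLines L).ncard = 3 := by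
  obtain ⟨A, B, hS⟩ := exists_special
  obtain ⟨hA, hB, hn, ht⟩ := hS
  have hA1 : A ≤ 1 := by nlinarith [sq_nonneg B, sq_nonneg (κ * B ^ 2)]
  have hcos := cos_ang_ge B (c := -A) (by linarith) (by linarith)
  have n1 : (1 : ℝ) ^ 2 + 0 ^ 2 + (-(κ * 0 ^ 2)) ^ 2 = 1 := by ring
  have n2 : (-A) ^ 2 + B ^ 2 + (-(κ * B ^ 2)) ^ 2 = 1 := by rw [← hn]; ring
  have n3 : (-A) ^ 2 + (-B) ^ 2 + (-(κ * (-B) ^ 2)) ^ 2 = 1 := by rw [← hn]; ring
  have e1 : Real.cos (ang 0 1) * (-(κ * 0 ^ 2)) = Real.sin (ang 0 1) * 1 := by simp [ang]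
  have e2 : Real.cos (ang B (-A)) * (-(κ * B ^ 2)) = Real.sin (ang B (-A)) * (-A) := by
    rw [← ht, Real.tan_eq_sin_div_cos]
    field_simp
  have e3 : Real.cos (ang (-B) (-A)) * (-(κ * (-B) ^ 2)) = Real.sin (ang (-B) (-A)) * (-A) := by
    have : ang (-B) (-A) = ang B (-A) := by unfold ang; ring_nf
    rw [this, ← e2]; ring
  rw [Set.ncard_eq_three]
  refine ⟨Submodule.span ℂ {zOf 1 0 (-(κ * 0 ^ 2))}, Submodule.span ℂ {zOf (-A) B (-(κ * B ^ 2))},
    Submodule.span ℂ {zOf (-A) (-B) (-(κ * (-B) ^ 2))}, ?_, ?_, ?_, ?_⟩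
  · intro h
    have := mu_eq_of_span (zOf_cone n1) (zOf_cone n2) h J1
    rw [(mu_zOf _ _ _).2.1, (mu_zOf _ _ _).2.1] at this
    linarith
  · intro h
    have := mu_eq_of_span (zOf_cone n1) (zOf_cone n3) h J1
    rw [(mu_zOf _ _ _).2.1, (mu_zOf _ _ _).2.1] at this
    linarith
  · intro h
    have := mu_eq_of_span (zOf_cone n2) (zOf_cone n3) h J1
    rw [(mu_zOf _ _ _).2.1, (mu_zOf _ _ _).2.1] at this
    linarith
  · ext ℓ
    simp only [Set.mem_insert_iff, Set.mem_singleton_iff]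
    constructor
    · rintro ⟨z, hz, rfl, hf⟩
      obtain ⟨c, hc⟩ := Submodule.mem_span_singleton.mp hf
      obtain ⟨h4, hcase⟩ := fixed_cases hz hc.symm
      rcases hcase with ⟨u0, u1, u2, v0, v1, v2⟩ | ⟨v0, v1, hS, u2, v2⟩
      · left
        exact span_eq_of_smul hz (eq_smul_zOf hz h4 u0 u1 (by rw [u2]; ring) v0 v1
          (by rw [v2]; ring))
      · right
        obtain ⟨q1, q2⟩ := special_unique hS ⟨hA, hB, hn, ht⟩
        have u0 : mu J0 z = -A := by linarith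
        rcases (abs_eq hB.le).mp q2 with u1 | u1
        · left
          exact span_eq_of_smul hz (eq_smul_zOf hz h4 u0 u1 (by rw [u2, u1]) (by rw [v0, u0])
            (by rw [v1, u1]) (by rw [v2, u1]; ring))
        · right
          exact span_eq_of_smul hz (eq_smul_zOf hz h4 u0 u1 (by rw [u2, u1]) (by rw [v0, u0])
            (by rw [v1, u1]) (by rw [v2, u1]; ring))
    · rintro (rfl | rfl | rfl)
      · exact ⟨_, zOf_cone n1, rfl, fixed_of n1 e1⟩
      · exact ⟨_, zOf_cone n2, rfl, fixed_of n2 e2⟩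
      · exact ⟨_, zOf_cone n3, rfl, fixed_of n3 e3⟩

theorem degenerate : HasDegenerateFixedPoint L := by
  have n1 : (1 : ℝ) ^ 2 + 0 ^ 2 + 0 ^ 2 = 1 := by ring
  set z := zOf 1 0 0 with hzdef
  have hz : z ∈ unitCone := zOf_cone n1
  obtain ⟨u0, u1, u2, v0, v1, v2⟩ := mu_zOf 1 0 0
  rw [← hzdef] at u0 u1 u2 v0 v1 v2
  have hP : P z = z := by
    rw [P_apply, hzdef]; ext i; fin_cases i <;> simp [zOf]
  have hcurve : ∀ s : ℝ, L.Ψ (1, E J1 s z) =
      E K1 (κ * (1 - (Real.cos s ^ 2 - Real.sin s ^ 2))) (-E J1 s z) := by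
    intro s
    have a1 : mu J1 (E J1 s z) = 0 := by rw [mu_E_comm (Comm.refl _), u1]
    have a2 : mu K0 (E J1 s z) = 1 := by rw [mu_E_comm c10.symm, v0]
    have a3 : mu K1 (E J1 s z) = 0 := by rw [mu_E_comm c11.symm, v1]
    have a4 : mu J0 (E J1 s z) = Real.cos s ^ 2 - Real.sin s ^ 2 := by
      rw [mu_E_C tripJ.rot, u0, u2]; ring
    have hm : mid (E J1 s z) = E J1 s z := by
      simp [mid, angA, angB, ang, a1, a2, E_zero]
    have hπ : E J0 Real.pi (E J1 s z) = -E J1 s z := by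
      have : P (E J1 s z) = E J1 s z := by rw [P_E, hP]
      rw [E, this]; simp
    rw [L_one, hm]
    simp only [angA, angB, ang, a3, a4, mul_zero, Real.arctan_zero, sub_zero, hπ]
    norm_num
  have d1 : HasDerivAt (fun s : ℝ => E J1 s z) (J1.J z) 0 := by
    have := hasDerivAt_E J1 (hasDerivAt_id (0 : ℝ)) (hasDerivAt_const (0 : ℝ) z)
    simpa [E_zero] using this
  have d2 : HasDerivAt (fun s : ℝ => κ * (1 - (Real.cos s ^ 2 - Real.sin s ^ 2))) 0 0 := by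
    have := ((((Real.hasDerivAt_cos 0).pow 2).sub ((Real.hasDerivAt_sin 0).pow 2)).const_sub
      1).const_mul κ
    refine HasDerivAt.congr_deriv this ?_
    simp
  have d3 : HasDerivAt (fun s : ℝ => L.Ψ (1, E J1 s z)) (-J1.J z) 0 := by
    simp only [hcurve]
    have := hasDerivAt_E K1 d2 d1.neg
    refine HasDerivAt.congr_deriv this ?_
    simp [E_zero]
  have hdiff : HasFDerivAt (fun x : V => L.Ψ (1, x)) (fderiv ℝ (fun x : V => L.Ψ (1, x)) z)
      (E J1 0 z) := by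
    rw [E_zero]
    have : ContDiff ℝ ∞ fun x : V => L.Ψ (1, x) :=
      L.smooth_Ψ.comp (contDiff_const.prodMk contDiff_id)
    exact (this.differentiable (by simp) z).hasFDerivAt
  have d5 := hdiff.comp_hasDerivAt (0 : ℝ) d1
  have d4 : fderiv ℝ (fun x : V => L.Ψ (1, x)) z (J1.J z) = -J1.J z := d5.unique d3
  refine ⟨z, hz, -1, ?_, J1.J z, ⟨re_herm_J _ _, ?_⟩, ?_, 0, ?_⟩
  · have := hcurve 0
    simpa [E_zero] using this
  · have := J1.bskew z z
    rw [bil_comm] at this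
    change bil z (J1.J z) = 0
    linear_combination this / 2
  · intro r h
    have := congrFun h 2
    simp [hzdef, J1, mkL_apply, zOf, r2_ne] at this
  · rw [d4]; simp

end Crest.Agent.H6Quad
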