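import Crest.Agent.H6.SymInf
import Crest.Prelude.Def_FinProb

/-! Bridge between the prelude's Bernoulli probabilities and `Ex`. -/

namespace Crest.Agent.H6.Cube
open Finset

variable {ι : Type*} [Fintype ι] [DecidableEq ι]

lemma prob_eq (p : ℝ) (E : Set (ι → Bool)) (g : (ι → Bool) → ℝ) (h1 : ∀ x, x ∈ E → g x = 1)
    (h0 : ∀ x, x ∉ E → g x = 0) :
    Crest.FinProb.bernoulliProb p E = Ex (fun _ => p) g := by
  classical
  unfold Crest.FinProb.bernoulliProb Ex
  rw [Finset.sum_filter]
  refine Finset.sum_congr rfl fun x _ => ?_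
  by_cases hx : x ∈ E
  · rw [if_pos hx, h1 x hx, mul_one]; rfl
  · rw [if_neg hx, h0 x hx, mul_zero]

lemma var_bool (p : ℝ) {f : (ι → Bool) → ℝ} (hf : ∀ x, f x = 0 ∨ f x = 1) :
    Ex (fun _ => p) (fun x => f x ^ 2) - (Ex (fun _ => p) f) ^ 2 =
      Ex (fun _ => p) f * (1 - Ex (fun _ => p) f) := by
  have : (fun x => f x ^ 2) = f := by
    funext x; rcases hf x with h | h <;> rw [h] <;> norm_num
  rw [this]; ring

/-- Margulis-Russo formula -/
lemma hasDerivAt_Ex (f : (ι → Bool) → ℝ) (p : ℝ) :
    HasDerivAt (fun t => Ex (fun _ => t) f) (∑ e, Ex (fun _ => p) (D e f)) p := by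
  have hk : ∀ b : Bool, HasDerivAt (fun t => kw t b) (kw 1 b - kw 0 b) p := by
    intro b
    cases b
    · simpa using (hasDerivAt_id p).const_sub 1
    · simpa using hasDerivAt_id' p
  have hW : ∀ x : ι → Bool, HasDerivAt (fun t => W (fun _ => t) x)
      (∑ e, (W (Function.update (fun _ => p) e 1) x - W (Function.update (fun _ => p) e 0) x)) p := by
    intro x
    have := HasDerivAt.fun_finsetProd (u := (univ : Finset ι)) (f := fun i t => kw t (x i))
      (f' := fun i => kw 1 (x i) - kw 0 (x i)) (x := p) (fun i _ => hk (x i))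
    refine HasDerivAt.congr_deriv this ?_
    refine Finset.sum_congr rfl fun e _ => ?_
    have hW : ∀ s, W (Function.update (fun _ : ι => p) e s) x =
        kw s (x e) * ∏ i ∈ univ.erase e, kw p (x i) := by
      intro s
      unfold W
      rw [← Finset.mul_prod_erase univ _ (mem_univ e)]
      simp only [Function.update_self]
      congr 1
      refine Finset.prod_congr rfl fun i hi => ?_
      rw [Function.update_of_ne (Finset.ne_of_mem_erase hi)]
    rw [hW, hW, smul_eq_mul]; ring
  have := HasDerivAt.fun_sum (u := (univ : Finset (ι → Bool)))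
    (fun x _ => (hW x).mul_const (f x))
  refine HasDerivAt.congr_deriv this ?_
  simp_rw [Finset.sum_mul]
  rw [Finset.sum_comm]
  refine Finset.sum_congr rfl fun e _ => ?_
  have h1 := Ex_update (fun _ : ι => p) e 1 f
  have h0 := Ex_update (fun _ : ι => p) e 0 f
  rw [Ex_D]
  simp_rw [sub_mul]
  rw [Finset.sum_sub_distrib]
  unfold Ex at h1 h0 ⊢
  rw [h1, h0]; ring

end Crest.Agent.H6.Cube
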