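import Crest.Agent.H6.CubeFourier

/-! Total influence of vertex-symmetric Boolean functions of uniform hypergraphs. -/

namespace Crest.Agent.H6.Cube
open Finset

variable {ι : Type*} [Fintype ι] [DecidableEq ι] {V : Type*} [Fintype V] [DecidableEq V]

/-- a Boolean function of the slots of an `r`-uniform hypergraph, invariant under transpositions -/
structure SymData (r : ℕ) (inc : ι → Finset V) (f : (ι → Bool) → ℝ) : Prop where
  card : ∀ e, (inc e).card = r
  inj : Function.Injective inc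
  swap : ∀ a b : V, ∃ τ : Equiv.Perm ι,
    (∀ e, inc (τ e) = (inc e).map (Equiv.swap a b).toEmbedding) ∧ ∀ x, f (x ∘ τ) = f x
  bool : ∀ x, f x = 0 ∨ f x = 1

/-- pivotal influence -/
noncomputable def Inf (p : ℝ) (f : (ι → Bool) → ℝ) (e : ι) : ℝ :=
  Ex (fun _ => p) (fun x => D e f x ^ 2)

lemma sym_Ex {f : (ι → Bool) → ℝ} (τ : Equiv.Perm ι) (hf : ∀ x, f (x ∘ τ) = f x) {π : ι → ℝ}
    (hπ : ∀ e, π (τ e) = π e) (e : ι) :
    Ex π (fun x => D (τ e) f x ^ 2) = Ex π (fun x => D e f x ^ 2) := by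
  have h1 : ∀ x, D (τ e) f x = D e f (x ∘ τ) := by
    intro x
    unfold D
    rw [← hf (Function.update x (τ e) true), ← hf (Function.update x (τ e) false),
      Function.update_comp_eq_of_injective _ τ.injective,
      Function.update_comp_eq_of_injective _ τ.injective]
  have h2 : ∀ x : ι → Bool, W π (x ∘ τ) = W π x := by
    intro x
    unfold W
    rw [← Equiv.prod_comp τ (fun i => kw (π i) (x i))]
    exact Finset.prod_congr rfl fun i _ => by rw [hπ]; rfl
  unfold Ex
  simp_rw [h1]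
  rw [← Equiv.sum_comp (Equiv.arrowCongr τ.symm (Equiv.refl Bool))
    (fun x => W π x * D e f x ^ 2)]
  refine Finset.sum_congr rfl fun x _ => ?_
  have : (Equiv.arrowCongr τ.symm (Equiv.refl Bool)) x = x ∘ τ := by
    funext i; simp [Equiv.arrowCongr]
  rw [this, h2]

lemma vertex_inf {r : ℕ} {inc : ι → Finset V} {f : (ι → Bool) → ℝ} (h : SymData r inc f)
    (p : ℝ) (a0 : V) :
    (Fintype.card V : ℝ) * ∑ e, (if a0 ∈ inc e then Inf p f e else 0) = r * ∑ e, Inf p f e := by
  have h1 : ∀ a, ∑ e, (if a0 ∈ inc e then Inf p f e else 0) =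
      ∑ e, (if a ∈ inc e then Inf p f e else 0) := by
    intro a
    obtain ⟨τ, hτ, hf⟩ := h.swap a a0
    rw [← Equiv.sum_comp τ]
    refine Finset.sum_congr rfl fun e _ => ?_
    have e1 : Inf p f (τ e) = Inf p f e := sym_Ex τ hf (fun _ => rfl) e
    have e2 : a0 ∈ inc (τ e) ↔ a ∈ inc e := by
      rw [hτ, Finset.mem_map_equiv]; simp
    simp only [e1, e2]
  calc (Fintype.card V : ℝ) * ∑ e, (if a0 ∈ inc e then Inf p f e else 0)
      = ∑ a : V, ∑ e, (if a ∈ inc e then Inf p f e else 0) := by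
        simp_rw [← h1]; simp
    _ = ∑ e, ∑ a : V, (if a ∈ inc e then Inf p f e else 0) := Finset.sum_comm
    _ = _ := by
        rw [Finset.mul_sum]
        refine Finset.sum_congr rfl fun e _ => ?_
        rw [Finset.sum_ite_mem_eq]; simp [h.card]

/-- slots meeting a vertex set -/
def touch (inc : ι → Finset V) (A : Finset V) : Finset ι :=
  univ.filter fun e => ∃ a ∈ A, a ∈ inc e

omit [Fintype ι] in
lemma D_cube {f : (ι → Bool) → ℝ} (hf : ∀ x, f x = 0 ∨ f x = 1) (e : ι) (x : ι → Bool) :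
    D e f x ^ 3 = D e f x := by
  unfold D
  rcases hf (Function.update x e true) with h1 | h1 <;>
    rcases hf (Function.update x e false) with h2 | h2 <;> rw [h1, h2] <;> norm_num

lemma Inf_nonneg {p : ℝ} (hp0 : 0 ≤ p) (hp1 : p ≤ 1) (f : (ι → Bool) → ℝ) (e : ι) :
    0 ≤ Inf p f e := Ex_nonneg (good_const hp0 hp1) fun _ => sq_nonneg _

theorem upper_bound {r : ℕ} {inc : ι → Finset V} {f : (ι → Bool) → ℝ} (h : SymData r inc f)
    {p ρ ζ : ℝ} (hp0 : 0 ≤ p) (hp1 : p ≤ 1) (hρ0 : 0 ≤ ρ) (hρ : ρ ^ 4 ≤ p * (1 - p) / 4)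
    (hζ : 0 < ζ) (A : Finset V) :
    p * (1 - p) * ∑ e ∈ touch inc A,
        Ex (fun _ => p) (fun x => (T p ρ (touch inc A) (D e f) x) ^ 2) ≤
      (p * (1 - p) * ζ + 4 * r / (Fintype.card V * ζ ^ 2)) * ∑ e, Inf p f e := by
  set B := touch inc A with hB
  set v := p * (1 - p) with hv
  have hv0 : 0 ≤ v := mul_nonneg hp0 (by linarith)
  have hv1 : v ≤ 1 / 4 := by nlinarith [sq_nonneg (p - 1 / 2)]
  have hρ1 : ρ ≤ 1 / 2 := by
    have : ρ ^ 4 ≤ (1 / 2) ^ 4 := by nlinarith
    exact (pow_le_pow_iff_left₀ hρ0 (by norm_num) (by norm_num)).1 this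
  have hI : 0 ≤ ∑ e, Inf p f e := Finset.sum_nonneg fun e _ => Inf_nonneg hp0 hp1 f e
  have hgc : Good (fun _ : ι => p) := good_const hp0 hp1
  rcases A.eq_empty_or_nonempty with hA | ⟨a0, ha0⟩
  · have : B = ∅ := by rw [hB, hA]; simp [touch]
    rw [this, Finset.sum_empty, mul_zero]
    positivity
  have hn : (0 : ℝ) < Fintype.card V := by
    have : Nonempty V := ⟨a0⟩
    exact_mod_cast Fintype.card_pos
  set q : ι → (ι → Bool) → ℝ := fun e => T p 0 B (fun z => D e f z ^ 2) with hq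
  have hq0 : ∀ e x, 0 ≤ q e x := fun e x =>
    Ex_nonneg (good_npi hp0 hp1 le_rfl zero_le_one B x) fun _ => sq_nonneg _
  have hqE : ∀ e, Ex (fun _ => p) (q e) = Inf p f e := fun e => tower p B _
  set F : ι → (ι → Bool) → ℝ := fun e x => (T p ρ B (D e f) x) ^ 2 with hF
  -- light part
  have hlight : ∀ e, Ex (fun _ => p) (fun x => (if q e x < ζ ^ 2 then 1 else 0) * F e x) ≤
      ζ * Inf p f e := by
    intro e
    rw [← tower p B, ← hqE, ← Ex_mul_left]
    refine Ex_mono hgc fun x => ?_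
    rw [T_pull p 0 B (fun x => if q e x < ζ ^ 2 then 1 else 0) (F e) x
      (fun z hz => by simp only [hq]; rw [T0_congr p B _ hz])]
    split_ifs with hx
    · rw [one_mul]
      have h1 := hyper_dual hp0 hp1 hρ B (D e f) (D_cube h.bool e) x
      have h2 : (T p 0 B (F e) x) ^ 2 ≤ (ζ * q e x) ^ 2 := by
        refine h1.trans ?_
        have := hq0 e x
        show q e x ^ 3 ≤ _
        nlinarith [sq_nonneg (q e x)]
      exact (abs_le_of_sq_le_sq' h2 (mul_nonneg hζ.le (hq0 e x))).2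
    · rw [zero_mul]; exact mul_nonneg hζ.le (hq0 e x)
  -- heavy part
  have hgrad : ∀ x, v * ∑ e ∈ B, F e x ≤ 4 := by
    intro x
    have hg := good_npi hp0 hp1 hρ0 (by linarith) B x
    have h1 := bessel hg B f
    have h2 : Ex (npi p ρ B x) (fun x => f x ^ 2) ≤ 1 := by
      rw [← Ex_one (npi p ρ B x)]
      refine Ex_mono hg fun z => ?_
      rcases h.bool z with h3 | h3 <;> rw [h3] <;> norm_num
    have h3 : ∑ e ∈ B, v / 4 * F e x ≤
        ∑ e ∈ B, npi p ρ B x e * (1 - npi p ρ B x e) * Ex (npi p ρ B x) (D e f) ^ 2 := by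
      refine Finset.sum_le_sum fun e he => mul_le_mul_of_nonneg_right ?_ (sq_nonneg _)
      have a1 : p / 2 ≤ npi p ρ B x e := by
        simp only [npi, he, if_true]; cases x e <;> simp <;> nlinarith
      have a2 : (1 - p) / 2 ≤ 1 - npi p ρ B x e := by
        simp only [npi, he, if_true]; cases x e <;> simp <;> nlinarith
      calc v / 4 = p / 2 * ((1 - p) / 2) := by rw [hv]; ring
        _ ≤ _ := mul_le_mul a1 a2 (by linarith) (by linarith)
    rw [← Finset.mul_sum] at h3
    linarith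
  have hheavy : ∀ x, v * ∑ e ∈ B, (if q e x < ζ ^ 2 then 0 else 1) * F e x ≤
      4 / ζ ^ 2 * ∑ e, (if a0 ∈ inc e then q e x else 0) := by
    intro x
    have hs0 : ∀ e ∈ (univ : Finset ι), 0 ≤ (if a0 ∈ inc e then q e x else 0) := by
      intro e _; split_ifs; exacts [hq0 e x, le_rfl]
    by_cases hex : ∀ e ∈ B, q e x < ζ ^ 2
    · rw [Finset.sum_eq_zero (fun e he => by rw [if_pos (hex e he), zero_mul]), mul_zero]
      exact mul_nonneg (by positivity) (Finset.sum_nonneg hs0)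
    · push Not at hex
      obtain ⟨e, he, hqe⟩ := hex
      obtain ⟨a, haA, hae⟩ : ∃ a ∈ A, a ∈ inc e := by simpa [hB, touch] using he
      obtain ⟨τ, hτ, hf⟩ := h.swap a a0
      have hsw : ∀ b, b ∈ A → Equiv.swap a a0 b ∈ A := by
        intro b hb
        rw [Equiv.swap_apply_def]; split_ifs <;> assumption
      have hπ : ∀ i, npi p 0 B x (τ i) = npi p 0 B x i := by
        intro i
        by_cases hi : i ∈ B
        · have : τ i ∈ B := by
            obtain ⟨b, hbA, hbi⟩ : ∃ a ∈ A, a ∈ inc i := by simpa [hB, touch] using hi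
            simp only [hB, touch, mem_filter, mem_univ, true_and]
            refine ⟨_, hsw b hbA, ?_⟩
            rw [hτ]; exact Finset.mem_map_of_mem _ hbi
          simp [npi, hi, this]
        · have hi' : ∀ b ∈ A, b ∉ inc i := by simpa [hB, touch] using hi
          have : τ i = i := by
            apply h.inj
            rw [hτ]
            ext b
            rw [Finset.mem_map_equiv, Equiv.symm_swap, Equiv.swap_apply_def]
            split_ifs with h1 h2
            · subst h1; simp [hi' _ haA, hi' _ ha0]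
            · subst h2; simp [hi' _ haA, hi' _ ha0]
            · rfl
          rw [this]
      have hqτ : q (τ e) x = q e x := sym_Ex τ hf hπ e
      have ha0τ : a0 ∈ inc (τ e) := by rw [hτ, Finset.mem_map_equiv]; simpa using hae
      have h1 : ζ ^ 2 ≤ ∑ e, (if a0 ∈ inc e then q e x else 0) := by
        have := Finset.single_le_sum hs0 (mem_univ (τ e))
        simp only [ha0τ, if_true] at this
        linarith
      have h2 : ∑ e ∈ B, (if q e x < ζ ^ 2 then 0 else 1) * F e x ≤ ∑ e ∈ B, F e x := by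
        refine Finset.sum_le_sum fun e _ => ?_
        have : 0 ≤ F e x := sq_nonneg _
        split_ifs <;> linarith
      calc _ ≤ v * ∑ e ∈ B, F e x := mul_le_mul_of_nonneg_left h2 hv0
        _ ≤ 4 / ζ ^ 2 * ζ ^ 2 := by rw [div_mul_cancel₀ _ (by positivity)]; exact hgrad x
        _ ≤ _ := mul_le_mul_of_nonneg_left h1 (by positivity)
  have hsplit : ∑ e ∈ B, Ex (fun _ => p) (F e) =
      ∑ e ∈ B, Ex (fun _ => p) (fun x => (if q e x < ζ ^ 2 then 1 else 0) * F e x) +
        Ex (fun _ => p) (fun x => ∑ e ∈ B, (if q e x < ζ ^ 2 then 0 else 1) * F e x) := by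
    rw [Ex_sum, ← Finset.sum_add_distrib]
    refine Finset.sum_congr rfl fun e _ => ?_
    rw [← Ex_add]
    congr 1
    funext x
    split_ifs <;> ring
  have hL : ∑ e ∈ B, Ex (fun _ => p) (fun x => (if q e x < ζ ^ 2 then 1 else 0) * F e x) ≤
      ζ * ∑ e, Inf p f e := by
    refine (Finset.sum_le_sum fun e _ => hlight e).trans ?_
    rw [← Finset.mul_sum]
    exact mul_le_mul_of_nonneg_left (Finset.sum_le_sum_of_subset_of_nonneg (subset_univ _)
      fun e _ _ => Inf_nonneg hp0 hp1 f e) hζ.le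
  have hH : v * Ex (fun _ => p) (fun x => ∑ e ∈ B, (if q e x < ζ ^ 2 then 0 else 1) * F e x) ≤
      4 * r / (Fintype.card V * ζ ^ 2) * ∑ e, Inf p f e := by
    rw [← Ex_mul_left]
    refine (Ex_mono hgc hheavy).trans ?_
    rw [Ex_mul_left, Ex_sum]
    have e1 : ∑ e, Ex (fun _ => p) (fun x => if a0 ∈ inc e then q e x else 0) =
        ∑ e, (if a0 ∈ inc e then Inf p f e else 0) := by
      refine Finset.sum_congr rfl fun e _ => ?_
      split_ifs
      · exact hqE e
      · exact Ex_const _ _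
    have e2 := vertex_inf h p a0
    rw [e1, eq_div_of_mul_eq hn.ne' ((mul_comm _ _).trans e2)]
    apply le_of_eq
    field_simp
  show v * ∑ e ∈ B, Ex (fun _ => p) (F e) ≤ _
  rw [hsplit, mul_add]
  have := mul_le_mul_of_nonneg_left hL hv0
  linarith

/-- degree of a vertex in a family of slots -/
def deg (inc : ι → Finset V) (S : Finset ι) (a : V) : ℕ := (S.filter fun e => a ∈ inc e).card

omit [Fintype ι] [DecidableEq ι] in
lemma sum_deg {r : ℕ} {inc : ι → Finset V} (hc : ∀ e, (inc e).card = r) (S : Finset ι) :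
    ∑ a, deg inc S a = r * S.card := by
  unfold deg
  simp_rw [Finset.card_filter]
  rw [Finset.sum_comm]
  simp_rw [Finset.sum_ite_mem_eq]
  simp [hc, mul_comm]

omit [Fintype ι] [DecidableEq ι] in
lemma exists_small_deg {r : ℕ} {inc : ι → Finset V} (hc : ∀ e, (inc e).card = r)
    (hinj : Function.Injective inc) (hr : 1 ≤ r) {S : Finset ι} (hS : S.Nonempty) :
    ∃ e ∈ S, ∃ a ∈ inc e, deg inc S a ^ r ≤ (r * S.card) ^ (r - 1) := by
  set U := S.biUnion inc with hU
  have hUne : U.Nonempty := by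
    obtain ⟨e, he⟩ := hS
    obtain ⟨a, ha⟩ : (inc e).Nonempty := Finset.card_pos.1 (by rw [hc]; exact hr)
    exact ⟨a, Finset.mem_biUnion.2 ⟨e, he, ha⟩⟩
  obtain ⟨a, haU, hmin⟩ := Finset.exists_min_image U (deg inc S) hUne
  obtain ⟨e, he, hae⟩ := Finset.mem_biUnion.1 haU
  refine ⟨e, he, a, hae, ?_⟩
  have h1 : U.card * deg inc S a ≤ r * S.card := by
    rw [← sum_deg hc S]
    calc U.card * deg inc S a ≤ ∑ b ∈ U, deg inc S b := by
          rw [← smul_eq_mul]; exact Finset.card_nsmul_le_sum _ _ _ hmin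
      _ ≤ _ := Finset.sum_le_sum_of_subset (subset_univ _)
  have h2 : deg inc S a ≤ U.card ^ (r - 1) := by
    refine le_trans ?_ (Nat.choose_le_pow U.card (r - 1))
    rw [← Finset.card_powersetCard]
    refine Finset.card_le_card_of_injOn (fun e => (inc e).erase a) ?_ ?_
    · intro i hi
      simp only [coe_filter, Set.mem_ofPred_eq] at hi
      simp only [mem_coe, Finset.mem_powersetCard]
      refine ⟨fun b hb => Finset.mem_biUnion.2 ⟨i, hi.1, Finset.mem_of_mem_erase hb⟩, ?_⟩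
      rw [Finset.card_erase_of_mem hi.2, hc]
    · intro i hi j hj hij
      simp only [coe_filter, Set.mem_ofPred_eq] at hi hj
      apply hinj
      rw [← Finset.insert_erase hi.2, ← Finset.insert_erase hj.2]
      simp only at hij
      rw [hij]
  calc deg inc S a ^ r = deg inc S a * deg inc S a ^ (r - 1) := by
        rw [← pow_succ']; congr 1; omega
    _ ≤ U.card ^ (r - 1) * deg inc S a ^ (r - 1) := Nat.mul_le_mul_right _ h2
    _ = (U.card * deg inc S a) ^ (r - 1) := by rw [mul_pow]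
    _ ≤ _ := Nat.pow_le_pow_left h1 _

lemma avg_lower {r : ℕ} {inc : ι → Finset V} (hc : ∀ e, (inc e).card = r) {θ ℓ : ℝ}
    (hθ0 : 0 ≤ θ) (hθ1 : θ ≤ 1) (hℓ : 0 ≤ ℓ) {S : Finset ι} {e0 : ι} (he0 : e0 ∈ S) {a0 : V}
    (ha0 : a0 ∈ inc e0) :
    θ * Real.exp (-ℓ * (deg inc S a0 + θ * (r * S.card))) ≤
      Ex (fun _ : V => θ) (fun y => ∑ e ∈ touch inc (univ.filter fun a => y a = true),
        if e ∈ S then Real.exp (-ℓ) ^ ((S.erase e) ∩
          touch inc (univ.filter fun a => y a = true)).card else 0) := by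
  set γ := Real.exp (-ℓ) with hγ
  have hγ0 : 0 < γ := Real.exp_pos _
  have hγ1 : γ ≤ 1 := Real.exp_le_one_iff.2 (by linarith)
  set G : V → Bool → ℝ := fun a b =>
    (if a = a0 then bv b else 1) * (if b then γ ^ deg inc S a else 1) with hG
  have h1 : ∀ y : V → Bool, ∏ a, G a (y a) ≤
      ∑ e ∈ touch inc (univ.filter fun a => y a = true),
        if e ∈ S then γ ^ ((S.erase e) ∩
          touch inc (univ.filter fun a => y a = true)).card else 0 := by
    intro y
    set A := univ.filter fun a => y a = true with hA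
    have hnn : ∀ e ∈ touch inc A,
        0 ≤ (if e ∈ S then γ ^ ((S.erase e) ∩ touch inc A).card else 0) := by
      intro e _; split_ifs <;> positivity
    cases hy : y a0
    · rw [Finset.prod_eq_zero (mem_univ a0) (by simp [hG, hy])]
      exact Finset.sum_nonneg hnn
    · have he0B : e0 ∈ touch inc A := by
        simp only [touch, mem_filter, mem_univ, true_and]
        exact ⟨a0, by simp [hA, hy], ha0⟩
      refine le_trans ?_ (Finset.single_le_sum hnn he0B)
      rw [if_pos he0]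
      have e1 : ∏ a, G a (y a) = γ ^ ∑ a ∈ A, deg inc S a := by
        rw [← Finset.prod_pow_eq_pow_sum, hA, Finset.prod_filter]
        refine Finset.prod_congr rfl fun a _ => ?_
        simp only [hG]
        by_cases h : a = a0
        · subst h; simp [hy]
        · simp [h]
      rw [e1]
      refine pow_le_pow_of_le_one hγ0.le hγ1 ?_
      refine le_trans (Finset.card_le_card ?_) (Finset.card_biUnion_le
        (s := A) (t := fun a => S.filter fun e => a ∈ inc e))
      intro e he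
      obtain ⟨h1, h2⟩ := Finset.mem_inter.1 he
      obtain ⟨a, haA, hae⟩ : ∃ a ∈ A, a ∈ inc e := by simpa [touch] using h2
      exact Finset.mem_biUnion.2 ⟨a, haA, Finset.mem_filter.2 ⟨Finset.mem_of_mem_erase h1, hae⟩⟩
  refine le_trans ?_ (Ex_mono (good_const hθ0 hθ1) h1)
  rw [Ex_prod (fun _ : V => θ) G]
  have h2 : ∀ a, (if a = a0 then θ * Real.exp (-ℓ * deg inc S a0) else 1) *
      Real.exp (-ℓ * θ * deg inc S a) ≤ θ * G a true + (1 - θ) * G a false := by
    intro a
    have e1 : γ ^ deg inc S a = Real.exp (-ℓ * deg inc S a) := by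
      rw [hγ, ← Real.exp_nat_mul, mul_comm]
    by_cases h : a = a0
    · subst h
      simp only [hG, if_true, bv_true, bv_false, e1]
      have : Real.exp (-ℓ * θ * deg inc S a) ≤ 1 := by
        rw [Real.exp_le_one_iff]
        have : 0 ≤ ℓ * θ * deg inc S a := by positivity
        linarith
      have h0 : 0 ≤ θ * Real.exp (-ℓ * deg inc S a) := by positivity
      simp only [Bool.false_eq_true, if_false]
      nlinarith
    · simp only [hG, h, if_false, if_true, e1, Bool.false_eq_true]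
      have := convexOn_exp.2 (Set.mem_univ (-ℓ * deg inc S a)) (Set.mem_univ 0) hθ0
        (by linarith : 0 ≤ 1 - θ) (by ring)
      simp only [smul_eq_mul, mul_zero, add_zero, Real.exp_zero] at this
      rw [show -ℓ * θ * deg inc S a = θ * (-ℓ * deg inc S a) by ring]
      linarith
  refine le_trans (le_of_eq ?_) (Finset.prod_le_prod (fun a _ => ?_) fun a _ => h2 a)
  · rw [Finset.prod_mul_distrib, Finset.prod_ite_eq', if_pos (mem_univ _), ← Real.exp_sum,
      ← Finset.mul_sum, ← Nat.cast_sum, sum_deg hc, mul_assoc, ← Real.exp_add]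
    congr 2
    push_cast; ring
  · split_ifs <;> positivity

theorem core_ineq {r : ℕ} {inc : ι → Finset V} {f : (ι → Bool) → ℝ} (h : SymData r inc f)
    (hr : 1 ≤ r) {p ρ ζ θ ℓ M κ : ℝ} (hp0 : 0 ≤ p) (hp1 : p ≤ 1) (hρ0 : 0 ≤ ρ)
    (hρ : ρ ^ 4 ≤ p * (1 - p) / 4) (hζ : 0 < ζ) (hθ0 : 0 ≤ θ) (hθ1 : θ ≤ 1) (hℓ : 0 ≤ ℓ)
    (hρℓ : ρ ^ 2 = Real.exp (-ℓ)) (hM : 0 < M) (hκ0 : 0 ≤ κ) (hκ : (r * M) ^ (r - 1) ≤ κ ^ r) :
    θ * Real.exp (-ℓ * (κ + θ * (r * M))) *
        (Ex (fun _ => p) (fun x => f x ^ 2) - (Ex (fun _ => p) f) ^ 2 -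
          p * (1 - p) * (∑ e, Inf p f e) / M) ≤
      (p * (1 - p) * ζ + 4 * r / (Fintype.card V * ζ ^ 2)) * ∑ e, Inf p f e := by
  obtain ⟨ω, hω0, hvar, hspec⟩ := exists_spec hp0 hp1 f
  have hI : p * (1 - p) * ∑ e, Inf p f e = ∑ S, ω S * S.card := by
    rw [Finset.mul_sum]
    have : ∀ e, p * (1 - p) * Inf p f e = ∑ S, if e ∈ S then ω S else 0 := by
      intro e
      have := hspec 0 ∅ e
      simp only [T_empty, Finset.inter_empty, Finset.card_empty, pow_zero, mul_one] at this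
      exact this
    simp_rw [this]
    rw [Finset.sum_comm]
    refine Finset.sum_congr rfl fun S _ => ?_
    rw [Finset.sum_ite_mem_eq]; simp [mul_comm]
  set c := θ * Real.exp (-ℓ * (κ + θ * (r * M))) with hc
  have hc0 : 0 ≤ c := by positivity
  set m : Finset ι → (V → Bool) → ℝ := fun S y =>
    ∑ e ∈ touch inc (univ.filter fun a => y a = true),
        if e ∈ S then Real.exp (-ℓ) ^ ((S.erase e) ∩
          touch inc (univ.filter fun a => y a = true)).card else 0 with hm
  have hgθ : Good (fun _ : V => θ) := good_const hθ0 hθ1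
  have hm0 : ∀ S, 0 ≤ Ex (fun _ : V => θ) (m S) := fun S => Ex_nonneg hgθ fun y =>
    Finset.sum_nonneg fun e _ => by split_ifs <;> positivity
  have hup : ∑ S, ω S * Ex (fun _ : V => θ) (m S) ≤
      (p * (1 - p) * ζ + 4 * r / (Fintype.card V * ζ ^ 2)) * ∑ e, Inf p f e := by
    simp_rw [← Ex_mul_left]
    rw [← Ex_sum, ← Ex_const (fun _ : V => θ)
      ((p * (1 - p) * ζ + 4 * r / (Fintype.card V * ζ ^ 2)) * ∑ e, Inf p f e)]
    refine Ex_mono hgθ fun y => ?_
    refine le_trans (le_of_eq ?_) (upper_bound h hp0 hp1 hρ0 hρ hζ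
      (univ.filter fun a => y a = true))
    rw [Finset.mul_sum]
    simp_rw [hspec, hρℓ, hm, Finset.mul_sum]
    rw [Finset.sum_comm]
    refine Finset.sum_congr rfl fun e _ => Finset.sum_congr rfl fun S _ => ?_
    split_ifs <;> simp
  refine le_trans ?_ hup
  rw [hvar, hI, Finset.sum_div, ← Finset.add_sum_erase univ _ (mem_univ (∅ : Finset ι)),
    ← Finset.add_sum_erase univ (fun S => ω S * Ex (fun _ : V => θ) (m S))
      (mem_univ (∅ : Finset ι))]
  simp only [Finset.card_empty, Nat.cast_zero, mul_zero, zero_div, zero_add]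
  rw [← Finset.sum_sub_distrib, Finset.mul_sum]
  refine le_add_of_nonneg_of_le (mul_nonneg (hω0 _) (hm0 _)) (Finset.sum_le_sum fun S hS => ?_)
  have hSne : S.Nonempty := Finset.nonempty_iff_ne_empty.2 (Finset.ne_of_mem_erase hS)
  have hcard : (0 : ℝ) ≤ ω S * S.card / M := by have := hω0 S; positivity
  by_cases hSM : (S.card : ℝ) ≤ M
  · obtain ⟨e0, he0, a0, ha0, hdeg⟩ := exists_small_deg h.card h.inj hr hSne
    have h1 := avg_lower h.card hθ0 hθ1 hℓ he0 ha0
    have h2 : (deg inc S a0 : ℝ) ≤ κ := by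
      have h3 : (deg inc S a0 : ℝ) ^ r ≤ κ ^ r := by
        calc (deg inc S a0 : ℝ) ^ r ≤ ((r : ℝ) * S.card) ^ (r - 1) := by exact_mod_cast hdeg
          _ ≤ (r * M) ^ (r - 1) := by gcongr
          _ ≤ _ := hκ
      exact (pow_le_pow_iff_left₀ (by positivity) hκ0 (by omega)).1 h3
    have h4 : c ≤ Ex (fun _ : V => θ) (m S) := by
      refine le_trans ?_ h1
      rw [hc]
      refine mul_le_mul_of_nonneg_left (Real.exp_le_exp.2 ?_) hθ0
      have : (deg inc S a0 : ℝ) + θ * (r * S.card) ≤ κ + θ * (r * M) := by gcongr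
      nlinarith
    calc c * (ω S - ω S * S.card / M) ≤ c * ω S := by nlinarith
      _ ≤ _ := by rw [mul_comm]; exact mul_le_mul_of_nonneg_left h4 (hω0 S)
  · push Not at hSM
    have : ω S ≤ ω S * S.card / M := by
      rw [le_div_iff₀ hM]; exact mul_le_mul_of_nonneg_left hSM.le (hω0 S)
    have h5 := mul_nonneg (hω0 S) (hm0 S)
    nlinarith

lemma poincare {p : ℝ} (hp0 : 0 ≤ p) (hp1 : p ≤ 1) (f : (ι → Bool) → ℝ) :
    Ex (fun _ => p) (fun x => f x ^ 2) - (Ex (fun _ => p) f) ^ 2 ≤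
      p * (1 - p) * ∑ e, Inf p f e := by
  obtain ⟨ω, hω0, hvar, hspec⟩ := exists_spec hp0 hp1 f
  have hI : p * (1 - p) * ∑ e, Inf p f e = ∑ S, ω S * S.card := by
    rw [Finset.mul_sum]
    have : ∀ e, p * (1 - p) * Inf p f e = ∑ S, if e ∈ S then ω S else 0 := by
      intro e
      have := hspec 0 ∅ e
      simp only [T_empty, Finset.inter_empty, Finset.card_empty, pow_zero, mul_one] at this
      exact this
    simp_rw [this]
    rw [Finset.sum_comm]
    refine Finset.sum_congr rfl fun S _ => ?_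
    rw [Finset.sum_ite_mem_eq]; simp [mul_comm]
  rw [hvar, hI, ← Finset.add_sum_erase univ _ (mem_univ (∅ : Finset ι))]
  simp only [Finset.card_empty, Nat.cast_zero, mul_zero, zero_add]
  refine Finset.sum_le_sum fun S hS => ?_
  have hSne : S.Nonempty := Finset.nonempty_iff_ne_empty.2 (Finset.ne_of_mem_erase hS)
  have : (1 : ℝ) ≤ S.card := by exact_mod_cast Finset.card_pos.2 hSne
  nlinarith [hω0 S]

/-- the total influence of a vertex-symmetric function is at least `c (log n)^(r/(r-1))` times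
its variance -/
theorem sym_influence {r : ℕ} {inc : ι → Finset V} {f : (ι → Bool) → ℝ} (h : SymData r inc f)
    (hr : 2 ≤ r) (hn : 1 ≤ Fintype.card V) {p : ℝ} (hp0 : 0 < p) (hp1 : p < 1) :
    Real.log (Fintype.card V) ^ r *
        (Ex (fun _ => p) (fun x => f x ^ 2) - (Ex (fun _ => p) f) ^ 2) ^ (r - 1) ≤
      (3 * (9 * r + 7)) ^ r * (2 * r * ∑ e, Inf p f e) ^ (r - 1) := by
  set Var := Ex (fun _ => p) (fun x => f x ^ 2) - (Ex (fun _ => p) f) ^ 2 with hVar
  set I := ∑ e, Inf p f e with hI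
  set L := Real.log (Fintype.card V) with hL
  set v := p * (1 - p) with hv
  have hn' : (1 : ℝ) ≤ Fintype.card V := by exact_mod_cast hn
  have hL0 : 0 ≤ L := Real.log_nonneg hn'
  have hI0 : 0 ≤ I := Finset.sum_nonneg fun e _ => Inf_nonneg hp0.le hp1.le f e
  have hv0 : 0 < v := mul_pos hp0 (by linarith)
  have hv1 : v ≤ 1 / 4 := by nlinarith [sq_nonneg (p - 1 / 2)]
  have hr' : (2 : ℝ) ≤ r := by exact_mod_cast hr
  have hVar0 : 0 ≤ Var := by
    have := Ex_cs (good_const (ι := ι) hp0.le hp1.le) f (fun _ => 1)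
    simp only [mul_one, one_pow, Ex_one] at this
    rw [hVar]; linarith
  rcases hVar0.eq_or_lt with h0 | hVp
  · rw [← h0, zero_pow (by omega), mul_zero]; positivity
  have hP : Var ≤ v * I := poincare hp0.le hp1.le f
  set K := I / Var with hK
  have hIK : I = K * Var := by rw [hK]; field_simp
  have hvK : 1 ≤ v * K := by
    rw [hK, ← mul_div_assoc, le_div_iff₀ hVp]; linarith
  have hK0 : 0 < K := by
    by_contra hc; push Not at hc; nlinarith
  have hK1 : 1 ≤ K := by nlinarith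
  have hr0 : r ≠ 0 := by omega
  obtain ⟨s, hs0, hs⟩ : ∃ s : ℝ, 0 ≤ s ∧ s ^ r = 2 * r * (v * K) :=
    ⟨_, Real.rpow_nonneg (by positivity) _, Real.rpow_inv_natCast_pow (by positivity) hr0⟩
  obtain ⟨t, ht0, ht⟩ : ∃ t : ℝ, 0 ≤ t ∧ t ^ r = 2 * r * K :=
    ⟨_, Real.rpow_nonneg (by positivity) _, Real.rpow_inv_natCast_pow (by positivity) hr0⟩
  have hs1 : 1 ≤ s := by
    rw [← one_le_pow_iff_of_nonneg hs0 hr0, hs]; nlinarith
  have hst : s ≤ t := by
    rw [← pow_le_pow_iff_left₀ hs0 ht0 hr0, hs, ht]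
    have : v * K ≤ K := by nlinarith
    gcongr
  have ht1 : 1 ≤ t := hs1.trans hst
  set u := √v with hu
  have hu0 : 0 < u := Real.sqrt_pos.2 hv0
  have huv : u ^ 2 = v := Real.sq_sqrt hv0.le
  have hu1 : u ≤ 1 := by nlinarith
  have hsu : s ^ (r - 1) ≤ t ^ (r - 1) * u := by
    rw [← pow_le_pow_iff_left₀ (by positivity) (by positivity) hr0, mul_pow, ← pow_mul, ← pow_mul,
      mul_comm (r - 1) r, pow_mul, pow_mul, hs, ht,
      show 2 * (r : ℝ) * (v * K) = (2 * r * K) * u ^ 2 by rw [huv]; ring, mul_pow, ← pow_mul]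
    exact mul_le_mul_of_nonneg_left (pow_le_pow_of_le_one hu0.le hu1 (by omega)) (by positivity)
  set ℓ := Real.log (2 / u) with hℓ
  have hℓ0 : 0 ≤ ℓ := Real.log_nonneg (by rw [le_div_iff₀ hu0]; linarith)
  have hℓu : u * ℓ ≤ 2 := by
    have := Real.log_le_sub_one_of_pos (show 0 < 2 / u by positivity)
    have h2 : u * (2 / u - 1) = 2 - u := by field_simp
    nlinarith
  have hexpℓ : Real.exp (-ℓ) = u / 2 := by
    rw [Real.exp_neg, hℓ, Real.exp_log (by positivity)]; field_simp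
  set ζ := Real.exp (-(L / 3)) with hζ
  have hζ0 : 0 < ζ := Real.exp_pos _
  have hnζ : (Fintype.card V : ℝ) * ζ ^ 2 = ζ⁻¹ := by
    rw [← Real.exp_log (show (0 : ℝ) < Fintype.card V by linarith), ← hL, hζ, ← Real.exp_neg,
      ← Real.exp_nat_mul, ← Real.exp_add]
    congr 1; push_cast; ring
  have hρ2 : √(u / 2) ^ 2 = u / 2 := Real.sq_sqrt (by positivity)
  have hcore := core_ineq h (by omega) (p := p) (ρ := √(u / 2)) (ζ := ζ) (θ := s⁻¹) (ℓ := ℓ)
    (M := 2 * (v * K)) (κ := s ^ (r - 1)) hp0.le hp1.le (Real.sqrt_nonneg _)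
    (by rw [show √(u / 2) ^ 4 = (√(u / 2) ^ 2) ^ 2 by ring, hρ2, ← hv, ← huv]; apply le_of_eq; ring)
    hζ0 (by positivity) (inv_le_one_of_one_le₀ hs1) hℓ0 (by rw [hρ2, hexpℓ]) (by positivity)
    (by positivity)
    (by rw [show (r : ℝ) * (2 * (v * K)) = 2 * r * (v * K) by ring, ← hs, ← pow_mul, ← pow_mul,
          mul_comm])
  rw [← hVar, ← hI, ← hv, hnζ] at hcore
  have e1 : s⁻¹ * (r * (2 * (v * K))) = s ^ (r - 1) := by
    rw [show (r : ℝ) * (2 * (v * K)) = 2 * r * (v * K) by ring, ← hs]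
    obtain ⟨k, rfl⟩ : ∃ k, r = k + 1 := ⟨r - 1, by omega⟩
    rw [Nat.add_sub_cancel, pow_succ]; field_simp
  have e2 : Var - v * I / (2 * (v * K)) = Var / 2 := by
    rw [hIK]; field_simp; ring
  rw [e1, e2, hIK] at hcore
  set X := t ^ (r - 1) with hX
  have hX1 : 1 ≤ X := one_le_pow₀ ht1
  have htX : t ≤ X := by
    rw [hX]; exact le_self_pow₀ ht1 (by omega)
  have h1 : s⁻¹ * Real.exp (-(4 * X)) ≤ 2 * (4 * r + 1) * K * ζ := by
    have a1 : Real.exp (-(4 * X)) ≤ Real.exp (-ℓ * (s ^ (r - 1) + s ^ (r - 1))) := by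
      apply Real.exp_le_exp.2
      have : ℓ * s ^ (r - 1) ≤ 2 * X := by
        calc ℓ * s ^ (r - 1) ≤ ℓ * (X * u) := mul_le_mul_of_nonneg_left hsu hℓ0
          _ = X * (u * ℓ) := by ring
          _ ≤ X * 2 := mul_le_mul_of_nonneg_left hℓu (by linarith)
          _ = _ := by ring
      linarith
    have a2 : s⁻¹ * Real.exp (-ℓ * (s ^ (r - 1) + s ^ (r - 1))) ≤
        2 * ((v * ζ + 4 * r / ζ⁻¹) * K) := by
      have : s⁻¹ * Real.exp (-ℓ * (s ^ (r - 1) + s ^ (r - 1))) * Var ≤
          2 * ((v * ζ + 4 * r / ζ⁻¹) * K) * Var := by linarith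
      exact le_of_mul_le_mul_right this hVp
    have a3 : v * ζ + 4 * r / ζ⁻¹ ≤ (4 * r + 1) * ζ := by
      rw [div_inv_eq_mul]; nlinarith
    calc s⁻¹ * Real.exp (-(4 * X)) ≤ s⁻¹ * Real.exp (-ℓ * (s ^ (r - 1) + s ^ (r - 1))) :=
          mul_le_mul_of_nonneg_left a1 (by positivity)
      _ ≤ 2 * ((v * ζ + 4 * r / ζ⁻¹) * K) := a2
      _ ≤ 2 * (((4 * r + 1) * ζ) * K) := by gcongr
      _ = _ := by ring
  have h2 : Real.exp (L / 3) ≤ Real.exp ((9 * r + 7) * X) := by
    have b1 : t ≤ Real.exp X := htX.trans (by linarith [Real.add_one_le_exp X])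
    have b2 : K ≤ Real.exp (r * X) := by
      rw [Real.exp_nat_mul]
      calc K ≤ t ^ r := by rw [ht]; nlinarith
        _ ≤ _ := pow_le_pow_left₀ ht0 b1 r
    have b3 : 2 * (4 * (r : ℝ) + 1) ≤ Real.exp ((8 * r + 2) * X) := by
      have := Real.add_one_le_exp ((8 * r + 2) * X)
      nlinarith
    have b4 : Real.exp (L / 3) * ζ = 1 := by rw [hζ, ← Real.exp_add]; simp
    have b5 : Real.exp (4 * X) * Real.exp (-(4 * X)) = 1 := by rw [← Real.exp_add]; simp
    have b6 : s * s⁻¹ = 1 := mul_inv_cancel₀ (by linarith)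
    calc Real.exp (L / 3) = (Real.exp (L / 3) * s * Real.exp (4 * X)) *
            (s⁻¹ * Real.exp (-(4 * X))) := by
          rw [show Real.exp (L / 3) * s * Real.exp (4 * X) * (s⁻¹ * Real.exp (-(4 * X))) =
            Real.exp (L / 3) * (s * s⁻¹) * (Real.exp (4 * X) * Real.exp (-(4 * X))) by ring, b5, b6]
          ring
      _ ≤ (Real.exp (L / 3) * s * Real.exp (4 * X)) * (2 * (4 * r + 1) * K * ζ) :=
          mul_le_mul_of_nonneg_left h1 (by positivity)
      _ = (Real.exp (L / 3) * ζ) * (2 * (4 * r + 1) * K * s * Real.exp (4 * X)) := by ring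
      _ = 2 * (4 * r + 1) * K * s * Real.exp (4 * X) := by rw [b4, one_mul]
      _ ≤ Real.exp ((8 * r + 2) * X) * Real.exp (r * X) * Real.exp X * Real.exp (4 * X) := by
          have := hst.trans b1
          gcongr
      _ = _ := by
          rw [← Real.exp_add, ← Real.exp_add, ← Real.exp_add]; congr 1; ring
  have h3 : L ≤ 3 * (9 * r + 7) * X := by
    have := Real.exp_le_exp.1 h2
    linarith
  calc L ^ r * Var ^ (r - 1) ≤ (3 * (9 * r + 7) * X) ^ r * Var ^ (r - 1) := by gcongr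
    _ = _ := by
      rw [mul_pow, hX, ← pow_mul, mul_comm (r - 1) r, pow_mul, ht, hIK, mul_assoc, ← mul_pow]
      congr 2; ring

end Crest.Agent.H6.Cube
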